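import Vale.Agent.P240.K.FamDefs

/-!
Groups with nonzero homology in the largest possible dimension, and the groups of automorphisms for
which this is required.
-/

namespace Vale.Agent.P240.R2.H275

open Subgroup Vale.Agent.P240.K

/-- The Quillen dimension property of `H` at `p`, with coefficients in `𝕜`: if `r` is the `p`-rank of
`H`, then `H̃_{r-1}(𝒜ₚ(H); 𝕜) ≠ 0`. Here `r` is given by: all elementary abelian `p`-subgroups have
order at most `p ^ r`, and there is a nonzero cycle on the chains with `r` terms, that is, on the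
`(r-1)`-simplices (in this dimension, there are no nonzero boundaries). -/
def QuillenDim (𝕜 : Type*) [Field 𝕜] (p : ℕ) (H : Type*) [Group H] : Prop :=
  ∃ r : ℕ, (∀ E : Ap p H, Nat.card E.1 ≤ p ^ r) ∧
    ∃ z : List (Ap p H) →₀ 𝕜, IsChain r z ∧ bd z = 0 ∧ z ≠ 0

/-- `X` contains `N` and is generated by `N` and `E`, for each elementary abelian `p`-subgroup `E` of
`X` of the largest order. -/
def RankJump (p : ℕ) {G : Type*} [Group G] (N X : Subgroup G) : Prop :=
  N ≤ X ∧ ∀ E : Subgroup G, ElemAb p E → E ≤ X →
    (∀ F : Subgroup G, ElemAb p F → F ≤ X → Nat.card F ≤ Nat.card E) → E ⊔ N = X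

/-- All groups `A` with `Inn(L) ≤ A ≤ Aut(L)` that are generated by `Inn(L)` and each of their
elementary abelian `p`-subgroups of largest order have the Quillen dimension property at `p` over
`𝕜`. -/
def JumpQD (𝕜 : Type*) [Field 𝕜] (p : ℕ) (L : Type*) [Group L] : Prop :=
  ∀ A : Subgroup (MulAut L), RankJump p (MulAut.conj (G := L)).range A → QuillenDim 𝕜 p A

/-- The same condition for the groups of automorphisms of the subgroup `L` of `G` induced by subgroups
`X` of `N_G(L)` that contain `L` and act faithfully on `L`. -/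
def JumpSub (𝕜 : Type*) [Field 𝕜] (p : ℕ) {G : Type*} [Group G] (L : Subgroup G) : Prop :=
  ∀ X : Subgroup G, RankJump p L X → X ≤ normalizer (L : Set G) →
    X ⊓ centralizer (L : Set G) = ⊥ → QuillenDim 𝕜 p X

end Vale.Agent.P240.R2.H275
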