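import Vale.Agent.P240.R2.H145.EO2
import Vale.Agent.P240.R2.H472.OW0

/-!
`StmtEOS` from `StmtEOW`: from the map on the unit vectors to the semilinear map.
-/

set_option autoImplicit false
set_option linter.all false

namespace Vale.Agent.P240.R2.H275

open Matrix
open Vale.Agent.P240.R2.H145.EO

universe u v

section
variable {K : Type u} [Field K] {n : ℕ} {a : Fin n → K}

lemma PM_sq {x y z : Fin n → K} (h : PM y z) : B a x z ^ 2 = B a x y ^ 2 := by
  rcases h with rfl | rfl
  · rfl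
  · rw [B_neg_right]; ring

lemma PM_sq' {x y z : Fin n → K} (h : PM y z) : B a z x ^ 2 = B a y x ^ 2 := by
  rw [B_comm, PM_sq h, B_comm]

lemma PM_sq2 {y z y' z' : Fin n → K} (h : PM y y') (h' : PM z z') :
    B a y' z' ^ 2 = B a y z ^ 2 := by
  rw [PM_sq h', PM_sq' h]

lemma PM.sm {y z : Fin n → K} (h : PM y z) : PM z y := by
  rcases h with rfl | rfl
  · exact Or.inl rfl
  · exact Or.inr (neg_neg _).symm

lemma PM.tr {x y z : Fin n → K} (h : PM x y) (h' : PM y z) : PM x z := by
  rcases h with rfl | rfl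
  · exact h'
  · rcases h' with rfl | rfl
    · exact Or.inr rfl
    · exact Or.inl (neg_neg _)

lemma PM.ac {x y : Fin n → K} (g : GL (Fin n) K) (h : PM x y) : PM (ac g x) (ac g y) := by
  rcases h with rfl | rfl
  · exact Or.inl rfl
  · exact Or.inr (ac_neg _ _)

variable [Fintype K]

/-- transitivity on the pairs of unit vectors -/
lemma tp (h2 : (2 : K) ≠ 0) (ha : ∀ i, a i ≠ 0) (ha1 : ∀ i : Fin n, i.val + 1 < n → a i = 1)
    {S : Subgroup (GL (Fin n) K)} (hS : Big a S) (hSO : S ≤ OD a) (hn : 4 ≤ n)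
    {y z y' z' : Fin n → K} (hy : B a y y = 1) (hz : B a z z = 1) (hy' : B a y' y' = 1)
    (hz' : B a z' z' = 1) (h : B a y z ^ 2 = B a y' z' ^ 2) (h1 : B a y z ^ 2 ≠ 1) :
    ∃ g ∈ S, PM y' (ac g y) ∧ PM z' (ac g z) := by
  have hon : ∀ {w : Fin n → K}, B a w w = 1 → ON a (fun _ : Fin 1 => w) := by
    intro w hw i j
    rw [hw, if_pos (Subsingleton.elim i j)]
  obtain ⟨g, hg, hgy⟩ := trans_tuples h2 ha ha1 hS hSO 1 (by omega) (fun _ => y) (fun _ => y')
    (hon hy) (hon hy')
  have hgy0 : PM y' (ac g y) := hgy 0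
  have hgO := hSO hg
  set z1 := ac g z with hz1
  have hz11 : B a z1 z1 = 1 := by rw [hz1, OD_B hgO, hz]
  have hs : B a y' z1 ^ 2 = B a y z ^ 2 := by
    rw [← OD_B hgO y z, ← hz1]
    exact (PM_sq' hgy0).symm
  obtain ⟨z2, hz2, hs2⟩ : ∃ z2, PM z' z2 ∧ B a y' z2 = B a y' z1 := by
    rcases sq_eq_sq_iff_eq_or_eq_neg.1 (hs.trans h) with h3 | h3
    · exact ⟨z', Or.inl rfl, h3.symm⟩
    · exact ⟨-z', Or.inr rfl, by rw [B_neg_right, h3]⟩
  have hz22 : B a z2 z2 = 1 := by
    rcases hz2 with rfl | rfl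
    · exact hz'
    · rw [B_neg_left, B_neg_right, neg_neg, hz']
  set s := B a y' z1 with hsdef
  have hs1 : 1 - s ^ 2 ≠ 0 := by
    rw [hs]
    intro h3
    exact h1 (by linear_combination -h3)
  set w := z1 - s • y' with hw
  set w' := z2 - s • y' with hw'
  have e1 : B a y' w = 0 := by rw [hw, B_sub_right, B_smul_right, hy']; ring
  have e2 : B a y' w' = 0 := by rw [hw', B_sub_right, B_smul_right, hy', hs2]; ring
  have e3 : B a w w = 1 - s ^ 2 := by
    rw [hw, B_sub_left, B_sub_right, B_sub_right, B_smul_left, B_smul_left, B_smul_right, B_smul_right,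
      hy', hz11, B_comm z1 y', ← hsdef]
    ring
  have e4 : B a w' w' = 1 - s ^ 2 := by
    rw [hw', B_sub_left, B_sub_right, B_sub_right, B_smul_left, B_smul_left, B_smul_right, B_smul_right,
      hy', hz22, B_comm z2 y', hs2]
    ring
  have hww : B a w w = B a w' w' := by rw [e3, e4]
  have hw0 : B a w w ≠ 0 := by rw [e3]; exact hs1
  have hw'0 : B a w' w' ≠ 0 := by rw [e4]; exact hs1
  obtain ⟨k, hk, hk1, hk2⟩ : ∃ k ∈ S, ac k y' = y' ∧ ac k w = w' := by
    rcases exists_pm h2 hw0 hww with h3 | h3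
    · obtain ⟨v, hv1, hv2, hv3⟩ := perp2 h2 ha ha1 (k := 1) (by omega) (hon hy') (y := w')
        (fun _ => e2) hw'0 h3
      have hv0 : B a v v ≠ 0 := by rw [hv3]; exact h3
      refine ⟨rf a v hv0 * rf a _ h3, hS _ _ _ _ hv3, ?_, ?_⟩
      · rw [ac_mul, rf_fix h3, rf_fix hv0]
        · rw [B_comm]; exact hv1 0
        · rw [B_comm, B_sub_right, e1, e2, sub_zero]
      · rw [ac_mul, rf_sub hww h3, rf_fix hv0]
        rw [B_comm]; exact hv2
    · obtain ⟨v, hv1, hv2, hv3⟩ := perp2 h2 ha ha1 (k := 1) (by omega) (hon hy') (y := w')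
        (fun _ => e2) hw'0 h3
      obtain ⟨v', hv1', hv2', hv3'⟩ := perp2 h2 ha ha1 (k := 1) (by omega) (hon hy') (y := w')
        (fun _ => e2) hw'0 hw'0
      have hv0 : B a v v ≠ 0 := by rw [hv3]; exact h3
      have hv0' : B a v' v' ≠ 0 := by rw [hv3']; exact hw'0
      refine ⟨(rf a v' hv0' * rf a w' hw'0) * (rf a v hv0 * rf a _ h3),
        mul_mem (hS _ _ _ _ hv3') (hS _ _ _ _ hv3), ?_, ?_⟩
      · rw [ac_mul, ac_mul, ac_mul, rf_fix h3, rf_fix hv0, rf_fix hw'0, rf_fix hv0']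
        · rw [B_comm]; exact hv1' 0
        · rw [B_comm]; exact e2
        · rw [B_comm]; exact hv1 0
        · rw [B_comm, B_add_right, e1, e2, add_zero]
      · have hA : ac (rf a w' hw'0) (-w') = w' := by
          rw [ac_rf, B_neg_right]
          have h5 : (2 * -B a w' w' / B a w' w' : K) = -2 := by
            field_simp
          rw [h5]
          module
        rw [ac_mul, ac_mul, ac_mul, rf_add hww h3, ac_neg, rf_fix hv0 (by rw [B_comm]; exact hv2), hA,
          rf_fix hv0' (by rw [B_comm]; exact hv2')]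
  refine ⟨k * g, mul_mem hk hg, ?_, ?_⟩
  · rw [ac_mul]
    have h3 : PM (ac k y') (ac k (ac g y)) := PM.ac k hgy0
    rw [hk1] at h3
    exact h3
  · rw [ac_mul, ← hz1]
    have h3 : z1 = w + s • y' := by rw [hw]; abel
    have h4 : ac k z1 = z2 := by
      rw [h3, ac_add, ac_smul, hk1, hk2, hw']; abel
    rw [h4]
    exact hz2

/-- a vector of norm one with a nonzero last coordinate -/
lemma exists_lst (h2 : (2 : K) ≠ 0) (h5 : 5 < Fintype.card K) (d : K) :
    ∃ x y z : K, x * x + y * y + d * (z * z) = 1 ∧ z ≠ 0 ∧ x * x + y * y ≠ 0 := by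
  obtain ⟨z, hz⟩ := H472.exists_nonroot (Polynomial.X - Polynomial.C d * Polynomial.X ^ 3 : Polynomial K)
    (by
      intro h
      have := congrArg (fun p => Polynomial.coeff p 1) h
      simp [Polynomial.coeff_X] at this)
    (by
      refine lt_of_le_of_lt (b := 3) ?_ (by omega)
      compute_degree)
  simp only [Polynomial.eval_sub, Polynomial.eval_mul, Polynomial.eval_pow, Polynomial.eval_X,
    Polynomial.eval_C] at hz
  have hz0 : z ≠ 0 := by
    rintro rfl
    apply hz
    ring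
  have hz1 : 1 - d * (z * z) ≠ 0 := by
    intro h
    apply hz
    linear_combination z * h
  obtain ⟨x, y, h⟩ := rep h2 (one_ne_zero (α := K)) (one_ne_zero (α := K)) hz1
  refine ⟨x, y, z, by linear_combination h, hz0, ?_⟩
  intro h3
  apply hz1
  linear_combination h3 - h

/-- an isometry that preserves all unit vectors up to sign is `±1` -/
lemma scal (h2 : (2 : K) ≠ 0) (h5 : 5 < Fintype.card K) (hn : 3 ≤ n)
    (ha : ∀ i, a i ≠ 0) (ha1 : ∀ i : Fin n, i.val + 1 < n → a i = 1) {h : GL (Fin n) K} (hO : h ∈ OD a)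
    (hh : ∀ y, B a y y = 1 → PM y (ac h y)) :
    ∃ l : K, ∀ y, ac h y = l • y := by
  have hu : ∀ i : Fin n, i.val + 1 < n → B a (Pi.single i 1) (Pi.single i 1) = 1 := by
    intro i hi
    rw [B_e ha1 hi, Pi.single_eq_same]
  have hex : ∀ i : Fin n, i.val + 1 < n → ∃ l : K, l ^ 2 = 1 ∧
      ac h (Pi.single i 1) = l • Pi.single i 1 := by
    intro i hi
    rcases hh _ (hu i hi) with h3 | h3
    · exact ⟨1, by ring, by rw [h3, one_smul]⟩
    · exact ⟨-1, by ring, by rw [h3, neg_one_smul]⟩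
  obtain ⟨al, be, hal, hbe, hab⟩ := H472.exists_pt (K := K) h2 h5
  let i0 : Fin n := ⟨0, by omega⟩
  let i1 : Fin n := ⟨1, by omega⟩
  have h0 : i0.val + 1 < n := by show 0 + 1 < n; omega
  have h1 : i1.val + 1 < n := by show 1 + 1 < n; omega
  obtain ⟨l, hl, hl0⟩ := hex i0 h0
  have hsame : ∀ i : Fin n, i.val + 1 < n → ac h (Pi.single i 1) = l • Pi.single i 1 := by
    intro i hi
    by_cases hi0 : i = i0
    · rw [hi0, hl0]
    obtain ⟨l', hl', hli⟩ := hex i hi
    have e1 : B a (al • Pi.single i0 1 + be • Pi.single i 1)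
        (al • Pi.single i0 1 + be • Pi.single i 1) = 1 := by
      rw [B_add_left, B_smul_left, B_smul_left, B_e ha1 h0, B_e ha1 hi, Pi.add_apply, Pi.add_apply,
        Pi.smul_apply, Pi.smul_apply, Pi.smul_apply, Pi.smul_apply, Pi.single_eq_same,
        Pi.single_eq_same, Pi.single_eq_of_ne hi0, Pi.single_eq_of_ne (Ne.symm hi0)]
      simp only [smul_eq_mul]
      linear_combination hab
    have e2 : ac h (al • Pi.single i0 1 + be • Pi.single i 1) =
        (al * l) • Pi.single i0 1 + (be * l') • Pi.single i 1 := by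
      rw [ac_add, ac_smul, ac_smul, hl0, hli, smul_smul, smul_smul]
    have hll : l' = l := by
      rcases hh _ e1 with h3 | h3
      · rw [e2] at h3
        have h4 := congrFun h3 i0
        have h6 := congrFun h3 i
        simp only [Pi.add_apply, Pi.smul_apply, Pi.single_eq_same, Pi.single_eq_of_ne hi0,
          Pi.single_eq_of_ne (Ne.symm hi0), smul_eq_mul, mul_one, mul_zero, add_zero, zero_add] at h4 h6
        have h7 : l = 1 := mul_left_cancel₀ hal (by linear_combination h4)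
        have h8 : l' = 1 := mul_left_cancel₀ hbe (by linear_combination h6)
        rw [h7, h8]
      · rw [e2] at h3
        have h4 := congrFun h3 i0
        have h6 := congrFun h3 i
        simp only [Pi.add_apply, Pi.smul_apply, Pi.neg_apply, Pi.single_eq_same, Pi.single_eq_of_ne hi0,
          Pi.single_eq_of_ne (Ne.symm hi0), smul_eq_mul, mul_one, mul_zero, add_zero, zero_add] at h4 h6
        have h7 : l = -1 := mul_left_cancel₀ hal (by linear_combination h4)
        have h8 : l' = -1 := mul_left_cancel₀ hbe (by linear_combination h6)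
        rw [h7, h8]
    rw [hli, hll]
  -- the last vector
  let il : Fin n := ⟨n - 1, by omega⟩
  have hil0 : il ≠ i0 := by
    intro h3
    have := congrArg Fin.val h3
    simp only [il, i0] at this
    omega
  have hil1 : il ≠ i1 := by
    intro h3
    have := congrArg Fin.val h3
    simp only [il, i1] at this
    omega
  have h01 : i0 ≠ i1 := by simp [i0, i1]
  obtain ⟨x, y, z, hxyz, hz, hxy⟩ := exists_lst h2 h5 (a il)
  set w : Fin n → K := x • Pi.single i0 1 + y • Pi.single i1 1 + z • Pi.single il 1 with hw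
  have w0 : w i0 = x := by simp [hw, h01, hil0.symm]
  have w1 : w i1 = y := by simp [hw, h01.symm, hil1.symm]
  have wl : w il = z := by simp [hw, hil0, hil1]
  have hww : B a w w = 1 := by
    have e1 : B a w w = x * w i0 + y * w i1 + z * (a il * w il) := by
      conv_lhs => rw [hw]
      rw [B_add_left, B_add_left, B_smul_left, B_smul_left, B_smul_left, B_e ha1 h0, B_e ha1 h1,
        B_single, ← hw]
      ring
    rw [e1, w0, w1, wl]
    linear_combination hxyz
  obtain ⟨l', hl', hwl⟩ : ∃ l' : K, l' ^ 2 = 1 ∧ ac h w = l' • w := by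
    rcases hh _ hww with h3 | h3
    · exact ⟨1, by ring, by rw [h3, one_smul]⟩
    · exact ⟨-1, by ring, by rw [h3, neg_one_smul]⟩
  have hcoord : ∀ i : Fin n, i.val + 1 < n → l * (ac h w) i = w i := by
    intro i hi
    have e1 := OD_B hO (Pi.single i 1) w
    rw [hsame i hi, B_smul_left, B_e ha1 hi, B_e ha1 hi] at e1
    exact e1
  have hll : l' = l := by
    have e1 := hcoord i0 h0
    have e2 := hcoord i1 h1
    rw [hwl, Pi.smul_apply, smul_eq_mul] at e1 e2
    rw [w0] at e1
    rw [w1] at e2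
    have e3 : (l * l' - 1) * (x * x + y * y) = 0 := by linear_combination x * e1 + y * e2
    rcases mul_eq_zero.1 e3 with h3 | h3
    · have h4 : l' = l := by linear_combination l * h3 - l' * hl
      exact h4
    · exact absurd h3 hxy
  rw [hll] at hwl
  have hlast : ac h (Pi.single il 1) = l • Pi.single il 1 := by
    have e2 : ac h w = (x * l) • Pi.single i0 1 + (y * l) • Pi.single i1 1 + z • ac h (Pi.single il 1) := by
      conv_lhs => rw [hw]
      rw [ac_add, ac_add, ac_smul, ac_smul, ac_smul, hsame i0 h0, hsame i1 h1, smul_smul, smul_smul]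
    rw [hwl] at e2
    have e3 : z • ac h (Pi.single il 1) = z • (l • Pi.single il 1 : Fin n → K) := by
      have e4 : z • ac h (Pi.single il 1) =
          l • w - ((x * l) • Pi.single i0 1 + (y * l) • Pi.single i1 1) := by
        rw [e2]; abel
      rw [e4, hw]
      module
    exact smul_right_injective _ hz e3
  refine ⟨l, fun y => ?_⟩
  have hall : ∀ i : Fin n, ac h (Pi.single i 1) = l • Pi.single i 1 := by
    intro i
    by_cases hi : i.val + 1 < n
    · exact hsame i hi
    · have h3 : i = il := by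
        apply Fin.ext
        show i.val = n - 1
        have := i.2
        omega
      rw [h3]
      exact hlast
  have hmat : h.1 = l • (1 : Matrix (Fin n) (Fin n) K) := by
    apply Matrix.ext_of_mulVec_single
    intro i
    rw [smul_mulVec, one_mulVec]
    exact hall i
  show h.1 *ᵥ y = _
  rw [hmat, smul_mulVec, one_mulVec]

end

theorem stmtEOS_of (hW : StmtEOW.{u}) : StmtEOS.{u, v} := by
  intro K _ _ h2 h5 n hn a ha ha1 S hB hO G _ ε hk x f τ hf
  have hpair : ∀ y z y' z', B a y y = 1 → B a z z = 1 → B a y' y' = 1 → B a z' z' = 1 →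
      B a y z ^ 2 = B a y' z' ^ 2 → B a (f y) (f z) ^ 2 = B a (f y') (f z') ^ 2 := by
    intro y z y' z' hy hz hy' hz' h
    by_cases h1 : B a y z ^ 2 = 1
    · rw [(hf.one y z hy hz).2 h1, (hf.one y' z' hy' hz').2 (h ▸ h1)]
    obtain ⟨g, hg, hg1, hg2⟩ := tp h2 ha ha1 hB hO (by omega) hy hz hy' hz' h h1
    have hgO := hO hg
    have e1 : PM (ac (τ ⟨g, hg⟩).1 (f y)) (f y') :=
      PM.tr (hf.equi ⟨g, hg⟩ y hy) (hf.sgn _ _ (by rw [OD_B hgO, hy]) (PM.sm hg1))
    have e2 : PM (ac (τ ⟨g, hg⟩).1 (f z)) (f z') :=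
      PM.tr (hf.equi ⟨g, hg⟩ z hz) (hf.sgn _ _ (by rw [OD_B hgO, hz]) (PM.sm hg2))
    have e3 := PM_sq2 (a := a) e1 e2
    rw [OD_B (hO (τ ⟨g, hg⟩).2)] at e3
    exact e3.symm
  classical
  let κ : K → K := fun t =>
    if h : ∃ p : (Fin n → K) × (Fin n → K), B a p.1 p.1 = 1 ∧ B a p.2 p.2 = 1 ∧ B a p.1 p.2 ^ 2 = t
    then B a (f h.choose.1) (f h.choose.2) ^ 2 else 0
  have hκ : ∀ y z, B a y y = 1 → B a z z = 1 → B a (f y) (f z) ^ 2 = κ (B a y z ^ 2) := by
    intro y z hy hz
    have hex : ∃ p : (Fin n → K) × (Fin n → K), B a p.1 p.1 = 1 ∧ B a p.2 p.2 = 1 ∧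
        B a p.1 p.2 ^ 2 = B a y z ^ 2 := ⟨(y, z), hy, hz, rfl⟩
    show _ = dite _ _ _
    rw [dif_pos hex]
    obtain ⟨h3, h4, h6⟩ := hex.choose_spec
    exact hpair _ _ _ _ hy hz h3 h4 h6.symm
  obtain ⟨σ, c, hc, hfc⟩ := hW K h2 h5 n hn a ha ha1 f κ hf.unit hκ hf.base
  refine ⟨σ, c, hc, fun g g' hgg => ?_⟩
  have hc0 : ∀ i, c i ≠ 0 := by
    intro i h3
    have h4 := hc i
    rw [h3, zero_pow two_ne_zero, zero_mul] at h4
    exact (map_ne_zero σ).2 (ha i) h4.symm
  -- the semilinear map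
  let C : (Fin n → K) → Fin n → K := fun y i => c i * σ (y i)
  have hCB : ∀ y z, B a (C y) (C z) = σ (B a y z) := by
    intro y z
    show ∑ i, a i * (c i * σ (y i)) * (c i * σ (z i)) = σ (∑ i, a i * y i * z i)
    rw [map_sum]
    refine Finset.sum_congr rfl fun i _ => ?_
    rw [map_mul, map_mul, ← hc i]
    ring
  have hCg : ∀ y, C (ac g.1 y) = ac g'.1 (C y) := by
    intro y
    funext i
    show c i * σ (∑ j, g.1.1 i j * y j) = ∑ j, g'.1.1 i j * (c j * σ (y j))
    rw [map_sum, Finset.mul_sum]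
    refine Finset.sum_congr rfl fun j _ => ?_
    rw [map_mul, ← mul_assoc, ← hgg i j]
    ring
  have hCneg : ∀ y, C (-y) = -C y := by
    intro y
    funext i
    show c i * σ (-y i) = -(c i * σ (y i))
    rw [map_neg]; ring
  have hCPM : ∀ y z, PM y z → PM (C y) (C z) := by
    intro y z h
    rcases h with rfl | rfl
    · exact Or.inl rfl
    · exact Or.inr (hCneg _)
  have hCsurj : ∀ w, ∃ y, C y = w := by
    intro w
    refine ⟨fun i => σ.symm ((c i)⁻¹ * w i), ?_⟩
    funext i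
    show c i * σ (σ.symm ((c i)⁻¹ * w i)) = w i
    rw [RingEquiv.apply_symm_apply, mul_inv_cancel_left₀ (hc0 i)]
  -- compare `τ g` and `g'`
  have hcmp : ∀ w, B a w w = 1 → PM w (ac ((g'.1)⁻¹ * (τ g).1) w) := by
    intro w hw
    obtain ⟨y, rfl⟩ := hCsurj w
    have hy : B a y y = 1 := by
      rw [hCB] at hw
      exact σ.injective (by rw [hw, map_one])
    have hgy : B a (ac g.1 y) (ac g.1 y) = 1 := by rw [OD_B (hO g.2), hy]
    have e1 : PM (C y) (f y) := hfc y hy
    have e2 : PM (C (ac g.1 y)) (f (ac g.1 y)) := hfc _ hgy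
    have e3 := hf.equi g y hy
    have e4 : PM (ac (τ g).1 (C y)) (ac g'.1 (C y)) := by
      have h6 : PM (ac (τ g).1 (C y)) (f (ac g.1 y)) := PM.tr (PM.ac (τ g).1 e1) e3
      have h7 := PM.tr h6 (PM.sm e2)
      rw [hCg] at h7
      exact h7
    have e5 := PM.ac (g'.1)⁻¹ (PM.sm e4)
    rw [ac_inv, ← ac_mul] at e5
    exact e5
  obtain ⟨l, hl⟩ := scal h2 h5 (by omega) ha ha1 (mul_mem (inv_mem (hO g'.2)) (hO (τ g).2)) hcmp
  have hl1 : (g'.1)⁻¹ * (τ g).1 = (g'⁻¹ * τ g : S).1 := rfl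
  have hmat : (g'⁻¹ * τ g : S).1.1 = l • (1 : Matrix (Fin n) (Fin n) K) := by
    apply Matrix.ext_of_mulVec_single
    intro i
    rw [smul_mulVec, one_mulVec]
    exact hl _
  have h1 := (hk (g'⁻¹ * τ g)).2 ⟨l, hmat⟩
  rw [map_mul, map_inv, inv_mul_eq_one] at h1
  rw [hf.tau, h1]

end Vale.Agent.P240.R2.H275
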