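import Vale.Agent.P240.R2.H275.EF
import Vale.Agent.P240.R2.H145.EO2
import Vale.Agent.P240.R2.H145.OTr

/-!
`StmtESem` from helper145's `StmtEO`: the passage from `GU K n` (trivial star) to `GL_n(K)`.
-/

set_option autoImplicit false
set_option linter.all false

namespace Vale.Agent.P240.R2.H275

open Matrix Vale.Agent.P240.R2.AS Vale.Agent.P240.R2.H38
open Vale.Agent.P240.R2.H296.O (SOm)
open Vale.Agent.P240.R2.H401.E
open Vale.Agent.P240.R2.H938 (TD mem_TD)
open Vale.Agent.P240.R2.H145.EO (StmtEO OD Big Ker ac B)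
open scoped Classical

universe u v

noncomputable section

section
variable {K : Type u} [Field K] [StarRing K] {n : ℕ}

/-- unitary matrices as invertible matrices -/
def TG : GU K n →* GL (Fin n) K where
  toFun g := ⟨g.1, star g.1, gu_star g, star_gu g⟩
  map_one' := Units.ext rfl
  map_mul' a b := Units.ext rfl

lemma TG_val (g : GU K n) : (TG g).1 = g.1 := rfl

lemma TG_inj : Function.Injective (TG (K := K) (n := n)) := fun a b h =>
  Subtype.ext (congrArg Units.val h)

/-- the image of `SOm` -/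
def SG (K : Type u) [Field K] [StarRing K] (n : ℕ) : Subgroup (GL (Fin n) K) := (SOm K n).map TG

/-- the isomorphism -/
def eqG : SOm K n ≃* SG K n := Subgroup.equivMapOfInjective (SOm K n) TG TG_inj

lemma eqG_val (g : SOm K n) : ((eqG g).1).1 = mx g := rfl

lemma B_one (x y : Fin n → K) : B (fun _ => (1 : K)) x y = x ⬝ᵥ y := by
  unfold B dotProduct
  exact Finset.sum_congr rfl fun i _ => by ring

lemma SG_big (hs : ∀ x : K, star x = x) (h2 : (2 : K) ≠ 0) : Big (fun _ => (1 : K)) (SG K n) := by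
  intro u v hu hv huv
  have hu' : u ⬝ᵥ u ≠ 0 := by rwa [← B_one]
  have hv' : v ⬝ᵥ v ≠ 0 := by rwa [← B_one]
  have huv' : u ⬝ᵥ u = v ⬝ᵥ v := by rw [← B_one, ← B_one, huv]
  refine ⟨H221.rf hs u hu' * H221.rf hs v hv', H145.big_comap hs h2 u v hu' hv' huv', ?_⟩
  rw [map_mul]
  have h1 : ∀ (w : Fin n → K) (hw : B (fun _ => (1 : K)) w w ≠ 0) (hw' : w ⬝ᵥ w ≠ 0),
      TG (H221.rf hs w hw') = H145.EO.rf (fun _ => (1 : K)) w hw := by
    intro w hw hw'
    apply Units.ext
    show 1 - (2 / (w ⬝ᵥ w)) • vecMulVec w w =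
      1 - (2 / B (fun _ => (1 : K)) w w) • vecMulVec w ((fun _ => (1 : K)) * w)
    rw [B_one]
    congr 3
    funext i
    rw [Pi.mul_apply, one_mul]
  rw [h1 u hu hu', h1 v hv hv']

lemma SG_OD (hs : ∀ x : K, star x = x) : SG K n ≤ OD (fun _ => (1 : K)) := by
  rintro _ ⟨g, hg, rfl⟩
  intro x y
  rw [B_one, B_one]
  exact H145.dot_map hs g x y

variable {G : Type v} [Group G]

lemma cjO_cjO_inv (u : GU K n) (h : SOm K n) : cjO u (cjO u⁻¹ h) = h := by
  rw [← cjO_mul, mul_inv_cancel, cjO_one]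

variable [Fintype K]

/-- change of coordinates backwards -/
lemma ActsS_back {ε : SOm K n →* G} {u : GU K n} {x : G} {g : GU K n} {σ : K ≃+* K}
    (h : ActsS (ε.comp (cjO u)) x g σ) : ActsS ε x (u * g * gmap σ h.1 u⁻¹) σ := by
  refine ⟨h.1, fun a b hab => ?_⟩
  have e1 := h.2 (cjO u⁻¹ a) (cjO u⁻¹ b) (by
    rw [mx_cjO, mx_cjO, hab, gu_mul, gu_mul, gu_inv, gmap_coe, gu_inv, map_mul_mat, map_mul_mat,
      map_star_mat h.1, star_mul, star_mul, star_star, star_star]
    calc star u.1 * (u.1 * g.1 * star (u.1.map σ) * (mx a).map σ * (u.1.map σ * (star g.1 * star u.1))) * u.1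
        = (star u.1 * u.1) * g.1 * star (u.1.map σ) * (mx a).map σ * (u.1.map σ) * star g.1 * (star u.1 * u.1) := by
          simp only [mul_assoc]
      _ = _ := by
          rw [star_gu, one_mul, mul_one]
          simp only [mul_assoc])
  rw [MonoidHom.comp_apply, MonoidHom.comp_apply, cjO_cjO_inv, cjO_cjO_inv] at e1
  exact e1

end

theorem stmtESem_of (hEO : StmtEO.{u, v}) : StmtESem.{u, v} := by
  intro K _ _ _ m hK G _ _ L e
  have hs := hK.st
  have h2 : (2 : K) ≠ 0 := H221.two_ne hK.odd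
  have hne : Even (m + 1) := hK.modd.add_one
  have hm := hK.hm
  have h5 : 5 < Fintype.card K := by
    have := hK.card
    rw [Nat.card_eq_fintype_card] at this
    omega
  let ε : SOm K (m + 1) →* G :=
    { toFun := fun g => (e ⟨QuotientGroup.mk g.1, g.2⟩ : G)
      map_one' := by
        have h1 : (⟨QuotientGroup.mk (1 : SOm K (m + 1)).1, (1 : SOm K (m + 1)).2⟩ :
            commutator (PGU K (m + 1))) = 1 := rfl
        rw [h1, map_one]
        rfl
      map_mul' := fun a b => by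
        have h1 : (⟨QuotientGroup.mk (a * b).1, (a * b).2⟩ : commutator (PGU K (m + 1))) =
            ⟨QuotientGroup.mk a.1, a.2⟩ * ⟨QuotientGroup.mk b.1, b.2⟩ := rfl
        rw [h1, map_mul]
        rfl }
  have hεval : ∀ g : SOm K (m + 1), ε g = (e ⟨QuotientGroup.mk g.1, g.2⟩ : G) := fun g => rfl
  have hrange : ε.range = L := by
    ext y
    constructor
    · rintro ⟨g, rfl⟩
      exact (e _).2
    · intro hy
      obtain ⟨⟨c, hc⟩, he⟩ := e.surjective ⟨y, hy⟩
      obtain ⟨g, rfl⟩ := QuotientGroup.mk_surjective c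
      refine ⟨⟨g, hc⟩, ?_⟩
      rw [hεval]
      exact congrArg Subtype.val he
  have hker : ∀ g : SOm K (m + 1), ε g = 1 ↔
      ∃ a : K, mx g = a • (1 : Matrix (Fin (m + 1)) (Fin (m + 1)) K) := by
    intro g
    have h1 : ε g = 1 ↔ (QuotientGroup.mk g.1 : PGU K (m + 1)) = 1 := by
      rw [hεval]
      constructor
      · intro h
        have h3 : e ⟨QuotientGroup.mk g.1, g.2⟩ = 1 := Subtype.ext h
        have h4 := (MulEquiv.map_eq_one_iff e).1 h3
        exact congrArg Subtype.val h4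
      · intro h
        have h3 : (⟨QuotientGroup.mk g.1, g.2⟩ : commutator (PGU K (m + 1))) = 1 := Subtype.ext h
        rw [h3, map_one]
        rfl
    rw [h1, QuotientGroup.eq_one_iff, H296.mem_center_iff (m1_ne h2) (m1_star hs)]
    rfl
  refine ⟨ε, ⟨hrange, hker, ?_⟩, hεval⟩
  intro u x hx hx2 hc
  -- the conjugated homomorphism on the image in `GL`
  let ε' : SG K (m + 1) →* G := (ε.comp (cjO u)).comp (eqG (K := K) (n := m + 1)).symm.toMonoidHom
  have hε' : ∀ g : SOm K (m + 1), ε' (eqG g) = ε (cjO u g) := by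
    intro g
    show ε (cjO u ((eqG (K := K) (n := m + 1)).symm (eqG g))) = _
    rw [MulEquiv.symm_apply_apply]
  have hk' : Ker ε' := by
    intro s
    obtain ⟨g, rfl⟩ := (eqG (K := K) (n := m + 1)).surjective s
    rw [hε', hker, eqG_val]
    constructor
    · rintro ⟨a, ha⟩
      rw [mx_cjO, ← conj_smul_one u] at ha
      exact ⟨a, conj_inj u ha⟩
    · rintro ⟨a, ha⟩
      exact ⟨a, by rw [mx_cjO, ha, conj_smul_one]⟩
  have hnorm : ∀ s : SG K (m + 1), ∃ s', x * ε' s * x⁻¹ = ε' s' := by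
    intro s
    obtain ⟨g, rfl⟩ := (eqG (K := K) (n := m + 1)).surjective s
    rw [hε']
    have h1 : ε (cjO u g) ∈ L := by rw [← hrange]; exact ⟨_, rfl⟩
    have h3 := (Subgroup.mem_normalizer_iff.1 hx _).1 h1
    rw [← hrange] at h3
    obtain ⟨k, hk⟩ := h3
    refine ⟨eqG (cjO u⁻¹ k), ?_⟩
    rw [hε', cjO_cjO_inv]
    exact hk.symm
  have hcom : ∀ (i j : Fin (m + 1)) (s : SG K (m + 1)), i.val + 1 < m + 1 → j.val + 1 < m + 1 →
      i ≠ j → (∀ y, ac s.1 y = fun k => if k = i ∨ k = j then -y k else y k) →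
      x * ε' s = ε' s * x := by
    intro i j s _ _ hij hy
    obtain ⟨g, rfl⟩ := (eqG (K := K) (n := m + 1)).surjective s
    rw [hε']
    refine hc _ ⟨g, ?_, rfl⟩
    refine ⟨fun k => if k = i ∨ k = j then -1 else 1, fun k => ?_, ?_⟩
    · by_cases hk : k = i ∨ k = j
      · simp [hk]
      · simp [hk]
    · apply Matrix.ext_of_mulVec_single
      intro k
      have h1 := hy (Pi.single k 1)
      have h3 : ac (eqG g).1 (Pi.single k 1) = mx g *ᵥ Pi.single k 1 := rfl
      rw [h3] at h1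
      rw [h1]
      funext l
      rw [mulVec_diagonal]
      by_cases hl : l = i ∨ l = j
      · simp [hl]
      · simp [hl]
  obtain ⟨σ, c, hcσ, hact⟩ := hEO K h2 h5 (m + 1) (by omega) (fun _ => 1) (fun _ => one_ne_zero)
    (fun _ _ => rfl) (SG K (m + 1)) (SG_big hs h2) (SG_OD hs) G ε' hk' x hnorm hcom
  have hc1 : ∀ i, c i * star (c i) = 1 := by
    intro i
    have h1 := hcσ i
    rw [mul_one, map_one, pow_two] at h1
    rw [hs]
    exact h1
  have hcc : ∀ a, σ (star a) = star (σ a) := fun a => by rw [hs, hs]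
  have hA : ActsS (ε.comp (cjO u)) x (dGU c hc1) σ := by
    refine ⟨hcc, fun h h' hh => ?_⟩
    have h1 := hact (eqG h) (eqG h') (fun i j => by
      rw [eqG_val, eqG_val, hh]
      have h3 : (dGU c hc1).1 = diagonal c := rfl
      rw [h3, star_eq_conjTranspose, diagonal_conjTranspose, mul_diagonal, diagonal_mul,
        Matrix.map_apply, Pi.star_apply, hs, mul_assoc]
      have h4 := hc1 j
      rw [hs] at h4
      rw [h4, mul_one])
    rw [hε', hε'] at h1
    exact h1
  exact ⟨_, _, ActsS_back hA⟩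

end

end Vale.Agent.P240.R2.H275
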