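import Vale.Agent.P240.R2.H938.W2

/-!
(C4) and (C5) of helper938's list, from (C1).
-/

set_option autoImplicit false
set_option linter.all false

namespace Vale.Agent.P240.R2.H275

open Matrix Vale.Agent.P240.R2.AS Vale.Agent.P240.R2.H38 Vale.Agent.P240.K
open Vale.Agent.P240.R2.H938
open scoped Classical

universe u v w

noncomputable section

section
variable {K : Type u} [Field K] [Fintype K] [StarRing K] {n : ℕ}

/-- the diagonal with `ζ` at `i`, `ζ⁻¹` at `j` -/
def dij (ζ : K) (i j : Fin n) : Fin n → K := fun k => if k = i then ζ else if k = j then ζ⁻¹ else 1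

omit [Fintype K] [StarRing K] in
lemma prod_dij {ζ : K} (hz : ζ ≠ 0) {i j : Fin n} (hij : i ≠ j) : ∏ k, dij ζ i j k = 1 := by
  have h : ∀ k, dij ζ i j k = (if k = i then ζ else 1) * (if k = j then ζ⁻¹ else 1) := by
    intro k
    unfold dij
    by_cases h1 : k = i
    · subst h1; simp [hij]
    · simp [h1]
  rw [Finset.prod_congr rfl fun k _ => h k, Finset.prod_mul_distrib, Finset.prod_ite_eq',
    Finset.prod_ite_eq', if_pos (Finset.mem_univ _), if_pos (Finset.mem_univ _), mul_inv_cancel₀ hz]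

omit [Fintype K] in
lemma exists_four (hn : 5 ≤ n) (a b c d : Fin n → K) :
    ∃ w : Fin n → K, w ≠ 0 ∧ a ⬝ᵥ w = 0 ∧ b ⬝ᵥ w = 0 ∧ c ⬝ᵥ w = 0 ∧ d ⬝ᵥ w = 0 := by
  let A : Matrix (Fin 4) (Fin n) K := Matrix.of ![a, b, c, d]
  have h1 : LinearMap.ker A.mulVecLin ≠ ⊥ := by
    apply LinearMap.ker_ne_bot_of_finrank_lt
    rw [Module.finrank_fin_fun, Module.finrank_fin_fun]
    omega
  obtain ⟨w, hw, hw0⟩ := Submodule.exists_mem_ne_zero_of_ne_bot h1
  rw [LinearMap.mem_ker, Matrix.mulVecLin_apply] at hw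
  exact ⟨w, hw0, congrFun hw 0, congrFun hw 1, congrFun hw 2, congrFun hw 3⟩

omit [Fintype K] in
/-- a semilinear map that preserves the elements `dij` up to scalars is diagonal -/
lemma diag_of5 (hn : 5 ≤ n) {ζ : K} (hz : ζ ≠ 1) (u : GU K n) (σ : K ≃+* K)
    (h : ∀ i j : Fin n, i ≠ j →
      ∃ a : K, u.1 * (diagonal (dij ζ i j)).map σ * star u.1 = a • diagonal (dij ζ i j)) :
    σ ζ = ζ ∧ ∃ d : Fin n → K, u.1 = diagonal d := by
  have hent : ∀ i j : Fin n, i ≠ j → ∃ a : K, ∀ k l, u.1 k l * σ (dij ζ i j l) = a * (dij ζ i j k * u.1 k l) := by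
    intro i j hij
    obtain ⟨a, ha⟩ := h i j hij
    refine ⟨a, fun k l => ?_⟩
    have h1 : u.1 * (diagonal (dij ζ i j)).map σ = a • (diagonal (dij ζ i j) * u.1) := by
      calc u.1 * (diagonal (dij ζ i j)).map σ
          = u.1 * (diagonal (dij ζ i j)).map σ * (star u.1 * u.1) := by rw [star_gu, mul_one]
        _ = (u.1 * (diagonal (dij ζ i j)).map σ * star u.1) * u.1 := by simp only [mul_assoc]
        _ = _ := by rw [ha, smul_mul_assoc]
    have h2 := congrFun (congrFun h1 k) l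
    rw [Matrix.diagonal_map (map_zero σ), mul_diagonal, Matrix.smul_apply, diagonal_mul, smul_eq_mul] at h2
    exact h2
  have hone : ∀ i j : Fin n, i ≠ j → ∀ k l, u.1 k l * σ (dij ζ i j l) = dij ζ i j k * u.1 k l := by
    intro i j hij
    obtain ⟨a, ha⟩ := hent i j hij
    by_cases h1 : a = 1
    · intro k l
      rw [ha, h1, one_mul]
    exfalso
    obtain ⟨w, hw0, hw1, hw2, hw3, hw4⟩ := exists_four hn (Pi.single i 1) (Pi.single j 1) (u.1 i) (u.1 j)
    rw [single_dotProduct, one_mul] at hw1 hw2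
    apply hw0
    have h2 : u.1 *ᵥ w = 0 := by
      funext k
      by_cases hk : k = i
      · rw [hk]; exact hw3
      by_cases hk' : k = j
      · rw [hk']; exact hw4
      show ∑ l, u.1 k l * w l = 0
      refine Finset.sum_eq_zero fun l _ => ?_
      by_cases hl : l = i
      · rw [hl, hw1, mul_zero]
      by_cases hl' : l = j
      · rw [hl', hw2, mul_zero]
      have h3 := ha k l
      simp only [dij, hk, hk', hl, hl', if_false, map_one, mul_one, one_mul] at h3
      have h4 : u.1 k l * (1 - a) = 0 := by linear_combination h3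
      rcases mul_eq_zero.1 h4 with h5 | h5
      · rw [h5, zero_mul]
      · exact absurd (sub_eq_zero.1 h5).symm h1
    have h3 : star u.1 *ᵥ (u.1 *ᵥ w) = w := by rw [mulVec_mulVec, star_gu, one_mulVec]
    rw [← h3, h2, mulVec_zero]
  have hoff : ∀ k l : Fin n, k ≠ l → u.1 k l = 0 := by
    intro k l hkl
    obtain ⟨j, hjk, hjl⟩ : ∃ j : Fin n, j ≠ k ∧ j ≠ l := by
      have : (({k, l} : Finset (Fin n))ᶜ).Nonempty := by
        rw [← Finset.card_pos, Finset.card_compl, Fintype.card_fin]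
        have := Finset.card_le_two (a := k) (b := l)
        omega
      obtain ⟨j, hj⟩ := this
      rw [Finset.mem_compl, Finset.mem_insert, Finset.mem_singleton, not_or] at hj
      exact ⟨j, hj.1, hj.2⟩
    have h1 := hone k j hjk.symm k l
    simp only [dij, if_true, hkl.symm, hjl.symm, if_false, map_one, mul_one] at h1
    have h2 : u.1 k l * (1 - ζ) = 0 := by linear_combination h1
    rcases mul_eq_zero.1 h2 with h3 | h3
    · exact h3
    · exact absurd (sub_eq_zero.1 h3).symm hz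
  refine ⟨?_, fun k => u.1 k k, ?_⟩
  · have h0 : (0 : ℕ) < n := by omega
    have h1' : (1 : ℕ) < n := by omega
    have h1 := hone ⟨0, h0⟩ ⟨1, h1'⟩ (by simp) ⟨0, h0⟩ ⟨0, h0⟩
    simp only [dij, if_true] at h1
    have h2 : u.1 ⟨0, h0⟩ ⟨0, h0⟩ ≠ 0 := by
      intro h3
      have h4 := congrFun (congrFun (gu_star u) ⟨0, h0⟩) ⟨0, h0⟩
      rw [one_apply_eq, Matrix.mul_apply] at h4
      rw [Finset.sum_eq_zero] at h4
      · exact zero_ne_one h4
      · intro l _
        by_cases hl : (⟨0, h0⟩ : Fin n) = l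
        · rw [← hl, h3, zero_mul]
        · rw [hoff _ _ hl, zero_mul]
    rw [mul_comm] at h1
    exact mul_right_cancel₀ h2 h1
  · ext k l
    by_cases hkl : k = l
    · rw [hkl, diagonal_apply_eq]
    · rw [diagonal_apply_ne _ hkl, hoff k l hkl]

omit [Fintype K] in
lemma gu_diag {g : GU K n} {a : Fin n → K} (h : g.1 = diagonal a) (i : Fin n) : a i * star (a i) = 1 := by
  have h3 := gu_star g
  rw [h, star_eq_conjTranspose, diagonal_conjTranspose, diagonal_mul_diagonal, ← diagonal_one] at h3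
  exact congrFun (diagonal_injective h3) i

/-- a diagonal unitary matrix -/
def dGU (d : Fin n → K) (h : ∀ i, d i * star (d i) = 1) : GU K n :=
  ⟨diagonal d, by
    rw [mem_unitaryGroup_iff, star_eq_conjTranspose, diagonal_conjTranspose, diagonal_mul_diagonal,
      ← diagonal_one]
    congr 1
    funext i
    exact h i⟩

/-- a diagonal element of `SU` -/
def dSU (d : Fin n → K) (h : ∀ i, d i * star (d i) = 1) (hp : ∏ i, d i = 1) : SU K n :=
  ⟨dGU d h, by
    show (diagonal d).det = 1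
    rw [det_diagonal, hp]⟩

lemma mx_dSU (d : Fin n → K) (h : ∀ i, d i * star (d i) = 1) (hp : ∏ i, d i = 1) :
    mx (dSU d h hp) = diagonal d := rfl

/-- a field automorphism on `SU` -/
def frU (σ : K ≃+* K) (hσ : ∀ a, σ (star a) = star (σ a)) (h : SU K n) : SU K n :=
  ⟨gmap σ hσ h.1, by
    show (h.1.1.map σ).det = 1
    have h1 : h.1.1.map σ = (σ : K →+* K).mapMatrix h.1.1 := rfl
    have h2 : h.1.1.det = 1 := h.2
    rw [h1, ← RingHom.map_det, h2, map_one]⟩

lemma mx_frU (σ : K ≃+* K) (hσ : ∀ a, σ (star a) = star (σ a)) (h : SU K n) :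
    mx (frU σ hσ h) = (mx h).map σ := rfl

variable {G : Type v} [Group G]

omit [Fintype K] in
lemma map_refl_mat (A : Matrix (Fin n) (Fin n) K) : A.map (RingEquiv.refl K) = A := by ext i j; simp

lemma Qd_norm [Finite G] {p : ℕ} {L : Subgroup G} {ε : SU K n →* G} (hr : ε.range = L) {e : G}
    (he : e ∈ Qd ε) : e ∈ Subgroup.normalizer (L : Set G) := by
  obtain ⟨g, hg⟩ := he
  rw [Subgroup.mem_normalizer_iff]
  intro l
  rw [← hr]
  constructor
  · rintro ⟨h, rfl⟩
    exact ⟨cjU g h, (hg h).symm⟩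
  · rintro ⟨h, hh⟩
    refine ⟨cjU g⁻¹ h, ?_⟩
    have h1 := hg (cjU g⁻¹ h)
    have h2 : cjU g (cjU g⁻¹ h) = h := by
      apply Subtype.ext
      show g * (g⁻¹ * h.1 * g⁻¹⁻¹) * g⁻¹ = h.1
      group
    rw [h2, hh] at h1
    have h3 : e * ε (cjU g⁻¹ h) = e * l := mul_right_cancel h1
    exact mul_left_cancel h3

/-- an element that acts linearly acts as the diagonal matrix -/
lemma refl_of_Qd {p : ℕ} [Fact p.Prime] {ζ : K} (hN : NumD K p n ζ) {L : Subgroup G}
    {ε : SU K n →* G} (hε : SHom p L ε) {e : G} (he : e ∈ Qd ε) {g : GU K n} {σ : K ≃+* K}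
    (h : ActsS ε e g σ) (hζ : σ ζ = ζ) : σ = RingEquiv.refl K := by
  obtain ⟨g', hg'⟩ := he
  have h1 : ∀ k : SU K n, ∃ a : K, g.1 * (mx k).map σ * star g.1 = a • (g'.1 * mx k * star g'.1) := by
    intro k
    have e1 := h.2 k (cjU g (frU σ h.1 k)) (by rw [mx_cjU, mx_frU])
    rw [hg' k] at e1
    obtain ⟨a, ha⟩ := (eps_eq hε.ker).1 e1.symm
    exact ⟨a, by rw [mx_cjU, mx_frU, mx_cjU] at ha; exact ha⟩
  have h2 : ∀ m : SU K n, ∃ a : K, (g'⁻¹ * g).1 * (mx m).map σ * star (g'⁻¹ * g).1 = a • mx m := by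
    intro m
    obtain ⟨a, ha⟩ := h1 m
    refine ⟨a, ?_⟩
    rw [gu_mul, gu_inv, star_mul, star_star]
    calc star g'.1 * g.1 * (mx m).map σ * (star g.1 * g'.1)
        = star g'.1 * (g.1 * (mx m).map σ * star g.1) * g'.1 := by simp only [mul_assoc]
      _ = a • ((star g'.1 * g'.1) * mx m * (star g'.1 * g'.1)) := by
          rw [ha, mul_smul_comm, smul_mul_assoc]
          simp only [mul_assoc]
      _ = _ := by rw [star_gu, one_mul, mul_one]
  have hz0 : ζ ≠ 0 := left_ne_zero_of_mul_eq_one hN.st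
  have hzi : ζ⁻¹ * star ζ⁻¹ = 1 := by
    have h3 : star ζ⁻¹ = (star ζ)⁻¹ := star_inv₀ ζ
    rw [h3, ← mul_inv, hN.st, inv_one]
  have h3 : ∀ i j : Fin n, i ≠ j → ∃ a : K,
      (g'⁻¹ * g).1 * (diagonal (dij ζ i j)).map σ * star (g'⁻¹ * g).1 = a • diagonal (dij ζ i j) := by
    intro i j hij
    refine h2 (dSU (dij ζ i j) (fun k => ?_) ?_)
    · unfold dij
      split_ifs
      · exact hN.st
      · exact hzi
      · rw [star_one, one_mul]
    · exact prod_dij hz0 hij
  obtain ⟨-, hd⟩ := diag_of5 hN.hn hN.ne _ σ h3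
  obtain ⟨e1, -⟩ := hN.uniq (g'⁻¹ * g) σ h.1 hd h2
  ext y
  exact e1 y

lemma iter_refl (k : ℕ) (y : K) : ((RingEquiv.refl K)^[k]) y = y := by
  induction k with
  | zero => rfl
  | succ k ih => rw [Function.iterate_succ_apply', ih]; rfl

end

theorem stmtC4_of (h1 : StmtC1.{u, v}) : StmtC4.{u, v} := by
  intro K _ _ _ m p ζ G _ _ _ hN L ε hε e he heL hep hec
  obtain ⟨g, σ, a, k1, k2, k3, k4, k5, k6⟩ := h1 hN hε e (Qd_norm (p := p) hε.range he) hep
    (fun y hy => hec y hy)
  have hσ := refl_of_Qd hN hε he k1 k3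
  subst hσ
  have hp0 : p ≠ 0 := (Fact.out : p.Prime).ne_zero
  have ha0 : ∀ i, a i ≠ 0 := fun i => left_ne_zero_of_mul_eq_one (k5 i)
  have hpow : ∀ i j, a i ^ p = a j ^ p := by
    intro i j
    have h3 := k6 i j
    simp only [iter_refl, Finset.prod_const, Finset.card_range] at h3
    exact h3
  -- the normalized entries
  set b : Fin (m + 1) → K := fun i => a i / a (Fin.last m) with hb
  have hbp : ∀ i, b i ^ p = 1 := by
    intro i
    rw [hb]
    simp only
    rw [div_pow, hpow i (Fin.last m), div_self (pow_ne_zero _ (ha0 _))]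
  have hbl : b (Fin.last m) = 1 := div_self (ha0 _)
  have hbn : ∀ i, b i * star (b i) = 1 := by
    intro i
    have e1 : star (b i) = star (a i) / star (a (Fin.last m)) := by
      rw [hb]; exact star_div₀ _ _
    rw [e1, hb]
    simp only
    rw [div_mul_div_comm, k5, k5, div_one]
  have hb0 : ∀ i, b i ≠ 0 := fun i => left_ne_zero_of_mul_eq_one (hbn i)
  set δ : K := ∏ i, b i with hδ
  have hδn : δ * star δ = 1 := by
    rw [hδ, star_prod, ← Finset.prod_mul_distrib]
    exact Finset.prod_eq_one fun i _ => hbn i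
  have hδ0 : δ ≠ 0 := left_ne_zero_of_mul_eq_one hδn
  have hδp : δ ^ p = 1 := by
    rw [hδ, ← Finset.prod_pow]
    exact Finset.prod_eq_one fun i _ => hbp i
  -- the inner correction
  set d : Fin (m + 1) → K := fun i => if i = Fin.last m then δ else (b i)⁻¹ with hd
  have hdn : ∀ i, d i * star (d i) = 1 := by
    intro i
    rw [hd]
    simp only
    split_ifs
    · exact hδn
    · have e1 : star (b i)⁻¹ = (star (b i))⁻¹ := star_inv₀ _
      rw [e1, ← mul_inv, hbn, inv_one]
  have hdp : ∀ i, d i ^ p = 1 := by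
    intro i
    rw [hd]
    simp only
    split_ifs
    · exact hδp
    · rw [inv_pow, hbp, inv_one]
  have hprod : ∏ i, d i = 1 := by
    have e1 : ∀ i, d i = (if i = Fin.last m then δ else 1) * (b i)⁻¹ := by
      intro i
      rw [hd]
      simp only
      split_ifs with hi
      · rw [hi, hbl, inv_one, mul_one]
      · rw [one_mul]
    rw [Finset.prod_congr rfl fun i _ => e1 i, Finset.prod_mul_distrib, Finset.prod_ite_eq',
      if_pos (Finset.mem_univ _), Finset.prod_inv_distrib, ← hδ, mul_inv_cancel₀ hδ0]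
  set D : SU K (m + 1) := dSU d hdn hprod with hD
  have hcj : cjU (1 : GU K (m + 1)) D = D := by
    apply Subtype.ext
    show 1 * D.1 * 1⁻¹ = D.1
    group
  have hDA : ε D ∈ Au p ε (1 : GU K (m + 1)) := by
    refine ⟨D, ⟨d, hdp, rfl⟩, ?_⟩
    show ε (cjU 1 D) = ε D
    rw [hcj]
  have hgD : (g * D.1).1 = a (Fin.last m) • (diagonal (fun i => if i = Fin.last m then δ else 1) :
      Matrix (Fin (m + 1)) (Fin (m + 1)) K) := by
    rw [gu_mul, k2]
    show diagonal a * diagonal d = _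
    rw [diagonal_mul_diagonal, ← diagonal_smul]
    congr 1
    funext i
    show a i * d i = a (Fin.last m) * _
    rw [hd]
    simp only
    split_ifs with hi
    · rw [hi]
    · rw [hb]
      simp only
      rw [inv_div, mul_one, mul_div_cancel₀ _ (ha0 i)]
  have hnz : ∀ i : Fin (m + 1), (if i = Fin.last m then δ else 1) *
      star (if i = Fin.last m then δ else 1) = 1 := by
    intro i
    split_ifs
    · exact hδn
    · rw [star_one, one_mul]
  have hact : ActsS ε (e * ε D) (g * D.1) (RingEquiv.refl K) := by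
    refine ⟨fun a => rfl, fun h h' hh => ?_⟩
    have e1 := k1.2 (D * h * D⁻¹) h' (by
      rw [hh, map_refl_mat, map_refl_mat, gu_mul, mx_mul, mx_mul, mx_inv, star_mul]
      simp only [mul_assoc]
      rfl)
    rw [← e1, map_mul, map_mul, map_inv]
    group
  have hact' : ActsS ε (e * ε D) (dGU _ hnz) (RingEquiv.refl K) :=
    hact.smul (by omega) (a := a (Fin.last m)) hgD
  refine ⟨ε D, hDA, δ, ?_, hδp, dGU _ hnz, rfl, hact'⟩
  intro hδ1
  apply heL
  have hone : (dGU _ hnz : GU K (m + 1)) = 1 := by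
    apply Subtype.ext
    show diagonal _ = 1
    rw [hδ1, ← diagonal_one]
    congr 1
    funext i
    split_ifs <;> rfl
  rw [hone] at hact'
  have hcen : e * ε D ∈ Subgroup.centralizer (L : Set G) := by
    rw [Subgroup.mem_centralizer_iff]
    intro l hl
    rw [SetLike.mem_coe, ← hε.range] at hl
    obtain ⟨h, rfl⟩ := hl
    have e1 := hact'.2 h h (by
      have e2 : ((1 : GU K (m + 1)) : Matrix (Fin (m + 1)) (Fin (m + 1)) K) = 1 := rfl
      rw [map_refl_mat, e2, star_one, one_mul, mul_one])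
    rw [mul_inv_eq_iff_eq_mul] at e1
    exact e1.symm
  have e3 : e = (e * ε D) * (ε D)⁻¹ := by group
  rw [e3]
  refine mul_mem (Subgroup.mem_sup_right hcen) (Subgroup.mem_sup_left (inv_mem ?_))
  rw [← hε.range]
  exact ⟨D, rfl⟩

theorem stmtC5_of (h1 : StmtC1.{u, v}) : StmtC5.{u, v} := by
  intro K _ _ _ n p ζ G _ _ _ hN h90 L ε hε t ht htQ htp htc
  obtain ⟨g, σ, a, k1, k2, k3, k4, k5, k6⟩ := h1 hN hε t ht htp (fun y hy => htc y hy)
  have hσ : σ ≠ RingEquiv.refl K := by
    rintro rfl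
    apply htQ
    refine ⟨g, fun h => k1.2 h (cjU g h) ?_⟩
    rw [mx_cjU, map_refl_mat]
  obtain ⟨c, b, hc, hb, hab⟩ := h90 σ k1.1 k4 hσ a k5 k6
  have hb0 : ∀ i, b i ≠ 0 := fun i => left_ne_zero_of_mul_eq_one (hb i)
  have hsb0 : ∀ i, σ (b i) ≠ 0 := fun i => (map_ne_zero σ).2 (hb0 i)
  refine ⟨dGU b hb, b, σ, rfl, k1.1, k4, hσ, k3, k1.1, fun h h' hh => ?_⟩
  set u : GU K n := dGU b hb with hu
  refine k1.2 (cjU u h) (cjU u h') ?_
  have e1 : ((1 : GU K n) : Matrix (Fin n) (Fin n) K) = 1 := rfl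
  rw [mx_cjU, mx_cjU, hh, e1, star_one, one_mul, mul_one, map_mul_mat, map_mul_mat, map_star_mat k1.1]
  have e2 : g.1 * u.1.map σ = c • u.1 := by
    have e3 : u.1 = diagonal b := rfl
    rw [k2, e3, Matrix.diagonal_map (map_zero σ), diagonal_mul_diagonal, ← diagonal_smul]
    congr 1
    funext i
    show a i * σ (b i) = c * b i
    rw [hab i, mul_assoc, div_mul_cancel₀ _ (hsb0 i)]
  have e4 : star (u.1.map σ) * star g.1 = star c • star u.1 := by
    rw [← star_mul, e2, star_smul]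
  calc u.1 * (mx h).map σ * star u.1 = (c * star c) • (u.1 * (mx h).map σ * star u.1) := by
        rw [hc, one_smul]
    _ = (c • u.1) * (mx h).map σ * (star c • star u.1) := by
        rw [smul_mul_assoc, smul_mul_assoc, mul_smul_comm, smul_smul]
    _ = (g.1 * u.1.map σ) * (mx h).map σ * (star (u.1.map σ) * star g.1) := by rw [e2, e4]
    _ = g.1 * (u.1.map σ * (mx h).map σ * star (u.1.map σ)) * star g.1 := by
        simp only [mul_assoc]

end

end Vale.Agent.P240.R2.H275
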