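import Vale.Agent.P240.R2.H275.OGood
import Vale.Agent.P240.R2.H275.C45

/-!
Facts on the preimage `SOm K n` of the commutator subgroup of `O_n(K) / {1, -1}` (trivial star), all
`n`, mainly `n` even.
-/

set_option autoImplicit false
set_option linter.all false

namespace Vale.Agent.P240.R2.H275

open Matrix Vale.Agent.P240.R2.AS Vale.Agent.P240.R2.H38
open Vale.Agent.P240.R2.H296.O (SOm mem_SOm)
open scoped Classical

universe u

noncomputable section

variable {K : Type u} [Field K] [StarRing K] {n : ℕ}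

lemma m1_ne (h2 : (2 : K) ≠ 0) : (-1 : K) ≠ 1 := by
  intro h
  apply h2
  linear_combination -h

lemma m1_star (hs : ∀ x : K, star x = x) : (-1 : K) * star (-1) = 1 := by rw [hs]; ring

lemma eU_val (hs : ∀ x : K, star x = x) {w : List (Ln K n)} (hw : Orth w) :
    (eU (-1 : K) (sm w)).1 = 1 + ((-1 : K) - 1) • sm w := by
  unfold eU
  rw [dif_pos ⟨(H221.orth_cond hw).1, (H221.orth_cond hw).2, m1_star hs⟩]

/-- the elements of the words of even length -/
theorem even_mem (hs : ∀ x : K, star x = x) (h2 : (2 : K) ≠ 0) {w : List (Ln K n)} (hw : Orth w)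
    (he : Even w.length) : eU (-1 : K) (sm w) ∈ SOm K n := by
  cases w with
  | nil =>
    have h1 : eU (-1 : K) (sm ([] : List (Ln K n))) = 1 := by
      apply Subtype.ext
      rw [eU_val hs hw]
      show 1 + ((-1 : K) - 1) • sm ([] : List (Ln K n)) = 1
      simp [sm]
    rw [h1]
    exact one_mem _
  | cons P w =>
    have hm := m1_star hs
    have h3 := H221.of_word hs h2 P _ hw
    have ha2 : (Abelianization.of (QuotientGroup.mk (eU (-1 : K) P.1) : PGU K n)) ^ 2 = 1 := by
      have h3 : eU (-1 : K) P.1 * eU (-1 : K) P.1 = 1 := by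
        apply Subtype.ext
        unfold eU
        rw [dif_pos ⟨(H221.ln_cond P).1, (H221.ln_cond P).2, hm⟩]
        show (1 + ((-1 : K) - 1) • P.1) * (1 + ((-1 : K) - 1) • P.1) = 1
        rw [mul_add, mul_one, add_mul, one_mul, smul_mul_smul_comm, (H221.ln_cond P).2]
        module
      rw [pow_two, ← map_mul, ← QuotientGroup.mk_mul, h3]
      exact map_one (Abelianization.of.comp (QuotientGroup.mk' _))
    obtain ⟨k, hk⟩ := he
    rw [hk, ← two_mul, pow_mul, ha2, one_pow] at h3
    show (QuotientGroup.mk (eU (-1 : K) (sm (P :: w))) : PGU K n) ∈ commutator (PGU K n)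
    rw [← Abelianization.ker_of, MonoidHom.mem_ker]
    exact h3

/-- the determinant as a homomorphism to the units -/
def detU : GU K n →* Kˣ :=
  ((Matrix.detMonoidHom (n := Fin n) (R := K)).comp (Submonoid.subtype _)).toHomUnits

lemma detU_val (g : GU K n) : (detU g : K) = g.1.det := rfl

/-- `det = 1` on `SOm K n`, `n` even -/
theorem det_SOm (hs : ∀ x : K, star x = x) (h2 : (2 : K) ≠ 0) (hne : Even n) {g : GU K n}
    (hg : g ∈ SOm K n) : g.1.det = 1 := by
  have h1 : Subgroup.center (GU K n) ≤ (detU (K := K) (n := n)).ker := by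
    intro z hz
    rw [H296.mem_center_iff (m1_ne h2) (m1_star hs)] at hz
    obtain ⟨c, hc⟩ := hz
    rw [MonoidHom.mem_ker]
    apply Units.ext
    rw [detU_val, hc, det_smul, det_one, Fintype.card_fin, mul_one]
    rcases Nat.eq_zero_or_pos n with h0 | h0
    · subst h0; rw [pow_zero]; rfl
    have h4 := gu_star z
    rw [hc, star_smul, hs, star_one, smul_mul_smul_comm, mul_one] at h4
    have h5 := congrFun (congrFun h4 ⟨0, h0⟩) ⟨0, h0⟩
    rw [Matrix.smul_apply, one_apply_eq, smul_eq_mul, mul_one] at h5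
    obtain ⟨k, hk⟩ := hne
    rw [hk, ← two_mul, pow_mul, pow_two, h5, one_pow]
    rfl
  let f : PGU K n →* Kˣ := QuotientGroup.lift _ (detU (K := K) (n := n)) h1
  have h3 := Abelianization.commutator_subset_ker f
  have h4 : (QuotientGroup.mk g : PGU K n) ∈ f.ker := h3 hg
  rw [MonoidHom.mem_ker] at h4
  have h5 : detU g = 1 := h4
  have h6 := congrArg Units.val h5
  rw [detU_val] at h6
  exact h6

/-- the diagonal elements of `SOm K n`, `n` even -/
theorem diag_mem_iff (hs : ∀ x : K, star x = x) (h2 : (2 : K) ≠ 0) (hne : Even n) {g : GU K n}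
    {d : Fin n → K} (hg : g.1 = diagonal d) : g ∈ SOm K n ↔ ∏ i, d i = 1 := by
  constructor
  · intro h
    have h1 := det_SOm hs h2 hne h
    rwa [hg, det_diagonal] at h1
  · intro h
    have hd : ∀ i, d i = 1 ∨ d i = -1 := by
      intro i
      have h1 := gu_diag hg i
      rw [hs] at h1
      exact mul_self_eq_one_iff.1 h1
    let w : List (Ln K n) := ((List.finRange n).filter (fun i => d i = -1)).map (E1 (K := K))
    have hw : Orth w := by
      show List.Pairwise _ _
      rw [List.pairwise_map]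
      refine ((List.nodup_finRange n).filter _).imp ?_
      intro i j hij
      rw [E1_coe, E1_coe, diagonal_mul_diagonal, ← diagonal_zero]
      congr 1
      funext k
      by_cases h1 : k = i
      · subst h1
        simp [hij]
      · simp [h1]
    have hsm : ∀ l : List (Fin n), l.Nodup → sm (l.map (E1 (K := K))) =
        diagonal (fun i => if i ∈ l then (1 : K) else 0) := by
      intro l
      induction l with
      | nil => intro _; simp [sm]
      | cons a l ih =>
        intro hl
        rw [List.nodup_cons] at hl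
        rw [List.map_cons, H221.sm_cons', ih hl.2, E1_coe, diagonal_add]
        congr 1
        funext i
        by_cases h1 : i = a
        · subst h1
          simp [hl.1]
        · simp [h1]
    have hwm : sm w = diagonal (fun i => if d i = -1 then (1 : K) else 0) := by
      rw [hsm _ ((List.nodup_finRange n).filter _)]
      congr 1
      funext i
      simp
    have hgw : g = eU (-1 : K) (sm w) := by
      apply Subtype.ext
      rw [eU_val hs hw, hwm, hg, ← diagonal_one, ← diagonal_smul, diagonal_add]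
      congr 1
      funext i
      rw [Pi.smul_apply, smul_eq_mul]
      rcases hd i with h1 | h1
      · rw [h1, if_neg (m1_ne h2).symm]; ring
      · rw [h1, if_pos rfl]; ring
    rw [hgw]
    refine even_mem hs h2 hw ?_
    have hlen : ∏ i, d i = (-1 : K) ^ w.length := by
      have h1 : ∀ l : List (Fin n), (l.map d).prod =
          (-1 : K) ^ ((l.filter (fun i => d i = -1)).length) := by
        intro l
        induction l with
        | nil => simp
        | cons a l ih =>
          rw [List.map_cons, List.prod_cons, ih]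
          by_cases h1 : d a = -1
          · rw [List.filter_cons_of_pos (by simpa using h1), List.length_cons, pow_succ', h1]
          · rw [List.filter_cons_of_neg (by simpa using h1), (hd a).resolve_right h1, one_mul]
      have h3 := h1 (List.finRange n)
      rw [← List.ofFn_eq_map, List.prod_ofFn] at h3
      rw [h3]
      congr 1
      show _ = (List.map _ _).length
      rw [List.length_map]
    rw [h] at hlen
    by_contra hodd
    rw [Nat.not_even_iff_odd] at hodd
    rw [hodd.neg_one_pow] at hlen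
    exact m1_ne h2 hlen.symm

/-- `SOm K n` is normal -/
theorem SOm_conj (u : GU K n) {g : GU K n} (hg : g ∈ SOm K n) : u * g * u⁻¹ ∈ SOm K n := by
  have hN : (SOm K n).Normal := by
    unfold SOm
    infer_instance
  exact hN.conj_mem g hg u

/-- `SOm K n` is stable under field automorphisms -/
theorem SOm_gmap [Fintype K] (σ : K ≃+* K) (hσ : ∀ a, σ (star a) = star (σ a)) {g : GU K n}
    (hg : g ∈ SOm K n) : gmap σ hσ g ∈ SOm K n := by
  have h3 : (QuotientGroup.mk g : PGU K n) ∈ commutator (PGU K n) := hg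
  show (QuotientGroup.mk (gmap σ hσ g) : PGU K n) ∈ commutator (PGU K n)
  have h4 : (QuotientGroup.mk (gmap σ hσ g) : PGU K n) =
      act n (⟨σ, hσ⟩ : SA K) (QuotientGroup.mk g) := rfl
  rw [h4]
  have h5 := (Subgroup.characteristic_iff_map_eq (H := commutator (PGU K n))).1 inferInstance
    (act n (⟨σ, hσ⟩ : SA K))
  rw [← h5]
  exact ⟨_, h3, rfl⟩

/-- every letter is the first letter of an orthogonal word of three letters -/
lemma exists_three (hs : ∀ x : K, star x = x) (h2 : (2 : K) ≠ 0) (hn : 3 ≤ n) (P : Ln K n) :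
    ∃ Q R : Ln K n, P.1 * Q.1 = 0 ∧ P.1 * R.1 = 0 ∧ Q.1 * R.1 = 0 ∧ Q.1 * P.1 = 0 ∧
      R.1 * P.1 = 0 ∧ R.1 * Q.1 = 0 := by
  have hst : ∀ v : Fin n → K, star v = v := fun v => funext fun i => hs _
  obtain ⟨x, hx, hP⟩ := P.2
  have hx' : x ⬝ᵥ x = 1 := by rwa [hst] at hx
  let i0 : Fin n := ⟨0, by omega⟩
  let i1 : Fin n := ⟨1, by omega⟩
  let i2 : Fin n := ⟨2, by omega⟩
  have he : (Pi.single i0 (1 : K) : Fin n → K) ⬝ᵥ Pi.single i0 1 = 1 := by simp
  obtain ⟨g, hg⟩ := H221.exists_rf hs h2 he hx'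
  have hP' : lnU g (E1 i0) = P := by
    apply Subtype.ext
    rw [lnU_coe, E1_coe, ← vec_e1, mul_vecMulVec, vecMulVec_mul, hP]
    have e2 : star (Pi.single i0 (1 : K)) ᵥ* star g.1 = star (g.1 *ᵥ Pi.single i0 1) := by
      rw [star_mulVec]; rfl
    show vecMulVec (g.1 *ᵥ (Pi.single i0 1)) (star (Pi.single i0 (1 : K)) ᵥ* star g.1) = _
    rw [e2]
    rcases hg with h | h
    · rw [h]
    · rw [h, star_neg, neg_vecMulVec, vecMulVec_neg, neg_neg]
  have hz : ∀ i j : Fin n, i ≠ j → (E1 i : Ln K n).1 * (E1 j : Ln K n).1 = 0 := by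
    intro i j hij
    rw [E1_coe, E1_coe, diagonal_mul_diagonal, ← diagonal_zero]
    congr 1
    funext k
    by_cases h1 : k = i
    · subst h1
      simp [hij]
    · simp [h1]
  have h01 : i0 ≠ i1 := by simp [i0, i1]
  have h02 : i0 ≠ i2 := by simp [i0, i2]
  have h12 : i1 ≠ i2 := by simp [i1, i2]
  rw [← hP']
  exact ⟨lnU g (E1 i1), lnU g (E1 i2), orth_lnU.2 (hz _ _ h01), orth_lnU.2 (hz _ _ h02),
    orth_lnU.2 (hz _ _ h12), orth_lnU.2 (hz _ _ h01.symm), orth_lnU.2 (hz _ _ h02.symm),
    orth_lnU.2 (hz _ _ h12.symm)⟩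

/-- `1 - 2 S' = a (1 - 2 S)` for two sums of two orthogonal rank one idempotents, `n ≥ 5` -/
lemma two_letters [Fintype K] (hs : ∀ x : K, star x = x) (h2 : (2 : K) ≠ 0) (hn : 5 ≤ n) (u : GU K n)
    (σ : K ≃+* K) {P Q : Ln K n} (hPQ : P.1 * Q.1 = 0) (hQP : Q.1 * P.1 = 0) {a : K}
    (h : u.1 * (1 + ((-1 : K) - 1) • (P.1 + Q.1)).map σ * star u.1 =
      a • (1 + ((-1 : K) - 1) • (P.1 + Q.1))) :
    u.1 * (P.1 + Q.1).map σ * star u.1 = P.1 + Q.1 := by
  have hc : ∀ x : K, σ (star x) = star (σ x) := fun x => by rw [hs, hs]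
  set S := P.1 + Q.1 with hS
  set S' := u.1 * S.map σ * star u.1 with hS'
  have hSS : S * S = S := by
    rw [hS, add_mul, mul_add, mul_add, hPQ, hQP, (H221.ln_cond P).2, (H221.ln_cond Q).2, add_zero,
      zero_add]
  have hS'S' : S' * S' = S' := by
    rw [hS', conj_mul_conj, ← map_mul_mat, hSS]
  have h1 : 1 + ((-1 : K) - 1) • S' = a • (1 + ((-1 : K) - 1) • S) := by
    rw [← h]
    have e1 : (1 + ((-1 : K) - 1) • S).map σ = 1 + ((-1 : K) - 1) • S.map σ := by
      have e2 : (1 + ((-1 : K) - 1) • S).map σ =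
          (1 : Matrix (Fin n) (Fin n) K).map σ + (((-1 : K) - 1) • S).map σ := by
        ext i j
        exact map_add σ _ _
      rw [e2, map_one_mat, map_smul_mat, map_sub, map_neg, map_one]
    rw [e1, mul_add, add_mul, mul_one, gu_star, mul_smul_comm, smul_mul_assoc]
  have hinv : ∀ T : Matrix (Fin n) (Fin n) K, T * T = T →
      (1 + ((-1 : K) - 1) • T) * (1 + ((-1 : K) - 1) • T) = 1 := by
    intro T hT
    rw [mul_add, mul_one, add_mul, one_mul, smul_mul_smul_comm, hT]
    module
  have haa : a * a = 1 := by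
    have h3 := hinv S' hS'S'
    rw [h1, smul_mul_smul_comm, hinv S hSS] at h3
    have h4 := congrFun (congrFun h3 ⟨0, by omega⟩) ⟨0, by omega⟩
    rw [Matrix.smul_apply, one_apply_eq, smul_eq_mul, mul_one] at h4
    exact h4
  have hm : ((-1 : K) - 1) ≠ 0 := by
    intro h
    apply h2
    linear_combination -h
  rcases mul_self_eq_one_iff.1 haa with ha | ha
  · rw [ha, one_smul] at h1
    exact smul_right_injective _ hm (add_left_cancel h1)
  · exfalso
    rw [ha] at h1
    have h3 : (1 : Matrix (Fin n) (Fin n) K) = S + S' := by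
      have h4 : (2 : K) • (1 : Matrix (Fin n) (Fin n) K) = (2 : K) • (S + S') := by
        have h5 : (1 + ((-1 : K) - 1) • S) + (1 + ((-1 : K) - 1) • S') = 0 := by
          rw [h1]; module
        have h6 : (2 : K) • (1 : Matrix (Fin n) (Fin n) K) - (2 : K) • (S + S') =
            (1 + ((-1 : K) - 1) • S) + (1 + ((-1 : K) - 1) • S') := by module
        rw [h5] at h6
        exact sub_eq_zero.1 h6
      exact smul_right_injective _ h2 h4
    obtain ⟨x, hx, hPx⟩ := P.2
    obtain ⟨y, hy, hQy⟩ := Q.2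
    have hS2 : ∀ w : Fin n → K, star x ⬝ᵥ w = 0 → star y ⬝ᵥ w = 0 → S *ᵥ w = 0 := by
      intro w e1 e2
      rw [hS, hPx, hQy, add_mulVec, vecMulVec_mulVec, vecMulVec_mulVec, e1, e2]
      simp
    have hmapv : ∀ (z : Fin n → K) (w : Fin n → K),
        ((fun i => σ (star z i)) ᵥ* star u.1) ⬝ᵥ w = 0 →
        (u.1 * (vecMulVec z (star z)).map σ * star u.1) *ᵥ w = 0 := by
      intro z w e1
      have e2 : (vecMulVec z (star z)).map σ = vecMulVec (fun i => σ (z i)) (fun i => σ (star z i)) := by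
        ext i j
        simp [vecMulVec_apply]
      rw [e2, mul_vecMulVec, vecMulVec_mul, vecMulVec_mulVec, e1]
      simp
    obtain ⟨w, hw0, hw1, hw2, hw3, hw4⟩ := exists_four hn (star x) (star y)
      ((fun i => σ (star x i)) ᵥ* star u.1) ((fun i => σ (star y i)) ᵥ* star u.1)
    apply hw0
    have h5 : S' *ᵥ w = 0 := by
      have e3 : (P.1 + Q.1).map σ = P.1.map σ + Q.1.map σ := by
        ext i j
        exact map_add σ _ _
      rw [hS', hS, e3, mul_add, add_mul, add_mulVec, hPx, hQy, hmapv x w hw3, hmapv y w hw4, add_zero]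
    have h6 : (1 : Matrix (Fin n) (Fin n) K) *ᵥ w = 0 := by
      rw [h3, add_mulVec, hS2 w hw1 hw2, h5, add_zero]
    rwa [one_mulVec] at h6

/-- the semilinear maps that preserve the elements of `SOm K n` up to scalars -/
theorem uniqE [Fintype K] (hs : ∀ x : K, star x = x) (h2 : (2 : K) ≠ 0) (h6 : 5 < Fintype.card K)
    (hn : 5 ≤ n) (u : GU K n) (σ : K ≃+* K)
    (h : ∀ k : SOm K n, ∃ a : K, u.1 * (mx k).map σ * star u.1 = a • mx k) :
    (∀ x, σ x = x) ∧ ∃ a : K, u.1 = a • (1 : Matrix (Fin n) (Fin n) K) := by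
  have hc : ∀ x : K, σ (star x) = star (σ x) := fun x => by rw [hs, hs]
  have hpair : ∀ P Q : Ln K n, P.1 * Q.1 = 0 → Q.1 * P.1 = 0 →
      u.1 * (P.1 + Q.1).map σ * star u.1 = P.1 + Q.1 := by
    intro P Q hPQ hQP
    have hw : Orth [P, Q] := by
      show List.Pairwise _ _
      simp [hPQ]
    have hsm : sm [P, Q] = P.1 + Q.1 := by simp [sm]
    obtain ⟨a, ha⟩ := h ⟨eU (-1 : K) (sm [P, Q]), even_mem hs h2 hw (by simp)⟩
    have e1 : mx (⟨eU (-1 : K) (sm [P, Q]), even_mem hs h2 hw (by simp)⟩ : SOm K n) =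
        1 + ((-1 : K) - 1) • (P.1 + Q.1) := by
      rw [← hsm]
      exact eU_val hs hw
    rw [e1] at ha
    exact two_letters hs h2 hn u σ hPQ hQP ha
  have key : ∀ P : Ln K n, u.1 * P.1.map σ * star u.1 = P.1 := by
    intro P
    obtain ⟨Q, R, h1, h3, h4, h5, h7, h8⟩ := exists_three hs h2 (by omega : 3 ≤ n) P
    have e1 : (P.1 + Q.1) * (P.1 + R.1) = P.1 := by
      rw [add_mul, mul_add, mul_add, (H221.ln_cond P).2, h3, h5, h4, add_zero, add_zero, add_zero]
    calc u.1 * P.1.map σ * star u.1 = u.1 * ((P.1 + Q.1) * (P.1 + R.1)).map σ * star u.1 := by rw [e1]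
      _ = (u.1 * (P.1 + Q.1).map σ * star u.1) * (u.1 * (P.1 + R.1).map σ * star u.1) := by
          rw [conj_mul_conj, map_mul_mat]
      _ = (P.1 + Q.1) * (P.1 + R.1) := by rw [hpair P Q h1 h5, hpair P R h3 h7]
      _ = P.1 := e1
  obtain ⟨e1, e2⟩ := H472.fix_letters hs h2 h6 (by omega) u σ key
  exact ⟨fun x => by rw [e1]; rfl, e2⟩

end

end Vale.Agent.P240.R2.H275
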