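import Vale.Agent.P240.R2.H401.EDefs
import Vale.Agent.P240.R2.H275.EvA
import Vale.Agent.P240.R2.H38.C2

/-!
`StmtEF`: facts on `SOm K n`, `n` even; (C4), (C5) without hypotheses.
-/

set_option autoImplicit false
set_option linter.all false

namespace Vale.Agent.P240.R2.H275

open Matrix Vale.Agent.P240.R2.AS Vale.Agent.P240.R2.H38
open Vale.Agent.P240.R2.H296.O (SOm)
open Vale.Agent.P240.R2.H401.E
open scoped Classical

universe u v

theorem stmtEF : StmtEF.{u} := by
  intro K _ _ _ m hK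
  have h2 : (2 : K) ≠ 0 := H221.two_ne hK.odd
  have hne : Even (m + 1) := hK.modd.add_one
  have hm := hK.hm
  have h5 : 5 < Fintype.card K := by
    have := hK.card
    rw [Nat.card_eq_fintype_card] at this
    omega
  refine ⟨fun w hw he => ?_, fun d hd g hg => diag_mem_iff hK.st h2 hne hg,
    fun g hg => det_SOm hK.st h2 hne hg, fun σ hσ g hg => SOm_gmap σ hσ hg, fun u σ hσ _ h => ?_⟩
  · refine ⟨⟨eU (-1 : K) (sm w), even_mem hK.st h2 hw he⟩, ?_⟩
    show (eU (-1 : K) (sm w)).1 = _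
    rw [eU_val hK.st hw, sM, one_pow, one_smul]
  · exact uniqE hK.st h2 h5 (by omega) u σ h

theorem stmtC4 : H938.StmtC4.{u, v} := stmtC4_of H38.stmtC1

theorem stmtC5 : H938.StmtC5.{u, v} := stmtC5_of H38.stmtC1

end Vale.Agent.P240.R2.H275
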