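import Vale.Agent.P240.R2.H401.DDefs
import Vale.Agent.P240.R2.H145.EP
import Vale.Agent.P240.R2.H275.C45

/-!
`StmtDF`: facts on the preimage `SD` of the commutator subgroup of `O(V) / {1, -1}`, form
`diag(1, .., 1, d)`, `n = m + 1` even.
-/

set_option autoImplicit false
set_option linter.all false

namespace Vale.Agent.P240.R2.H275

open Matrix
open Vale.Agent.P240.R2.H145.EO
open Vale.Agent.P240.R2.H401.D
open scoped Classical

universe u

section DF

variable {K : Type u} [Field K]

lemma fd_ne {m : ℕ} {d : K} (hd : d ≠ 0) (i : Fin (m + 1)) : fd m d i ≠ 0 := by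
  unfold fd
  split_ifs
  · exact hd
  · exact one_ne_zero

lemma fd_one {m : ℕ} {d : K} (i : Fin (m + 1)) (hi : i.val + 1 < m + 1) : fd m d i = 1 := by
  unfold fd
  rw [if_neg]
  intro h
  rw [h, Fin.val_last] at hi
  omega

lemma four_lin {n : ℕ} (hn : 5 ≤ n) (a b c d : Fin n → K) :
    ∃ w : Fin n → K, w ≠ 0 ∧ a ⬝ᵥ w = 0 ∧ b ⬝ᵥ w = 0 ∧ c ⬝ᵥ w = 0 ∧ d ⬝ᵥ w = 0 := by
  let A : Matrix (Fin 4) (Fin n) K := Matrix.of ![a, b, c, d]
  have h1 : LinearMap.ker A.mulVecLin ≠ ⊥ := by
    apply LinearMap.ker_ne_bot_of_finrank_lt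
    rw [Module.finrank_fin_fun, Module.finrank_fin_fun]
    omega
  obtain ⟨w, hw, hw0⟩ := Submodule.exists_mem_ne_zero_of_ne_bot h1
  rw [LinearMap.mem_ker, Matrix.mulVecLin_apply] at hw
  exact ⟨w, hw0, congrFun hw 0, congrFun hw 1, congrFun hw 2, congrFun hw 3⟩

lemma SD_eq {n : ℕ} (a : Fin n → K) : SD a = SOD a := rfl

lemma ac_diag {n : ℕ} {c : Fin n → K} {g : GL (Fin n) K} (hg : g.1 = diagonal c)
    (x : Fin n → K) : ac g x = fun i => c i * x i := by
  unfold ac
  rw [hg]
  funext i
  exact mulVec_diagonal c x i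

lemma diag_OD {n : ℕ} {a c : Fin n → K} (hc : ∀ i, c i ^ 2 = 1) {g : GL (Fin n) K}
    (hg : g.1 = diagonal c) : g ∈ OD a := by
  intro x y
  rw [ac_diag hg, ac_diag hg]
  unfold B
  refine Finset.sum_congr rfl fun i _ => ?_
  linear_combination (a i * x i * y i) * hc i

lemma scal_mem {n : ℕ} {a : Fin n → K} {g : GL (Fin n) K} (hg : g ∈ OD a) {l : K}
    (hl : g.1 = l • (1 : Matrix (Fin n) (Fin n) K)) : g ∈ SD a := by
  rw [SD_eq, mem_SOD]
  refine ⟨hg, ?_⟩
  have h1 : (QuotientGroup.mk (⟨g, hg⟩ : OD a) : PO a) = 1 := by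
    rw [QuotientGroup.eq_one_iff, Subgroup.mem_center_iff]
    intro k
    apply Subtype.ext
    apply Units.ext
    show k.1.1 * g.1 = g.1 * k.1.1
    rw [hl, mul_smul_comm, smul_mul_assoc, mul_one, one_mul]
  rw [h1]
  exact one_mem _

/-- the product of the reflections in two unit vectors of the standard basis -/
lemma pair_mem {n : ℕ} {a : Fin n → K} (h2 : (2 : K) ≠ 0) {i j : Fin n} (hij : i ≠ j)
    (hi : a i = 1) (hj : a j = 1) :
    ∃ s ∈ SD a, s.1 = diagonal (fun k => if k = i ∨ k = j then (-1 : K) else 1) := by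
  have h1 : ∀ i : Fin n, a i = 1 → B a (Pi.single i 1) (Pi.single i 1) = 1 := by
    intro i hi
    rw [B_single, hi, Pi.single_eq_same]; ring
  have hi0 : B a (Pi.single i 1) (Pi.single i 1) ≠ 0 := by rw [h1 i hi]; exact one_ne_zero
  have hj0 : B a (Pi.single j 1) (Pi.single j 1) ≠ 0 := by rw [h1 j hj]; exact one_ne_zero
  refine ⟨rf a _ hi0 * rf a _ hj0, SOD_big h2 _ _ _ _ (by rw [h1 i hi, h1 j hj]), ?_⟩
  apply Matrix.ext_of_mulVec_single
  intro t
  have e1 : (rf a _ hi0 * rf a _ hj0).1 *ᵥ Pi.single t 1 =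
      ac (rf a _ hi0) (ac (rf a _ hj0) (Pi.single t 1)) := by
    rw [← ac_mul]; rfl
  rw [e1, ac_rf, ac_rf, h1 i hi, h1 j hj, B_single, B_single, hi, hj]
  funext k
  rw [mulVec_diagonal]
  simp only [Pi.sub_apply, Pi.smul_apply, smul_eq_mul, Pi.single_apply]
  by_cases hki : k = i
  · subst hki
    by_cases htk : k = t
    · subst htk
      simp [hij, hij.symm]
      ring
    · simp [hij, hij.symm, htk]
  · by_cases hkj : k = j
    · subst hkj
      by_cases htk : k = t
      · subst htk
        simp [hij, hij.symm, hki]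
        ring
      · simp [hij, hij.symm, htk, hki]
    · simp [hki, hkj]

lemma diag_aux {m : ℕ} {d : K} (h2 : (2 : K) ≠ 0) : ∀ (k : ℕ) (c : Fin (m + 1) → K),
    (∀ i, c i ^ 2 = 1) → c (Fin.last m) = 1 → (Finset.univ.filter (fun i => c i ≠ 1)).card ≤ k →
    ∏ i, c i = 1 → ∀ g : GL (Fin (m + 1)) K, g.1 = diagonal c → g ∈ SD (fd m d) := by
  intro k
  induction k with
  | zero =>
    intro c hc hl hk hp g hg
    have h1 : ∀ i, c i = 1 := by
      intro i
      by_contra h
      have h3 : i ∈ Finset.univ.filter (fun i => c i ≠ 1) := by simp [h]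
      rw [Finset.card_eq_zero.1 (Nat.le_zero.1 hk)] at h3
      exact absurd h3 (Finset.notMem_empty _)
    have h3 : g = 1 := by
      apply Units.ext
      rw [hg, funext h1]
      exact diagonal_one
    rw [h3]
    exact one_mem _
  | succ k ih =>
    intro c hc hl hk hp g hg
    by_cases h : ∃ i, c i ≠ 1
    · obtain ⟨i, hi⟩ := h
      obtain ⟨j, hji, hj⟩ : ∃ j, j ≠ i ∧ c j ≠ 1 := by
        by_contra hne
        push Not at hne
        rw [Finset.prod_eq_single i (fun j _ hj => hne j hj)
          (fun h => absurd (Finset.mem_univ _) h)] at hp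
        exact hi hp
      have hm : ∀ i, c i ≠ 1 → c i = -1 := by
        intro i hi
        have h3 : (c i - 1) * (c i + 1) = 0 := by linear_combination hc i
        exact eq_neg_of_add_eq_zero_left ((mul_eq_zero.1 h3).resolve_left (sub_ne_zero.2 hi))
      have hlast : ∀ i, c i ≠ 1 → fd m d i = 1 := by
        intro i hi
        unfold fd
        rw [if_neg]
        rintro rfl
        exact hi hl
      obtain ⟨s, hs, hs1⟩ := pair_mem (a := fd m d) h2 hji.symm (hlast i hi) (hlast j hj)
      let c' : Fin (m + 1) → K := fun k => if k = i ∨ k = j then 1 else c k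
      have hsc : ∀ k, (if k = i ∨ k = j then (-1 : K) else 1) * c k = c' k := by
        intro k
        show _ = if k = i ∨ k = j then 1 else c k
        split_ifs with h4
        · rcases h4 with h4 | h4
          · rw [h4, hm i hi]; ring
          · rw [h4, hm j hj]; ring
        · rw [one_mul]
      have h3 : s * g ∈ SD (fd m d) := by
        refine ih c' ?_ ?_ ?_ ?_ (s * g) ?_
        · intro k
          show (if k = i ∨ k = j then 1 else c k) ^ 2 = 1
          split_ifs
          · exact one_pow _
          · exact hc k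
        · show (if Fin.last m = i ∨ Fin.last m = j then 1 else c (Fin.last m)) = 1
          split_ifs
          · rfl
          · exact hl
        · have h4 : Finset.univ.filter (fun k => c' k ≠ 1) ⊂ Finset.univ.filter (fun k => c k ≠ 1) := by
            rw [Finset.ssubset_iff_of_subset]
            · refine ⟨i, by simp [hi], by simp [c']⟩
            · intro k hk
              simp only [Finset.mem_filter, Finset.mem_univ, true_and, c'] at hk ⊢
              intro h5
              apply hk
              split_ifs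
              · rfl
              · exact h5
          have h5 := Finset.card_lt_card h4
          omega
        · rw [← Finset.prod_congr rfl (fun k _ => hsc k), Finset.prod_mul_distrib, hp, mul_one]
          rw [Finset.prod_eq_mul i j hji.symm]
          · simp
          · intro k _ hk
            rw [if_neg]
            rintro (h6 | h6)
            · exact hk.1 h6
            · exact hk.2 h6
          · intro h; exact absurd (Finset.mem_univ _) h
          · intro h; exact absurd (Finset.mem_univ _) h
        · show s.1 * g.1 = _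
          rw [hs1, hg, diagonal_mul_diagonal]
          congr 1
          funext k
          exact hsc k
      have h4 : g = s⁻¹ * (s * g) := by group
      rw [h4]
      exact mul_mem (inv_mem hs) h3
    · push Not at h
      refine ih c hc hl ?_ hp g hg
      have h4 : Finset.univ.filter (fun i => c i ≠ 1) = ∅ := by
        rw [Finset.filter_eq_empty_iff]
        intro i _
        rw [not_not]
        exact h i
      rw [h4]
      simp

/-- the determinant is `1` on `SD a`, `n` even -/
theorem det_SD [Fintype K] {n : ℕ} {a : Fin n → K} (h2 : (2 : K) ≠ 0) (h5 : 5 < Fintype.card K)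
    (hn : 3 ≤ n) (hne : Even n) (ha : ∀ i, a i ≠ 0) (ha1 : ∀ i : Fin n, i.val + 1 < n → a i = 1)
    {g : GL (Fin n) K} (hg : g ∈ SD a) : g.1.det = 1 := by
  let D : ↥(OD a) →* Kˣ := (Matrix.GeneralLinearGroup.det).comp (OD a).subtype
  have h1 : Subgroup.center ↥(OD a) ≤ D.ker := by
    intro z hz
    obtain ⟨l, hl⟩ := (mem_center h2 h5 hn ha ha1 z).1 hz
    rw [MonoidHom.mem_ker]
    apply Units.ext
    show z.1.1.det = 1
    have i0 : Fin n := ⟨0, by omega⟩
    have h4 := OD_B z.2 (Pi.single i0 1) (Pi.single i0 1)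
    have h6 : ac z.1 (Pi.single i0 1) = l • Pi.single i0 1 := by
      unfold ac
      rw [hl, smul_mulVec, one_mulVec]
    rw [h6, B_smul_left, B_smul_right, B_single, Pi.single_eq_same] at h4
    have h7 : l * l = 1 := by
      have h8 : a i0 * (l * l - 1) = 0 := by linear_combination h4
      exact sub_eq_zero.1 ((mul_eq_zero.1 h8).resolve_left (ha i0))
    rw [hl, det_smul, det_one, Fintype.card_fin, mul_one]
    obtain ⟨k, hk⟩ := hne
    rw [hk, ← two_mul, pow_mul, pow_two, h7, one_pow]
  let f : PO a →* Kˣ := QuotientGroup.lift _ D h1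
  have h3 := Abelianization.commutator_subset_ker f
  obtain ⟨hO, h4⟩ := mem_SOD.1 hg
  have h6 := h3 h4
  rw [MonoidHom.mem_ker] at h6
  have h7 : D ⟨g, hO⟩ = 1 := h6
  exact congrArg Units.val h7

/-- an isometry that commutes with `SD a` up to scalars is a scalar -/
theorem uniqD [Fintype K] {n : ℕ} {a : Fin n → K} (h2 : (2 : K) ≠ 0) (h5 : 5 < Fintype.card K)
    (hn : 5 ≤ n) (ha : ∀ i, a i ≠ 0) (ha1 : ∀ i : Fin n, i.val + 1 < n → a i = 1)
    {u : GL (Fin n) K} (hu : u ∈ OD a)
    (h : ∀ k ∈ SD a, ∃ l : K, u.1 * k.1 = l • (k.1 * u.1)) :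
    ∃ l : K, u.1 = l • (1 : Matrix (Fin n) (Fin n) K) := by
  have key : ∀ y z : Fin n → K, B a y y = 1 → B a z z = 1 → B a y z = 0 →
      ac u y = B a y (ac u y) • y + B a z (ac u y) • z := by
    intro y z hy hz hyz
    have hy0 : B a y y ≠ 0 := by rw [hy]; exact one_ne_zero
    have hz0 : B a z z ≠ 0 := by rw [hz]; exact one_ne_zero
    have huy : B a (ac u y) (ac u y) = 1 := by rw [OD_B hu, hy]
    have huz : B a (ac u z) (ac u z) = 1 := by rw [OD_B hu, hz]
    have huyz : B a (ac u y) (ac u z) = 0 := by rw [OD_B hu, hyz]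
    have huy0 : B a (ac u y) (ac u y) ≠ 0 := by rw [huy]; exact one_ne_zero
    have huz0 : B a (ac u z) (ac u z) ≠ 0 := by rw [huz]; exact one_ne_zero
    obtain ⟨l, hl⟩ := h (rf a y hy0 * rf a z hz0) (SOD_big h2 _ _ _ _ (by rw [hy, hz]))
    -- u k = l k u, as maps
    have hk : ∀ v, ac (rf a y hy0 * rf a z hz0) v = v - (2 * B a z v) • z - (2 * B a y v) • y := by
      intro v
      rw [ac_mul, ac_rf, ac_rf, hy, hz, div_one, div_one, B_sub_right, B_smul_right, hyz, mul_zero,
        sub_zero]
    have hk' : ∀ v, ac (rf a _ huy0 * rf a _ huz0) v =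
        v - (2 * B a (ac u z) v) • ac u z - (2 * B a (ac u y) v) • ac u y := by
      intro v
      rw [ac_mul, ac_rf, ac_rf, huy, huz, div_one, div_one, B_sub_right, B_smul_right, huyz,
        mul_zero, sub_zero]
    have hconj : u * (rf a y hy0 * rf a z hz0) = (rf a _ huy0 * rf a _ huz0) * u := by
      rw [← rf_conj hu hy0 huy0 (Or.inl rfl), ← rf_conj hu hz0 huz0 (Or.inl rfl)]
      group
    have hl' : ∀ v, ac (rf a _ huy0 * rf a _ huz0) v = l • ac (rf a y hy0 * rf a z hz0) v := by
      intro v
      have e1 : (rf a _ huy0 * rf a _ huz0).1 = l • (rf a y hy0 * rf a z hz0).1 := by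
        have e2 : (rf a _ huy0 * rf a _ huz0).1 * u.1 = l • ((rf a y hy0 * rf a z hz0).1 * u.1) := by
          rw [← hl]
          exact (congrArg Units.val hconj).symm
        have e3 := congrArg (fun M => M * (u⁻¹).1) e2
        simp only [smul_mul_assoc] at e3
        rwa [_root_.mul_assoc, _root_.mul_assoc, Units.mul_inv, mul_one, mul_one] at e3
      have e4 := congrArg (fun M => M *ᵥ v) e1
      simp only [smul_mulVec] at e4
      exact e4
    obtain ⟨v, hv0, hv1, hv2, hv3, hv4⟩ := four_lin hn (a * y) (a * z) (a * ac u y) (a * ac u z)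
    have hl1 : l = 1 := by
      have e1 := hl' v
      have f1 : B a y v = 0 := hv1
      have f2 : B a z v = 0 := hv2
      have f3 : B a (ac u y) v = 0 := hv3
      have f4 : B a (ac u z) v = 0 := hv4
      rw [hk, hk', f1, f2, f3, f4, mul_zero, zero_smul, zero_smul, zero_smul, zero_smul, sub_zero,
        sub_zero] at e1
      have e2 : (l - 1) • v = 0 := by
        rw [sub_smul, one_smul, ← e1, sub_self]
      rcases smul_eq_zero.1 e2 with e3 | e3
      · exact sub_eq_zero.1 e3
      · exact absurd e3 hv0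
    have e1 := hl' (ac u y)
    rw [hl1, one_smul, hk, hk', B_comm (ac u z) (ac u y), huyz, huy, mul_zero, zero_smul, sub_zero,
      mul_one] at e1
    have e2 : (2 : K) • ac u y = (2 : K) • (B a y (ac u y) • y + B a z (ac u y) • z) := by
      have e3 : (2 : K) • ac u y = ac u y - (ac u y - (2 : K) • ac u y) := by module
      rw [e3, e1]
      module
    exact smul_right_injective _ h2 e2
  obtain ⟨l, hl⟩ := scal h2 h5 (by omega) ha ha1 hu (fun y hy => by
    have hx1 : ON a (fun _ : Fin 1 => y) := by
      intro i j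
      rw [hy, if_pos (Subsingleton.elim i j)]
    obtain ⟨z, hz1, hz2⟩ := perp1 h2 ha ha1 (k := 1) (by omega) hx1 (one_ne_zero (α := K))
    have hyz : B a y z = 0 := hz1 0
    have hx2 := hx1.snoc hz1 hz2
    obtain ⟨w, hw1, hw2⟩ := perp1 h2 ha ha1 (k := 2) (by omega) hx2 (one_ne_zero (α := K))
    have hyw : B a y w = 0 := by
      have := hw1 (Fin.castSucc 0)
      rwa [Fin.snoc_castSucc] at this
    have hzw : B a z w = 0 := by
      have := hw1 (Fin.last 1)
      rwa [Fin.snoc_last] at this
    have k1 := key y z hy hz2 hyz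
    have k2 := key y w hy hw2 hyw
    set c := B a y (ac u y) with hc
    have hzu : B a z (ac u y) = 0 := by
      rw [k2, B_add_right, B_smul_right, B_smul_right, hzw, B_comm z y, hyz, mul_zero, mul_zero,
        add_zero]
    rw [hzu, zero_smul, add_zero] at k1
    have h7 : c * c = 1 := by
      have h8 := OD_B hu y y
      rw [k1, B_smul_left, B_smul_right, hy, mul_one] at h8
      exact h8
    have h8 : (c - 1) * (c + 1) = 0 := by linear_combination h7
    rcases mul_eq_zero.1 h8 with h9 | h9
    · left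
      rw [sub_eq_zero.1 h9, one_smul] at k1
      exact k1
    · right
      rw [eq_neg_of_add_eq_zero_left h9, neg_smul, one_smul] at k1
      exact k1)
  refine ⟨l, ?_⟩
  apply Matrix.ext_of_mulVec_single
  intro i
  rw [smul_mulVec, one_mulVec]
  exact hl _

end DF

theorem stmtDF : StmtDF.{u} := by
  intro K _ _ m d hK
  have h2 : (2 : K) ≠ 0 := H221.two_ne hK.odd
  have hd : d ≠ 0 := by
    rintro rfl
    exact hK.ns ⟨0, by ring⟩
  have hne : Even (m + 1) := hK.modd.add_one
  have hm := hK.hm
  have h5 : 5 < Fintype.card K := by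
    have := hK.card
    rw [Nat.card_eq_fintype_card] at this
    omega
  have hdet : ∀ g ∈ SD (fd m d), g.1.det = 1 := fun g hg =>
    det_SD h2 h5 (by omega) hne (fd_ne hd) fd_one hg
  refine ⟨SOD_big h2, fun c hc g hg => ⟨diag_OD hc hg, fun h => ?_, fun h => ?_⟩, hdet,
    fun u hu h => uniqD h2 h5 (by omega) (fd_ne hd) fd_one hu h⟩
  · have h1 := hdet g h
    rwa [hg, det_diagonal] at h1
  · by_cases hl : c (Fin.last m) = 1
    · exact diag_aux h2 _ c hc hl le_rfl h g hg
    · have hl' : c (Fin.last m) = -1 := by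
        have h3 : (c (Fin.last m) - 1) * (c (Fin.last m) + 1) = 0 := by
          linear_combination hc (Fin.last m)
        exact eq_neg_of_add_eq_zero_left ((mul_eq_zero.1 h3).resolve_left (sub_ne_zero.2 hl))
      have hmO : (-1 : GL (Fin (m + 1)) K) ∈ SD (fd m d) := by
        have h3 : (-1 : GL (Fin (m + 1)) K).1 = diagonal (fun _ => (-1 : K)) := by
          show -(1 : Matrix (Fin (m + 1)) (Fin (m + 1)) K) = _
          rw [← diagonal_one, diagonal_neg]
        refine scal_mem (diag_OD (fun _ => by ring) h3) (l := -1) ?_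
        show -(1 : Matrix (Fin (m + 1)) (Fin (m + 1)) K) = _
        rw [neg_one_smul]
      have h4 : -g ∈ SD (fd m d) := by
        refine diag_aux h2 _ (fun i => -c i) (fun i => by rw [neg_sq]; exact hc i)
          (by show -c (Fin.last m) = 1; rw [hl', neg_neg]) le_rfl ?_ (-g) ?_
        · rw [Finset.prod_neg, h, Finset.card_univ, Fintype.card_fin, hne.neg_one_pow, mul_one]
        · show -g.1 = _
          rw [hg, diagonal_neg]
      have h6 : g = (-1) * (-g) := by rw [neg_mul_neg, one_mul]
      rw [h6]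
      exact mul_mem hmO h4

end Vale.Agent.P240.R2.H275
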