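import Vale.Agent.P240.R2.H275.M4c

/-!
# M4c, second part: the order of the group of a frame
-/

set_option autoImplicit false
set_option linter.all false

namespace Vale.Agent.P240.R2.H275

open Finset Matrix
open Vale.Agent.P240.R2.AS
open scoped Classical

universe u

noncomputable section

variable {K : Type u} [Field K] [Fintype K] [StarRing K] {n : ℕ}

lemma get_mul {w : List (Ln K n)} (hw : Orth w) (i j : Fin w.length) :
    (w.get i).1 * (w.get j).1 = if i = j then (w.get i).1 else 0 := by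
  by_cases hij : i = j
  · subst hij
    rw [if_pos rfl, Ln_idem]
  · rw [if_neg hij]
    rcases lt_or_gt_of_ne hij with h1 | h1
    · exact List.pairwise_iff_get.1 hw i j h1
    · exact Ln_symm (List.pairwise_iff_get.1 hw j i h1)

/-- diagonal matrices in the frame `w` -/
def dg (w : List (Ln K n)) (a : Fin w.length → K) : Matrix (Fin n) (Fin n) K :=
  ∑ i, a i • (w.get i).1

lemma dg_mul {w : List (Ln K n)} (hw : Orth w) (a b : Fin w.length → K) :
    dg w a * dg w b = dg w (a * b) := by
  unfold dg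
  rw [Finset.sum_mul]
  refine Finset.sum_congr rfl fun i _ => ?_
  rw [Finset.mul_sum, Finset.sum_eq_single i]
  · rw [smul_mul_smul_comm, Ln_idem]; rfl
  · intro j _ hj
    rw [smul_mul_smul_comm, get_mul hw, if_neg (Ne.symm hj), smul_zero]
  · intro h; exact absurd (Finset.mem_univ i) h

lemma dg_star (w : List (Ln K n)) (a : Fin w.length → K) : star (dg w a) = dg w (star a) := by
  unfold dg
  rw [star_sum]
  refine Finset.sum_congr rfl fun i _ => ?_
  rw [star_smul, Ln_star]; rfl

lemma dg_one {w : List (Ln K n)} (hw : Orth w) (hl : w.length = n) : dg w 1 = 1 := by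
  rw [← o_one hw hl, sm, ← Fin.sum_univ_fun_getElem]
  unfold dg
  exact Finset.sum_congr rfl fun i _ => by rw [Pi.one_apply, one_smul]; rfl

lemma dg_mul_get {w : List (Ln K n)} (hw : Orth w) (a : Fin w.length → K) (i : Fin w.length) :
    dg w a * (w.get i).1 = a i • (w.get i).1 := by
  unfold dg
  rw [Finset.sum_mul, Finset.sum_eq_single i]
  · rw [smul_mul_assoc, Ln_idem]
  · intro j _ hj
    rw [smul_mul_assoc, get_mul hw, if_neg hj, smul_zero]
  · intro h; exact absurd (Finset.mem_univ i) h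

/-- units of norm one -/
def NU (K : Type u) [Field K] [StarRing K] : Subgroup Kˣ where
  carrier := {c | (c : K) * star (c : K) = 1}
  mul_mem' := by
    intro a b ha hb
    simp only [Set.mem_setOf_eq, Units.val_mul, star_mul'] at *
    calc (a : K) * b * (star (a : K) * star (b : K)) =
        ((a : K) * star (a : K)) * ((b : K) * star (b : K)) := by ring
      _ = 1 := by rw [ha, hb, one_mul]
  one_mem' := by simp
  inv_mem' := by
    intro a ha
    simp only [Set.mem_setOf_eq, Units.val_inv_eq_inv_val] at *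
    rw [star_inv₀, ← mul_inv, ha, inv_one]

/-- the homomorphism to the unitary group -/
def dhom {w : List (Ln K n)} (hw : Orth w) (hl : w.length = n) :
    (Fin w.length → NU K) →* GU K n where
  toFun a := ⟨dg w (fun i => ((a i : Kˣ) : K)), by
    rw [mem_unitaryGroup_iff, dg_star, dg_mul hw, ← dg_one hw hl]
    congr 1
    funext i
    exact (a i).2⟩
  map_one' := by
    apply Subtype.ext
    exact dg_one hw hl
  map_mul' a b := by
    apply Subtype.ext
    rw [UnitaryGroup.mul_val]
    simp only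
    rw [dg_mul hw]
    rfl

variable {ζ : K}

/-- `ζ` as a unit of norm one -/
def zN (hζ : ζ * star ζ = 1) : NU K :=
  ⟨Units.mk0 ζ (by rintro rfl; simp at hζ), hζ⟩

lemma zN_coe (hζ : ζ * star ζ = 1) : ((zN hζ : Kˣ) : K) = ζ := rfl

lemma orderOf_zN (h1 : ζ ≠ 1) (hζ : ζ * star ζ = 1) {p : ℕ} [Fact p.Prime] (hp : ζ ^ p = 1) :
    orderOf (zN hζ) = p := by
  apply orderOf_eq_prime
  · apply Subtype.ext
    apply Units.ext
    rw [SubmonoidClass.coe_pow, Units.val_pow_eq_pow_val, zN_coe, hp]
    rfl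
  · intro h
    apply h1
    have := congrArg (fun x : NU K => ((x : Kˣ) : K)) h
    exact this

/-- the homomorphism to `PGU` -/
def phom (hζ : ζ * star ζ = 1) {w : List (Ln K n)} (hw : Orth w) (hl : w.length = n) :
    (Fin w.length → Subgroup.zpowers (zN hζ)) →* PGU K n :=
  (QuotientGroup.mk' (Subgroup.center (GU K n))).comp
    ((dhom hw hl).comp (Pi.monoidHom fun i =>
      (Subgroup.zpowers (zN hζ)).subtype.comp (Pi.evalMonoidHom _ i)))

lemma phom_apply (hζ : ζ * star ζ = 1) {w : List (Ln K n)} (hw : Orth w) (hl : w.length = n)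
    (a : Fin w.length → Subgroup.zpowers (zN hζ)) :
    phom hζ hw hl a = QuotientGroup.mk (dhom hw hl (fun i => (a i : NU K))) := rfl

lemma phom_single (hζ : ζ * star ζ = 1) {w : List (Ln K n)} (hw : Orth w) (hl : w.length = n)
    (i : Fin w.length) :
    phom hζ hw hl (Pi.mulSingle i ⟨zN hζ, Subgroup.mem_zpowers _⟩) = eW ζ [w.get i] := by
  rw [phom_apply]
  unfold eW
  congr 1
  apply Subtype.ext
  have hP : IsP (sm [w.get i]) := o_isP (List.pairwise_singleton _ _)
  rw [eU_coe hζ hP, ← dg_one hw hl]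
  show dg w _ = _
  unfold dg
  rw [sm_cons, sm_nil, add_zero]
  have : (ζ - 1) • (w.get i).1 = ∑ j, (if j = i then (ζ - 1) else 0) • (w.get j).1 := by
    rw [Finset.sum_eq_single i]
    · simp
    · intro j _ hj; rw [if_neg hj, zero_smul]
    · intro h; exact absurd (Finset.mem_univ i) h
  rw [this, ← Finset.sum_add_distrib]
  refine Finset.sum_congr rfl fun j _ => ?_
  rw [← add_smul]
  congr 1
  by_cases hj : j = i
  · subst hj
    beta_reduce
    rw [Pi.mulSingle_eq_same, if_pos rfl]
    show ζ = 1 + (ζ - 1)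
    ring
  · beta_reduce
    rw [Pi.mulSingle_eq_of_ne hj, if_neg hj]
    show (1 : K) = 1 + 0
    ring

lemma range_phom (hζ : ζ * star ζ = 1) {w : List (Ln K n)} (hw : Orth w) (hl : w.length = n) :
    (phom hζ hw hl).range = SS (eW ζ) w := by
  apply le_antisymm
  · rw [MonoidHom.range_eq_map, Subgroup.map_le_iff_le_comap]
    intro a _
    rw [← Finset.univ_prod_mulSingle a]
    refine Subgroup.prod_mem _ fun i _ => ?_
    obtain ⟨k, hk⟩ := Subgroup.mem_zpowers_iff.1 (a i).2
    have e : a i = (⟨zN hζ, Subgroup.mem_zpowers _⟩ : Subgroup.zpowers (zN hζ)) ^ k := by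
      apply Subtype.ext
      rw [← hk]
      simp
    rw [e, Pi.mulSingle_zpow]
    refine Subgroup.zpow_mem _ ?_ k
    rw [Subgroup.mem_comap, phom_single]
    exact Subgroup.subset_closure ⟨_, List.get_mem _ _, rfl⟩
  · unfold SS
    rw [Subgroup.closure_le]
    rintro y ⟨x, hx, rfl⟩
    obtain ⟨i, rfl⟩ := List.get_of_mem hx
    exact ⟨_, phom_single hζ hw hl i⟩

lemma card_SS (h1 : ζ ≠ 1) (hζ : ζ * star ζ = 1) {p : ℕ} [Fact p.Prime] (hp : ζ ^ p = 1)
    {w : List (Ln K n)} (hw : Orth w) (hl : w.length = n) (hn : 1 ≤ n) :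
    Nat.card (SS (eW ζ) w) = p ^ (n - 1) := by
  have hc : Nat.card (Subgroup.zpowers (zN hζ)) = p := by
    rw [Nat.card_zpowers, orderOf_zN h1 hζ hp]
  have hi0 : 0 < w.length := by omega
  set i0 : Fin w.length := ⟨0, hi0⟩
  have hker : ∀ a, a ∈ (phom hζ hw hl).ker ↔ ∀ i, a i = a i0 := by
    intro a
    rw [MonoidHom.mem_ker, phom_apply, mk_one_iff h1 hζ]
    constructor
    · rintro ⟨c, hcc⟩
      have hall : ∀ i, (((a i : NU K) : Kˣ) : K) = c := by
        intro i
        have h2 := dg_mul_get hw (fun i => (((a i : NU K) : Kˣ) : K)) i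
        have h3 : dg w (fun i => (((a i : NU K) : Kˣ) : K)) = c • 1 := hcc
        rw [h3, smul_mul_assoc, one_mul] at h2
        exact (smul_left_injective K (Ln_ne (w.get i)) h2).symm
      intro i
      apply Subtype.ext
      apply Subtype.ext
      apply Units.ext
      rw [hall i, hall i0]
    · intro h
      refine ⟨(((a i0 : NU K) : Kˣ) : K), ?_⟩
      show dg w _ = _
      rw [← dg_one hw hl]
      unfold dg
      rw [Finset.smul_sum]
      refine Finset.sum_congr rfl fun i _ => ?_
      have e : (((a i : NU K) : Kˣ) : K) = (((a i0 : NU K) : Kˣ) : K) := by rw [h i]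
      show (((a i : NU K) : Kˣ) : K) • (w.get i).1 =
        (((a i0 : NU K) : Kˣ) : K) • ((1 : K) • (w.get i).1)
      rw [one_smul, e]
  have hk : Nat.card (phom hζ hw hl).ker = p := by
    rw [← hc]
    refine Nat.card_congr ⟨fun a => a.1 i0, fun z => ⟨fun _ => z, (hker _).2 fun _ => rfl⟩, ?_, ?_⟩
    · rintro ⟨a, ha⟩
      apply Subtype.ext
      funext i
      exact ((hker a).1 ha i).symm
    · intro z; rfl
  have hq : Nat.card (Fin w.length → Subgroup.zpowers (zN hζ)) = p ^ n := by
    rw [Nat.card_pi]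
    simp only [hc, Finset.prod_const, Finset.card_univ, Fintype.card_fin, hl]
  have hm : Nat.card (phom hζ hw hl).range * p = p ^ n := by
    have h3 := Subgroup.card_eq_card_quotient_mul_card_subgroup (phom hζ hw hl).ker
    rw [hq, hk, Nat.card_congr (QuotientGroup.quotientKerEquivRange (phom hζ hw hl)).toEquiv] at h3
    exact h3.symm
  rw [← range_phom hζ hw hl]
  have hp0 : 0 < p := (Fact.out : p.Prime).pos
  apply Nat.eq_of_mul_eq_mul_right hp0
  rw [hm, ← pow_succ]
  congr 1
  omega

/-- matrices which act by scalars on the images of `U` and `V` -/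
def Sc (U V : Matrix (Fin n) (Fin n) K) : Subgroup (GU K n) where
  carrier := {g | ∃ a b : Kˣ, (g : Matrix (Fin n) (Fin n) K) * U = (a : K) • U ∧
    (g : Matrix (Fin n) (Fin n) K) * V = (b : K) • V}
  one_mem' := ⟨1, 1, by simp, by simp⟩
  mul_mem' := by
    rintro g h ⟨a, b, h1, h2⟩ ⟨c, d, h3, h4⟩
    refine ⟨a * c, b * d, ?_, ?_⟩
    · rw [UnitaryGroup.mul_val, Matrix.mul_assoc, h3, Matrix.mul_smul, h1, smul_smul,
        Units.val_mul, mul_comm]
    · rw [UnitaryGroup.mul_val, Matrix.mul_assoc, h4, Matrix.mul_smul, h2, smul_smul,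
        Units.val_mul, mul_comm]
  inv_mem' := by
    rintro g ⟨a, b, h1, h2⟩
    have key : ∀ (c : Kˣ) (W : Matrix (Fin n) (Fin n) K),
        (g : Matrix (Fin n) (Fin n) K) * W = (c : K) • W →
        ((g⁻¹ : GU K n) : Matrix (Fin n) (Fin n) K) * W = ((c⁻¹ : Kˣ) : K) • W := by
      intro c W hW
      have e1 : ((g⁻¹ : GU K n) : Matrix (Fin n) (Fin n) K) * (g : Matrix (Fin n) (Fin n) K) = 1 := by
        rw [← UnitaryGroup.mul_val, inv_mul_cancel]; rfl
      have e2 : W = (c : K) • (((g⁻¹ : GU K n) : Matrix (Fin n) (Fin n) K) * W) := by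
        rw [← Matrix.mul_smul, ← hW, ← Matrix.mul_assoc, e1, one_mul]
      calc ((g⁻¹ : GU K n) : Matrix (Fin n) (Fin n) K) * W =
          (((c⁻¹ : Kˣ) : K) * (c : K)) • (((g⁻¹ : GU K n) : Matrix (Fin n) (Fin n) K) * W) := by
            rw [Units.inv_mul, one_smul]
        _ = ((c⁻¹ : Kˣ) : K) • W := by rw [← smul_smul, ← e2]
    exact ⟨a⁻¹, b⁻¹, key a U h1, key b V h2⟩

lemma sm_ne {u : List (Ln K n)} (h : Orth u) (hu : u ≠ []) : sm u ≠ 0 := by
  obtain ⟨x, u', rfl⟩ := List.exists_cons_of_ne_nil hu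
  intro h0
  have h1 := o_mm h (x := x) (by simp)
  rw [h0, mul_zero] at h1
  exact Ln_ne x h1.symm

lemma eq_single {u : List (Ln K n)} (h : Orth u) (hu : u ≠ []) {l : Ln K n}
    (hl : l.1 = sm u) : u = [l] := by
  have hall : ∀ x ∈ u, x = l := fun x hx => Ln_eq_of_mul (by rw [hl]; exact o_mm h hx)
  obtain ⟨x, u', rfl⟩ := List.exists_cons_of_ne_nil hu
  have hx : x = l := hall x (by simp)
  subst hx
  rcases u' with _ | ⟨y, u'⟩
  · rfl
  · exfalso
    have hy : y = x := hall y (by simp)
    have h0 := (List.pairwise_cons.1 h).1 y (by simp)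
    rw [hy, Ln_idem] at h0
    exact Ln_ne x h0

lemma sup_zp {G : Type*} [Group G] (C : Subgroup G) {x y : G} (h1 : x ∈ C ⊔ Subgroup.zpowers y)
    (h2 : y ∈ C ⊔ Subgroup.zpowers x) : C ⊔ Subgroup.zpowers x = C ⊔ Subgroup.zpowers y := by
  apply le_antisymm
  · exact sup_le le_sup_left (by rwa [Subgroup.zpowers_le])
  · exact sup_le le_sup_left (by rwa [Subgroup.zpowers_le])

lemma sep_aux (h1 : ζ ≠ 1) (hζ : ζ * star ζ = 1) {A u v B g : List (Ln K n)} {l : Ln K n}
    (hf : A ++ (u ++ v) ++ B ∈ Fr K n) (hf' : A ++ (l :: g) ++ B ∈ Fr K n) (hu : u ≠ [])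
    (hv : v ≠ []) :
    (SS (eW ζ) (A ++ B) ⊔ Subgroup.zpowers (eW ζ (A ++ u)) =
      SS (eW ζ) (A ++ B) ⊔ Subgroup.zpowers (eW ζ [l]) ↔ u = [l] ∨ v = [l]) := by
  rw [mem_Fr] at hf hf'
  obtain ⟨hlen, hO⟩ := hf
  obtain ⟨hlen', hO'⟩ := hf'
  have hA : Orth A := (o_append.1 (o_append.1 hO).1).1
  have hB : Orth B := (o_append.1 hO).2.1
  have huv : Orth (u ++ v) := (o_append.1 (o_append.1 hO).1).2.1
  have hOu : Orth u := (o_append.1 huv).1
  have hOv : Orth v := (o_append.1 huv).2.1
  have hlg : Orth (l :: g) := (o_append.1 (o_append.1 hO').1).2.1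
  have hAu : Orth (A ++ u) := by
    refine o_append.2 ⟨hA, hOu, fun x hx y hy => ?_⟩
    exact (o_append.1 (o_append.1 hO).1).2.2 x hx y (by simp [hy])
  have hO2 : Orth ((A ++ u) ++ (v ++ B)) := by simpa using hO
  have hvB : Orth (v ++ B) := (o_append.1 hO2).2.1
  have memA : eW ζ A ∈ SS (eW ζ) (A ++ B) := eW_mem_SS hζ hA fun x hx => by simp [hx]
  have memB : eW ζ B ∈ SS (eW ζ) (A ++ B) := eW_mem_SS hζ hB fun x hx => by simp [hx]
  constructor
  · intro heq
    set U := sm u with hU
    set V := sm v with hV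
    -- the group acts by scalars on `U`, `V`
    have hsub : SS (eW ζ) (A ++ B) ⊔ Subgroup.zpowers (eW ζ (A ++ u)) ≤
        (Sc U V).map (QuotientGroup.mk' (Subgroup.center (GU K n))) := by
      refine sup_le ?_ ?_
      · unfold SS
        rw [Subgroup.closure_le]
        rintro y ⟨x, hx, rfl⟩
        refine ⟨eU ζ (sm [x]), ?_, rfl⟩
        have hPx : IsP (sm [x]) := o_isP (List.pairwise_singleton _ _)
        have hx0 : ∀ y ∈ u ++ v, x.1 * y.1 = 0 := by
          intro y hy
          rcases List.mem_append.1 hx with hx' | hx'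
          · exact (o_append.1 (o_append.1 hO).1).2.2 x hx' y hy
          · exact Ln_symm ((o_append.1 hO).2.2 y (by simp only [List.mem_append] at hy ⊢; tauto) x hx')
        refine ⟨1, 1, ?_, ?_⟩
        · rw [eU_coe hζ hPx, add_mul, one_mul, smul_mul_assoc, sm_cons, sm_nil, add_zero,
            mul_sm_zero (fun y hy => hx0 y (by simp [hy]))]
          simp
        · rw [eU_coe hζ hPx, add_mul, one_mul, smul_mul_assoc, sm_cons, sm_nil, add_zero,
            mul_sm_zero (fun y hy => hx0 y (by simp [hy]))]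
          simp
      · rw [Subgroup.zpowers_le]
        refine ⟨eU ζ (sm (A ++ u)), ?_, rfl⟩
        refine ⟨(zN hζ : Kˣ), 1, ?_, ?_⟩
        · rw [eU_coe hζ (o_isP hAu), add_mul, one_mul, smul_mul_assoc, sm_append, add_mul,
            o_ss hAu, zero_add, o_idem hOu, zN_coe, sub_smul, one_smul]
          abel
        · have h0 : sm (A ++ u) * V = 0 := by
            refine sm_mul_zero fun x hx => mul_sm_zero fun y hy => ?_
            exact (o_append.1 hO2).2.2 x hx y (by simp [hy])
          rw [eU_coe hζ (o_isP hAu), add_mul, one_mul, smul_mul_assoc, h0]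
          simp
    have hmem : eW ζ [l] ∈ (Sc U V).map (QuotientGroup.mk' (Subgroup.center (GU K n))) := by
      apply hsub
      rw [heq]
      exact Subgroup.mem_sup_right (Subgroup.mem_zpowers _)
    obtain ⟨γ, ⟨a, b, ha, hb⟩, hγ⟩ := hmem
    have hγ2 : (QuotientGroup.mk (γ⁻¹ * eU ζ (sm [l])) : PGU K n) = 1 := by
      have h3 : (QuotientGroup.mk γ : PGU K n) = QuotientGroup.mk (eU ζ (sm [l])) := hγ
      rw [QuotientGroup.mk_mul, QuotientGroup.mk_inv, h3, inv_mul_cancel]
    rw [mk_one_iff h1 hζ] at hγ2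
    obtain ⟨c, hc⟩ := hγ2
    have hPl : IsP (sm [l]) := o_isP (List.pairwise_singleton _ _)
    have hel : (1 : Matrix (Fin n) (Fin n) K) + (ζ - 1) • l.1 =
        c • (γ : Matrix (Fin n) (Fin n) K) := by
      have h3 : eU ζ (sm [l]) = γ * (γ⁻¹ * eU ζ (sm [l])) := by group
      have h4 := congrArg (fun x : GU K n => (x : Matrix (Fin n) (Fin n) K)) h3
      simp only [UnitaryGroup.mul_val] at h4
      rw [UnitaryGroup.mul_val] at hc
      rw [hc, eU_coe hζ hPl, sm_cons, sm_nil, add_zero, Matrix.mul_smul, mul_one] at h4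
      exact h4
    have hz : ζ - 1 ≠ 0 := sub_ne_zero.2 h1
    have hact : ∀ (W : Matrix (Fin n) (Fin n) K) (d : K),
        (γ : Matrix (Fin n) (Fin n) K) * W = d • W → ∃ s : K, l.1 * W = s • W := by
      intro W d hd
      refine ⟨(ζ - 1)⁻¹ * (c * d - 1), ?_⟩
      have h3 := congrArg (fun M => M * W) hel
      simp only [add_mul, one_mul, smul_mul_assoc, hd] at h3
      have h4 : (ζ - 1) • (l.1 * W) = (c * d - 1) • W := by
        rw [sub_smul (c * d), one_smul, ← smul_smul, ← h3, add_sub_cancel_left]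
      rw [← smul_smul, ← h4, smul_smul, inv_mul_cancel₀ hz, one_smul]
    obtain ⟨s, hs⟩ := hact U _ ha
    obtain ⟨s', hs'⟩ := hact V _ hb
    have hidem : ∀ (W : Matrix (Fin n) (Fin n) K) (s : K), W ≠ 0 → l.1 * W = s • W →
        s = 0 ∨ s = 1 := by
      intro W s hW hs
      have h3 : l.1 * (l.1 * W) = l.1 * W := by rw [← Matrix.mul_assoc, Ln_idem]
      rw [hs, Matrix.mul_smul, hs, smul_smul] at h3
      have h4 : s * s = s := smul_left_injective K hW h3
      by_cases h0 : s = 0
      · exact Or.inl h0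
      · right
        have h5 : s * s = s * 1 := by rw [h4, mul_one]
        exact mul_left_cancel₀ h0 h5
    have hUV : l.1 * (U + V) = l.1 := by
      have h3 : sm (A ++ (u ++ v) ++ B) = sm (A ++ (l :: g) ++ B) := by
        rw [o_one hO hlen, o_one hO' hlen']
      simp only [sm_append] at h3
      have h4 : U + V = sm (l :: g) := add_left_cancel (add_right_cancel h3)
      rw [h4]
      exact o_mm hlg (by simp)
    rw [mul_add, hs, hs'] at hUV
    rcases hidem U s (sm_ne hOu hu) hs with rfl | rfl <;>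
      rcases hidem V s' (sm_ne hOv hv) hs' with rfl | rfl
    · exfalso
      rw [zero_smul, zero_smul, add_zero] at hUV
      exact Ln_ne l hUV.symm
    · right
      rw [zero_smul, one_smul, zero_add] at hUV
      exact eq_single hOv hv hUV.symm
    · left
      rw [zero_smul, one_smul, add_zero] at hUV
      exact eq_single hOu hu hUV.symm
    · exfalso
      rw [one_smul, one_smul] at hUV
      obtain ⟨x, u', rfl⟩ := List.exists_cons_of_ne_nil hu
      obtain ⟨y, v', rfl⟩ := List.exists_cons_of_ne_nil hv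
      have hx : x = l := by
        apply Ln_eq_of_mul
        rw [← hUV, mul_add, hU, o_mm hOu (by simp), hV,
          mul_sm_zero (fun z hz => (o_append.1 huv).2.2 x (by simp) z hz), add_zero]
      have hy : y = l := by
        apply Ln_eq_of_mul
        rw [← hUV, mul_add, hV, o_mm hOv (by simp), hU,
          mul_sm_zero (fun z hz => Ln_symm ((o_append.1 huv).2.2 z hz y (by simp))), zero_add]
      have h0 := (o_append.1 huv).2.2 x (by simp) y (by simp)
      rw [hx, hy, Ln_idem] at h0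
      exact Ln_ne l h0
  · rintro (rfl | rfl)
    · have e1 : eW ζ (A ++ [l]) = eW ζ A * eW ζ [l] := eW_append hζ hAu
      apply sup_zp
      · rw [e1]
        exact Subgroup.mul_mem _ (Subgroup.mem_sup_left memA)
          (Subgroup.mem_sup_right (Subgroup.mem_zpowers _))
      · have e2 : eW ζ [l] = (eW ζ A)⁻¹ * eW ζ (A ++ [l]) := by rw [e1, inv_mul_cancel_left]
        rw [e2]
        exact Subgroup.mul_mem _ (Subgroup.inv_mem _ (Subgroup.mem_sup_left memA))
          (Subgroup.mem_sup_right (Subgroup.mem_zpowers _))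
    · have e1 : eW ζ (A ++ u) * (eW ζ [l] * eW ζ B) = 1 := by
        rw [← eW_append hζ hvB, ← eW_append hζ hO2]
        refine eW_full h1 hζ hO2 ?_
        simp only [List.length_append] at hlen ⊢
        omega
      apply sup_zp
      · have e2 : eW ζ (A ++ u) = (eW ζ [l] * eW ζ B)⁻¹ := eq_inv_of_mul_eq_one_left e1
        rw [e2]
        exact Subgroup.inv_mem _ (Subgroup.mul_mem _ (Subgroup.mem_sup_right (Subgroup.mem_zpowers _))
          (Subgroup.mem_sup_left memB))
      · have e2 : eW ζ [l] = (eW ζ (A ++ u))⁻¹ * (eW ζ B)⁻¹ := by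
          calc eW ζ [l] = (eW ζ (A ++ u))⁻¹ * (eW ζ (A ++ u) * (eW ζ [l] * eW ζ B)) *
                (eW ζ B)⁻¹ := by group
            _ = (eW ζ (A ++ u))⁻¹ * (eW ζ B)⁻¹ := by rw [e1, mul_one]
        rw [e2]
        exact Subgroup.mul_mem _ (Subgroup.inv_mem _ (Subgroup.mem_sup_right (Subgroup.mem_zpowers _)))
          (Subgroup.inv_mem _ (Subgroup.mem_sup_left memB))

/-- **M4c, any star** -/
theorem comb_eW {p : ℕ} [Fact p.Prime] (hp : ζ ^ p = 1) (h1 : ζ ≠ 1) (hζ : ζ * star ζ = 1)
    (hn : 1 ≤ n) : Comb p n (Fr K n) (eW ζ) where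
  len w hw := ((mem_Fr K).1 hw).1
  nodup w hw := o_nodup ((mem_Fr K).1 hw).2
  perm w hw w' hww' := by
    rw [mem_Fr] at hw ⊢
    exact ⟨by rw [← hww'.length_eq]; exact hw.1, o_perm hw.2 hww'⟩
  plane u a b c d v w hw hw' := by
    rw [mem_Fr] at hw hw'
    have h2 := o_one hw.2 hw.1
    have h3 := o_one hw'.2 hw'.1
    have h4 : sm (u ++ a :: b :: v) = sm (u ++ c :: d :: v) := by
      rw [← h3] at h2
      simp only [sm_append, sm_cons] at h2 ⊢
      have h5 : (sm u + (a.1 + (b.1 + sm v))) + sm w = (sm u + (c.1 + (d.1 + sm v))) + sm w := by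
        simpa [add_assoc] using h2
      exact add_right_cancel h5
    unfold eW
    rw [h4]
  comm u v w hw := by
    rw [mem_Fr] at hw
    have huv : Orth (u ++ v) := by
      have : Orth ((u ++ v) ++ w) := by simpa using hw.2
      exact (o_append.1 this).1
    rw [eW_append hζ huv, mul_assoc, eW_comm hζ huv]
  pow u v hw := eW_pow hζ hp (o_append.1 ((mem_Fr K).1 hw).2).1
  nil := eW_nil hζ
  full w hw := eW_full h1 hζ ((mem_Fr K).1 hw).2 ((mem_Fr K).1 hw).1
  card w hw := by
    rw [mem_Fr] at hw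
    rw [closure_prefix hζ hw.2]
    exact card_SS h1 hζ hp hw.2 hw.1 hn
  sep A u v B l g hf hf' hu hv := sep_aux h1 hζ hf hf' hu hv

/-- **M4c** -/
theorem stmtM4c : StmtM4c.{u} := by
  intro K _ _ _ q hq hK hs p _ ζ hp h1 hζ n hn
  exact comb_eW hp h1 hζ hn

end

end Vale.Agent.P240.R2.H275
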