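import Vale.Agent.P240.R2.H296.OAsm
import Vale.Agent.P240.R2.H472.O8
import Vale.Agent.P240.R2.H387.M2a

/-!
The subgroup `SOm K n` (the preimage of `Ω_n(q)`, `n` odd, trivial star) satisfies `SGood`.
-/

set_option autoImplicit false

namespace Vale.Agent.P240.R2.H275

open Matrix Vale.Agent.P240.R2.AS Vale.Agent.P240.R2.H38
open Vale.Agent.P240.R2.H296.O (SOm)
open scoped Classical

universe u

noncomputable section

variable {K : Type u} [Field K] [StarRing K] {n : ℕ}

/-- the scalar matrix `±1` -/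
def scU (k : ℕ) : GU K n := ⟨(-1 : K) ^ k • 1, by
  rw [mem_unitaryGroup_iff, star_smul, star_pow, star_neg, star_one, star_one,
    smul_mul_smul_comm, ← mul_pow, neg_mul_neg, one_mul, one_pow, one_smul, one_mul]⟩

lemma mem_comm_of_smul (h1 : (-1 : K) ≠ 1) (h2 : (-1 : K) * star (-1) = 1) {x y : GU K n} {a : K}
    (h : x.1 = a • y.1) : (QuotientGroup.mk x : PGU K n) = QuotientGroup.mk y := by
  rw [QuotientGroup.eq, H296.mem_center_iff h1 h2]
  refine ⟨star a, ?_⟩
  show star x.1 * y.1 = _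
  rw [h, star_smul, smul_mul_assoc, mem_unitaryGroup_iff'.1 y.2]

theorem sgood_Om [Fintype K] (hs : ∀ x : K, star x = x) (ho : Odd (Nat.card K))
    (h7 : 7 ≤ Nat.card K) (hno : Odd n) (hn : 3 ≤ n) :
    SGood 2 (-1 : K) (-1) (SOm K n) := by
  have h2 : (2 : K) ≠ 0 := H221.two_ne ho
  have hm1 : (-1 : K) ≠ 1 := by
    intro h
    apply h2
    linear_combination -h
  have hm2 : (-1 : K) * star (-1) = 1 := by rw [hs]; ring
  refine ⟨hn, by ring, hm1, ?_, ?_, ?_, ?_, ?_⟩
  · intro w hw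
    have h3 := H221.stmtB3 K hs ho n hno w hw
    have hcond : star (sm w) = sm w ∧ sm w * sm w = sm w ∧ (-1 : K) * star (-1) = 1 :=
      ⟨(H221.orth_cond hw).1, (H221.orth_cond hw).2, hm2⟩
    have hval : (eU (-1 : K) (sm w)).1 = 1 + ((-1 : K) - 1) • sm w := by
      unfold eU
      rw [dif_pos hcond]
    refine ⟨⟨scU w.length * eU (-1 : K) (sm w), ?_⟩, ?_⟩
    · show (QuotientGroup.mk (scU w.length * eU (-1 : K) (sm w)) : PGU K n) ∈ commutator (PGU K n)
      have h4 : (QuotientGroup.mk (scU w.length * eU (-1 : K) (sm w)) : PGU K n) =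
          eW (-1 : K) w := by
        refine mem_comm_of_smul hm1 hm2 (a := (-1 : K) ^ w.length) ?_
        show (((-1 : K) ^ w.length • 1 : Matrix (Fin n) (Fin n) K)) * (eU (-1 : K) (sm w)).1 = _
        rw [smul_mul_assoc, one_mul]
      rw [h4]
      exact h3
    · show (((-1 : K) ^ w.length • 1 : Matrix (Fin n) (Fin n) K)) * (eU (-1 : K) (sm w)).1 = _
      rw [hval, smul_mul_assoc, one_mul, sM]
  · intro w hw
    have h3 : w.length = n := ((mem_Fr K).1 hw).1
    rw [sM, H387.sm_eq_one hw, h3, hno.neg_one_pow]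
    ext i j
    simp only [Matrix.smul_apply, Matrix.add_apply, smul_eq_mul]
    ring
  · intro u g hg
    have hN : (SOm K n).Normal := by
      unfold SOm
      infer_instance
    exact hN.conj_mem g hg u
  · intro σ hσ g hg
    have h3 : (QuotientGroup.mk g : PGU K n) ∈ commutator (PGU K n) := hg
    show (QuotientGroup.mk (gmap σ hσ g) : PGU K n) ∈ commutator (PGU K n)
    have h4 : (QuotientGroup.mk (gmap σ hσ g) : PGU K n) =
        act n (⟨σ, hσ⟩ : SA K) (QuotientGroup.mk g) := rfl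
    rw [h4]
    have h5 := (Subgroup.characteristic_iff_map_eq (H := commutator (PGU K n))).1 inferInstance
      (act n (⟨σ, hσ⟩ : SA K))
    rw [← h5]
    exact ⟨_, h3, rfl⟩
  · intro u σ hσ _ h
    have key := H472.stmtO8 K hs ho h7 n hno hn
      (⟨QuotientGroup.mk u, ⟨σ, hσ⟩⟩ : PGamU K n) ?_
    · have h3 : (QuotientGroup.mk u : PGU K n) = 1 := congrArg SemidirectProduct.left key
      have h4 : (⟨σ, hσ⟩ : SA K) = 1 := congrArg SemidirectProduct.right key
      have h5 : σ = 1 := congrArg Subtype.val h4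
      rw [QuotientGroup.eq_one_iff, H296.mem_center_iff hm1 hm2] at h3
      exact ⟨fun x => by rw [h5]; rfl, h3⟩
    · rintro _ ⟨c, hc, rfl⟩
      obtain ⟨k, rfl⟩ := QuotientGroup.mk_surjective c
      obtain ⟨a, ha⟩ := h ⟨k, hc⟩
      have ha' : u.1 * (k.1.map σ) * star u.1 = a • k.1 := ha
      apply SemidirectProduct.ext
      · show (QuotientGroup.mk u : PGU K n) * act n (⟨σ, hσ⟩ : SA K) (QuotientGroup.mk k) =
          QuotientGroup.mk k * act n 1 (QuotientGroup.mk u)
        rw [map_one]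
        show (QuotientGroup.mk (u * mapGU (⟨σ, hσ⟩ : SA K) k) : PGU K n) = QuotientGroup.mk (k * u)
        refine mem_comm_of_smul hm1 hm2 (a := a) ?_
        show u.1 * (k.1.map σ) = a • (k.1 * u.1)
        rw [← smul_mul_assoc, ← ha', mul_assoc (u.1 * k.1.map σ), mem_unitaryGroup_iff'.1 u.2, mul_one]
      · show (⟨σ, hσ⟩ : SA K) * 1 = 1 * (⟨σ, hσ⟩ : SA K)
        rw [mul_one, one_mul]

end

end Vale.Agent.P240.R2.H275
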