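import Vale.Agent.P240.R2.H275.Perm
import Vale.Agent.P240.R2.H275.Defs

/-!
Comparison with the official definitions; independence of the field; transfer along injective maps.
-/

namespace Vale.Agent.P240.R2.H275

open Finsupp Subgroup Vale.Agent.P240.K Vale.Agent.P240.H195

universe u v

section
variable {𝕜 : Type v} [Field 𝕜] {α β : Type*} [PartialOrder α] [PartialOrder β]

/-- there is a nonzero cycle on the chains of length `m` -/
def TC (𝕜 : Type v) [Field 𝕜] (S : Set α) (m : ℕ) : Prop :=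
  ∃ z ∈ Sp 𝕜 (fun l : List α => st S l ∧ l.length = m), bd z = 0 ∧ z ≠ 0

omit [PartialOrder α] [PartialOrder β] in
lemma mp_len (f : α → β) (n : ℕ) (c : Ch 𝕜 α) : mp f (len n c) = len n (mp f c) := by
  have := lin_ext_apply (f := (mp f).comp (len n)) (g := (len n).comp (mp f))
    (fun l => by
      simp only [LinearMap.comp_apply, mp_single]
      rw [len_single, len_single, List.length_map]
      split_ifs
      · rw [mp_single]
      · rw [map_zero]) c
  simpa using this

lemma TC_image {S : Set α} {f : α → β} {m : ℕ}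
    (hf : Set.InjOn f S) (hlt : ∀ x ∈ S, ∀ y ∈ S, x < y ↔ f x < f y) :
    TC 𝕜 (f '' S) m ↔ TC 𝕜 S m := by
  have hin : ∀ {c : Ch 𝕜 α}, c ∈ Sp 𝕜 (st S) → c ∈ Sp 𝕜 (fun l : List α => ∀ a ∈ l, a ∈ S) :=
    fun hc => Sp_mono (fun l hl => hl.2) hc
  constructor
  · rintro ⟨z, hz, hbz, hne⟩
    obtain ⟨z', hz', hzz⟩ := exists_lift (fun x hx y hy h => (hlt x hx y hy).2 h)
      (Sp_mono (fun l hl => hl.1) hz)
    have hm : mp f (len m z') = z := by
      rw [mp_len, hzz]
      exact len_of_mem (Sp_mono (fun l hl => hl.2) hz)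
    have hl : len m z' ∈ Sp 𝕜 (fun l => l.length = m ∧ st S l) := len_mem hz'
    refine ⟨len m z', Sp_mono (fun l hl => ⟨hl.2, hl.1⟩) hl, ?_, ?_⟩
    · refine mp_injOn hf (hin (bd_st (Sp_mono (fun l hl => hl.2) hl))) (Submodule.zero_mem _) ?_
      rw [← bd_mp, hm, hbz, map_zero]
    · intro h0
      rw [h0, map_zero] at hm
      exact hne hm.symm
  · rintro ⟨z, hz, hbz, hne⟩
    refine ⟨mp f z, mp_mem (fun l hl => ⟨st_map (T := f '' S)
      (fun x hx => Set.mem_image_of_mem f hx) (fun x hx y hy h => (hlt x hx y hy).1 h) l hl.1,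
      by rw [List.length_map]; exact hl.2⟩) hz, by rw [bd_mp, hbz, map_zero], fun h0 => hne ?_⟩
    refine mp_injOn hf (hin (Sp_mono (fun l hl => hl.1) hz)) (Submodule.zero_mem _) ?_
    rw [h0, map_zero]

lemma TC_official {m : ℕ} :
    (∃ z : List α →₀ 𝕜, IsChain m z ∧ bd z = 0 ∧ z ≠ 0) ↔ TC 𝕜 (Set.univ : Set α) m := by
  constructor
  · rintro ⟨z, hz, hbz, hne⟩
    rw [isChain_iff] at hz
    refine ⟨rv z, rv_mem (fun l hl => ⟨⟨?_, fun _ _ => trivial⟩, ?_⟩) hz,
      by rw [bd_rv, hbz, map_zero], fun h0 => hne ?_⟩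
    · rw [← rv_rv z, h0, map_zero]
    · rw [List.pairwise_reverse]
      exact hl.2
    · rw [List.length_reverse]
      exact hl.1
  · rintro ⟨z, hz, hbz, hne⟩
    refine ⟨rv z, ?_, by rw [bd_rv, hbz, map_zero], fun h0 => hne ?_⟩
    · rw [isChain_iff]
      refine rv_mem (fun l hl => ⟨?_, ?_⟩) hz
      · rw [List.length_reverse]
        exact hl.2
      · rw [List.pairwise_reverse]
        exact hl.1.1
    · rw [← rv_rv z, h0, map_zero]

/-- a nonzero rational cycle yields a nonzero cycle over any field -/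
theorem TC_of_rat {S : Set α} {m : ℕ} (h : TC ℚ S m) : TC 𝕜 S m := by
  obtain ⟨z, hz, hb, hne⟩ := h
  -- clear denominators
  let d : ℤ := ∏ l ∈ z.support, ((z l).den : ℤ)
  have hd0 : d ≠ 0 := Finset.prod_ne_zero_iff.2 fun l _ => by exact_mod_cast (z l).den_nz
  have hint : ∀ l, ∃ k : ℤ, (d : ℚ) * z l = k := by
    intro l
    by_cases hl : l ∈ z.support
    · have h1 : ((z l).den : ℤ) ∣ d := Finset.dvd_prod_of_mem (fun l => ((z l).den : ℤ)) hl
      obtain ⟨t, ht⟩ := h1
      refine ⟨t * (z l).num, ?_⟩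
      rw [ht]
      push_cast
      have h2 : ((z l).den : ℚ) * z l = (z l).num := by
        rw [mul_comm]; exact Rat.mul_den_eq_num _
      calc ((z l).den : ℚ) * t * z l = t * (((z l).den : ℚ) * z l) := by ring
        _ = t * (z l).num := by rw [h2]
    · rw [Finsupp.notMem_support_iff] at hl
      exact ⟨0, by rw [hl]; simp⟩
  choose k hk using hint
  have hk0 : ∀ l, k l ≠ 0 → l ∈ z.support := by
    intro l hl
    rw [Finsupp.mem_support_iff]
    intro h0
    apply hl
    have := hk l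
    rw [h0, mul_zero] at this
    exact_mod_cast this.symm
  -- divide by the content
  set g : ℤ := z.support.gcd k with hg
  obtain ⟨l₀, hl₀⟩ : ∃ l, z l ≠ 0 := by
    by_contra hcon
    push Not at hcon
    exact hne (Finsupp.ext hcon)
  have hkl₀ : k l₀ ≠ 0 := by
    intro h0
    have := hk l₀
    rw [h0, Int.cast_zero] at this
    rcases mul_eq_zero.1 this with h1 | h1
    · exact hd0 (by exact_mod_cast h1)
    · exact hl₀ h1
  have hg1 : z.support.gcd (fun l => k l / g) = 1 :=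
    Finset.gcd_div_eq_one (Finsupp.mem_support_iff.2 hl₀) hkl₀
  have hg0 : g ≠ 0 := by
    intro h0
    rw [hg, Finset.gcd_eq_zero_iff] at h0
    exact hkl₀ (h0 l₀ (Finsupp.mem_support_iff.2 hl₀))
  have hgd : ∀ l, g ∣ k l := by
    intro l
    by_cases hl : l ∈ z.support
    · exact Finset.gcd_dvd hl
    · rw [by_contra fun h => hl (hk0 l h)]
      exact dvd_zero _
  let y : List α →₀ ℤ := Finsupp.onFinset z.support (fun l => k l / g) (by
    intro l hl
    refine hk0 l fun h0 => hl ?_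
    change k l / g = 0
    rw [h0, Int.zero_ediv])
  have hyk : ∀ l, g * y l = k l := fun l => Int.mul_ediv_cancel' (hgd l)
  have hyz : MR (Int.castAddHom ℚ) y = ((d : ℚ) / g) • z := by
    ext l
    change ((y l : ℤ) : ℚ) = (d : ℚ) / g * z l
    have h1 : (g : ℚ) ≠ 0 := by exact_mod_cast hg0
    have h2 : (g : ℚ) * (y l : ℤ) = d * z l := by
      rw [hk l, ← hyk l]
      push_cast
      ring
    field_simp
    rw [mul_comm, h2]
  have hyb : bdR ℤ y = 0 := by
    ext l
    have h1 : MR (Int.castAddHom ℚ) (bdR ℤ y) l = 0 := by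
      rw [← bdR_MR, hyz, bdR_eq, map_smul, hb, smul_zero]
      rfl
    rw [MR_apply] at h1
    exact castZ_inj (h1.trans (map_zero _).symm)
  refine ⟨MR (Int.castAddHom 𝕜) y, ?_, ?_, ?_⟩
  · rw [mem_Sp]
    intro l hl
    have h1 : y l ≠ 0 := by
      rw [Finsupp.mem_support_iff] at hl
      intro h0
      apply hl
      rw [MR_apply, h0, map_zero]
    refine (mem_Sp.1 hz) l (hk0 l fun h0 => h1 ?_)
    change k l / g = 0
    rw [h0, Int.zero_ediv]
  · rw [← bdR_eq, bdR_MR, hyb, map_zero]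
  · intro h0
    obtain ⟨q, hq⟩ := CharP.exists 𝕜
    have h1 : (q : ℤ) ∣ 1 := by
      rw [← hg1]
      refine Finset.dvd_gcd fun l _ => ?_
      rw [← CharP.intCast_eq_zero_iff 𝕜 q]
      have := DFunLike.congr_fun h0 l
      exact this
    have h2 : q = 1 := by
      have : q ∣ 1 := by exact_mod_cast h1
      exact Nat.dvd_one.1 this
    subst h2
    exact absurd (CharP.cast_eq_zero 𝕜 1) (by rw [Nat.cast_one]; exact one_ne_zero)

end

section
variable {𝕜 : Type v} [Field 𝕜] {A B : Type*} [Group A] [Group B] {p : ℕ}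

lemma Ain_map {f : A →* B} (hf : Function.Injective f) (K : Subgroup A) :
    (Subgroup.map f) '' (Ain p K) = Ain p (K.map f) := by
  ext E
  constructor
  · rintro ⟨F, ⟨h1, h2⟩, rfl⟩
    exact ⟨(map_mem_ApS hf).2 h1, Subgroup.map_mono h2⟩
  · rintro ⟨h1, h2⟩
    have h3 : (E.comap f).map f = E := by
      rw [Subgroup.map_comap_eq, inf_eq_right]
      refine h2.trans ?_
      exact Subgroup.map_le_range f K
    refine ⟨E.comap f, ⟨?_, ?_⟩, h3⟩
    · rw [← map_mem_ApS hf, h3]
      exact h1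
    · rw [← Subgroup.map_le_map_iff_of_injective hf, h3]
      exact h2

lemma Tp_map {f : A →* B} (hf : Function.Injective f) (K : Subgroup A) {m : ℕ} :
    Tp 𝕜 p (K.map f) m ↔ Tp 𝕜 p K m := by
  have h1 : (∀ E ∈ Ain p (K.map f), Nat.card E ≤ p ^ m) ↔ ∀ E ∈ Ain p K, Nat.card E ≤ p ^ m := by
    rw [← Ain_map hf]
    constructor
    · intro h E hE
      have := h _ ⟨E, hE, rfl⟩
      rwa [Subgroup.card_map_of_injective hf] at this
    · rintro h _ ⟨E, hE, rfl⟩
      rw [Subgroup.card_map_of_injective hf]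
      exact h E hE
  have h2 : TC 𝕜 (Ain p (K.map f)) m ↔ TC 𝕜 (Ain p K) m := by
    rw [← Ain_map hf]
    exact TC_image (Subgroup.map_injective hf).injOn fun x _ y _ => map_lt hf
  exact and_congr h1 h2

lemma Tp_top {m : ℕ} : Tp 𝕜 p (⊤ : Subgroup A) m ↔
    (∀ E : Ap p A, Nat.card E.1 ≤ p ^ m) ∧
      ∃ z : List (Ap p A) →₀ 𝕜, IsChain m z ∧ bd z = 0 ∧ z ≠ 0 := by
  have h0 : (Subtype.val '' (Set.univ : Set (Ap p A))) = Ain p (⊤ : Subgroup A) := by
    ext E
    simp [Ain, ApS]
  refine and_congr ?_ ?_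
  · constructor
    · intro h E
      exact h E.1 ⟨E.2, le_top⟩
    · intro h E hE
      exact h ⟨E, hE.1⟩
  · rw [TC_official, ← TC_image (f := (Subtype.val : Ap p A → Subgroup A))
      Subtype.val_injective.injOn fun x _ y _ => Iff.rfl, h0]
    rfl

lemma quillenDim_iff : QuillenDim 𝕜 p A ↔ ∃ m, Tp 𝕜 p (⊤ : Subgroup A) m := by
  rw [QuillenDim]
  exact exists_congr fun m => Tp_top.symm

lemma quillenDim_sub (H : Subgroup A) : QuillenDim 𝕜 p H ↔ ∃ m, Tp 𝕜 p H m := by
  rw [quillenDim_iff]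
  refine exists_congr fun m => ?_
  rw [← Tp_map H.subtype_injective, ← MonoidHom.range_eq_map, Subgroup.range_subtype]

/-- the Quillen dimension property over `ℚ` implies the one over any field -/
theorem quillenDim_of_rat (h : QuillenDim ℚ p A) : QuillenDim 𝕜 p A := by
  rw [quillenDim_iff] at h ⊢
  obtain ⟨m, h1, h2⟩ := h
  exact ⟨m, h1, TC_of_rat h2⟩

end

end Vale.Agent.P240.R2.H275
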