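import Vale.Agent.P240.R2.H275.Bridge

/-!
A sufficient condition for the Quillen dimension property.
-/

namespace Vale.Agent.P240.R2.H275

open Subgroup Vale.Agent.P240.K Vale.Agent.P240.H195 Finsupp

universe u v

/-- If an elementary abelian `p`-subgroup of largest order acts faithfully on a solvable
`p'`-subgroup, then the Quillen dimension property holds. -/
theorem quillenDim_faithful {𝕜 : Type v} [Field 𝕜] {H : Type u} [Group H] [Finite H] {p : ℕ}
    [hp : Fact p.Prime] {E Y : Subgroup H} (hE : ElemAb p E)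
    (hmax : ∀ F : Subgroup H, ElemAb p F → Nat.card F ≤ Nat.card E)
    (hsol : Group.IsSolvable Y) (hY : ¬ p ∣ Nat.card Y) (hn : ∀ x ∈ E, ∀ y ∈ Y, x * y * x⁻¹ ∈ Y)
    (hfaith : ∀ x ∈ E, (∀ y ∈ Y, x * y = y * x) → x = 1) : QuillenDim 𝕜 p H := by
  obtain ⟨α, φ, hα⟩ := quillen_cycle (𝕜 := 𝕜) (Or.inr hE) hsol hY hn hfaith
  rw [quillenDim_iff]
  refine ⟨φ.length, fun F hF => ?_, α, ?_, hα.cyc, ?_⟩
  · have h1 := hmax F hF.1
    rwa [hα.card] at h1
  · exact Sp_mono (fun l hl => ⟨⟨hl.1.1, fun a ha => ⟨(hl.1.2 a ha).1, le_top⟩⟩, hl.2⟩) hα.mem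
  · intro h0
    apply hα.ne
    rw [h0]
    rfl

end Vale.Agent.P240.R2.H275
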