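import Vale.Agent.P240.R2.H275.Defs
import Vale.Agent.P240.H195.ElimDefs

/-!
The simple groups whose normal direct products are eliminated in characteristic `p`.
-/

namespace Vale.Agent.P240.R2.H275

open Vale.Agent.P240.H195

/-- `L` satisfies `ElimFactor`; or `L` is nonabelian simple, `p` divides its order and `L` satisfies
`JumpQD`. -/
def QDFactor (𝕜 : Type*) [Field 𝕜] (p : ℕ) (L : Type*) [Group L] : Prop :=
  ElimFactor 𝕜 p L ∨
    (p ∣ Nat.card L ∧ IsSimpleGroup L ∧ (∃ x y : L, x * y ≠ y * x) ∧ JumpQD 𝕜 p L)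

end Vale.Agent.P240.R2.H275
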