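import Vale.Agent.P240.R2.H275.Sel

/-!
Extraction of a complement from a cycle of top dimension; products of cycles of top dimension.
-/

namespace Vale.Agent.P240.R2.H275

open Finsupp Subgroup Vale.Agent.P240.K Vale.Agent.P240.H195

universe u v

variable {𝕜 : Type v} [Field 𝕜] {G : Type u} [Group G] {p : ℕ}

/-- lists above `E` -/
lemma st_card_above [hp : Fact p.Prime] [Finite G] {E : Subgroup G} (l : List (Subgroup G)) :
    ∀ x : Subgroup G, st {X | X ∈ ApS p G ∧ E < X} (x :: l) →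
      Nat.card E * p ^ (x :: l).length ≤ Nat.card x := by
  induction l with
  | nil =>
    intro x hx
    have h := hx.2 x (by simp)
    have h1 := card_mul_le (F := E) (ApB.isPGroup (Or.inr h.1)) h.2
    simpa [mul_comm] using h1
  | cons y l ih =>
    intro x hx
    have hp1 := List.pairwise_cons.1 hx.1
    have h := hx.2 x (by simp)
    have h1 := ih y ⟨hp1.2, fun a ha => hx.2 a (List.mem_cons_of_mem _ ha)⟩
    have h2 := card_mul_le (F := y) (ApB.isPGroup (Or.inr h.1)) (hp1.1 y (by simp))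
    calc Nat.card E * p ^ (x :: y :: l).length = p * (Nat.card E * p ^ (y :: l).length) := by
          rw [List.length_cons, pow_succ]; ring
      _ ≤ p * Nat.card y := Nat.mul_le_mul_left _ h1
      _ ≤ Nat.card x := h2

lemma cf_len {α : Type*} {n : ℕ} {T : α} {c : Ch 𝕜 α}
    (hc : c ∈ Sp 𝕜 (fun l : List α => l.length = n + 1)) :
    cf [T] c ∈ Sp 𝕜 (fun l : List α => l.length = n) := by
  rw [mem_Sp]
  intro l hl
  rw [Finsupp.mem_support_iff, cf_apply] at hl
  have h := mem_Sp.1 hc (l ++ [T]) (Finsupp.mem_support_iff.2 hl)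
  simpa using h

/-- the poset of elementary abelian subgroups of `K` above `E` -/
abbrev UpS (p : ℕ) (K E : Subgroup G) : Set (Subgroup G) := {X | X ∈ Ain p K ∧ E < X}

lemma upS_eq {K E X : Subgroup G} {N : Subgroup G} (hEN : E ⊔ N = K)
    (hKN : K ≤ normalizer (N : Set G)) (hX : X ∈ UpS p K E) : E ⊔ (X ⊓ N) = X := by
  refine le_antisymm (sup_le hX.2.le inf_le_left) fun x hx => ?_
  have h1 : x ∈ E ⊔ N := by
    rw [hEN]
    exact hX.1.2 hx
  obtain ⟨e, he, n, hn, rfl⟩ := mem_sup_norm ((le_sup_left.trans hEN.le).trans hKN) h1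
  refine mul_mem (mem_sup_left he) (mem_sup_right (mem_inf.2 ⟨?_, hn⟩))
  have := X.mul_mem (X.inv_mem (hX.2.le he)) hx
  rwa [inv_mul_cancel_left] at this

theorem extract [hp : Fact p.Prime] [Finite G] {K N : Subgroup G} {m : ℕ} (hNK : N ≤ K)
    (hKN : K ≤ normalizer (N : Set G))
    (hmax : ∀ A ∈ ApB p G, A ≤ K → Nat.card A = p ^ m → A ⊔ N = K) (hT : Tp 𝕜 p K m) :
    ∃ E ∈ ApB p G, E ≤ K ∧ E ⊓ N = ⊥ ∧ E ⊔ N = K ∧
      ∃ n, Tp 𝕜 p (N ⊓ centralizer (E : Set G)) n ∧ Nat.card E * p ^ n = p ^ m := by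
  obtain ⟨hTb, z₀, hz₀, hz₀b, hz₀0⟩ := hT
  set 𝒬 : Set (Subgroup G) := {E | E ∈ ApB p G ∧ E ≤ K ∧ E ⊓ N = ⊥ ∧ ∃ n, Nat.card E * p ^ n = p ^ m ∧
    ∃ z ∈ Sp 𝕜 (fun l : List (Subgroup G) => st (UpS p K E) l ∧ l.length = n), bd z = 0 ∧ z ≠ 0}
    with h𝒬
  have hbot : (⊥ : Subgroup G) ∈ 𝒬 := by
    refine ⟨Or.inl rfl, bot_le, bot_inf_eq _, m, by rw [Subgroup.card_bot, one_mul], z₀, ?_, hz₀b,
      hz₀0⟩
    have h1 : Ain p K ⊆ UpS p K ⊥ := fun X hX => ⟨hX, bot_lt_iff_ne_bot.2 hX.1.1⟩
    exact Sp_mono (fun l hl => ⟨st_mono h1 l hl.1, hl.2⟩) hz₀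
  obtain ⟨E, hE⟩ := (Set.toFinite 𝒬).exists_maximal ⟨⊥, hbot⟩
  obtain ⟨hEB, hEK, hEN, n, hn, z, hz, hzb, hz0⟩ := hE.prop
  have hbound : ∀ B ∈ Ain p (N ⊓ centralizer (E : Set G)), E ⊔ B ∈ ApS p G ∧ E ⊔ B ≤ K ∧
      Nat.card (E ⊔ B : Subgroup G) = Nat.card E * Nat.card B := by
    intro B hB
    have hc := r2_comm hB
    refine ⟨(r2_sup_mem hEB hEN hB).1.1, sup_le hEK ((hB.2.trans inf_le_left).trans hNK), ?_⟩
    refine card_sup_of_inf (comm_le_normalizer hc) ?_
    rw [eq_bot_iff, ← hEN]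
    exact inf_le_inf_left _ (hB.2.trans inf_le_left)
  by_cases hsup : E ⊔ N = K
  · -- transfer to `N ⊓ centralizer E`
    refine ⟨E, hEB, hEK, hEN, hsup, n, ⟨?_, mp (fun X => X ⊓ N) z, ?_, ?_, ?_⟩, hn⟩
    · intro B hB
      obtain ⟨h1, h2, h3⟩ := hbound B hB
      have h4 := hTb _ ⟨h1, h2⟩
      rw [h3, ← hn] at h4
      exact Nat.le_of_mul_le_mul_left h4 Nat.card_pos
    · refine mp_mem (P := fun l => st (UpS p K E) l ∧ l.length = n) (fun l hl => ⟨?_, ?_⟩) hz
      · refine st_map (S := UpS p K E) ?_ ?_ l hl.1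
        · intro X hX
          refine r2_inf_mem hX.1.1 hX.2.le fun hcon => ?_
          have h1 := upS_eq hsup hKN hX
          rw [hcon, sup_bot_eq] at h1
          exact hX.2.ne h1
        · intro X hX Y hY hXY
          refine lt_of_le_of_ne (inf_le_inf_right _ hXY.le) fun hcon => hXY.ne ?_
          rw [← upS_eq hsup hKN hX, ← upS_eq hsup hKN hY, hcon]
      · rw [List.length_map]
        exact hl.2
    · rw [bd_mp, hzb, map_zero]
    · intro hcon
      apply hz0
      refine mp_injOn (S := UpS p K E) (f := fun X => X ⊓ N) ?_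
        (Sp_mono (fun l hl => hl.1.2) hz) (Submodule.zero_mem _) (by rw [hcon, map_zero])
      intro X hX Y hY hXY
      have h1 : X ⊓ N = Y ⊓ N := hXY
      rw [← upS_eq hsup hKN hX, ← upS_eq hsup hKN hY, h1]
  · exfalso
    have hzS : z ∈ Sp 𝕜 (st (UpS p K E)) := Sp_mono (fun l hl => hl.1) hz
    have hzl : z ∈ Sp 𝕜 (fun l : List (Subgroup G) => l.length = n) := Sp_mono (fun l hl => hl.2) hz
    have hAS : UpS p K E ⊆ {X | X ∈ ApS p G ∧ E < X} := fun X hX => ⟨hX.1.1, hX.2⟩
    -- all members of the lists meet `N`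
    have hS' : z ∈ Sp 𝕜 (st {X | X ∈ UpS p K E ∧ X ⊓ N ≠ ⊥}) := by
      rw [mem_Sp]
      intro l hl
      obtain ⟨hl1, hl2⟩ := mem_Sp.1 hz l hl
      refine ⟨hl1.1, fun X hX => ⟨hl1.2 X hX, ?_⟩⟩
      obtain ⟨l', T, rfl⟩ : ∃ l' T, l = l' ++ [T] := by
        refine ⟨l.dropLast, l.getLast (List.ne_nil_of_mem hX), ?_⟩
        exact (List.dropLast_append_getLast _).symm
      have hTS : T ∈ UpS p K E := hl1.2 T (by simp)
      have hTX : T ≤ X := by
        rcases List.mem_append.1 hX with h1 | h1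
        · exact ((List.pairwise_append.1 hl1.1).2.2 X h1 T (by simp)).le
        · rw [List.mem_singleton] at h1
          rw [h1]
      intro hXN
      have hTN : T ⊓ N = ⊥ := by
        rw [eq_bot_iff, ← hXN]
        exact inf_le_inf_right _ hTX
      -- the order of `T`
      have hTp : IsPGroup p T := ApB.isPGroup (Or.inr hTS.1.1)
      have hT1 := card_mul_le hTp hTS.2
      have hnl : l'.length + 1 = n := by simpa using hl2
      have hT2 : Nat.card T * p ^ l'.length ≤ p ^ m := by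
        rcases l' with _ | ⟨Y, l'⟩
        · have h1 := hTb T hTS.1
          simpa using h1
        · have h1 : st {X | X ∈ ApS p G ∧ T < X} (Y :: l') := by
            have h2 := List.pairwise_append.1 hl1.1
            exact ⟨h2.1, fun a ha => ⟨(hl1.2 a (List.mem_append_left _ ha)).1.1,
              h2.2.2 a ha T (by simp)⟩⟩
          refine (st_card_above l' Y h1).trans (hTb Y (hl1.2 Y (by simp)).1)
      have hT3 : Nat.card T = p * Nat.card E := by
        refine le_antisymm ?_ hT1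
        rw [← hn, ← hnl, pow_succ] at hT2
        have h1 : 0 < p ^ l'.length := pow_pos hp.out.pos _
        refine Nat.le_of_mul_le_mul_right (c := p ^ l'.length) ?_ h1
        calc Nat.card T * p ^ l'.length ≤ Nat.card E * (p ^ l'.length * p) := hT2
          _ = p * Nat.card E * p ^ l'.length := by ring
      have hTmem : T ∈ 𝒬 := by
        refine ⟨Or.inr hTS.1.1, hTS.1.2, hTN, l'.length, ?_, cf [T] z, ?_, ?_, ?_⟩
        · rw [hT3, ← hn, ← hnl, pow_succ]
          ring
        · have h1 := cf_mem [T] hzS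
          have h2 : cf [T] z ∈ Sp 𝕜 (fun l : List (Subgroup G) => l.length = l'.length) := by
            refine cf_len ?_
            rw [hnl]
            exact hzl
          refine Sp_mono (fun l hl => ⟨st_mono ?_ l hl.1, hl.2⟩) (mem_Sp_inf h1 h2)
          rintro Y ⟨h3, h4⟩
          exact ⟨h3.1, h4 T (by simp)⟩
        · rw [bd_cf [T] ?_ hzS, hzb, map_zero]
          intro m' hm' hle
          rcases m' with _ | ⟨Y, m'⟩
          · simp
          · rcases m' with _ | ⟨Y', m'⟩
            · simp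
            · exfalso
              have hY : Y ≤ T := by
                obtain ⟨f, hf, hYf⟩ := hle Y (by simp)
                rw [List.mem_singleton] at hf
                rwa [hf] at hYf
              have h1 := st_card_above _ Y (st_mono hAS _ hm')
              have h2 : Nat.card Y ≤ Nat.card T := Nat.le_of_dvd Nat.card_pos (card_dvd_of_le hY)
              rw [hT3, List.length_cons, List.length_cons, pow_succ, pow_succ] at *
              have h3 : 0 < Nat.card E := Nat.card_pos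
              have h4 : 1 ≤ p ^ m'.length := Nat.one_le_pow _ _ hp.out.pos
              have h5 : Nat.card E * (p * p) ≤ p * Nat.card E := by
                calc Nat.card E * (p * p) ≤ Nat.card E * (p ^ m'.length * p * p) := by
                      refine Nat.mul_le_mul_left _ ?_
                      nlinarith [hp.out.pos]
                  _ ≤ Nat.card Y := h1
                  _ ≤ p * Nat.card E := h2
              have h6 : p * Nat.card E * p ≤ p * Nat.card E * 1 := by
                rw [mul_one]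
                calc p * Nat.card E * p = Nat.card E * (p * p) := by ring
                  _ ≤ _ := h5
              have h7 := Nat.le_of_mul_le_mul_left h6 (Nat.mul_pos hp.out.pos h3)
              have := hp.out.two_le
              omega
        · intro hcon
          have h1 : z (l' ++ [T]) = 0 := by
            rw [← cf_apply, hcon, Finsupp.zero_apply]
          exact Finsupp.mem_support_iff.1 hl h1
      exact hE.not_gt (y := T) hTmem hTS.2
    -- no cycles there
    have hv : Hv 𝕜 {X | X ∈ UpS p K E ∧ X ⊓ N ≠ ⊥} n := by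
      refine hv_maps (S' := Ain p (N ⊓ centralizer (E : Set G))) (g := fun X => X ⊓ N)
        (f := fun B => E ⊔ B) ?_ ?_ ?_ ?_ ?_ (hv_of_empty fun l hl hln => ?_)
      · rintro X ⟨hX, hXN⟩
        exact r2_inf_mem hX.1.1 hX.2.le hXN
      · exact fun X _ Y _ hXY => inf_le_inf_right _ hXY
      · intro B hB
        have h1 := r2_sup_mem hEB hEN hB
        exact ⟨⟨⟨h1.1.1, (hbound B hB).2.1⟩, h1.1.2⟩, h1.2⟩
      · exact fun X _ Y _ hXY => sup_le_sup_left hXY _
      · rintro X ⟨hX, -⟩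
        exact sup_le hX.2.le inf_le_left
      · rcases l with _ | ⟨B, l⟩
        · have hn0 : n = 0 := by simpa using hln.symm
          rw [hn0, pow_zero, mul_one] at hn
          exact hsup (hmax E hEB hEK hn)
        · have hB := hl.2 B (by simp)
          have h1 := st_card l B ⟨hl.1, fun a ha => (hl.2 a ha).1⟩
          rw [hln] at h1
          obtain ⟨h2, h3, h4⟩ := hbound B hB
          have h5 : Nat.card (E ⊔ B : Subgroup G) = p ^ m := by
            refine le_antisymm (hTb _ ⟨h2, h3⟩) ?_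
            rw [h4, ← hn]
            exact Nat.mul_le_mul_left _ h1
          have h6 := hmax _ (Or.inr h2) h3 h5
          apply hsup
          rw [← h6]
          refine le_antisymm (sup_le_sup_right le_sup_left _) (sup_le (sup_le le_sup_left ?_)
            le_sup_right)
          exact (hB.2.trans inf_le_left).trans le_sup_right
    obtain ⟨c, hc, hcz⟩ := hv z hS' (len_of_mem hzl) hzb
    have h1 : len (n + 1) c = 0 := by
      refine len_of_ne (Sp_mono ?_ hc)
      intro l hl hln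
      rcases l with _ | ⟨X, l⟩
      · simp at hln
      · have h2 := st_card_above l X (st_mono (fun Y hY => hAS hY.1) _ hl)
        rw [hln, pow_succ, ← mul_assoc, hn] at h2
        have h3 := hTb X (hl.2 X (by simp)).1.1
        have h4 : 0 < p ^ m := pow_pos hp.out.pos _
        have h5 := hp.out.two_le
        nlinarith
    apply hz0
    have h2 := bd_len n c
    rw [h1, map_zero, hcz, len_of_mem hzl] at h2
    exact h2.symm

/-- products -/
theorem prod_cycle [hp : Fact p.Prime] [Finite G] {K B H : Subgroup G} {m n : ℕ}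
    (hKH : K ≤ H) (hBH : B ≤ H) (hc : ∀ x ∈ K, ∀ y ∈ B, x * y = y * x) (hKB : K ⊓ B = ⊥)
    (hK : Tp 𝕜 p K m) (hB : Tp 𝕜 p B n) :
    ∃ z ∈ Sp 𝕜 (fun l : List (Subgroup G) => st (Ain p H) l ∧ l.length = m + n),
      bd z = 0 ∧ z ≠ 0 := by
  obtain ⟨F, φ, x, htop, hφm, hF, hFK, hFc⟩ := hK.topCycle
  obtain ⟨hBb, y, hy, hyb, hy0⟩ := hB
  have hFB : F ⊓ B = ⊥ := by
    rw [eq_bot_iff, ← hKB]
    exact inf_le_inf_right _ hFK
  have hBF : B ⊓ centralizer (F : Set G) = B := by
    refine inf_eq_left.2 fun b hb => ?_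
    rw [mem_centralizer_iff]
    exact fun f hf => hc f (hFK hf) b hb
  have hyB : y ∈ Sp 𝕜 (st (Ain p (B ⊓ centralizer (F : Set G)))) := by
    rw [hBF]
    exact Sp_mono (fun l hl => hl.1) hy
  have hyl : y ∈ Sp 𝕜 (fun l : List (Subgroup G) => l.length = n) := Sp_mono (fun l hl => hl.2) hy
  have hb' : ∀ k : ℕ, (⇑(sg (𝕜 := 𝕜) (α := Subgroup G)))^[k] y ∈
      Sp 𝕜 (fun l : List (Subgroup G) => st (Ain p B) l ∧ l.length = n) ∧
      bd ((⇑(sg (𝕜 := 𝕜) (α := Subgroup G)))^[k] y) = 0 := by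
    intro k
    induction k with
    | zero => exact ⟨hy, hyb⟩
    | succ k ih =>
      rw [Function.iterate_succ_apply']
      exact ⟨sg_mem ih.1, by rw [bd_sg, ih.2, map_zero, neg_zero]⟩
  obtain ⟨hb1, hb2⟩ := hb' φ.length
  have hcm : sh x ((⇑(sg (𝕜 := 𝕜) (α := Subgroup G)))^[φ.length] y) ∈
      Sp 𝕜 (wk (Ain p H)) := by
    refine sh_mem (A := Ain p K) (B := Ain p B) (S := Ain p H)
      (fun E hE => ⟨hE.1, hE.2.trans hKH⟩) (fun E hE => ⟨hE.1, hE.2.trans hBH⟩)
      (fun a ha b hb => ⟨sup_mem_ApS ha.1 hb.1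
        fun x hx y hy => hc x (ha.2 hx) y (hb.2 hy), sup_le (ha.2.trans hKH) (hb.2.trans hBH)⟩) ?_ ?_
    · exact Sp_mono (fun l hl => st_wk l hl.1) htop.mem
    · exact Sp_mono (fun l hl => st_wk l hl.1) hb1
  have hcb : bd (sh x ((⇑(sg (𝕜 := 𝕜) (α := Subgroup G)))^[φ.length] y)) = 0 := by
    rw [bd_sh, htop.cyc, hb2, map_zero, map_zero, LinearMap.zero_apply, add_zero]
  have hlen : sh x ((⇑(sg (𝕜 := 𝕜) (α := Subgroup G)))^[φ.length] y) ∈
      Sp 𝕜 (fun l : List (Subgroup G) => l.length = m + n) := by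
    have h1 : ∀ s : List (Subgroup G), s.length = m →
        sh (single s (1 : 𝕜)) ((⇑(sg (𝕜 := 𝕜) (α := Subgroup G)))^[φ.length] y) ∈
        Sp 𝕜 (fun l : List (Subgroup G) => l.length = m + n) := by
      intro s hs
      refine map_mem (P := fun l : List (Subgroup G) => l.length = n) _ (fun t ht => ?_)
        (Sp_mono (fun l hl => hl.2) hb1)
      rw [sh_single]
      exact r5_shL_len _ s t (by rw [hs, ht])
    have h2 : x ∈ Sp 𝕜 (fun l : List (Subgroup G) => l.length = m) := by
      rw [← hφm]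
      exact Sp_mono (fun l hl => hl.2) htop.mem
    exact map_mem ((sh (𝕜 := 𝕜) (α := Subgroup G)).flip
      ((⇑(sg (𝕜 := 𝕜) (α := Subgroup G)))^[φ.length] y)) (fun s hs => h1 s hs) h2
  refine ⟨pi (sh x ((⇑(sg (𝕜 := 𝕜) (α := Subgroup G)))^[φ.length] y)),
    mem_Sp_inf (pi_mem hcm) (pi_mem' hlen), by rw [bd_pi hcm, hcb, map_zero], fun hcon => ?_⟩
  have h1 := cf_sh hFB htop hyB
  rw [hcon, map_zero] at h1
  have h2 : mp (fun B => F ⊔ B) y = 0 := by
    rcases smul_eq_zero.1 h1.symm with h3 | h3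
    · exact absurd h3 htop.ne
    · exact h3
  apply hy0
  refine mp_injOn (S := Ain p (B ⊓ centralizer (F : Set G))) (f := fun B => F ⊔ B) ?_
    (Sp_mono (fun l hl => hl.2) hyB) (Submodule.zero_mem _) (by rw [h2, map_zero])
  intro X hX Y hY hXY
  have h3 : F ⊔ X = F ⊔ Y := hXY
  rw [← r2_sup hFB hX, ← r2_sup hFB hY, h3]

end Vale.Agent.P240.R2.H275
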