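import Vale.Agent.P240.R2.H275.DF
import Vale.Agent.P240.H195.CF

/-!
The automorphisms of `PΩ(V)`, form `diag(1, .., 1, d)`, `n = m + 1` even: semilinear maps; `FewAut p`
for odd `p`. Definitions and statements.
-/

set_option autoImplicit false
set_option linter.all false

namespace Vale.Agent.P240.R2.H275.F3

open Matrix Vale.Agent.P240.R2.H145.EO Vale.Agent.P240.R2.H275
open Vale.Agent.P240.R2.H401.D (fd)

universe u v

section

variable {K : Type u} [Field K] {n : ℕ} {a : Fin n → K}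

/-- the class of an element of `SOD a` in the simple group -/
def cl (a : Fin n → K) : SOD a →* commutator (PO a) where
  toFun g := ⟨QuotientGroup.mk (⟨g.1, (mem_SOD.1 g.2).1⟩ : OD a), (mem_SOD.1 g.2).2⟩
  map_one' := rfl
  map_mul' _ _ := rfl

lemma cl_surj : Function.Surjective (cl a) := by
  rintro ⟨c, hc⟩
  obtain ⟨g, rfl⟩ := QuotientGroup.mk_surjective c
  exact ⟨⟨g.1, mem_SOD.2 ⟨g.2, hc⟩⟩, rfl⟩

/-- `M σ` is a semilinear similitude -/
def SimM (a : Fin n → K) (M : GL (Fin n) K) (σ : K ≃+* K) (l : K) : Prop :=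
  ∀ v w : Fin n → K, B a (ac M (fun i => σ (v i))) (ac M (fun i => σ (w i))) = l * σ (B a v w)

/-- `x` is induced by `M σ` -/
def ActL (x : MulAut ↥(commutator (PO a))) (M : GL (Fin n) K) (σ : K ≃+* K) : Prop :=
  ∀ g g' : SOD a, g'.1.1 * M.1 = M.1 * g.1.1.map σ → x (cl a g) = cl a g'

end

/-- the hypotheses -/
structure FNum (K : Type u) [Field K] [Fintype K] (m : ℕ) (d : K) : Prop where
  h2 : (2 : K) ≠ 0
  h5 : 5 < Fintype.card K
  hm : 7 ≤ m
  modd : Odd m
  hd : d ≠ 0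

/-- (SEM) automorphisms are semilinear (owner 275) -/
def StmtSEM : Prop :=
  ∀ (K : Type u) [Field K] [Fintype K] (m : ℕ) (d : K), FNum K m d →
    ∀ x : MulAut ↥(commutator (PO (fd m d))),
    (m = 7 → IsSquare d → ∃ p : ℕ, p.Prime ∧ 5 ≤ p ∧ x ^ p = 1) →
    ∃ (M : GL (Fin (m + 1)) K) (σ : K ≃+* K) (l : K), l ≠ 0 ∧ SimM (fd m d) M σ l ∧ ActL x M σ

/-- (FEW) the result -/
def StmtFEW : Prop :=
  ∀ (K : Type u) [Field K] [Fintype K] (m : ℕ) (d : K), FNum K m d →
    ∀ p : ℕ, p.Prime → p ≠ 2 → (m = 7 → IsSquare d → p ≠ 3) →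
    ∀ (L : Type v) [Group L], Nonempty (↥(commutator (PO (fd m d))) ≃* L) →
      Vale.Agent.P240.H195.FewAut p L

end Vale.Agent.P240.R2.H275.F3
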