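import Vale.Agent.P240.R2.H329.OA2
import Mathlib.LinearAlgebra.Dimension.Finrank
import Mathlib.LinearAlgebra.FiniteDimensional.Basic

/-!
Faithful representations of determinant `1` of the elementary abelian group of order `2 ^ m` in
dimension `m + 1`.
-/

set_option autoImplicit false
set_option linter.all false

namespace Vale.Agent.P240.R2.H275.F3

open Finset Matrix Vale.Agent.P240.R2.H329

section data

variable {K : Type*} [Field K]

/-- a basis of weight vectors -/
theorem exists_wbasis {n : ℕ} (ρ : (Fin n → ℤˣ) →* Matrix (Fin n) (Fin n) K) (h2 : (2 : K) ≠ 0) :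
    ∃ b : Fin n → (Fin n → K), LinearIndependent K b ∧ ∀ j, ∃ s, Wt ρ s (b j) := by
  classical
  let W : Set (Fin n → K) := {v | ∃ s, Wt ρ s v}
  have hspan : Submodule.span K W = ⊤ := by
    rw [eq_top_iff]
    intro u _
    have h1 : u = ∑ s, Pw ρ s *ᵥ u := by
      rw [← Matrix.sum_mulVec, sum_Pw ρ h2, one_mulVec]
    rw [h1]
    exact Submodule.sum_mem _ fun s _ => Submodule.subset_span ⟨s, wt_Pw ρ s u⟩
  obtain ⟨b, hbW, hbs, hbl⟩ := exists_linearIndependent K W
  let B := Module.Basis.mk hbl (by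
    rw [Subtype.range_coe, hbs, hspan])
  have : Fintype b := FiniteDimensional.fintypeBasisIndex B
  have hcard : Fintype.card b = n := by
    have := Module.finrank_eq_card_basis B
    rw [Module.finrank_fin_fun] at this
    exact this.symm
  let φ : Fin n ≃ b := (finCongr hcard.symm).trans (Fintype.equivFin b).symm
  exact ⟨fun j => (φ j).1, hbl.comp φ φ.injective, fun j => hbW (φ j).2⟩

lemma cast_inj (h2 : (2 : K) ≠ 0) {a b : ℤˣ} (h : ((a : ℤ) : K) = ((b : ℤ) : K)) : a = b := by
  have h1 : (-1 : K) ≠ 1 := by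
    intro h
    apply h2
    linear_combination -h
  rcases units_cases a with rfl | rfl <;> rcases units_cases b with rfl | rfl
  · rfl
  · simp at h
    exact absurd h.symm h1
  · simp at h
    exact absurd h h1
  · rfl

variable {m : ℕ}

/-- restriction to the first coordinates -/
def res (m : ℕ) : (Fin (m + 1) → ℤˣ) →* (Fin m → ℤˣ) where
  toFun e i := e i.castSucc
  map_one' := rfl
  map_mul' _ _ := rfl

lemma res_snoc (e : Fin m → ℤˣ) : res m (Fin.snoc (α := fun _ => ℤˣ) e 1) = e := by
  funext i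
  show Fin.snoc (α := fun _ => ℤˣ) e 1 i.castSucc = e i
  rw [Fin.snoc_castSucc]

/-- **simultaneous diagonalization**, determinant `1` -/
theorem exists_data' (h2 : (2 : K) ≠ 0)
    (ρ : (Fin m → ℤˣ) →* Matrix (Fin (m + 1)) (Fin (m + 1)) K) (hinj : Function.Injective ρ)
    (hdet : ∀ e, (ρ e).det = 1) :
    ∃ (b : Fin (m + 1) → (Fin (m + 1) → K)) (g : (Fin m → ℤˣ) → (Fin (m + 1) → ℤˣ)),
      LinearIndependent K b ∧ Function.Injective g ∧ (∀ e e', g (e * e') = g e * g e') ∧
      (∀ e, ∏ s, g e s = 1) ∧ (∀ h : Fin (m + 1) → ℤˣ, ∏ s, h s = 1 → ∃ e, g e = h) ∧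
      (∀ e s, ρ e *ᵥ b s = ((g e s : ℤ) : K) • b s) := by
  classical
  let ρ' : (Fin (m + 1) → ℤˣ) →* Matrix (Fin (m + 1)) (Fin (m + 1)) K := ρ.comp (res m)
  obtain ⟨b, hli, hw⟩ := exists_wbasis ρ' h2
  choose ω hω using hw
  have hg : ∀ (e : Fin m → ℤˣ) (s : Fin (m + 1)), ∃ a : ℤˣ, ρ e *ᵥ b s = ((a : ℤ) : K) • b s := by
    intro e s
    have h1 := hω s (Fin.snoc (α := fun _ => ℤˣ) e 1)
    have h3 : ρ' (Fin.snoc (α := fun _ => ℤˣ) e 1) = ρ e := by
      show ρ (res m _) = _
      rw [res_snoc]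
    rw [h3] at h1
    rcases ch_pm (K := K) (ω s) (Fin.snoc (α := fun _ => ℤˣ) e 1) with h4 | h4
    · exact ⟨1, by rw [h1, h4]; simp⟩
    · exact ⟨-1, by rw [h1, h4]; simp⟩
  choose g hg using hg
  have hb0 : ∀ s, b s ≠ 0 := fun s => hli.ne_zero s
  have hmul : ∀ e e', g (e * e') = g e * g e' := by
    intro e e'
    funext s
    apply cast_inj h2
    have h1 := hg (e * e') s
    rw [map_mul, ← mulVec_mulVec, hg e' s, mulVec_smul, hg e s, smul_smul] at h1
    have h3 := sub_eq_zero.2 h1
    rw [← sub_smul] at h3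
    have h4 := sub_eq_zero.1 ((smul_eq_zero.1 h3).resolve_right (hb0 s))
    rw [← h4, Pi.mul_apply]
    push_cast
    ring
  have hginj : Function.Injective g := by
    intro e e' h
    apply hinj
    apply Matrix.ext_of_mulVec_single
    intro i
    obtain ⟨c, hc⟩ := spans hli (Pi.single i 1)
    rw [hc, Matrix.mulVec_sum, Matrix.mulVec_sum]
    refine Finset.sum_congr rfl fun s _ => ?_
    rw [mulVec_smul, mulVec_smul, hg, hg, h]
  have hprod : ∀ e, ∏ s, g e s = 1 := by
    intro e
    apply cast_inj h2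
    have h1 := det_isR (ρ := ρ') h2 hli (g := fun e => g (res m e)) (fun e s => hg _ s)
      (Fin.snoc (α := fun _ => ℤˣ) e 1)
    have h3 : ρ' (Fin.snoc (α := fun _ => ℤˣ) e 1) = ρ e := by
      show ρ (res m _) = _
      rw [res_snoc]
    rw [h3, hdet, res_snoc] at h1
    push_cast
    rw [← h1]
  refine ⟨b, g, hli, hginj, hmul, hprod, ?_, hg⟩
  have key : ∀ h h' : Fin (m + 1) → ℤˣ, ∏ s, h s = 1 → ∏ s, h' s = 1 → res m h = res m h' →
      h = h' := by
    intro h h' h1 h1' h3
    rw [Fin.prod_univ_castSucc] at h1 h1'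
    have h4 : ∀ i : Fin m, h i.castSucc = h' i.castSucc := fun i => congrFun h3 i
    have h5 : h (Fin.last m) = h' (Fin.last m) := by
      rw [Finset.prod_congr rfl fun i _ => h4 i, ← h1'] at h1
      exact mul_left_cancel h1
    funext s
    exact Fin.lastCases h5 h4 s
  have hri : Function.Injective (fun e => res m (g e)) := by
    intro e e' h
    exact hginj (key _ _ (hprod e) (hprod e') h)
  have hrs := Finite.surjective_of_injective hri
  intro h h1
  obtain ⟨e, he⟩ := hrs (res m h)
  exact ⟨e, key _ _ (hprod e) h1 he⟩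

end data

section typ

variable {K : Type*} [Field K] {n : ℕ}

/-- `1 - A` has rank at most two, `A ≠ 1` -/
def IsR2 (A : Matrix (Fin n) (Fin n) K) : Prop :=
  A ≠ 1 ∧ ∃ w1 w2 : Fin n → K, ∀ u, ∃ c1 c2 : K, A *ᵥ u = u - c1 • w1 - c2 • w2

/-- conjugation preserves the type -/
lemma IsR2.conj {A P Q : Matrix (Fin n) (Fin n) K} (h : IsR2 A) (h1 : P * Q = 1) (h2 : Q * P = 1) :
    IsR2 (P * A * Q) := by
  obtain ⟨hA, w1, w2, hw⟩ := h
  refine ⟨fun h3 => hA ?_, P *ᵥ w1, P *ᵥ w2, fun u => ?_⟩
  · have h4 : Q * (P * A * Q) * P = (Q * P) * A * (Q * P) := by simp only [Matrix.mul_assoc]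
    rw [h3, Matrix.mul_one, h2, Matrix.one_mul, Matrix.mul_one] at h4
    exact h4.symm
  · obtain ⟨c1, c2, hc⟩ := hw (Q *ᵥ u)
    refine ⟨c1, c2, ?_⟩
    rw [← mulVec_mulVec, ← mulVec_mulVec, hc, mulVec_sub, mulVec_sub, mulVec_smul, mulVec_smul,
      mulVec_mulVec, h1, one_mulVec]

variable {A : Matrix (Fin n) (Fin n) K} {b : Fin n → (Fin n → K)} {h : Fin n → ℤˣ}

/-- the set of the coordinates of sign `-1` -/
def Ng (h : Fin n → ℤˣ) : Finset (Fin n) := Finset.univ.filter (fun s => h s = -1)

lemma mem_Ng {s : Fin n} : s ∈ Ng h ↔ h s = -1 := by simp [Ng]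

lemma not_mem_Ng {s : Fin n} (hs : s ∉ Ng h) : h s = 1 :=
  (units_cases _).resolve_right fun h1 => hs (mem_Ng.2 h1)

lemma isR2_of (h2 : (2 : K) ≠ 0) (hli : LinearIndependent K b)
    (hA : ∀ s, A *ᵥ b s = ((h s : ℤ) : K) • b s) (hc : (Ng h).card = 2) : IsR2 A := by
  obtain ⟨x, y, hxy, hN⟩ := Finset.card_eq_two.1 hc
  have hx : h x = -1 := mem_Ng.1 (by rw [hN]; simp)
  have hy : h y = -1 := mem_Ng.1 (by rw [hN]; simp)
  have ho : ∀ s, s ≠ x → s ≠ y → h s = 1 := by
    intro s h3 h4
    apply not_mem_Ng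
    rw [hN]
    simp [h3, h4]
  refine ⟨?_, b x, b y, fun u => ?_⟩
  · intro h1
    have h3 := hA x
    rw [h1, one_mulVec, hx, cast_neg] at h3
    have h4 : (2 : K) • b x = 0 := by
      rw [two_smul]
      nth_rewrite 1 [h3]
      module
    exact hli.ne_zero x ((smul_eq_zero.1 h4).resolve_left h2)
  · obtain ⟨c, hc⟩ := spans hli u
    refine ⟨2 * c x, 2 * c y, ?_⟩
    conv_lhs => rw [hc]
    rw [Matrix.mulVec_sum]
    have h3 : ∀ s, A *ᵥ (c s • b s) = c s • b s - (if s = x then (2 * c x) • b x else 0) -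
        (if s = y then (2 * c y) • b y else 0) := by
      intro s
      rw [mulVec_smul, hA]
      by_cases h4 : s = x
      · subst h4
        rw [if_pos rfl, if_neg hxy, hx, cast_neg]
        module
      · rw [if_neg h4]
        by_cases h5 : s = y
        · subst h5
          rw [if_pos rfl, hy, cast_neg]
          module
        · rw [if_neg h5, ho s h4 h5]
          simp
    simp only [h3]
    rw [Finset.sum_sub_distrib, Finset.sum_sub_distrib, ← hc, Finset.sum_ite_eq' Finset.univ,
      Finset.sum_ite_eq' Finset.univ, if_pos (Finset.mem_univ _), if_pos (Finset.mem_univ _)]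

lemma of_isR2 (h2 : (2 : K) ≠ 0) (hli : LinearIndependent K b)
    (hA : ∀ s, A *ᵥ b s = ((h s : ℤ) : K) • b s) (hR : IsR2 A) :
    (Ng h).card ≤ 2 ∧ (Ng h).card ≠ 0 := by
  classical
  obtain ⟨h1, w1, w2, hw⟩ := hR
  constructor
  · have h3 : LinearIndependent K (fun s : Ng h => b s.1) := hli.comp _ Subtype.val_injective
    have h4 := finrank_span_eq_card h3
    have h5 : Submodule.span K (Set.range (fun s : Ng h => b s.1)) ≤
        Submodule.span K (({w1, w2} : Finset (Fin n → K)) : Set (Fin n → K)) := by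
      rw [Submodule.span_le]
      rintro _ ⟨⟨s, hs⟩, rfl⟩
      obtain ⟨c1, c2, hc⟩ := hw (b s)
      rw [hA s, mem_Ng.1 hs, cast_neg] at hc
      have h6 : (2 : K) • b s = c1 • w1 + c2 • w2 := by
        have h7 : c1 • w1 + c2 • w2 = b s - (b s - c1 • w1 - c2 • w2) := by module
        rw [h7, ← hc]
        module
      have h8 : b s = (2⁻¹ : K) • (c1 • w1 + c2 • w2) := by
        rw [← h6, smul_smul, inv_mul_cancel₀ h2, one_smul]
      show b s ∈ Submodule.span K _
      rw [h8]
      refine Submodule.smul_mem _ _ (Submodule.add_mem _ (Submodule.smul_mem _ _ ?_)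
        (Submodule.smul_mem _ _ ?_))
      · exact Submodule.subset_span (by simp)
      · exact Submodule.subset_span (by simp)
    have h6 := Submodule.finrank_mono h5
    have h7 : Module.finrank K (Submodule.span K (({w1, w2} : Finset (Fin n → K)) :
        Set (Fin n → K))) ≤ 2 := by
      have h8 := finrank_span_finset_le_card (R := K) ({w1, w2} : Finset (Fin n → K))
      exact h8.trans Finset.card_le_two
    rw [h4, Fintype.card_coe] at h6
    omega
  · intro h0
    apply h1
    rw [Finset.card_eq_zero] at h0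
    apply Matrix.ext_of_mulVec_single
    intro i
    obtain ⟨c, hc⟩ := spans hli (Pi.single i 1)
    rw [hc, Matrix.mulVec_sum, Matrix.mulVec_sum]
    refine Finset.sum_congr rfl fun s _ => ?_
    have h3 : h s = 1 := not_mem_Ng (by rw [h0]; simp)
    rw [mulVec_smul, mulVec_smul, hA, h3]
    simp

end typ

section count

lemma choose_gt2 {m : ℕ} (hm : 7 ≤ m) : ∀ k, 3 ≤ k → k + 3 ≤ m → (m + 1).choose 2 < m.choose k := by
  induction m, hm using Nat.le_induction with
  | base =>
    intro k h1 h2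
    have : k = 3 ∨ k = 4 := by omega
    rcases this with rfl | rfl <;> decide
  | succ n hn ih =>
    intro k h1 h2
    obtain ⟨j, rfl⟩ : ∃ j, k = j + 1 := ⟨k - 1, by omega⟩
    have e1 : (n + 1 + 1).choose 2 = (n + 1) + (n + 1).choose 2 := by
      rw [Nat.choose_succ_succ' (n + 1) 1, Nat.choose_one_right]
    rw [Nat.choose_succ_succ' n j, e1]
    rcases Nat.lt_or_ge (j + 1 + 3) (n + 1) with h3 | h3
    · have h4 := ih (j + 1) h1 (by omega)
      have h5 := choose_gt (by omega : 4 ≤ n) j (by omega) (by omega)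
      omega
    · have h4 := ih j (by omega) (by omega)
      have h5 := choose_gt (by omega : 4 ≤ n) (j + 1) (by omega) (by omega)
      omega

lemma pair_of_mem {α : Type*} [DecidableEq α] {T : Finset α} (hT : T.card = 2) {a : α}
    (ha : a ∈ T) : ∃ b, b ≠ a ∧ T = {a, b} := by
  obtain ⟨x, y, hxy, rfl⟩ := Finset.card_eq_two.1 hT
  rcases Finset.mem_insert.1 ha with h | h
  · subst h
    exact ⟨y, hxy.symm, rfl⟩
  · rw [Finset.mem_singleton] at h
    subst h
    exact ⟨x, hxy, Finset.pair_comm _ _⟩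

/-- at least four pairwise intersecting pairs have a common point -/
lemma star {α : Type*} [DecidableEq α] {m : ℕ} (hm : 4 ≤ m) {p : Fin m → Finset α}
    (hc : ∀ i, (p i).card = 2) (hinj : Function.Injective p)
    (hint : ∀ i j, i ≠ j → ∃ x, x ∈ p i ∧ x ∈ p j) : ∃ c, ∀ i, c ∈ p i := by
  let i0 : Fin m := ⟨0, by omega⟩
  let i1 : Fin m := ⟨1, by omega⟩
  have h01 : i0 ≠ i1 := by simp [i0, i1]
  obtain ⟨a, ha0, ha1⟩ := hint i0 i1 h01
  obtain ⟨b, hba, hb⟩ := pair_of_mem (hc i0) ha0
  obtain ⟨c, hca, hc'⟩ := pair_of_mem (hc i1) ha1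
  have hbc : b ≠ c := by
    rintro rfl
    exact h01 (hinj (hb.trans hc'.symm))
  refine ⟨a, fun k => ?_⟩
  by_contra hk
  have hbad : ∀ l, a ∉ p l → p l = {b, c} := by
    intro l hl
    have h1 : b ∈ p l := by
      obtain ⟨x, h3, h4⟩ := hint i0 l (by rintro rfl; exact hl ha0)
      rw [hb, Finset.mem_insert, Finset.mem_singleton] at h3
      rcases h3 with rfl | rfl
      · exact absurd h4 hl
      · exact h4
    have h2 : c ∈ p l := by
      obtain ⟨x, h3, h4⟩ := hint i1 l (by rintro rfl; exact hl ha1)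
      rw [hc', Finset.mem_insert, Finset.mem_singleton] at h3
      rcases h3 with rfl | rfl
      · exact absurd h4 hl
      · exact h4
    symm
    apply Finset.eq_of_subset_of_card_le
    · intro x hx
      rw [Finset.mem_insert, Finset.mem_singleton] at hx
      rcases hx with rfl | rfl
      · exact h1
      · exact h2
    · rw [hc l, Finset.card_pair hbc]
  have hk3 := hbad k hk
  obtain ⟨l, hl0, hl1, hlk⟩ : ∃ l : Fin m, l ≠ i0 ∧ l ≠ i1 ∧ l ≠ k := by
    by_contra hno
    push Not at hno
    have h1 : (Finset.univ : Finset (Fin m)) ⊆ {i0, i1, k} := by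
      intro l _
      simp only [Finset.mem_insert, Finset.mem_singleton]
      by_cases h2 : l = i0
      · exact Or.inl h2
      · by_cases h3 : l = i1
        · exact Or.inr (Or.inl h3)
        · exact Or.inr (Or.inr (hno l h2 h3))
    have h2 := Finset.card_le_card h1
    have h3 : ({i0, i1, k} : Finset (Fin m)).card ≤ 3 := Finset.card_le_three
    rw [Finset.card_univ, Fintype.card_fin] at h2
    omega
  by_cases hl : a ∈ p l
  · obtain ⟨x, hxa, hx⟩ := pair_of_mem (hc l) hl
    obtain ⟨y, h1, h2⟩ := hint k l (Ne.symm hlk)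
    rw [hk3, Finset.mem_insert, Finset.mem_singleton] at h1
    rw [hx, Finset.mem_insert, Finset.mem_singleton] at h2
    rcases h2 with h2 | h2
    · rcases h1 with h1 | h1
      · exact hba (h1.symm.trans h2)
      · exact hca (h1.symm.trans h2)
    · rcases h1 with h1 | h1
      · apply hl0
        apply hinj
        rw [hx, hb, ← h2, h1]
      · apply hl1
        apply hinj
        rw [hx, hc', ← h2, h1]
  · exact hlk (hinj ((hbad l hl).trans hk3.symm))

end count

section main

variable {K : Type*} [Field K] {m : ℕ}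

/-- the negative sign vector -/
def ng (e : Fin m → ℤˣ) : Fin m → ℤˣ := e * fun _ => -1

lemma ng_ng (e : Fin m → ℤˣ) : ng (ng e) = e := by
  funext i
  simp [ng]

lemma ng_inj : Function.Injective (ng (m := m)) := fun e e' h => by
  rw [← ng_ng e, h, ng_ng]

lemma wt_eq (e : Fin m → ℤˣ) : wt e = (Ng e).card := rfl

lemma Ng_ng (e : Fin m → ℤˣ) : Ng (ng e) = (Ng e)ᶜ := by
  ext i
  rw [Finset.mem_compl, mem_Ng, mem_Ng]
  show e i * -1 = -1 ↔ ¬ e i = -1
  rcases units_cases (e i) with h | h <;> rw [h] <;> decide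

lemma Ng_inj {e e' : Fin m → ℤˣ} (h : Ng e = Ng e') : e = e' := by
  rw [← sv_filter e, ← sv_filter e']
  exact congrArg sv h

lemma card_ng (e : Fin m → ℤˣ) : (Ng (ng e)).card = m - (Ng e).card := by
  rw [Ng_ng, Finset.card_compl, Fintype.card_fin]

lemma card_le (e : Fin m → ℤˣ) : (Ng e).card ≤ m := by
  have := Finset.card_le_univ (Ng e)
  rwa [Fintype.card_fin] at this

section

variable {g : (Fin m → ℤˣ) → (Fin (m + 1) → ℤˣ)} (hginj : Function.Injective g)
  (hmul : ∀ e e', g (e * e') = g e * g e') (hsurj : ∀ h : Fin (m + 1) → ℤˣ, ∏ s, h s = 1 → ∃ e, g e = h)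
  (hall : g (fun _ => -1) = fun _ => -1)

include hmul hall in
lemma g_ng (e : Fin m → ℤˣ) : g (ng e) = ng (g e) := by
  unfold ng
  rw [hmul, hall]

lemma prod_sv_pair {T : Finset (Fin (m + 1))} (hT : T.card = 2) : ∏ s, sv T s = 1 := by
  have h1 : ∀ i, sv T i = if i ∈ T then -1 else 1 := fun i => rfl
  simp only [h1]
  rw [Finset.prod_ite_mem, Finset.univ_inter, Finset.prod_const, hT]
  decide

lemma Ng_sv {r : ℕ} (T : Finset (Fin r)) : Ng (sv T) = T := by
  ext i
  rw [mem_Ng]
  unfold sv
  by_cases h : i ∈ T <;> simp [h]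

include hginj hmul hsurj hall in
/-- if the elements of type two have weights `k`, `m - k` only, there are few of them -/
lemma count_pairs (hm : 7 ≤ m) {k : ℕ}
    (hk : ∀ e, (Ng (g e)).card = 2 → wt e = k ∨ wt (ng e) = k) : (m + 1).choose 2 ≤ m.choose k := by
  have h1 : ∀ T : {T : Finset (Fin (m + 1)) // T ∈ Finset.powersetCard 2 Finset.univ},
      ∃ e : Fin m → ℤˣ, wt e = k ∧ (g e = sv T.1 ∨ g e = ng (sv T.1)) := by
    rintro ⟨T, hT⟩
    have hT2 := (Finset.mem_powersetCard.1 hT).2
    obtain ⟨e, he⟩ := hsurj (sv T) (prod_sv_pair hT2)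
    rcases hk e (by rw [he, Ng_sv, hT2]) with h | h
    · exact ⟨e, h, Or.inl he⟩
    · exact ⟨ng e, h, Or.inr (by rw [g_ng hmul hall, he])⟩
  choose f hf1 hf2 using h1
  have hinj : Function.Injective (fun T => (⟨Ng (f T), by
      rw [Finset.mem_powersetCard]
      exact ⟨Finset.subset_univ _, hf1 T⟩⟩ :
      {T : Finset (Fin m) // T ∈ Finset.powersetCard k Finset.univ})) := by
    intro T T' h
    have h3 : f T = f T' := Ng_inj (congrArg Subtype.val h)
    have hT2 := (Finset.mem_powersetCard.1 T.2).2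
    have hT2' := (Finset.mem_powersetCard.1 T'.2).2
    apply Subtype.ext
    have hne : ∀ S S' : Finset (Fin (m + 1)), S.card = 2 → S'.card = 2 → sv S ≠ ng (sv S') := by
      intro S S' hS hS' h4
      have h5 := congrArg (fun e => (Ng e).card) h4
      simp only [Ng_ng, Ng_sv] at h5
      rw [Finset.card_compl, hS, hS', Fintype.card_fin] at h5
      omega
    rcases hf2 T with h4 | h4 <;> rcases hf2 T' with h5 | h5
    · exact sv_inj (h4.symm.trans (by rw [h3, h5]))
    · exact absurd (h4.symm.trans (by rw [h3, h5])) (hne _ _ hT2 hT2')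
    · exact absurd (h5.symm.trans (by rw [← h3, h4])) (hne _ _ hT2' hT2)
    · exact sv_inj (ng_inj (h4.symm.trans (by rw [h3, h5])))
  have := Fintype.card_le_of_injective _ hinj
  rw [Fintype.card_coe, Fintype.card_coe, Finset.card_powersetCard, Finset.card_powersetCard,
    Finset.card_univ, Finset.card_univ, Fintype.card_fin, Fintype.card_fin] at this
  exact this

include hginj hmul hall in
/-- if all elements of weight `k` have type two up to sign, then `k` is small or large -/
lemma count_layer (hm : 7 ≤ m) (hodd : Odd m) {k : ℕ}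
    (hk : ∀ e, wt e = k → (Ng (g e)).card = 2 ∨ (Ng (ng (g e))).card = 2) :
    m.choose k ≤ (m + 1).choose 2 := by
  have h1 : ∀ T : {T : Finset (Fin m) // T ∈ Finset.powersetCard k Finset.univ},
      ∃ P : Finset (Fin (m + 1)), P.card = 2 ∧ (g (sv T.1) = sv P ∨ g (ng (sv T.1)) = sv P) := by
    rintro ⟨T, hT⟩
    have hT2 := (Finset.mem_powersetCard.1 hT).2
    rcases hk (sv T) (by rw [wt_sv, hT2]) with h | h
    · exact ⟨_, h, Or.inl (sv_filter _).symm⟩
    · exact ⟨_, h, Or.inr (by rw [g_ng hmul hall]; exact (sv_filter _).symm)⟩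
  choose f hf1 hf2 using h1
  have hinj : Function.Injective (fun T => (⟨f T, by
      rw [Finset.mem_powersetCard]
      exact ⟨Finset.subset_univ _, hf1 T⟩⟩ :
      {T : Finset (Fin (m + 1)) // T ∈ Finset.powersetCard 2 Finset.univ})) := by
    intro T T' h
    have h3 : f T = f T' := congrArg Subtype.val h
    have hT2 := (Finset.mem_powersetCard.1 T.2).2
    have hT2' := (Finset.mem_powersetCard.1 T'.2).2
    apply Subtype.ext
    have hne : ∀ S S' : Finset (Fin m), S.card = k → S'.card = k → sv S ≠ ng (sv S') := by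
      intro S S' hS hS' h4
      have h5 := congrArg (fun e => (Ng e).card) h4
      simp only [Ng_ng, Ng_sv] at h5
      rw [Finset.card_compl, hS, hS', Fintype.card_fin] at h5
      have h6 : k ≤ m := by
        rw [← hS]
        have := Finset.card_le_univ S
        rwa [Fintype.card_fin] at this
      obtain ⟨r, hr⟩ := hodd
      omega
    rcases hf2 T with h4 | h4 <;> rcases hf2 T' with h5 | h5
    · exact sv_inj (hginj (by rw [h4, h5, h3]))
    · exact absurd (hginj (by rw [h4, h5, h3])) (hne _ _ hT2 hT2')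
    · exact absurd (hginj (by rw [h4, h5, h3])) (hne _ _ hT2' hT2)
    · exact sv_inj (ng_inj (hginj (by rw [h4, h5, h3])))
  have := Fintype.card_le_of_injective _ hinj
  rw [Fintype.card_coe, Fintype.card_coe, Finset.card_powersetCard, Finset.card_powersetCard,
    Finset.card_univ, Finset.card_univ, Fintype.card_fin, Fintype.card_fin] at this
  exact this

end

/-- **Main theorem.** -/
theorem frame_even (h2 : (2 : K) ≠ 0) (hm : 7 ≤ m) (hodd : Odd m)
    (ρ : (Fin m → ℤˣ) →* Matrix (Fin (m + 1)) (Fin (m + 1)) K) (hinj : Function.Injective ρ)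
    (hdet : ∀ e, (ρ e).det = 1) (hall : ρ (fun _ => -1) = -1)
    (hlay : ∀ e e' : Fin m → ℤˣ, wt e = wt e' → IsR2 (ρ e) → IsR2 (ρ e') ∨ IsR2 (-(ρ e'))) :
    ∃ v : Fin (m + 1) → (Fin (m + 1) → K), LinearIndependent K v ∧
      ∀ i : Fin m, ∃ s : K, s ^ 2 = 1 ∧ ∀ j : Fin (m + 1), ρ (sg i) *ᵥ v j =
        s • (if j = i.castSucc ∨ j = Fin.last m then - v j else v j) := by
  classical
  obtain ⟨b, g, hli, hginj, hmul, hprod, hsurj, hg⟩ := exists_data' h2 ρ hinj hdet
  have hgall : g (fun _ => -1) = fun _ => -1 := by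
    funext s
    apply cast_inj h2
    have h1 := hg (fun _ => -1) s
    rw [hall, Matrix.neg_mulVec, one_mulVec] at h1
    have h3 : (((g (fun _ => -1) s : ℤˣ) : ℤ) : K) • b s - (-1 : K) • b s = 0 := by
      rw [← h1]
      module
    rw [← sub_smul] at h3
    have h4 := (smul_eq_zero.1 h3).resolve_right (hli.ne_zero s)
    rw [cast_neg]
    exact sub_eq_zero.1 h4
  have hgng := g_ng hmul hgall
  have hneg : ∀ e, -(ρ e) = ρ (ng e) := by
    intro e
    unfold ng
    rw [map_mul, hall, Matrix.mul_neg, Matrix.mul_one]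
  have heven : ∀ e, Even (Ng (g e)).card := by
    intro e
    by_contra hno
    rw [Nat.not_even_iff_odd] at hno
    have h1 := hprod e
    have h3 : ∀ i, g e i = if i ∈ Ng (g e) then -1 else 1 := by
      intro i
      split_ifs with h4
      · exact mem_Ng.1 h4
      · exact not_mem_Ng h4
    rw [Finset.prod_congr rfl fun i _ => h3 i, Finset.prod_ite_mem, Finset.univ_inter,
      Finset.prod_const, hno.neg_one_pow] at h1
    exact absurd h1 (by decide)
  have hR : ∀ e, IsR2 (ρ e) ↔ (Ng (g e)).card = 2 := by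
    intro e
    constructor
    · intro h
      obtain ⟨h1, h3⟩ := of_isR2 h2 hli (hg e) h
      obtain ⟨r, hr⟩ := heven e
      omega
    · intro h
      exact isR2_of h2 hli (hg e) h
  have hlay' : ∀ e e' : Fin m → ℤˣ, wt e = wt e' → (Ng (g e)).card = 2 →
      (Ng (g e')).card = 2 ∨ (Ng (ng (g e'))).card = 2 := by
    intro e e' h h1
    have h3 := hlay e e' h ((hR e).2 h1)
    rw [hneg, hR, hR, hgng] at h3
    exact h3
  have hlay2 : ∀ e e' : Fin m → ℤˣ, wt e = wt e' →
      ((Ng (g e)).card = 2 ∨ (Ng (ng (g e))).card = 2) →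
      ((Ng (g e')).card = 2 ∨ (Ng (ng (g e'))).card = 2) := by
    intro e e' h h1
    rcases h1 with h1 | h1
    · exact hlay' e e' h h1
    · rw [← hgng] at h1
      have h3 := hlay' (ng e) (ng e') (by
        rw [wt_eq, wt_eq, card_ng, card_ng, ← wt_eq, ← wt_eq, h]) h1
      rw [hgng, ng_ng] at h3
      exact h3.symm
  -- the weights of the elements of type two
  have hwt : ∀ e, (Ng (g e)).card = 2 → wt e = 1 ∨ wt e = 2 ∨ wt e = m - 2 ∨ wt e = m - 1 := by
    intro e he
    have h1 := count_layer hginj hmul hgall hm hodd (k := wt e)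
      (fun e' h => hlay' e e' h.symm he)
    have h3 : wt e ≤ m := card_le e
    have h4 : wt e ≠ 0 := by
      intro h0
      have h5 : e = 1 := by
        rw [← sv_filter e]
        have : Finset.univ.filter (fun i => e i = -1) = ∅ := Finset.card_eq_zero.1 h0
        rw [this]
        funext i
        simp [sv]
      have h6 : g e = 1 := by
        have h7 := hmul 1 1
        rw [mul_one] at h7
        rw [h5]
        exact mul_eq_left.1 h7.symm
      rw [h6] at he
      have h7 : Ng (1 : Fin (m + 1) → ℤˣ) = ∅ := by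
        ext i
        rw [mem_Ng]
        simp
      rw [h7] at he
      simp at he
    have h5 : wt e ≠ m := by
      intro h0
      have h6 : Ng e = Finset.univ := by
        apply Finset.eq_univ_of_card
        rw [Fintype.card_fin]
        exact h0
      have h7 : e = fun _ => -1 := by
        funext i
        exact mem_Ng.1 (by rw [h6]; simp)
      rw [h7, hgall] at he
      have h8 : Ng (fun _ : Fin (m + 1) => (-1 : ℤˣ)) = Finset.univ := by
        ext i
        rw [mem_Ng]
        simp
      rw [h8, Finset.card_univ, Fintype.card_fin] at he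
      omega
    by_contra hno
    push Not at hno
    have := choose_gt2 hm (wt e) (by omega) (by omega)
    omega
  have hex : ∀ k, k = 1 ∨ k = 2 → ∃ e, wt e = k ∧
      ((Ng (g e)).card = 2 ∨ (Ng (ng (g e))).card = 2) := by
    intro k hk
    by_contra hno
    push Not at hno
    have h1 : ∀ e, (Ng (g e)).card = 2 → wt e = 3 - k ∨ wt (ng e) = 3 - k := by
      intro e he
      have h3 := hwt e he
      have h4 : wt e ≠ k := fun h => (hno e h).1 he
      have h5 : wt (ng e) ≠ k := by
        intro h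
        apply (hno (ng e) h).2
        rw [hgng, ng_ng]
        exact he
      have h6 : wt (ng e) = m - wt e := card_ng e
      rcases hk with rfl | rfl <;> omega
    have h3 := count_pairs hginj hmul hsurj hgall hm h1
    rw [Nat.choose_succ_succ' m 1, Nat.choose_one_right] at h3
    have h4 : 0 < m.choose (1 + 1) := Nat.choose_pos (by omega)
    rcases hk with rfl | rfl
    · have h5 : m.choose (3 - 1) = m.choose (1 + 1) := rfl
      omega
    · have h5 : m.choose (3 - 2) = m := Nat.choose_one_right m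
      omega
  have hP : ∀ e, wt e = 1 ∨ wt e = 2 → ((Ng (g e)).card = 2 ∨ (Ng (ng (g e))).card = 2) := by
    intro e he
    obtain ⟨e0, h1, h3⟩ := hex (wt e) he
    exact hlay2 e0 e h1 h3
  -- the pairs
  have hp : ∀ i : Fin m, ∃ (T : Finset (Fin (m + 1))) (e : Fin m → ℤˣ) (s : ℤˣ), T.card = 2 ∧
      Ng (g e) = T ∧ (e = sg i ∧ s = 1 ∨ e = ng (sg i) ∧ s = -1) := by
    intro i
    rcases hP (sg i) (Or.inl (wt_sg i)) with h | h
    · exact ⟨_, sg i, 1, h, rfl, Or.inl ⟨rfl, rfl⟩⟩
    · exact ⟨_, ng (sg i), -1, h, by rw [hgng], Or.inr ⟨rfl, rfl⟩⟩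
  choose p e s hpc hpe hes using hp
  have hsginj : ∀ i j : Fin m, sg i = sg j → i = j := by
    intro i j h
    by_contra hne
    have h4 := congrFun h i
    simp [sg, hne] at h4
  have hsgng : ∀ i j : Fin m, sg i ≠ ng (sg j) := by
    intro i j h
    have h1 : wt (ng (sg j)) = m - wt (sg j) := card_ng _
    rw [← h, wt_sg, wt_sg] at h1
    omega
  have hpinj : Function.Injective p := by
    intro i j hij
    have h1 : e i = e j := by
      apply hginj
      apply Ng_inj
      rw [hpe, hpe, hij]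
    rcases hes i with ⟨h3, -⟩ | ⟨h3, -⟩ <;> rcases hes j with ⟨h4, -⟩ | ⟨h4, -⟩
    · exact hsginj i j (h3.symm.trans (h1.trans h4))
    · exact absurd (h3.symm.trans (h1.trans h4)) (hsgng i j)
    · exact absurd (h4.symm.trans (h1.symm.trans h3)) (hsgng j i)
    · exact hsginj i j (ng_inj (h3.symm.trans (h1.trans h4)))
  have hpint : ∀ i j, i ≠ j → ∃ x, x ∈ p i ∧ x ∈ p j := by
    intro i j hij
    by_contra hno
    push Not at hno
    have hdis : Disjoint (p i) (p j) := Finset.disjoint_left.2 hno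
    have h1 : Ng (g (e i * e j)) = p i ∪ p j := by
      ext x
      rw [mem_Ng, hmul, Finset.mem_union, ← hpe i, ← hpe j, mem_Ng, mem_Ng, Pi.mul_apply]
      have h3 : ¬ (g (e i) x = -1 ∧ g (e j) x = -1) := by
        rintro ⟨h4, h5⟩
        exact hno x (by rw [← hpe i, mem_Ng]; exact h4) (by rw [← hpe j, mem_Ng]; exact h5)
      rcases units_cases (g (e i) x) with h4 | h4 <;> rcases units_cases (g (e j) x) with h5 | h5 <;>
        rw [h4, h5] at h3 ⊢ <;> revert h3 <;> decide
    have h3 : (Ng (g (e i * e j))).card = 4 := by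
      rw [h1, Finset.card_union_of_disjoint hdis, hpc, hpc]
    have h4 : wt (sg i * sg j) = 2 := by
      have h5 : Ng (sg i * sg j) = {i, j} := by
        ext x
        rw [mem_Ng, Finset.mem_insert, Finset.mem_singleton]
        show sg i x * sg j x = -1 ↔ _
        unfold sg
        by_cases h6 : x = i
        · subst h6
          simp [hij]
        · by_cases h7 : x = j
          · subst h7
            simp [h6]
          · simp [h6, h7]
      rw [wt_eq, h5, Finset.card_pair hij]
    have h5 := hP _ (Or.inr h4)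
    have h6 : e i * e j = sg i * sg j ∨ e i * e j = ng (sg i * sg j) := by
      have h7 : ∀ a b : Fin m → ℤˣ, ng a * b = ng (a * b) := fun a b => by
        unfold ng; rw [mul_right_comm]
      have h8 : ∀ a b : Fin m → ℤˣ, a * ng b = ng (a * b) := fun a b => by
        unfold ng; rw [mul_assoc]
      rcases hes i with ⟨h3, -⟩ | ⟨h3, -⟩ <;> rcases hes j with ⟨h4, -⟩ | ⟨h4, -⟩
      · left; rw [h3, h4]
      · right; rw [h3, h4, h8]
      · right; rw [h3, h4, h7]
      · left; rw [h3, h4, h7, h8, ng_ng]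
    have h7 : (Ng (ng (g (e i * e j)))).card = m + 1 - 4 := by
      rw [card_ng, h3]
    rcases h6 with h6 | h6
    · rw [← h6] at h5
      omega
    · have h8 : sg i * sg j = ng (e i * e j) := by rw [h6, ng_ng]
      rw [h8, hgng, ng_ng] at h5
      omega
  obtain ⟨c, hc⟩ := star (by omega : 4 ≤ m) hpc hpinj hpint
  have hq : ∀ i, ∃ q, q ≠ c ∧ p i = {c, q} := fun i => pair_of_mem (hpc i) (hc i)
  choose q hqc hpq using hq
  have hqinj : Function.Injective q := by
    intro i j hij
    apply hpinj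
    rw [hpq, hpq, hij]
  let φ : Fin (m + 1) → Fin (m + 1) := Fin.snoc (α := fun _ => Fin (m + 1)) q c
  have hφl : φ (Fin.last m) = c := by
    show Fin.snoc (α := fun _ => Fin (m + 1)) q c (Fin.last m) = c
    rw [Fin.snoc_last]
  have hφc : ∀ i : Fin m, φ i.castSucc = q i := by
    intro i
    show Fin.snoc (α := fun _ => Fin (m + 1)) q c i.castSucc = q i
    rw [Fin.snoc_castSucc]
  have hφ : Function.Injective φ := by
    intro i j
    refine Fin.lastCases ?_ (fun i => ?_) i
    · refine Fin.lastCases ?_ (fun j => ?_) j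
      · intro _; rfl
      · rw [hφl, hφc]
        intro h
        exact absurd h.symm (hqc j)
    · refine Fin.lastCases ?_ (fun j => ?_) j
      · rw [hφl, hφc]
        intro h
        exact absurd h (hqc i)
      · rw [hφc, hφc]
        intro h
        rw [hqinj h]
  refine ⟨fun j => b (φ j), hli.comp φ hφ, fun i => ?_⟩
  have hmem : ∀ j, φ j ∈ p i ↔ (j = i.castSucc ∨ j = Fin.last m) := by
    intro j
    rw [hpq, Finset.mem_insert, Finset.mem_singleton, ← hφl, ← hφc i, hφ.eq_iff, hφ.eq_iff, or_comm]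
  refine ⟨((s i : ℤ) : K), ?_, fun j => ?_⟩
  · rcases hes i with ⟨-, h⟩ | ⟨-, h⟩ <;> rw [h] <;> simp
  · show ρ (sg i) *ᵥ b (φ j) = _
    have h1 : g (e i) (φ j) = if j = i.castSucc ∨ j = Fin.last m then -1 else 1 := by
      split_ifs with h3
      · exact mem_Ng.1 (by rw [hpe]; exact (hmem j).2 h3)
      · exact not_mem_Ng (by rw [hpe]; exact fun h => h3 ((hmem j).1 h))
    rcases hes i with ⟨h3, h4⟩ | ⟨h3, h4⟩
    · rw [h4, hg, ← h3, h1]
      split_ifs <;> simp
    · have h5 : sg i = ng (e i) := by rw [h3, ng_ng]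
      have h6 : g (sg i) (φ j) = - g (e i) (φ j) := by
        rw [h5, hgng]
        show g (e i) (φ j) * -1 = _
        simp
      rw [h4, hg, h6, h1]
      split_ifs <;> simp

end main

end Vale.Agent.P240.R2.H275.F3
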