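import Mathlib.LinearAlgebra.Matrix.NonsingularInverse
import Mathlib.LinearAlgebra.Matrix.ToLin
import Mathlib.LinearAlgebra.FiniteDimensional.Lemmas
import Mathlib.LinearAlgebra.Dimension.Constructions
import Mathlib.Data.Finset.Sort
import Mathlib.Tactic.Ring
import Mathlib.Tactic.LinearCombination
import Mathlib.Tactic.Module

/-!
An even number `N` of pairwise anticommuting invertible matrices of size `n`: `2 ^ N ≤ n ^ 2`.
-/

set_option autoImplicit false
set_option linter.all false

namespace Vale.Agent.P240.R2.H275.F3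

open Finset Matrix

section cliff

variable {K : Type*} [Field K] {n N : ℕ} (c : Fin N → Matrix (Fin n) (Fin n) K)

/-- the ordered product -/
def PA (A : Finset (Fin N)) : Matrix (Fin n) (Fin n) K := ((A.sort (· ≤ ·)).map c).prod

variable {c}

lemma list_comm (hanti : ∀ i j, i ≠ j → c i * c j = -(c j * c i)) (j : Fin N) :
    ∀ l : List (Fin N), c j * (l.map c).prod =
      ((-1 : K) ^ (l.filter (fun i => i ≠ j)).length) • ((l.map c).prod * c j) := by
  intro l
  induction l with
  | nil => simp
  | cons a l ih =>
    rw [List.map_cons, List.prod_cons]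
    by_cases h : a = j
    · subst h
      rw [List.filter_cons_of_neg (by simp), Matrix.mul_assoc (c a) (l.map c).prod (c a), ih,
        Matrix.mul_smul]
    · rw [List.filter_cons_of_pos (by simpa using h), List.length_cons, pow_succ,
        ← Matrix.mul_assoc, hanti j a (Ne.symm h), Matrix.neg_mul, Matrix.mul_assoc, ih,
        Matrix.mul_smul, Matrix.mul_assoc]
      module

lemma PA_comm (hanti : ∀ i j, i ≠ j → c i * c j = -(c j * c i)) (j : Fin N)
    (A : Finset (Fin N)) :
    c j * PA c A = ((-1 : K) ^ (A.erase j).card) • (PA c A * c j) := by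
  unfold PA
  rw [list_comm hanti]
  congr 2
  have h1 : (A.sort (· ≤ ·)).toFinset = A := Finset.sort_toFinset _ _
  have h2 : ((A.sort (· ≤ ·)).filter (fun i => i ≠ j)).Nodup := (Finset.sort_nodup _ _).filter _
  rw [← List.toFinset_card_of_nodup h2, List.toFinset_filter, h1]
  congr 1
  ext x
  simp [and_comm]

lemma PA_inv (hu : ∀ i, ∃ d, c i * d = 1) (A : Finset (Fin N)) : ∃ d, PA c A * d = 1 := by
  unfold PA
  have h : ∀ l : List (Fin N), ∃ d, (l.map c).prod * d = 1 := by
    intro l
    induction l with
    | nil => exact ⟨1, by simp⟩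
    | cons a l ih =>
      obtain ⟨d, hd⟩ := ih
      obtain ⟨e, he⟩ := hu a
      refine ⟨d * e, ?_⟩
      rw [List.map_cons, List.prod_cons]
      rw [show c a * (l.map c).prod * (d * e) = c a * ((l.map c).prod * d) * e by
        simp only [Matrix.mul_assoc], hd, Matrix.mul_one, he]
  exact h _

/-- two sets are separated by a sign -/
lemma sep (hN : Even N) {A B : Finset (Fin N)} (hAB : A ≠ B) :
    ∃ j, ¬ (Even (A.erase j).card ↔ Even (B.erase j).card) := by
  classical
  by_cases h : Even A.card ↔ Even B.card
  · obtain ⟨j, hj⟩ : ∃ j, ¬ (j ∈ A ↔ j ∈ B) := by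
      by_contra hno
      push Not at hno
      exact hAB (Finset.ext fun j => hno j)
    refine ⟨j, fun h1 => ?_⟩
    by_cases hA : j ∈ A
    · have hB : j ∉ B := fun hB => hj ⟨fun _ => hB, fun _ => hA⟩
      rw [Finset.erase_eq_of_notMem hB, ← h, ← Finset.card_erase_add_one hA, Nat.even_add_one] at h1
      tauto
    · have hB : j ∈ B := by
        by_contra hB
        exact hj ⟨fun h => absurd h hA, fun h => absurd h hB⟩
      rw [Finset.erase_eq_of_notMem hA, h, ← Finset.card_erase_add_one hB, Nat.even_add_one] at h1
      tauto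
  · obtain ⟨j, hj⟩ : ∃ j, (j ∈ A ↔ j ∈ B) := by
      by_contra hno
      push Not at hno
      apply h
      have h3 : B = Aᶜ := by
        ext j
        rw [Finset.mem_compl]
        have := hno j
        tauto
      have h4 : B.card = N - A.card := by
        rw [h3, Finset.card_compl, Fintype.card_fin]
      have h5 : A.card ≤ N := by
        have := Finset.card_le_univ A
        rwa [Fintype.card_fin] at this
      rw [h4, Nat.even_sub h5]
      tauto
    refine ⟨j, fun h1 => h ?_⟩
    by_cases hA : j ∈ A
    · have hB := hj.1 hA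
      rw [← Finset.card_erase_add_one hA, ← Finset.card_erase_add_one hB, Nat.even_add_one,
        Nat.even_add_one]
      tauto
    · have hB : j ∉ B := fun hB => hA (hj.2 hB)
      rwa [Finset.erase_eq_of_notMem hA, Finset.erase_eq_of_notMem hB] at h1

theorem PA_indep (h2 : (2 : K) ≠ 0) (hn : 0 < n) (hN : Even N) (hu : ∀ i, ∃ d, c i * d = 1)
    (hanti : ∀ i j, i ≠ j → c i * c j = -(c j * c i)) :
    ∀ (k : ℕ) (S : Finset (Finset (Fin N))) (a : Finset (Fin N) → K), S.card ≤ k →
      ∑ A ∈ S, a A • PA c A = 0 → ∀ A ∈ S, a A = 0 := by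
  classical
  intro k
  induction k with
  | zero =>
    intro S a hS _ A hA
    rw [Finset.card_eq_zero.1 (Nat.le_zero.1 hS)] at hA
    exact absurd hA (Finset.notMem_empty _)
  | succ k ih =>
    intro S a hS hsum A hA
    by_cases h1 : ∃ B ∈ S, B ≠ A
    · obtain ⟨B, hB, hBA⟩ := h1
      obtain ⟨j, hj⟩ := sep hN hBA
      have hsum2 : ∑ A ∈ S, ((-1 : K) ^ (A.erase j).card * a A) • PA c A = 0 := by
        obtain ⟨d, hd⟩ := hu j
        have h3 : (∑ A ∈ S, ((-1 : K) ^ (A.erase j).card * a A) • PA c A) * c j = 0 := by
          rw [Finset.sum_mul]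
          calc ∑ A ∈ S, (((-1 : K) ^ (A.erase j).card * a A) • PA c A) * c j
              = ∑ A ∈ S, c j * (a A • PA c A) := by
                refine Finset.sum_congr rfl fun A _ => ?_
                rw [Matrix.mul_smul, PA_comm hanti, Matrix.smul_mul, smul_smul, mul_comm]
            _ = c j * ∑ A ∈ S, a A • PA c A := by rw [Finset.mul_sum]
            _ = 0 := by rw [hsum, Matrix.mul_zero]
        have h4 := congrArg (· * d) h3
        simp only [Matrix.mul_assoc, hd, Matrix.mul_one, Matrix.zero_mul] at h4
        exact h4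
      have hsp : ∀ (P : Prop) [Decidable P] (x : Matrix (Fin n) (Fin n) K),
          x = (if P then x else 0) + (if P then 0 else x) := by
        intro P _ x
        split_ifs <;> simp
      -- the two halves
      have hev : ∑ A ∈ S.filter (fun A => Even (A.erase j).card), a A • PA c A = 0 := by
        have h3 : (2 : K) • ∑ A ∈ S.filter (fun A => Even (A.erase j).card), a A • PA c A =
            ∑ A ∈ S, a A • PA c A + ∑ A ∈ S, ((-1 : K) ^ (A.erase j).card * a A) • PA c A := by
          rw [← Finset.sum_add_distrib, Finset.smul_sum, Finset.sum_filter]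
          refine Finset.sum_congr rfl fun A _ => ?_
          split_ifs with h4
          · rw [h4.neg_one_pow]
            module
          · rw [(Nat.not_even_iff_odd.1 h4).neg_one_pow]
            module
        rw [hsum, hsum2, add_zero] at h3
        exact (smul_eq_zero.1 h3).resolve_left h2
      have hod : ∑ A ∈ S.filter (fun A => ¬ Even (A.erase j).card), a A • PA c A = 0 := by
        rw [← Finset.sum_filter_add_sum_filter_not S (fun A => Even (A.erase j).card), hev,
          zero_add] at hsum
        exact hsum
      have hlt : ∀ (Q : Finset (Fin N) → Prop) [DecidablePred Q] (C : Finset (Fin N)), C ∈ S →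
          ¬ Q C → (S.filter Q).card ≤ k := by
        intro Q _ C hC hQ
        have h3 : S.filter Q ⊂ S := by
          rw [Finset.ssubset_iff_of_subset (Finset.filter_subset _ _)]
          exact ⟨C, hC, fun h => hQ (Finset.mem_filter.1 h).2⟩
        have := Finset.card_lt_card h3
        omega
      by_cases hA' : Even (A.erase j).card
      · refine ih (S.filter (fun A => Even (A.erase j).card)) a ?_ hev A
          (Finset.mem_filter.2 ⟨hA, hA'⟩)
        exact hlt _ B hB (fun h => hj ⟨fun _ => hA', fun _ => h⟩)
      · refine ih (S.filter (fun A => ¬ Even (A.erase j).card)) a ?_ hod A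
          (Finset.mem_filter.2 ⟨hA, hA'⟩)
        exact hlt _ B hB (fun h => hj ⟨fun h' => absurd h' h, fun h' => absurd h' hA'⟩)
    · push Not at h1
      have h3 : S = {A} := by
        ext B
        rw [Finset.mem_singleton]
        exact ⟨h1 B, fun h => by rw [h]; exact hA⟩
      rw [h3, Finset.sum_singleton] at hsum
      refine (smul_eq_zero.1 hsum).resolve_right fun h0 => ?_
      obtain ⟨d, hd⟩ := PA_inv hu A
      rw [h0, Matrix.zero_mul] at hd
      have h4 := congrFun (congrFun hd ⟨0, hn⟩) ⟨0, hn⟩
      rw [Matrix.one_apply_eq] at h4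
      exact zero_ne_one h4

/-- **the dimension bound** -/
theorem cliff_bound (h2 : (2 : K) ≠ 0) (hn : 0 < n) (hN : Even N) (hu : ∀ i, ∃ d, c i * d = 1)
    (hanti : ∀ i j, i ≠ j → c i * c j = -(c j * c i)) : 2 ^ N ≤ n ^ 2 := by
  classical
  have h1 : LinearIndependent K (fun A : Finset (Fin N) => PA c A) := by
    rw [Fintype.linearIndependent_iff]
    intro a ha A
    exact PA_indep h2 hn hN hu hanti _ Finset.univ a le_rfl ha A (Finset.mem_univ _)
  have h3 := h1.fintype_card_le_finrank
  rw [Fintype.card_finset, Fintype.card_fin, Module.finrank_matrix, Module.finrank_self, mul_one,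
    Fintype.card_fin] at h3
  rw [pow_two]
  exact h3

lemma pow_gt {m : ℕ} (hm : 9 ≤ m) : (m + 1) ^ 2 < 2 ^ (m - 1) := by
  induction m, hm using Nat.le_induction with
  | base => norm_num
  | succ m hm ih =>
    have e1 : m + 1 - 1 = (m - 1) + 1 := by omega
    have e2 : (2 : ℕ) ^ ((m - 1) + 1) = 2 ^ (m - 1) * 2 := pow_succ _ _
    rw [e1, e2]
    nlinarith

end cliff

end Vale.Agent.P240.R2.H275.F3
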