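import Vale.Agent.P240.R2.H275.DF
import Mathlib.NumberTheory.LegendreSymbol.QuadraticChar.Basic

/-!
The isometries `J` with `J ^ 2 = -1` of the form `diag(a)`: at most two classes under the preimage of
the commutator subgroup; generation by reflections.
-/

set_option autoImplicit false
set_option linter.all false

namespace Vale.Agent.P240.R2.H275.F3

open Matrix Vale.Agent.P240.R2.H145.EO Vale.Agent.P240.R2.H275

universe u

open scoped Classical

section gen

variable {K : Type u} [Field K] {n : ℕ} {a : Fin n → K}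

/-- the subgroup generated by the reflections -/
def RG (a : Fin n → K) : Subgroup (GL (Fin n) K) :=
  Subgroup.closure {g | ∃ (v : Fin n → K) (hv : B a v v ≠ 0), g = rf a v hv}

lemma rf_RG {v : Fin n → K} (hv : B a v v ≠ 0) : rf a v hv ∈ RG a :=
  Subgroup.subset_closure ⟨v, hv, rfl⟩

lemma RG_le : RG a ≤ OD a := by
  rw [RG, Subgroup.closure_le]
  rintro _ ⟨v, hv, rfl⟩
  exact rf_mem hv

/-- orthonormal tuples are standard up to a product of reflections -/
lemma std' (h2 : (2 : K) ≠ 0) (ha1 : ∀ i : Fin n, i.val + 1 < n → a i = 1) :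
    ∀ (k : ℕ) (hk : k + 1 ≤ n) (x : Fin k → Fin n → K), ON a x → ∃ g ∈ RG a, ∀ i : Fin k,
      ac g (x i) = Pi.single ⟨i.val, by omega⟩ 1 ∨ ac g (x i) = -Pi.single ⟨i.val, by omega⟩ 1 := by
  intro k
  induction k with
  | zero => exact fun _ _ _ => ⟨1, one_mem _, fun i => i.elim0⟩
  | succ k ih =>
    intro hk x hx
    obtain ⟨g, hgR, hgx⟩ := ih (by omega) _ hx.castSucc
    have hg := RG_le hgR
    set v : Fin n → K := ac g (x (Fin.last k)) with hv
    set e : Fin n → K := Pi.single ⟨k, by omega⟩ 1 with he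
    have hvv : B a v v = 1 := by rw [hv, OD_B hg, hx, if_pos rfl]
    have hee : B a e e = 1 := by
      rw [he, B_e ha1 (by show k + 1 < n; omega), Pi.single_eq_same]
    have hvi : ∀ i : Fin k, B a (Pi.single ⟨i.val, by omega⟩ 1) v = 0 := by
      intro i
      have h3 : B a (ac g (x i.castSucc)) v = 0 := by
        rw [hv, OD_B hg, hx, if_neg (Fin.castSucc_lt_last i).ne]
      rcases hgx i with h | h
      · rwa [h] at h3
      · rw [h, B_neg_left, neg_eq_zero] at h3; exact h3
    have hei : ∀ i : Fin k, B a (Pi.single ⟨i.val, by omega⟩ 1) e = 0 := by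
      intro i
      rw [B_e ha1 (by show i.val + 1 < n; omega), he, Pi.single_eq_of_ne]
      intro h
      have := congrArg Fin.val h
      simp only at this
      omega
    have hve : B a v v = B a e e := by rw [hvv, hee]
    obtain ⟨r, hr, hre, hri⟩ : ∃ r ∈ RG a, (ac r v = e ∨ ac r v = -e) ∧ ∀ i : Fin k,
        ac r (Pi.single ⟨i.val, by omega⟩ 1) = Pi.single ⟨i.val, by omega⟩ 1 := by
      rcases exists_pm h2 (by rw [hvv]; exact one_ne_zero) hve with h | h
      · refine ⟨rf a _ h, rf_RG h, Or.inl (rf_sub hve h), fun i => rf_fix h ?_⟩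
        rw [B_comm, B_sub_right, hvi, hei, sub_zero]
      · refine ⟨rf a _ h, rf_RG h, Or.inr (rf_add hve h), fun i => rf_fix h ?_⟩
        rw [B_comm, B_add_right, hvi, hei, add_zero]
    refine ⟨r * g, mul_mem hr hgR, fun i => ?_⟩
    refine Fin.lastCases ?_ (fun i => ?_) i
    · rw [ac_mul]
      exact hre
    · rw [ac_mul]
      rcases hgx i with h | h
      · left
        rw [h]
        exact hri i
      · right
        rw [h, ac_neg, hri i]
        rfl

lemma B_ee (i : Fin n) : B a (Pi.single i 1) (Pi.single i 1) = a i := by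
  rw [B_single, Pi.single_eq_same]
  ring

lemma rf_single {i : Fin n} (hi : B a (Pi.single i 1) (Pi.single i 1) ≠ 0) :
    (rf a (Pi.single i 1) hi).1 = diagonal (fun k => if k = i then (-1 : K) else 1) := by
  have hi' : a i ≠ 0 := by rwa [B_ee] at hi
  apply Matrix.ext_of_mulVec_single
  intro t
  have e1 : (rf a _ hi).1 *ᵥ Pi.single t 1 = ac (rf a _ hi) (Pi.single t 1) := rfl
  rw [e1, ac_rf, B_ee, B_single]
  funext k
  rw [mulVec_diagonal]
  simp only [Pi.sub_apply, Pi.smul_apply, smul_eq_mul, Pi.single_apply]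
  by_cases hki : k = i
  · subst hki
    by_cases htk : k = t
    · subst htk
      simp
      field_simp
      ring
    · simp [htk]
  · by_cases htk : k = t
    · subst htk
      simp [hki]
    · simp [hki, htk]

lemma diag_RG (ha : ∀ i, a i ≠ 0) : ∀ (k : ℕ) (c : Fin n → K), (∀ i, c i ^ 2 = 1) →
    (Finset.univ.filter (fun i => c i ≠ 1)).card ≤ k → ∀ g : GL (Fin n) K, g.1 = diagonal c →
    g ∈ RG a := by
  classical
  intro k
  induction k with
  | zero =>
    intro c hc hk g hg
    have h1 : ∀ i, c i = 1 := by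
      intro i
      by_contra h
      have h3 : i ∈ Finset.univ.filter (fun i => c i ≠ 1) := by simp [h]
      rw [Finset.card_eq_zero.1 (Nat.le_zero.1 hk)] at h3
      exact absurd h3 (Finset.notMem_empty _)
    have h3 : g = 1 := by
      apply Units.ext
      rw [hg, funext h1]
      exact diagonal_one
    rw [h3]
    exact one_mem _
  | succ k ih =>
    intro c hc hk g hg
    by_cases h : ∃ i, c i ≠ 1
    · obtain ⟨i, hi⟩ := h
      have hm : c i = -1 := by
        have h3 : (c i - 1) * (c i + 1) = 0 := by linear_combination hc i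
        exact eq_neg_of_add_eq_zero_left ((mul_eq_zero.1 h3).resolve_left (sub_ne_zero.2 hi))
      have hi0 : B a (Pi.single i 1) (Pi.single i 1) ≠ 0 := by rw [B_ee]; exact ha i
      set s := rf a (Pi.single i 1) hi0 with hs
      have hs1 : s.1 = diagonal (fun k => if k = i then (-1 : K) else 1) := rf_single hi0
      let c' : Fin n → K := fun k => if k = i then 1 else c k
      have h3 : s * g ∈ RG a := by
        refine ih c' ?_ ?_ (s * g) ?_
        · intro k
          show (if k = i then 1 else c k) ^ 2 = 1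
          split_ifs
          · exact one_pow _
          · exact hc k
        · have h4 : Finset.univ.filter (fun k => c' k ≠ 1) ⊂
              Finset.univ.filter (fun k => c k ≠ 1) := by
            rw [Finset.ssubset_iff_of_subset]
            · refine ⟨i, by simp [hi], by simp [c']⟩
            · intro k hk
              simp only [Finset.mem_filter, Finset.mem_univ, true_and, c'] at hk ⊢
              intro h5
              apply hk
              split_ifs
              · rfl
              · exact h5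
          have h5 := Finset.card_lt_card h4
          omega
        · show s.1 * g.1 = _
          rw [hs1, hg, diagonal_mul_diagonal]
          congr 1
          funext k
          show (if k = i then (-1 : K) else 1) * c k = if k = i then 1 else c k
          split_ifs with h4
          · rw [h4, hm]; ring
          · rw [one_mul]
      have h4 : g = s⁻¹ * (s * g) := by group
      rw [h4]
      exact mul_mem (inv_mem (rf_RG hi0)) h3
    · push Not at h
      refine ih c hc ?_ g hg
      have h4 : Finset.univ.filter (fun i => c i ≠ 1) = ∅ := by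
        rw [Finset.filter_eq_empty_iff]
        intro i _
        rw [not_not]
        exact h i
      rw [h4]
      simp

/-- **generation by reflections** -/
theorem OD_le_RG (h2 : (2 : K) ≠ 0) (hn : 1 ≤ n) (ha : ∀ i, a i ≠ 0)
    (ha1 : ∀ i : Fin n, i.val + 1 < n → a i = 1) : OD a ≤ RG a := by
  intro g hg
  have hx : ON a (fun i : Fin (n - 1) => ac g (Pi.single (⟨i.val, by omega⟩ : Fin n) 1)) := by
    intro i j
    rw [OD_B hg, B_e ha1 (by show i.val + 1 < n; omega), Pi.single_apply]
    congr 1
    simp [Fin.ext_iff]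
  obtain ⟨w, hw, hwx⟩ := std' h2 ha1 (n - 1) (by omega) _ hx
  have hu : w * g ∈ OD a := mul_mem (RG_le hw) hg
  have hcol : ∀ j : Fin n, ∃ c : K, ac (w * g) (Pi.single j 1) = c • Pi.single j 1 := by
    intro j
    by_cases hj : j.val + 1 < n
    · have h1 := hwx ⟨j.val, by omega⟩
      rw [← ac_mul] at h1
      rcases h1 with h1 | h1
      · exact ⟨1, by rw [one_smul]; exact h1⟩
      · exact ⟨-1, by rw [neg_smul, one_smul]; exact h1⟩
    · refine ⟨ac (w * g) (Pi.single j 1) j, ?_⟩
      funext i
      rw [Pi.smul_apply, smul_eq_mul, Pi.single_apply]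
      split_ifs with hij
      · rw [hij, mul_one]
      · rw [mul_zero]
        have hi : i.val + 1 < n := by
          have h1 : i.val ≠ j.val := fun h => hij (Fin.ext h)
          have h3 := i.2
          have h4 := j.2
          omega
        have h1 := hwx ⟨i.val, by omega⟩
        rw [← ac_mul] at h1
        have h3 := OD_B hu (Pi.single i 1) (Pi.single j 1)
        rw [B_e ha1 hi, Pi.single_eq_of_ne hij] at h3
        rcases h1 with h1 | h1
        · have h4 : ac (w * g) (Pi.single i 1) = Pi.single i 1 := h1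
          rwa [h4, B_e ha1 hi] at h3
        · have h4 : ac (w * g) (Pi.single i 1) = -Pi.single i 1 := h1
          rwa [h4, B_neg_left, B_e ha1 hi, neg_eq_zero] at h3
  choose c hc using hcol
  have h3 : (w * g).1 = diagonal c := by
    apply Matrix.ext_of_mulVec_single
    intro j
    have h4 : (w * g).1 *ᵥ Pi.single j 1 = c j • Pi.single j 1 := hc j
    rw [h4]
    funext i
    rw [mulVec_diagonal, Pi.smul_apply, smul_eq_mul, Pi.single_apply]
    split_ifs with h5
    · rw [h5]
    · rw [mul_zero, mul_zero]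
  have h4 : ∀ i, c i ^ 2 = 1 := by
    intro i
    have h5 := OD_B hu (Pi.single i 1) (Pi.single i 1)
    rw [hc i, B_smul_left, B_smul_right, B_ee] at h5
    have h6 : a i * (c i ^ 2 - 1) = 0 := by linear_combination h5
    exact sub_eq_zero.1 ((mul_eq_zero.1 h6).resolve_left (ha i))
  have h5 := diag_RG ha _ c h4 le_rfl (w * g) h3
  have h6 : g = w⁻¹ * (w * g) := by group
  rw [h6]
  exact mul_mem (inv_mem hw) h5

lemma rf_smul {v : Fin n → K} (hv : B a v v ≠ 0) {t : K} (ht : t ≠ 0)
    (hv' : B a (t • v) (t • v) ≠ 0) : rf a (t • v) hv' = rf a v hv := by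
  apply gl_ext
  intro x
  rw [ac_rf, ac_rf, B_smul_left, B_smul_left, B_smul_right, smul_smul]
  congr 2
  field_simp

/-- the class in the abelianization of the projective group -/
def abO (a : Fin n → K) : ↥(OD a) →* Abelianization (PO a) :=
  Abelianization.of.comp (QuotientGroup.mk' _)

lemma abO_eq_one (g : OD a) : abO a g = 1 ↔ g.1 ∈ SOD a := by
  constructor
  · intro h
    rw [mem_SOD]
    refine ⟨g.2, ?_⟩
    rw [← Abelianization.ker_of, MonoidHom.mem_ker]
    exact h
  · intro h
    obtain ⟨h1, h3⟩ := mem_SOD.1 h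
    rw [← Abelianization.ker_of, MonoidHom.mem_ker] at h3
    exact h3

lemma abO_rf_sq {v : Fin n → K} (hv : B a v v ≠ 0) :
    abO a ⟨rf a v hv, rf_mem hv⟩ * abO a ⟨rf a v hv, rf_mem hv⟩ = 1 := by
  rw [← map_mul]
  have h1 : (⟨rf a v hv, rf_mem hv⟩ : OD a) * ⟨rf a v hv, rf_mem hv⟩ = 1 :=
    Subtype.ext (rf_rf hv)
  rw [h1, map_one]

lemma abO_rf_eq (h2 : (2 : K) ≠ 0) {v w : Fin n → K} (hv : B a v v ≠ 0) (hw : B a w w ≠ 0)
    (h : B a v v = B a w w) :
    abO a ⟨rf a v hv, rf_mem hv⟩ = abO a ⟨rf a w hw, rf_mem hw⟩ := by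
  have h1 : abO a (⟨rf a v hv, rf_mem hv⟩ * ⟨rf a w hw, rf_mem hw⟩) = 1 := by
    rw [abO_eq_one]
    exact SOD_big h2 v w hv hw h
  rw [map_mul] at h1
  have h3 := eq_inv_of_mul_eq_one_left h1
  rw [h3]
  exact inv_eq_of_mul_eq_one_left (abO_rf_sq hw)

/-- the class of a reflection depends on the norm modulo squares only -/
lemma abO_rf_sqr (h2 : (2 : K) ≠ 0) {v w : Fin n → K} (hv : B a v v ≠ 0) (hw : B a w w ≠ 0)
    (h : IsSquare (B a v v * B a w w)) :
    abO a ⟨rf a v hv, rf_mem hv⟩ = abO a ⟨rf a w hw, rf_mem hw⟩ := by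
  obtain ⟨s, hs⟩ := h
  have hs0 : s ≠ 0 := by
    rintro rfl
    rw [mul_zero] at hs
    exact (mul_ne_zero hv hw) hs
  have ht : s / B a w w ≠ 0 := div_ne_zero hs0 hw
  have hn : B a ((s / B a w w) • w) ((s / B a w w) • w) = B a v v := by
    rw [B_smul_left, B_smul_right]
    field_simp
    linear_combination -hs
  have hw' : B a ((s / B a w w) • w) ((s / B a w w) • w) ≠ 0 := by rw [hn]; exact hv
  rw [abO_rf_eq h2 hv hw' hn.symm]
  congr 1
  exact Subtype.ext (rf_smul hw ht hw')

lemma nonsq_mul [Fintype K] (h2 : (2 : K) ≠ 0) {x y : K} (hx : ¬ IsSquare x) (hy : ¬ IsSquare y) :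
    IsSquare (x * y) := by
  classical
  have hx0 : x ≠ 0 := by rintro rfl; exact hx ⟨0, by ring⟩
  have hy0 : y ≠ 0 := by rintro rfl; exact hy ⟨0, by ring⟩
  have h1 : quadraticChar K x = -1 := quadraticChar_neg_one_iff_not_isSquare.2 hx
  have h3 : quadraticChar K y = -1 := quadraticChar_neg_one_iff_not_isSquare.2 hy
  rw [← quadraticChar_one_iff_isSquare (mul_ne_zero hx0 hy0), map_mul, h1, h3]
  norm_num

/-- the classes of the isometries: `1`, `r`, `s`, `r s` for reflections of norm square, nonsquare -/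
theorem abO_cases [Fintype K] (h2 : (2 : K) ≠ 0) (hn : 1 ≤ n) (ha : ∀ i, a i ≠ 0)
    (ha1 : ∀ i : Fin n, i.val + 1 < n → a i = 1) {v w : Fin n → K} (hv : B a v v ≠ 0)
    (hw : B a w w ≠ 0) (hvs : IsSquare (B a v v)) (hws : ¬ IsSquare (B a w w)) (g : OD a) :
    abO a g = 1 ∨ abO a g = abO a ⟨rf a v hv, rf_mem hv⟩ ∨
      abO a g = abO a ⟨rf a w hw, rf_mem hw⟩ ∨
      abO a g = abO a ⟨rf a v hv, rf_mem hv⟩ * abO a ⟨rf a w hw, rf_mem hw⟩ := by
  set α := abO a ⟨rf a v hv, rf_mem hv⟩ with hα
  set β := abO a ⟨rf a w hw, rf_mem hw⟩ with hβ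
  have hαα : α * α = 1 := abO_rf_sq hv
  have hββ : β * β = 1 := abO_rf_sq hw
  have hcl : ∀ (x : Fin n → K) (hx : B a x x ≠ 0), abO a ⟨rf a x hx, rf_mem hx⟩ = α ∨
      abO a ⟨rf a x hx, rf_mem hx⟩ = β := by
    intro x hx
    by_cases h : IsSquare (B a x x)
    · left
      exact abO_rf_sqr h2 hx hv (h.mul hvs)
    · right
      exact abO_rf_sqr h2 hx hw (nonsq_mul h2 h hws)
  have key : ∀ g ∈ RG a, ∀ hg : g ∈ OD a, abO a ⟨g, hg⟩ = 1 ∨ abO a ⟨g, hg⟩ = α ∨
      abO a ⟨g, hg⟩ = β ∨ abO a ⟨g, hg⟩ = α * β := by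
    intro g hg
    refine Subgroup.closure_induction (p := fun g _ => ∀ hg : g ∈ OD a, abO a ⟨g, hg⟩ = 1 ∨
      abO a ⟨g, hg⟩ = α ∨ abO a ⟨g, hg⟩ = β ∨ abO a ⟨g, hg⟩ = α * β) ?_ ?_ ?_ ?_ hg
    · rintro _ ⟨x, hx, rfl⟩ _
      rcases hcl x hx with h | h
      · exact Or.inr (Or.inl h)
      · exact Or.inr (Or.inr (Or.inl h))
    · intro h
      left
      exact map_one (abO a)
    · intro x y hx hy h1 h3 h
      have hx' : x ∈ OD a := RG_le hx
      have hy' : y ∈ OD a := RG_le hy
      have e1 : abO a ⟨x * y, h⟩ = abO a ⟨x, hx'⟩ * abO a ⟨y, hy'⟩ := by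
        rw [← map_mul]; rfl
      rw [e1]
      have hab : ∀ p q : Abelianization (PO a), p * q = q * p := fun p q => mul_comm p q
      have f1 : α * (α * β) = β := by rw [← mul_assoc, hαα, one_mul]
      have f2 : β * (α * β) = α := by rw [hab α β, ← mul_assoc, hββ, one_mul]
      have f3 : α * β * (α * β) = 1 := by rw [mul_assoc, f2, hαα]
      rcases h1 hx' with h4 | h4 | h4 | h4 <;> rcases h3 hy' with h5 | h5 | h5 | h5 <;>
        rw [h4, h5]
      · left; rw [one_mul]
      · right; left; rw [one_mul]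
      · right; right; left; rw [one_mul]
      · right; right; right; rw [one_mul]
      · right; left; rw [mul_one]
      · left; exact hαα
      · right; right; right; rfl
      · right; right; left; exact f1
      · right; right; left; rw [mul_one]
      · right; right; right; exact hab _ _
      · left; exact hββ
      · right; left; exact f2
      · right; right; right; rw [mul_one]
      · right; right; left; rw [hab, f1]
      · right; left; rw [hab, f2]
      · left; exact f3
    · intro x hx h1 h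
      have hx' : x ∈ OD a := RG_le hx
      have e1 : abO a ⟨x⁻¹, h⟩ = (abO a ⟨x, hx'⟩)⁻¹ := by
        rw [← map_inv]; rfl
      rw [e1]
      have i1 : α⁻¹ = α := inv_eq_of_mul_eq_one_left hαα
      have i2 : β⁻¹ = β := inv_eq_of_mul_eq_one_left hββ
      rcases h1 hx' with h4 | h4 | h4 | h4 <;> rw [h4]
      · left; exact inv_one
      · right; left; exact i1
      · right; right; left; exact i2
      · right; right; right
        rw [mul_inv, i1, i2]
  exact key g.1 (OD_le_RG h2 hn ha ha1 g.2) g.2

end gen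

end Vale.Agent.P240.R2.H275.F3
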