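import Vale.Agent.P240.R2.H275.F3c

/-!
The isometries `J` with `J ^ 2 = -1`: the discriminant is a square, and there are at most two classes
under the preimage of the commutator subgroup.
-/

set_option autoImplicit false
set_option linter.all false

namespace Vale.Agent.P240.R2.H275.F3

open Matrix Vale.Agent.P240.R2.H145.EO Vale.Agent.P240.R2.H275

universe u

open scoped Classical

section full

variable {K : Type u} [Field K] {n : ℕ} {a : Fin n → K}

/-- the expansion in an orthonormal basis -/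
lemma expand {y : Fin n → Fin n → K} (hy : ON a y) (v : Fin n → K) :
    v = ∑ i, B a (y i) v • y i := by
  let Y : Matrix (Fin n) (Fin n) K := Matrix.of fun s i => y i s
  let Z : Matrix (Fin n) (Fin n) K := Matrix.of fun i s => a s * y i s
  have h1 : Z * Y = 1 := by
    ext i j
    rw [Matrix.mul_apply, Matrix.one_apply, ← hy i j]
    rfl
  have h3 : Y * Z = 1 := _root_.mul_eq_one_comm.1 h1
  have h4 : (Y * Z) *ᵥ v = v := by rw [h3, one_mulVec]
  rw [← mulVec_mulVec] at h4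
  conv_lhs => rw [← h4]
  funext s
  rw [Finset.sum_apply]
  show ∑ i, Y s i * (Z *ᵥ v) i = _
  refine Finset.sum_congr rfl fun i _ => ?_
  rw [Pi.smul_apply, smul_eq_mul, mul_comm]
  rfl

lemma sq_of_ON {y : Fin n → Fin n → K} (hy : ON a y) : IsSquare (∏ i, a i) := by
  let Y : Matrix (Fin n) (Fin n) K := Matrix.of fun s i => y i s
  have h1 : (Yᵀ * diagonal a) * Y = 1 := by
    ext i j
    rw [Matrix.mul_apply, Matrix.one_apply, ← hy i j]
    refine Finset.sum_congr rfl fun s _ => ?_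
    rw [mul_diagonal, transpose_apply]
    show y i s * a s * y j s = a s * y i s * y j s
    ring
  have h3 := congrArg Matrix.det h1
  rw [det_mul, det_mul, det_transpose, det_diagonal, det_one] at h3
  have h4 : Y.det ≠ 0 := by
    intro h0
    rw [h0, zero_mul, zero_mul] at h3
    exact zero_ne_one h3
  refine ⟨Y.det⁻¹, ?_⟩
  field_simp
  linear_combination h3

/-- orthonormal bases are conjugate -/
theorem exists_iso {y y' : Fin n → Fin n → K} (hy : ON a y) (hy' : ON a y') :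
    ∃ g ∈ OD a, ∀ i, ac g (y i) = y' i := by
  let Y : Matrix (Fin n) (Fin n) K := Matrix.of fun s i => y i s
  let Z : Matrix (Fin n) (Fin n) K := Matrix.of fun i s => a s * y i s
  let Y' : Matrix (Fin n) (Fin n) K := Matrix.of fun s i => y' i s
  let Z' : Matrix (Fin n) (Fin n) K := Matrix.of fun i s => a s * y' i s
  have h1 : Z * Y = 1 := by
    ext i j
    rw [Matrix.mul_apply, Matrix.one_apply, ← hy i j]
    rfl
  have h1' : Z' * Y' = 1 := by
    ext i j
    rw [Matrix.mul_apply, Matrix.one_apply, ← hy' i j]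
    rfl
  have h3 : Y * Z = 1 := _root_.mul_eq_one_comm.1 h1
  have h3' : Y' * Z' = 1 := _root_.mul_eq_one_comm.1 h1'
  let g : GL (Fin n) K := ⟨Y' * Z, Y * Z', by
      rw [Matrix.mul_assoc, ← Matrix.mul_assoc Z Y Z', h1, Matrix.one_mul, h3'], by
      rw [Matrix.mul_assoc, ← Matrix.mul_assoc Z' Y' Z, h1', Matrix.one_mul, h3]⟩
  have hg : ∀ v, ac g v = ∑ i, B a (y i) v • y' i := by
    intro v
    show (Y' * Z) *ᵥ v = _
    rw [← mulVec_mulVec]
    funext s
    rw [Finset.sum_apply]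
    show ∑ i, Y' s i * (Z *ᵥ v) i = _
    refine Finset.sum_congr rfl fun i _ => ?_
    rw [Pi.smul_apply, smul_eq_mul, mul_comm]
    rfl
  have hgy : ∀ i, ac g (y i) = y' i := by
    intro i
    rw [hg, Finset.sum_eq_single i]
    · rw [hy, if_pos rfl, one_smul]
    · intro j _ hj
      rw [hy, if_neg hj, zero_smul]
    · intro h
      exact absurd (Finset.mem_univ _) h
  have hsum : ∀ (c : Fin n → K) (z : Fin n → Fin n → K) (w : Fin n → K),
      B a (∑ i, c i • z i) w = ∑ i, c i * B a (z i) w := by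
    intro c z w
    have : ∀ s : Finset (Fin n), B a (∑ i ∈ s, c i • z i) w = ∑ i ∈ s, c i * B a (z i) w := by
      intro s
      induction s using Finset.induction_on with
      | empty =>
        rw [Finset.sum_empty, Finset.sum_empty, ← zero_smul K (0 : Fin n → K), B_smul_left, zero_mul]
      | insert i s hi ih =>
        rw [Finset.sum_insert hi, Finset.sum_insert hi, B_add_left, B_smul_left, ih]
    exact this Finset.univ
  refine ⟨g, fun v w => ?_, hgy⟩
  rw [hg v, hsum]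
  conv_rhs => rw [expand hy v, hsum]
  refine Finset.sum_congr rfl fun i _ => ?_
  congr 1
  rw [hg w, B_comm, hsum]
  rw [Finset.sum_eq_single i]
  · rw [hy', if_pos rfl, mul_one]
  · intro j _ hj
    rw [hy', if_neg hj, mul_zero]
  · intro h
    exact absurd (Finset.mem_univ _) h

lemma ac_negone {J : GL (Fin n) K} (hJ : J.1 * J.1 = -1) (v : Fin n → K) : ac J (ac J v) = -v := by
  unfold ac
  rw [mulVec_mulVec, hJ, neg_mulVec, one_mulVec]

lemma J_skew {J : GL (Fin n) K} (hJO : J ∈ OD a) (hJ : J.1 * J.1 = -1) (v w : Fin n → K) :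
    B a (ac J v) w = -B a v (ac J w) := by
  have h1 := OD_B hJO (ac J v) w
  rw [ac_negone hJ, B_neg_left] at h1
  rw [← h1]

lemma J_self (h2 : (2 : K) ≠ 0) {J : GL (Fin n) K} (hJO : J ∈ OD a) (hJ : J.1 * J.1 = -1)
    (v : Fin n → K) : B a v (ac J v) = 0 := by
  have h1 := J_skew hJO hJ v v
  rw [B_comm] at h1
  have h3 : (2 : K) * B a v (ac J v) = 0 := by linear_combination h1
  exact (mul_eq_zero.1 h3).resolve_left h2

/-- the tuple `z, J z` -/
def zz {k : ℕ} (J : GL (Fin n) K) (z : Fin k → Fin n → K) : Fin (k + k) → Fin n → K :=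
  Fin.append z (fun i => ac J (z i))

lemma zz_l {k : ℕ} (J : GL (Fin n) K) (z : Fin k → Fin n → K) (i : Fin k) :
    zz J z (Fin.castAdd k i) = z i := Fin.append_left _ _ _

lemma zz_r {k : ℕ} (J : GL (Fin n) K) (z : Fin k → Fin n → K) (i : Fin k) :
    zz J z (Fin.natAdd k i) = ac J (z i) := Fin.append_right _ _ _

lemma zz_ON (h2 : (2 : K) ≠ 0) {k : ℕ} {J : GL (Fin n) K} (hJO : J ∈ OD a)
    (hJ : J.1 * J.1 = -1) {z : Fin k → Fin n → K} (h1 : ∀ i j, B a (z i) (z j) = if i = j then 1 else 0)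
    (h3 : ∀ i j, B a (z i) (ac J (z j)) = 0) : ON a (zz J z) := by
  intro i j
  refine Fin.addCases (fun i => ?_) (fun i => ?_) i <;>
    refine Fin.addCases (fun j => ?_) (fun j => ?_) j
  · rw [zz_l, zz_l, h1]
    congr 1
    simp [Fin.ext_iff]
  · rw [zz_l, zz_r, h3, if_neg]
    intro h
    have := congrArg Fin.val h
    simp only [Fin.val_castAdd, Fin.val_natAdd] at this
    omega
  · rw [zz_l, zz_r, B_comm, h3, if_neg]
    intro h
    have := congrArg Fin.val h
    simp only [Fin.val_castAdd, Fin.val_natAdd] at this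
    omega
  · rw [zz_r, zz_r, OD_B hJO, h1]
    congr 1
    simp [Fin.ext_iff]

theorem J_frame [Fintype K] (h2 : (2 : K) ≠ 0) (ha : ∀ i, a i ≠ 0)
    (ha1 : ∀ i : Fin n, i.val + 1 < n → a i = 1) {J : GL (Fin n) K} (hJO : J ∈ OD a)
    (hJ : J.1 * J.1 = -1) : ∀ k : ℕ, k + k ≤ n → ∃ z : Fin k → Fin n → K,
      (∀ i j, B a (z i) (z j) = if i = j then 1 else 0) ∧ ∀ i j, B a (z i) (ac J (z j)) = 0 := by
  intro k
  induction k with
  | zero => exact fun _ => ⟨fun i => i.elim0, fun i => i.elim0, fun i => i.elim0⟩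
  | succ k ih =>
    intro hk
    obtain ⟨z, h1, h3⟩ := ih (by omega)
    have hON := zz_ON h2 hJO hJ h1 h3
    obtain ⟨x, hx1, hx2⟩ := perp1 h2 ha ha1 (by omega) hON (one_ne_zero (α := K))
    have hxl : ∀ i, B a (z i) x = 0 := by
      intro i
      have := hx1 (Fin.castAdd k i)
      rwa [zz_l] at this
    have hxr : ∀ i, B a (ac J (z i)) x = 0 := by
      intro i
      have := hx1 (Fin.natAdd k i)
      rwa [zz_r] at this
    refine ⟨Fin.snoc (α := fun _ => Fin n → K) z x, ?_, ?_⟩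
    · intro i j
      refine Fin.lastCases ?_ (fun i => ?_) i <;> refine Fin.lastCases ?_ (fun j => ?_) j
      · simp [hx2]
      · rw [Fin.snoc_last, Fin.snoc_castSucc, B_comm, hxl, if_neg (Fin.castSucc_lt_last j).ne']
      · rw [Fin.snoc_last, Fin.snoc_castSucc, hxl, if_neg (Fin.castSucc_lt_last i).ne]
      · rw [Fin.snoc_castSucc, Fin.snoc_castSucc, h1]
        simp [Fin.castSucc_inj]
    · intro i j
      refine Fin.lastCases ?_ (fun i => ?_) i <;> refine Fin.lastCases ?_ (fun j => ?_) j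
      · rw [Fin.snoc_last]
        exact J_self h2 hJO hJ x
      · rw [Fin.snoc_last, Fin.snoc_castSucc, B_comm, hxr]
      · rw [Fin.snoc_last, Fin.snoc_castSucc, ← neg_eq_zero, ← J_skew hJO hJ, hxr]
      · rw [Fin.snoc_castSucc, Fin.snoc_castSucc, h3]

/-- an orthonormal basis `z, J z` -/
theorem J_basis [Fintype K] (h2 : (2 : K) ≠ 0) {r : ℕ} {a : Fin (r + r) → K} (ha : ∀ i, a i ≠ 0)
    (ha1 : ∀ i : Fin (r + r), i.val + 1 < r + r → a i = 1) {J : GL (Fin (r + r)) K} (hJO : J ∈ OD a)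
    (hJ : J.1 * J.1 = -1) : ∃ z : Fin r → Fin (r + r) → K, ON a (zz J z) := by
  obtain ⟨z, h1, h3⟩ := J_frame h2 ha ha1 hJO hJ r le_rfl
  exact ⟨z, zz_ON h2 hJO hJ h1 h3⟩

theorem J_disc [Fintype K] (h2 : (2 : K) ≠ 0) {r : ℕ} {a : Fin (r + r) → K} (ha : ∀ i, a i ≠ 0)
    (ha1 : ∀ i : Fin (r + r), i.val + 1 < r + r → a i = 1) {J : GL (Fin (r + r)) K} (hJO : J ∈ OD a)
    (hJ : J.1 * J.1 = -1) : IsSquare (∏ i, a i) := by
  obtain ⟨z, hz⟩ := J_basis h2 ha ha1 hJO hJ
  exact sq_of_ON hz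

/-- all `J` are conjugate -/
theorem J_conj [Fintype K] (h2 : (2 : K) ≠ 0) {r : ℕ} {a : Fin (r + r) → K} (ha : ∀ i, a i ≠ 0)
    (ha1 : ∀ i : Fin (r + r), i.val + 1 < r + r → a i = 1) {J J' : GL (Fin (r + r)) K}
    (hJO : J ∈ OD a) (hJ : J.1 * J.1 = -1) (hJO' : J' ∈ OD a) (hJ' : J'.1 * J'.1 = -1) :
    ∃ g ∈ OD a, g * J * g⁻¹ = J' := by
  obtain ⟨z, hz⟩ := J_basis h2 ha ha1 hJO hJ
  obtain ⟨z', hz'⟩ := J_basis h2 ha ha1 hJO' hJ'
  obtain ⟨g, hg, hgz⟩ := exists_iso hz hz'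
  refine ⟨g, hg, ?_⟩
  have hl : ∀ i, ac g (z i) = z' i := by
    intro i
    have := hgz (Fin.castAdd r i)
    rwa [zz_l, zz_l] at this
  have hr : ∀ i, ac g (ac J (z i)) = ac J' (z' i) := by
    intro i
    have := hgz (Fin.natAdd r i)
    rwa [zz_r, zz_r] at this
  have h1 : ∀ i, ac (g * J) (zz J z i) = ac (J' * g) (zz J z i) := by
    intro i
    refine Fin.addCases (fun i => ?_) (fun i => ?_) i
    · rw [zz_l, ac_mul, ac_mul, hr, hl]
    · rw [zz_r, ac_mul, ac_mul, hr, ac_negone hJ, ac_negone hJ', ac_neg, hl]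
  have h3 : g * J = J' * g := by
    apply gl_ext
    intro v
    rw [expand hz v]
    have hs : ∀ (h : GL (Fin (r + r)) K) (c : Fin (r + r) → K) (y : Fin (r + r) → Fin (r + r) → K),
        ac h (∑ i, c i • y i) = ∑ i, c i • ac h (y i) := by
      intro h c y
      unfold ac
      rw [Matrix.mulVec_sum]
      exact Finset.sum_congr rfl fun i _ => mulVec_smul _ _ _
    rw [hs, hs]
    exact Finset.sum_congr rfl fun i _ => by rw [h1]
  rw [h3, mul_inv_cancel_right]

/-- an element of the centralizer of `J` of nontrivial spinor norm -/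
theorem J_cent [Fintype K] (h2 : (2 : K) ≠ 0) {J : GL (Fin n) K} (hJO : J ∈ OD a)
    (hJ : J.1 * J.1 = -1) {z : Fin n → K} (hz : B a z z = 1) {s t ν : K} (hst : s ^ 2 + t ^ 2 = ν)
    (hν : ν ≠ 0) (hz0 : B a z z ≠ 0)
    (hw0 : B a (s • z + t • ac J z) (s • z + t • ac J z) ≠ 0) :
    B a (s • z + t • ac J z) (s • z + t • ac J z) = ν ∧
    J * (rf a z hz0 * rf a _ hw0) * J⁻¹ = rf a z hz0 * rf a _ hw0 := by
  have hzJ : B a z (ac J z) = 0 := J_self h2 hJO hJ z
  have hJJ : B a (ac J z) (ac J z) = 1 := by rw [OD_B hJO, hz]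
  have hwν : B a (s • z + t • ac J z) (s • z + t • ac J z) = ν := by
    rw [B_add_left, B_add_right, B_add_right, B_smul_left, B_smul_left, B_smul_left, B_smul_left,
      B_smul_right, B_smul_right, B_smul_right, B_smul_right, B_comm (ac J z) z, hzJ, hz, hJJ,
      ← hst]
    ring
  refine ⟨hwν, ?_⟩
  set z' := ac J z with hz'
  set w := s • z + t • z' with hw
  have hz'0 : B a z' z' ≠ 0 := by rw [hJJ]; exact one_ne_zero
  have hw' : ac J w = s • z' - t • z := by
    rw [hw, ac_add, ac_smul, ac_smul, hz', ac_negone hJ]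
    module
  have hw'ν : B a (ac J w) (ac J w) = ν := by rw [OD_B hJO, hwν]
  have hw'0 : B a (ac J w) (ac J w) ≠ 0 := by rw [hw'ν]; exact hν
  have e1 : J * (rf a z hz0 * rf a w hw0) * J⁻¹ = rf a z' hz'0 * rf a (ac J w) hw'0 := by
    rw [← rf_conj hJO hz0 hz'0 (Or.inl rfl), ← rf_conj hJO hw0 hw'0 (Or.inl rfl)]
    group
  rw [e1]
  apply gl_ext
  intro x
  rw [ac_mul, ac_mul, ac_rf, ac_rf, ac_rf, ac_rf, hw'ν, hwν, hz, hJJ]
  have f1 : B a w x = s * B a z x + t * B a z' x := by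
    rw [hw, B_add_left, B_smul_left, B_smul_left]
  have f2 : B a (ac J w) x = s * B a z' x - t * B a z x := by
    rw [hw', B_sub_left, B_smul_left, B_smul_left]
  have f3 : B a z w = s := by
    rw [hw, B_add_right, B_smul_right, B_smul_right, hz, hzJ]; ring
  have f4 : B a z' (ac J w) = s := by
    rw [hw', B_sub_right, B_smul_right, B_smul_right, hJJ, B_comm z' z, hzJ]; ring
  rw [B_sub_right, B_sub_right, B_smul_right, B_smul_right, f1, f2, f3, f4, hw']
  set X := B a z x with hX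
  set Y := B a z' x with hY
  change x - (2 * (s * Y - t * X) / ν) • (s • z' - t • z) -
      (2 * (Y - 2 * (s * Y - t * X) / ν * s) / 1) • z' =
    x - (2 * (s * X + t * Y) / ν) • (s • z + t • z') -
      (2 * (X - 2 * (s * X + t * Y) / ν * s) / 1) • z
  have g1 : 2 * s * (s * X + t * Y) / ν - 2 * X = 2 * t * (s * Y - t * X) / ν := by
    field_simp
    rw [← hst]
    ring
  have g2 : 2 * s * (s * Y - t * X) / ν - 2 * Y = -(2 * t * (s * X + t * Y) / ν) := by
    field_simp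
    rw [← hst]
    ring
  have l1 : x - (2 * (s * Y - t * X) / ν) • (s • z' - t • z) -
      (2 * (Y - 2 * (s * Y - t * X) / ν * s) / 1) • z' =
      x + (2 * t * (s * Y - t * X) / ν) • z + (2 * s * (s * Y - t * X) / ν - 2 * Y) • z' := by
    have : (2 * (Y - 2 * (s * Y - t * X) / ν * s) / 1) =
      2 * Y - 4 * s * (s * Y - t * X) / ν := by rw [div_one]; ring
    rw [this, smul_sub, smul_smul, smul_smul]
    module
  have l2 : x - (2 * (s * X + t * Y) / ν) • (s • z + t • z') -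
      (2 * (X - 2 * (s * X + t * Y) / ν * s) / 1) • z =
      x + (2 * s * (s * X + t * Y) / ν - 2 * X) • z + (-(2 * t * (s * X + t * Y) / ν)) • z' := by
    have : (2 * (X - 2 * (s * X + t * Y) / ν * s) / 1) =
      2 * X - 4 * s * (s * X + t * Y) / ν := by rw [div_one]; ring
    rw [this, smul_add, smul_smul, smul_smul]
    module
  rw [l1, l2, g1, g2]

end full

section two

variable {K : Type u} [Field K] [Fintype K]

/-- **at most two classes** -/
theorem J_two (h2 : (2 : K) ≠ 0) {r : ℕ} (hr : 1 ≤ r) {a : Fin (r + r) → K} (ha : ∀ i, a i ≠ 0)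
    (ha1 : ∀ i : Fin (r + r), i.val + 1 < r + r → a i = 1) (J : Fin 3 → GL (Fin (r + r)) K)
    (hJO : ∀ i, J i ∈ OD a) (hJ : ∀ i, (J i).1 * (J i).1 = -1) :
    ∃ i j : Fin 3, i < j ∧ ∃ u ∈ SOD a, u * J i * u⁻¹ = J j := by
  obtain ⟨z, hz⟩ := J_basis h2 ha ha1 (hJO 0) (hJ 0)
  have hz1 : B a (z ⟨0, hr⟩) (z ⟨0, hr⟩) = 1 := by
    have := hz (Fin.castAdd r ⟨0, hr⟩) (Fin.castAdd r ⟨0, hr⟩)
    rwa [zz_l, if_pos rfl] at this
  obtain ⟨ν, hν⟩ := FiniteField.exists_nonsquare (F := K) (by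
    intro h
    apply h2
    have := ringChar.Nat.cast_ringChar (R := K)
    rw [h] at this
    exact_mod_cast this)
  have hν0 : ν ≠ 0 := by rintro rfl; exact hν ⟨0, by ring⟩
  obtain ⟨s, t, hst⟩ := rep h2 (one_ne_zero (α := K)) (one_ne_zero (α := K)) hν0
  rw [one_mul, one_mul] at hst
  set z0 := z ⟨0, hr⟩ with hz0d
  have hz0 : B a z0 z0 ≠ 0 := by rw [hz1]; exact one_ne_zero
  have hwν : B a (s • z0 + t • ac (J 0) z0) (s • z0 + t • ac (J 0) z0) = ν := by
    rw [B_add_left, B_add_right, B_add_right, B_smul_left, B_smul_left, B_smul_left, B_smul_left,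
      B_smul_right, B_smul_right, B_smul_right, B_smul_right, B_comm (ac (J 0) z0) z0,
      J_self h2 (hJO 0) (hJ 0), hz1, OD_B (hJO 0), hz1, ← hst]
    ring
  have hw0 : B a (s • z0 + t • ac (J 0) z0) (s • z0 + t • ac (J 0) z0) ≠ 0 := by
    rw [hwν]; exact hν0
  obtain ⟨-, hκ⟩ := J_cent h2 (hJO 0) (hJ 0) hz1 hst hν0 hz0 hw0
  set κ := rf a z0 hz0 * rf a _ hw0 with hκd
  have hκO : κ ∈ OD a := mul_mem (rf_mem _) (rf_mem _)
  have hcases := abO_cases h2 (by omega) ha ha1 hz0 hw0 (by rw [hz1]; exact ⟨1, by ring⟩)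
    (by rw [hwν]; exact hν)
  have hκab : abO a ⟨κ, hκO⟩ = abO a ⟨rf a z0 hz0, rf_mem hz0⟩ * abO a ⟨rf a _ hw0, rf_mem hw0⟩ := by
    rw [← map_mul]; rfl
  set α := abO a ⟨rf a z0 hz0, rf_mem hz0⟩ with hα
  set β := abO a ⟨rf a _ hw0, rf_mem hw0⟩ with hβ
  have hαα : α * α = 1 := abO_rf_sq hz0
  have hββ : β * β = 1 := abO_rf_sq hw0
  -- conjugating elements with class `1` or `α`
  have hex : ∀ i, ∃ (g : GL (Fin (r + r)) K) (hg : g ∈ OD a), g * J 0 * g⁻¹ = J i ∧
      (abO a ⟨g, hg⟩ = 1 ∨ abO a ⟨g, hg⟩ = α) := by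
    intro i
    obtain ⟨g, hg, hgJ⟩ := J_conj h2 ha ha1 (hJO 0) (hJ 0) (hJO i) (hJ i)
    have hgκ : (g * κ) * J 0 * (g * κ)⁻¹ = J i := by
      have h1 : κ * J 0 * κ⁻¹ = J 0 := by
        have h3 : J 0 * κ = κ * J 0 := by
          rw [← hκ]
          have : J 0 * κ * (J 0)⁻¹ = κ := hκ
          rw [this]
          exact eq_mul_of_mul_inv_eq this
        rw [← h3, mul_inv_cancel_right]
      calc (g * κ) * J 0 * (g * κ)⁻¹ = g * (κ * J 0 * κ⁻¹) * g⁻¹ := by group
        _ = J i := by rw [h1, hgJ]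
    have hm : ∀ h : g * κ ∈ OD a, abO a ⟨g * κ, h⟩ = abO a ⟨g, hg⟩ * (α * β) := by
      intro h
      rw [← hκab, ← map_mul]
      rfl
    rcases hcases ⟨g, hg⟩ with h | h | h | h
    · exact ⟨g, hg, hgJ, Or.inl h⟩
    · exact ⟨g, hg, hgJ, Or.inr h⟩
    · refine ⟨g * κ, mul_mem hg hκO, hgκ, Or.inr ?_⟩
      rw [hm, h, mul_comm α β, ← mul_assoc, hββ, one_mul]
    · refine ⟨g * κ, mul_mem hg hκO, hgκ, Or.inl ?_⟩
      rw [hm, h, mul_assoc, ← mul_assoc β, mul_comm β α, mul_assoc α β β, hββ, mul_one, hαα]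
  choose g hg hgJ hgc using hex
  have hpig : ∃ i j : Fin 3, i < j ∧ abO a ⟨g i, hg i⟩ = abO a ⟨g j, hg j⟩ := by
    rcases hgc 0 with h0 | h0 <;> rcases hgc 1 with h1 | h1 <;> rcases hgc 2 with h3 | h3
    · exact ⟨0, 1, by decide, h0.trans h1.symm⟩
    · exact ⟨0, 1, by decide, h0.trans h1.symm⟩
    · exact ⟨0, 2, by decide, h0.trans h3.symm⟩
    · exact ⟨1, 2, by decide, h1.trans h3.symm⟩
    · exact ⟨1, 2, by decide, h1.trans h3.symm⟩
    · exact ⟨0, 2, by decide, h0.trans h3.symm⟩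
    · exact ⟨0, 1, by decide, h0.trans h1.symm⟩
    · exact ⟨0, 1, by decide, h0.trans h1.symm⟩
  obtain ⟨i, j, hij, h⟩ := hpig
  refine ⟨i, j, hij, g j * (g i)⁻¹, ?_, ?_⟩
  · have h1 : abO a (⟨g j, hg j⟩ * ⟨g i, hg i⟩⁻¹) = 1 := by
      rw [map_mul, map_inv, h, mul_inv_cancel]
    exact (abO_eq_one _).1 h1
  · rw [← hgJ i, ← hgJ j]
    group

end two

end Vale.Agent.P240.R2.H275.F3
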