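import Vale.Agent.P240.R2.H275.F3Defs
import Vale.Agent.P240.R2.H275.F3a
import Vale.Agent.P240.R2.H275.F3b
import Vale.Agent.P240.R2.H275.F3d

/-!
Sign matrices and even permutations in `SOD (fd m d)`; lifts.
-/

set_option autoImplicit false
set_option linter.all false

namespace Vale.Agent.P240.R2.H275.F3

open Matrix Vale.Agent.P240.R2.H145.EO Vale.Agent.P240.R2.H275
open Vale.Agent.P240.R2.H401.D (fd)
open Vale.Agent.P240.R2.H329 (sg wt sv sv_filter wt_sg units_cases)
open scoped Classical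

universe u v

section signs

variable {K : Type u} [Field K] {m : ℕ} {d : K}

/-- diagonal sign matrices of determinant one -/
lemma diag_SOD (h2 : (2 : K) ≠ 0) (hodd : Odd m) {c : Fin (m + 1) → K} (hc : ∀ i, c i ^ 2 = 1)
    (h : ∏ i, c i = 1) {g : GL (Fin (m + 1)) K} (hg : g.1 = diagonal c) : g ∈ SOD (fd m d) := by
  have hne : Even (m + 1) := hodd.add_one
  by_cases hl : c (Fin.last m) = 1
  · exact diag_aux h2 _ c hc hl le_rfl h g hg
  · have hl' : c (Fin.last m) = -1 := by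
      have h3 : (c (Fin.last m) - 1) * (c (Fin.last m) + 1) = 0 := by
        linear_combination hc (Fin.last m)
      exact eq_neg_of_add_eq_zero_left ((mul_eq_zero.1 h3).resolve_left (sub_ne_zero.2 hl))
    have hmO : (-1 : GL (Fin (m + 1)) K) ∈ SOD (fd m d) := by
      have h3 : (-1 : GL (Fin (m + 1)) K).1 = diagonal (fun _ => (-1 : K)) := by
        show -(1 : Matrix (Fin (m + 1)) (Fin (m + 1)) K) = _
        rw [← diagonal_one, diagonal_neg]
      refine scal_mem (diag_OD (fun _ => by ring) h3) (l := -1) ?_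
      show -(1 : Matrix (Fin (m + 1)) (Fin (m + 1)) K) = _
      rw [neg_one_smul]
    have h4 : -g ∈ SOD (fd m d) := by
      refine diag_aux h2 _ (fun i => -c i) (fun i => by rw [neg_sq]; exact hc i)
        (by show -c (Fin.last m) = 1; rw [hl', neg_neg]) le_rfl ?_ (-g) ?_
      · rw [Finset.prod_neg, h, Finset.card_univ, Fintype.card_fin, hne.neg_one_pow, mul_one]
      · show -g.1 = _
        rw [hg, diagonal_neg]
    have h6 : g = (-1) * (-g) := by rw [neg_mul_neg, one_mul]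
    rw [h6]
    exact mul_mem hmO h4

/-- the signs with product one -/
def es (e : Fin m → ℤˣ) : Fin (m + 1) → ℤˣ := Fin.snoc (α := fun _ => ℤˣ) e (∏ i, e i)

lemma es_c (e : Fin m → ℤˣ) (i : Fin m) : es e i.castSucc = e i := by
  show Fin.snoc (α := fun _ => ℤˣ) e (∏ i, e i) i.castSucc = e i
  rw [Fin.snoc_castSucc]

lemma es_l (e : Fin m → ℤˣ) : es e (Fin.last m) = ∏ i, e i := by
  show Fin.snoc (α := fun _ => ℤˣ) e (∏ i, e i) (Fin.last m) = _
  rw [Fin.snoc_last]

lemma es_mul (e e' : Fin m → ℤˣ) (j : Fin (m + 1)) : es (e * e') j = es e j * es e' j := by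
  refine Fin.lastCases ?_ (fun i => ?_) j
  · rw [es_l, es_l, es_l, ← Finset.prod_mul_distrib]
    rfl
  · rw [es_c, es_c, es_c]
    rfl

lemma es_one (j : Fin (m + 1)) : es (1 : Fin m → ℤˣ) j = 1 := by
  refine Fin.lastCases ?_ (fun i => ?_) j
  · rw [es_l]
    simp
  · rw [es_c]
    rfl

lemma es_prod (e : Fin m → ℤˣ) : ∏ j, es e j = 1 := by
  rw [Fin.prod_univ_castSucc]
  simp only [es_c, es_l]
  exact Int.units_mul_self _

lemma ks (a : ℤˣ) : (((a : ℤ) : K)) * ((a : ℤ) : K) = 1 := by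
  rcases units_cases a with h | h <;> rw [h] <;> simp

/-- the sign matrix -/
def DG (K : Type u) [Field K] {m : ℕ} (e : Fin m → ℤˣ) : GL (Fin (m + 1)) K :=
  ⟨diagonal (fun j => ((es e j : ℤ) : K)), diagonal (fun j => ((es e j : ℤ) : K)), by
    rw [diagonal_mul_diagonal, ← diagonal_one]
    congr 1
    funext j
    exact ks _, by
    rw [diagonal_mul_diagonal, ← diagonal_one]
    congr 1
    funext j
    exact ks _⟩

lemma DG_coe (e : Fin m → ℤˣ) : (DG K e).1 = diagonal (fun j => ((es e j : ℤ) : K)) := rfl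

lemma DG_mem (h2 : (2 : K) ≠ 0) (hodd : Odd m) (e : Fin m → ℤˣ) : DG K e ∈ SOD (fd m d) := by
  refine diag_SOD h2 hodd (fun i => ?_) ?_ (DG_coe e)
  · rw [pow_two, ks]
  · have h1 := congrArg (fun u : ℤˣ => ((u : ℤ) : K)) (es_prod e)
    simp only [Units.coe_prod, Int.cast_prod, Units.val_one, Int.cast_one] at h1
    exact h1

lemma DG_mul (e e' : Fin m → ℤˣ) : DG K (e * e') = DG K e * DG K e' := by
  apply Units.ext
  show _ = (DG K e).1 * (DG K e').1
  rw [DG_coe, DG_coe, DG_coe, diagonal_mul_diagonal]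
  congr 1
  funext j
  rw [es_mul]
  push_cast
  ring

lemma DG_one : DG K (1 : Fin m → ℤˣ) = 1 := by
  apply Units.ext
  rw [DG_coe]
  show _ = (1 : Matrix (Fin (m + 1)) (Fin (m + 1)) K)
  rw [← diagonal_one]
  congr 1
  funext j
  rw [es_one]
  simp

lemma DG_sq (e : Fin m → ℤˣ) : DG K e * DG K e = 1 := by
  rw [← DG_mul]
  have : e * e = 1 := by
    funext i
    exact Int.units_mul_self _
  rw [this, DG_one]

lemma DG_neg (hodd : Odd m) : (DG K (fun _ : Fin m => -1)).1 = -1 := by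
  rw [DG_coe, ← diagonal_one, diagonal_neg]
  congr 1
  funext j
  have : es (fun _ : Fin m => (-1 : ℤˣ)) j = -1 := by
    refine Fin.lastCases ?_ (fun i => ?_) j
    · rw [es_l, Finset.prod_const, Finset.card_univ, Fintype.card_fin, hodd.neg_one_pow]
    · rw [es_c]
  rw [this]
  simp

lemma ac_DG (e : Fin m → ℤˣ) (j : Fin (m + 1)) :
    ac (DG K e) (Pi.single j 1) = ((es e j : ℤ) : K) • Pi.single j 1 := by
  rw [ac_diag (DG_coe e)]
  funext k
  rw [Pi.smul_apply, smul_eq_mul, Pi.single_apply]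
  split_ifs with h
  · rw [h]
  · rw [mul_zero, mul_zero]

/-- equality on the standard basis -/
lemma gl_ext' {n : ℕ} {g h : GL (Fin n) K}
    (H : ∀ j, ac g (Pi.single j 1) = ac h (Pi.single j 1)) : g = h := by
  apply Units.ext
  apply Matrix.ext_of_mulVec_single
  intro i
  exact H i

end signs

section perm

variable {K : Type u} [Field K] {m : ℕ} {d : K}

lemma ip (π : Equiv.Perm (Fin m)) (k : Fin m) : π⁻¹ (π k) = k := π.symm_apply_apply k

lemma pi' (π : Equiv.Perm (Fin m)) (k : Fin m) : π (π⁻¹ k) = k := π.apply_symm_apply k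

/-- `P` permutes the first vectors of the standard basis -/
def Pm (P : GL (Fin (m + 1)) K) (π : Equiv.Perm (Fin m)) : Prop :=
  (∀ k : Fin m, ac P (Pi.single k.castSucc 1) = Pi.single (π k).castSucc 1) ∧
    ac P (Pi.single (Fin.last m) 1) = Pi.single (Fin.last m) 1

lemma Pm.mul {P Q : GL (Fin (m + 1)) K} {π τ : Equiv.Perm (Fin m)} (h : Pm P π) (h' : Pm Q τ) :
    Pm (P * Q) (π * τ) := by
  refine ⟨fun k => ?_, ?_⟩
  · rw [ac_mul, h'.1, h.1]
    rfl
  · rw [ac_mul, h'.2, h.2]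

lemma es_perm (e : Fin m → ℤˣ) (π : Equiv.Perm (Fin m)) :
    es (fun i => e (π⁻¹ i)) (Fin.last m) = es e (Fin.last m) := by
  rw [es_l, es_l]
  exact Equiv.prod_comp π⁻¹ e

lemma Pm.conj {P : GL (Fin (m + 1)) K} {π : Equiv.Perm (Fin m)} (h : Pm P π) (e : Fin m → ℤˣ) :
    P * DG K e * P⁻¹ = DG K (fun i => e (π⁻¹ i)) := by
  rw [mul_inv_eq_iff_eq_mul]
  apply gl_ext'
  intro j
  rw [ac_mul, ac_mul, ac_DG, ac_smul]
  refine Fin.lastCases ?_ (fun k => ?_) j
  · rw [h.2, ac_DG, es_perm]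
  · rw [h.1, ac_DG, es_c, es_c, ip]

lemma ee (i : Fin m) : B (fd m d) (Pi.single i.castSucc 1) (Pi.single i.castSucc 1) = 1 := by
  rw [B_ee, fd_one _ (by simp)]

lemma ee0 {i j : Fin (m + 1)} (h : i ≠ j) :
    B (fd m d) (Pi.single i 1) (Pi.single j 1) = 0 := by
  rw [B_single, Pi.single_eq_of_ne h, mul_zero]

lemma cs_ne {i j : Fin m} (h : i ≠ j) : i.castSucc ≠ j.castSucc := fun h' => h (Fin.castSucc_injective _ h')

lemma sw_norm {i j : Fin m} (h : i ≠ j) :
    B (fd m d) (Pi.single i.castSucc 1 - Pi.single j.castSucc 1)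
      (Pi.single i.castSucc 1 - Pi.single j.castSucc 1) = 2 := by
  rw [B_sub_left, B_sub_right, B_sub_right, ee, ee, ee0 (cs_ne h), ee0 (cs_ne h.symm)]
  ring

/-- the transposition -/
lemma sw_pm (h2 : (2 : K) ≠ 0) {i j : Fin m} (h : i ≠ j)
    (h0 : B (fd m d) (Pi.single i.castSucc 1 - Pi.single j.castSucc 1)
      (Pi.single i.castSucc 1 - Pi.single j.castSucc 1) ≠ 0) :
    Pm (rf (fd m d) _ h0) (Equiv.swap i j) := by
  have h1 : ac (rf (fd m d) _ h0) (Pi.single i.castSucc 1) = Pi.single j.castSucc 1 :=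
    rf_sub (by rw [ee, ee]) h0
  refine ⟨fun k => ?_, ?_⟩
  · by_cases hki : k = i
    · subst hki
      rw [h1, Equiv.swap_apply_left]
    · by_cases hkj : k = j
      · subst hkj
        rw [Equiv.swap_apply_right]
        have h3 := congrArg (ac (rf (fd m d) _ h0)) h1
        rw [← ac_mul, rf_rf, ac_one] at h3
        exact h3.symm
      · rw [Equiv.swap_apply_of_ne_of_ne hki hkj]
        apply rf_fix
        rw [B_sub_left, ee0 (cs_ne (Ne.symm hki)), ee0 (cs_ne (Ne.symm hkj)), sub_zero]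
  · apply rf_fix
    rw [B_sub_left, ee0 (Fin.castSucc_lt_last i).ne, ee0 (Fin.castSucc_lt_last j).ne, sub_zero]

/-- double transpositions lie in `SOD` -/
lemma dsw (h2 : (2 : K) ≠ 0) {i j k l : Fin m} (h : i ≠ j) (h' : k ≠ l) :
    ∃ P ∈ SOD (fd m d), Pm P (Equiv.swap i j * Equiv.swap k l) := by
  have h0 : B (fd m d) (Pi.single i.castSucc 1 - Pi.single j.castSucc 1)
      (Pi.single i.castSucc 1 - Pi.single j.castSucc 1) ≠ 0 := by rw [sw_norm h]; exact h2
  have h0' : B (fd m d) (Pi.single k.castSucc 1 - Pi.single l.castSucc 1)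
      (Pi.single k.castSucc 1 - Pi.single l.castSucc 1) ≠ 0 := by rw [sw_norm h']; exact h2
  exact ⟨rf (fd m d) _ h0 * rf (fd m d) _ h0', SOD_big h2 _ _ _ _ (by rw [sw_norm h, sw_norm h']),
    (sw_pm h2 h h0).mul (sw_pm h2 h' h0')⟩

/-- even permutations -/
lemma Pm_all (h2 : (2 : K) ≠ 0) (hm : 7 ≤ m) (π : Equiv.Perm (Fin m)) :
    (∃ P ∈ SOD (fd m d), Pm P π) ∨ ∀ i j : Fin m, i ≠ j → ∃ P ∈ SOD (fd m d), Pm P (π * Equiv.swap i j) := by
  refine Equiv.Perm.swap_induction_on (motive := fun π => (∃ P ∈ SOD (fd m d), Pm P π) ∨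
    ∀ i j : Fin m, i ≠ j → ∃ P ∈ SOD (fd m d), Pm P (π * Equiv.swap i j)) π ?_ ?_
  · left
    refine ⟨1, one_mem _, fun k => ?_, ?_⟩
    · rw [ac_one]; rfl
    · rw [ac_one]
  · intro π x y hxy ih
    rcases ih with ⟨P, hP, hPm⟩ | ih
    · right
      intro i j hij
      -- `swap x y * π * swap i j = (swap x y * swap (π i) (π j)) * π`
      obtain ⟨Q, hQ, hQm⟩ := dsw (d := d) h2 hxy (π.injective.ne hij)
      refine ⟨Q * P, mul_mem hQ hP, ?_⟩
      have h1 := hQm.mul hPm
      have h3 : Equiv.swap x y * Equiv.swap (π i) (π j) * π = Equiv.swap x y * π * Equiv.swap i j := by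
        rw [mul_assoc, mul_assoc, Equiv.swap_apply_apply, inv_mul_cancel_right]
      rwa [h3] at h1
    · left
      have hne : π⁻¹ x ≠ π⁻¹ y := π⁻¹.injective.ne hxy
      obtain ⟨P, hP, hPm⟩ := ih _ _ hne
      refine ⟨P, hP, ?_⟩
      have h3 : π * Equiv.swap (π⁻¹ x) (π⁻¹ y) = Equiv.swap x y * π := by
        rw [Equiv.swap_apply_apply, inv_inv]
        group
      rwa [h3] at hPm

lemma two_eq (hm : 7 ≤ m) (e : Fin m → ℤˣ) : ∃ i j : Fin m, i ≠ j ∧ e i = e j := by
  let i0 : Fin m := ⟨0, by omega⟩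
  let i1 : Fin m := ⟨1, by omega⟩
  let i2 : Fin m := ⟨2, by omega⟩
  have h01 : i0 ≠ i1 := by simp [i0, i1]
  have h02 : i0 ≠ i2 := by simp [i0, i2]
  have h12 : i1 ≠ i2 := by simp [i1, i2]
  rcases units_cases (e i0) with h | h <;> rcases units_cases (e i1) with h' | h' <;>
    rcases units_cases (e i2) with h'' | h''
  · exact ⟨i0, i1, h01, by rw [h, h']⟩
  · exact ⟨i0, i1, h01, by rw [h, h']⟩
  · exact ⟨i0, i2, h02, by rw [h, h'']⟩
  · exact ⟨i1, i2, h12, by rw [h', h'']⟩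
  · exact ⟨i1, i2, h12, by rw [h', h'']⟩
  · exact ⟨i0, i2, h02, by rw [h, h'']⟩
  · exact ⟨i0, i1, h01, by rw [h, h']⟩
  · exact ⟨i0, i1, h01, by rw [h, h']⟩

/-- sign matrices of the same weight are conjugate in `SOD` -/
lemma layer (h2 : (2 : K) ≠ 0) (hm : 7 ≤ m) {e e' : Fin m → ℤˣ} (h : wt e = wt e') :
    ∃ P ∈ SOD (fd m d), P * DG K e * P⁻¹ = DG K e' := by
  -- a permutation
  obtain ⟨π, hπ⟩ : ∃ π : Equiv.Perm (Fin m), e' = fun i => e (π⁻¹ i) := by
    have h1 : Fintype.card {i // e i = -1} = Fintype.card {i // e' i = -1} := by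
      rw [Fintype.card_subtype, Fintype.card_subtype]
      exact h
    have h3 : Fintype.card {i // ¬ e i = -1} = Fintype.card {i // ¬ e' i = -1} := by
      rw [Fintype.card_subtype_compl, Fintype.card_subtype_compl, h1]
    let f1 := Fintype.equivOfCardEq h1
    let f2 := Fintype.equivOfCardEq h3
    let π : Equiv.Perm (Fin m) := Equiv.subtypeCongr f1 f2
    have hπ : ∀ i, e' (π i) = e i := by
      intro i
      by_cases hi : e i = -1
      · have h4 : π i = (f1 ⟨i, hi⟩ : Fin m) := by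
          show (Equiv.subtypeCongr f1 f2) i = _
          simp [Equiv.subtypeCongr, hi]
        rw [h4, (f1 ⟨i, hi⟩).2, hi]
      · have h4 : π i = (f2 ⟨i, hi⟩ : Fin m) := by
          show (Equiv.subtypeCongr f1 f2) i = _
          simp [Equiv.subtypeCongr, hi]
        rw [h4]
        have h5 := (f2 ⟨i, hi⟩).2
        rw [(units_cases _).resolve_right h5, (units_cases _).resolve_right hi]
    refine ⟨π, ?_⟩
    funext i
    rw [← hπ, pi']
  rcases Pm_all (d := d) h2 hm π with ⟨P, hP, hPm⟩ | h1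
  · exact ⟨P, hP, by rw [hPm.conj, hπ]⟩
  · obtain ⟨i, j, hij, hee⟩ := two_eq hm e
    obtain ⟨P, hP, hPm⟩ := h1 i j hij
    refine ⟨P, hP, ?_⟩
    rw [hPm.conj, hπ]
    congr 1
    funext k
    show e ((π * Equiv.swap i j)⁻¹ k) = e (π⁻¹ k)
    rw [_root_.mul_inv_rev, Equiv.swap_inv, Equiv.Perm.mul_apply]
    by_cases h3 : π⁻¹ k = i
    · rw [h3, Equiv.swap_apply_left, hee]
    · by_cases h4 : π⁻¹ k = j
      · rw [h4, Equiv.swap_apply_right, hee]
      · rw [Equiv.swap_apply_of_ne_of_ne h3 h4]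

lemma sg_perm (π : Equiv.Perm (Fin m)) (i : Fin m) : (fun k => sg i (π⁻¹ k)) = sg (π i) := by
  funext k
  unfold sg
  by_cases h : k = π i
  · subst h
    simp
  · rw [if_neg h, if_neg]
    intro h'
    apply h
    rw [← h', pi']

/-- pairs of coordinates are conjugate in `SOD` -/
lemma pairs (h2 : (2 : K) ≠ 0) (hm : 7 ≤ m) {i j k l : Fin m} (hij : i ≠ j) (hkl : k ≠ l) :
    ∃ P ∈ SOD (fd m d), P * DG K (sg i) * P⁻¹ = DG K (sg k) ∧
      P * DG K (sg j) * P⁻¹ = DG K (sg l) := by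
  obtain ⟨π, hπi, hπj⟩ : ∃ π : Equiv.Perm (Fin m), π i = k ∧ π j = l := by
    let π1 := Equiv.swap i k
    refine ⟨Equiv.swap (π1 j) l * π1, ?_, ?_⟩
    · rw [Equiv.Perm.mul_apply]
      have h1 : π1 i = k := Equiv.swap_apply_left _ _
      rw [h1, Equiv.swap_apply_of_ne_of_ne]
      · rw [← h1]
        exact π1.injective.ne hij
      · exact hkl
    · rw [Equiv.Perm.mul_apply, Equiv.swap_apply_left]
  -- two further indices
  obtain ⟨x, hxi, hxj⟩ : ∃ x : Fin m, x ≠ i ∧ x ≠ j := by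
    by_contra hno
    push Not at hno
    have h1 : (Finset.univ : Finset (Fin m)) ⊆ {i, j} := by
      intro l _
      simp only [Finset.mem_insert, Finset.mem_singleton]
      by_cases h2 : l = i
      · exact Or.inl h2
      · exact Or.inr (hno l h2)
    have h2 := Finset.card_le_card h1
    have h3 : ({i, j} : Finset (Fin m)).card ≤ 2 := Finset.card_le_two
    rw [Finset.card_univ, Fintype.card_fin] at h2
    omega
  obtain ⟨y, hyi, hyj, hyx⟩ : ∃ y : Fin m, y ≠ i ∧ y ≠ j ∧ y ≠ x := by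
    by_contra hno
    push Not at hno
    have h1 : (Finset.univ : Finset (Fin m)) ⊆ {i, j, x} := by
      intro l _
      simp only [Finset.mem_insert, Finset.mem_singleton]
      by_cases h2 : l = i
      · exact Or.inl h2
      · by_cases h3 : l = j
        · exact Or.inr (Or.inl h3)
        · exact Or.inr (Or.inr (hno l h2 h3))
    have h2 := Finset.card_le_card h1
    have h3 : ({i, j, x} : Finset (Fin m)).card ≤ 3 := Finset.card_le_three
    rw [Finset.card_univ, Fintype.card_fin] at h2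
    omega
  rcases Pm_all (d := d) h2 hm π with ⟨P, hP, hPm⟩ | h1
  · refine ⟨P, hP, ?_, ?_⟩
    · rw [hPm.conj, sg_perm, hπi]
    · rw [hPm.conj, sg_perm, hπj]
  · obtain ⟨P, hP, hPm⟩ := h1 x y hyx.symm
    refine ⟨P, hP, ?_, ?_⟩
    · rw [hPm.conj, sg_perm, Equiv.Perm.mul_apply, Equiv.swap_apply_of_ne_of_ne hxi.symm hyi.symm,
        hπi]
    · rw [hPm.conj, sg_perm, Equiv.Perm.mul_apply, Equiv.swap_apply_of_ne_of_ne hxj.symm hyj.symm,
        hπj]

end perm

end Vale.Agent.P240.R2.H275.F3
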