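import Vale.Agent.P240.R2.H275.F3e
import Mathlib.GroupTheory.NoncommPiCoprod

/-!
Lifts of the images of the sign matrices under an automorphism of `PΩ(V)`; the frame.
-/

set_option autoImplicit false
set_option linter.all false

namespace Vale.Agent.P240.R2.H275.F3

open Matrix Vale.Agent.P240.R2.H145.EO Vale.Agent.P240.R2.H275
open Vale.Agent.P240.R2.H401.D (fd)
open Vale.Agent.P240.R2.H329 (sg wt sv sv_filter wt_sg units_cases)
open scoped Classical

universe u v

section lifts

variable {K : Type u} [Field K] [Fintype K] {m : ℕ} {d : K}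

lemma FNum.ha (hK : FNum K m d) : ∀ i, fd m d i ≠ 0 := fd_ne hK.hd

lemma FNum.n3 (hK : FNum K m d) : 3 ≤ m + 1 := by have := hK.hm; omega

lemma FNum.even (hK : FNum K m d) : Even (m + 1) := hK.modd.add_one

lemma cl_one_iff (hK : FNum K m d) (g : SOD (fd m d)) : cl _ g = 1 ↔ g.1 = 1 ∨ g.1 = -1 := by
  have h1 : cl _ g = 1 ↔ (⟨g.1, (mem_SOD.1 g.2).1⟩ : OD (fd m d)) ∈
      Subgroup.center ↥(OD (fd m d)) := by
    rw [← QuotientGroup.eq_one_iff]
    exact Subtype.ext_iff
  rw [h1, mem_center hK.h2 hK.h5 hK.n3 hK.ha fd_one]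
  constructor
  · rintro ⟨l, hl⟩
    have hO := (mem_SOD.1 g.2).1
    have i0 : Fin (m + 1) := Fin.last m
    have h4 := OD_B hO (Pi.single i0 1) (Pi.single i0 1)
    have h6 : ac g.1 (Pi.single i0 1) = l • Pi.single i0 1 := by
      unfold ac
      have hl' : g.1.1 = l • (1 : Matrix (Fin (m + 1)) (Fin (m + 1)) K) := hl
      rw [hl', smul_mulVec, one_mulVec]
    rw [h6, B_smul_left, B_smul_right, B_single, Pi.single_eq_same] at h4
    have h7 : (l - 1) * (l + 1) = 0 := by
      have h8 : fd m d i0 * (l * l - 1) = 0 := by linear_combination h4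
      have := (mul_eq_zero.1 h8).resolve_left (hK.ha i0)
      linear_combination this
    rcases mul_eq_zero.1 h7 with h | h
    · left
      apply Units.ext
      have : g.1.1 = l • (1 : Matrix (Fin (m + 1)) (Fin (m + 1)) K) := hl
      rw [this, sub_eq_zero.1 h, one_smul]
      rfl
    · right
      apply Units.ext
      have : g.1.1 = l • (1 : Matrix (Fin (m + 1)) (Fin (m + 1)) K) := hl
      rw [this, eq_neg_of_add_eq_zero_left h, neg_smul, one_smul]
      rfl
  · rintro (h | h)
    · exact ⟨1, by show g.1.1 = _; rw [h, one_smul]; rfl⟩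
    · exact ⟨-1, by show g.1.1 = _; rw [h, neg_smul, one_smul]; rfl⟩

lemma cl_eq_iff (hK : FNum K m d) (g h : SOD (fd m d)) :
    cl _ g = cl _ h ↔ h.1 = g.1 ∨ h.1 = -g.1 := by
  have h1 : cl _ g = cl _ h ↔ cl _ (g⁻¹ * h) = 1 := by
    rw [map_mul, map_inv]
    exact ⟨fun h => by rw [h, inv_mul_cancel], fun h => (inv_mul_eq_one.1 h)⟩
  rw [h1, cl_one_iff hK]
  show g.1⁻¹ * h.1 = 1 ∨ g.1⁻¹ * h.1 = -1 ↔ _
  constructor
  · rintro (h | h)
    · left
      exact (inv_mul_eq_one.1 h).symm
    · right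
      have := congrArg (fun k => g.1 * k) h
      simp only [mul_inv_cancel_left, mul_neg, mul_one] at this
      exact this
  · rintro (h | h)
    · left
      rw [h, inv_mul_cancel]
    · right
      rw [h, mul_neg, inv_mul_cancel]

/-- the sign matrix in `SOD` -/
def Dg (hK : FNum K m d) (e : Fin m → ℤˣ) : SOD (fd m d) := ⟨DG K e, DG_mem hK.h2 hK.modd e⟩

lemma Dg_mul (hK : FNum K m d) (e e' : Fin m → ℤˣ) : Dg hK (e * e') = Dg hK e * Dg hK e' :=
  Subtype.ext (DG_mul e e')

/-- a lift -/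
noncomputable def tau (x : MulAut ↥(commutator (PO (fd m d)))) (g : SOD (fd m d)) : SOD (fd m d) :=
  (cl_surj (x (cl _ g))).choose

lemma tau_spec (x : MulAut ↥(commutator (PO (fd m d)))) (g : SOD (fd m d)) :
    cl _ (tau x g) = x (cl _ g) := (cl_surj (x (cl _ g))).choose_spec

variable (x : MulAut ↥(commutator (PO (fd m d))))

lemma tau_mul (hK : FNum K m d) (g h : SOD (fd m d)) :
    (tau x (g * h)).1 = (tau x g).1 * (tau x h).1 ∨
      (tau x (g * h)).1 = -((tau x g).1 * (tau x h).1) := by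
  have h1 : cl _ (tau x g * tau x h) = cl _ (tau x (g * h)) := by
    rw [map_mul, tau_spec, tau_spec, tau_spec, map_mul, map_mul]
  exact (cl_eq_iff hK _ _).1 h1

lemma tau_conj (hK : FNum K m d) (P g : SOD (fd m d)) :
    (tau x (P * g * P⁻¹)).1 = (tau x P).1 * (tau x g).1 * (tau x P).1⁻¹ ∨
      (tau x (P * g * P⁻¹)).1 = -((tau x P).1 * (tau x g).1 * (tau x P).1⁻¹) := by
  have h1 : cl _ (tau x P * tau x g * (tau x P)⁻¹) = cl _ (tau x (P * g * P⁻¹)) := by
    rw [map_mul, map_mul, map_inv, tau_spec, tau_spec, tau_spec, map_mul, map_mul, map_inv,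
      map_mul, map_mul, map_inv]
  exact (cl_eq_iff hK _ _).1 h1

lemma tau_one (hK : FNum K m d) {g : SOD (fd m d)} (hg : cl _ g = 1) :
    (tau x g).1 = 1 ∨ (tau x g).1 = -1 := by
  rw [← cl_one_iff hK, tau_spec, hg, map_one]

/-- the lift of the image of a sign matrix -/
noncomputable def R (hK : FNum K m d) (e : Fin m → ℤˣ) : GL (Fin (m + 1)) K := (tau x (Dg hK e)).1

lemma R_mem (hK : FNum K m d) (e : Fin m → ℤˣ) : R x hK e ∈ SOD (fd m d) := (tau x (Dg hK e)).2

lemma R_mul (hK : FNum K m d) (e e' : Fin m → ℤˣ) : R x hK (e * e') = R x hK e * R x hK e' ∨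
    R x hK (e * e') = -(R x hK e * R x hK e') := by
  unfold R
  rw [Dg_mul]
  exact tau_mul x hK _ _

lemma R_one (hK : FNum K m d) : R x hK 1 = 1 ∨ R x hK 1 = -1 := by
  apply tau_one x hK
  rw [cl_one_iff hK]
  left
  exact DG_one

lemma Dneg (hK : FNum K m d) : cl _ (Dg hK (fun _ => -1)) = 1 := by
  rw [cl_one_iff hK]
  right
  apply Units.ext
  exact DG_neg hK.modd

lemma R_neg (hK : FNum K m d) : R x hK (fun _ => -1) = 1 ∨ R x hK (fun _ => -1) = -1 :=
  tau_one x hK (Dneg hK)

lemma R_comm (hK : FNum K m d) (e e' : Fin m → ℤˣ) : R x hK e * R x hK e' = R x hK e' * R x hK e ∨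
    R x hK e * R x hK e' = -(R x hK e' * R x hK e) := by
  rcases R_mul x hK e e' with h | h <;> rcases R_mul x hK e' e with h' | h' <;>
    rw [mul_comm e' e] at h'
  · left; rw [← h, ← h']
  · right; rw [← h, h']
  · right; rw [← h', h, neg_neg]
  · left
    rw [h] at h'
    exact neg_injective h'

lemma R_sq (hK : FNum K m d) (e : Fin m → ℤˣ) : R x hK e * R x hK e = 1 ∨
    R x hK e * R x hK e = -1 := by
  have hee : e * e = 1 := by
    funext i
    exact Int.units_mul_self _
  rcases R_mul x hK e e with h | h <;> rw [hee] at h <;> rcases R_one x hK with h' | h'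
  · left; rw [← h, h']
  · right; rw [← h, h']
  · right; rw [h'] at h; rw [h, neg_neg]
  · left; rw [h'] at h; exact (neg_injective h).symm

lemma R_inj (hK : FNum K m d) {e : Fin m → ℤˣ} (h : R x hK e = 1 ∨ R x hK e = -1) :
    e = 1 ∨ e = fun _ => -1 := by
  have h1 : cl _ (tau x (Dg hK e)) = 1 := (cl_one_iff hK _).2 h
  rw [tau_spec] at h1
  have h3 : cl _ (Dg hK e) = 1 := (MulEquiv.map_eq_one_iff x).1 h1
  rw [cl_one_iff hK] at h3
  have hc : (-1 : K) ≠ 1 := by
    intro h
    apply hK.h2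
    linear_combination -h
  rcases h3 with h3 | h3
  · left
    funext i
    have h4 : (DG K e).1 i.castSucc i.castSucc = (1 : Matrix (Fin (m + 1)) (Fin (m + 1)) K)
      i.castSucc i.castSucc := by
      have : DG K e = 1 := h3
      rw [this]; rfl
    rw [DG_coe, diagonal_apply_eq, one_apply_eq, es_c] at h4
    rcases units_cases (e i) with h5 | h5
    · exact h5
    · rw [h5] at h4
      simp at h4
      exact absurd h4 hc
  · right
    funext i
    have h4 : (DG K e).1 i.castSucc i.castSucc = (-1 : Matrix (Fin (m + 1)) (Fin (m + 1)) K)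
      i.castSucc i.castSucc := by
      have : DG K e = -1 := h3
      rw [this]; rfl
    rw [DG_coe, diagonal_apply_eq, neg_apply, one_apply_eq, es_c] at h4
    rcases units_cases (e i) with h5 | h5
    · rw [h5] at h4
      simp at h4
      exact absurd h4.symm hc
    · exact h5

lemma R_conj (hK : FNum K m d) {P : GL (Fin (m + 1)) K} (hP : P ∈ SOD (fd m d)) {e e' : Fin m → ℤˣ}
    (h : P * DG K e * P⁻¹ = DG K e') :
    R x hK e' = (tau x ⟨P, hP⟩).1 * R x hK e * (tau x ⟨P, hP⟩).1⁻¹ ∨
      R x hK e' = -((tau x ⟨P, hP⟩).1 * R x hK e * (tau x ⟨P, hP⟩).1⁻¹) := by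
  have h1 : (⟨P, hP⟩ : SOD (fd m d)) * Dg hK e * (⟨P, hP⟩ : SOD (fd m d))⁻¹ = Dg hK e' :=
    Subtype.ext h
  have h3 := tau_conj x hK ⟨P, hP⟩ (Dg hK e)
  rw [h1] at h3
  exact h3

lemma sg_ind {p : (Fin m → ℤˣ) → Prop} (h1 : p 1) (hs : ∀ i, p (sg i))
    (hm : ∀ e e', p e → p e' → p (e * e')) : ∀ e, p e := by
  intro e
  rw [← Finset.univ_prod_mulSingle e]
  refine Finset.prod_induction _ p hm h1 fun i _ => ?_
  rcases units_cases (e i) with h | h
  · rw [h, Pi.mulSingle_one]
    exact h1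
  · rw [h]
    have : (Pi.mulSingle i (-1) : Fin m → ℤˣ) = sg i := by
      funext j
      by_cases hj : j = i
      · subst hj
        simp [sg]
      · simp [sg, hj]
    rw [this]
    exact hs i

/-- the lifts commute -/
def Good (hK : FNum K m d) : Prop := ∀ e e', R x hK e * R x hK e' = R x hK e' * R x hK e

lemma good_of (hK : FNum K m d)
    (h : ∀ i j, i ≠ j → R x hK (sg i) * R x hK (sg j) = R x hK (sg j) * R x hK (sg i)) :
    Good x hK := by
  have hone : ∀ e, R x hK 1 * R x hK e = R x hK e * R x hK 1 := by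
    intro e
    rcases R_one x hK with h1 | h1 <;> rw [h1]
    · rw [one_mul, mul_one]
    · rw [neg_one_mul, mul_neg_one]
  have hmul : ∀ e e' f, R x hK e * R x hK f = R x hK f * R x hK e →
      R x hK e' * R x hK f = R x hK f * R x hK e' →
      R x hK (e * e') * R x hK f = R x hK f * R x hK (e * e') := by
    intro e e' f h1 h3
    have h4 : (R x hK e * R x hK e') * R x hK f = R x hK f * (R x hK e * R x hK e') := by
      rw [mul_assoc, h3, ← mul_assoc, h1, mul_assoc]
    rcases R_mul x hK e e' with h5 | h5 <;> rw [h5]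
    · exact h4
    · rw [neg_mul, mul_neg, h4]
  have h1 : ∀ j e, R x hK e * R x hK (sg j) = R x hK (sg j) * R x hK e := by
    intro j
    refine sg_ind (hone _) (fun i => ?_) (fun e e' => hmul e e' _)
    by_cases hij : i = j
    · rw [hij]
    · exact h i j hij
  intro e e'
  revert e
  refine sg_ind (hone _) (fun i => (h1 i e').symm) (fun e f => hmul e f _)

/-- **dichotomy** -/
theorem dich (hK : FNum K m d) : Good x hK ∨
    ∀ i j, i ≠ j → R x hK (sg i) * R x hK (sg j) = -(R x hK (sg j) * R x hK (sg i)) := by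
  have hm := hK.hm
  let i0 : Fin m := ⟨0, by omega⟩
  let i1 : Fin m := ⟨1, by omega⟩
  have h01 : i0 ≠ i1 := by simp [i0, i1]
  have key : ∀ k l : Fin m, k ≠ l → ∃ Q : GL (Fin (m + 1)) K,
      (R x hK (sg k) = Q * R x hK (sg i0) * Q⁻¹ ∨ R x hK (sg k) = -(Q * R x hK (sg i0) * Q⁻¹)) ∧
      (R x hK (sg l) = Q * R x hK (sg i1) * Q⁻¹ ∨ R x hK (sg l) = -(Q * R x hK (sg i1) * Q⁻¹)) := by
    intro k l hkl
    obtain ⟨P, hP, h1, h3⟩ := pairs (d := d) hK.h2 hm h01 hkl
    exact ⟨(tau x ⟨P, hP⟩).1, R_conj x hK hP h1, R_conj x hK hP h3⟩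
  have hprod : ∀ k l : Fin m, k ≠ l → ∃ Q : GL (Fin (m + 1)) K,
      (R x hK (sg k) * R x hK (sg l) = Q * (R x hK (sg i0) * R x hK (sg i1)) * Q⁻¹ ∧
        R x hK (sg l) * R x hK (sg k) = Q * (R x hK (sg i1) * R x hK (sg i0)) * Q⁻¹) ∨
      (R x hK (sg k) * R x hK (sg l) = -(Q * (R x hK (sg i0) * R x hK (sg i1)) * Q⁻¹) ∧
        R x hK (sg l) * R x hK (sg k) = -(Q * (R x hK (sg i1) * R x hK (sg i0)) * Q⁻¹)) := by
    intro k l hkl
    obtain ⟨Q, h1, h3⟩ := key k l hkl
    refine ⟨Q, ?_⟩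
    have e1 : Q * R x hK (sg i0) * Q⁻¹ * (Q * R x hK (sg i1) * Q⁻¹) =
        Q * (R x hK (sg i0) * R x hK (sg i1)) * Q⁻¹ := by group
    have e2 : Q * R x hK (sg i1) * Q⁻¹ * (Q * R x hK (sg i0) * Q⁻¹) =
        Q * (R x hK (sg i1) * R x hK (sg i0)) * Q⁻¹ := by group
    rcases h1 with h1 | h1 <;> rcases h3 with h3 | h3 <;> rw [h1, h3]
    · left; exact ⟨e1, e2⟩
    · right; exact ⟨by rw [mul_neg, e1], by rw [neg_mul, e2]⟩
    · right; exact ⟨by rw [neg_mul, e1], by rw [mul_neg, e2]⟩
    · left; exact ⟨by rw [neg_mul_neg, e1], by rw [neg_mul_neg, e2]⟩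
  rcases R_comm x hK (sg i0) (sg i1) with h | h
  · left
    apply good_of
    intro k l hkl
    obtain ⟨Q, ⟨h1, h3⟩ | ⟨h1, h3⟩⟩ := hprod k l hkl
    · rw [h1, h3, h]
    · rw [h1, h3, h]
  · right
    intro k l hkl
    obtain ⟨Q, ⟨h1, h3⟩ | ⟨h1, h3⟩⟩ := hprod k l hkl
    · rw [h1, h3, h, mul_neg, neg_mul]
    · rw [h1, h3, h, mul_neg, neg_mul]

lemma neg_ne (hK : FNum K m d) : (-1 : GL (Fin (m + 1)) K) ≠ 1 := by
  intro h
  have h1 := congrArg (fun g : GL (Fin (m + 1)) K => g.1 (Fin.last m) (Fin.last m)) h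
  have h3 : (-1 : Matrix (Fin (m + 1)) (Fin (m + 1)) K) (Fin.last m) (Fin.last m) =
    (1 : Matrix (Fin (m + 1)) (Fin (m + 1)) K) (Fin.last m) (Fin.last m) := h1
  rw [neg_apply, one_apply_eq] at h3
  apply hK.h2
  linear_combination -h3

/-- the squares of commuting lifts -/
theorem good_sq (hK : FNum K m d) (hG : Good x hK) : ∀ e, R x hK e * R x hK e = 1 := by
  have hm := hK.hm
  have hmul : ∀ e e', R x hK (e * e') * R x hK (e * e') =
      (R x hK e * R x hK e) * (R x hK e' * R x hK e') := by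
    intro e e'
    have h3 : (R x hK e * R x hK e') * (R x hK e * R x hK e') =
        (R x hK e * R x hK e) * (R x hK e' * R x hK e') := by
      rw [mul_assoc, ← mul_assoc (R x hK e'), hG e' e]
      simp only [mul_assoc]
    rcases R_mul x hK e e' with h5 | h5 <;> rw [h5]
    · exact h3
    · rw [neg_mul_neg, h3]
  have hone : R x hK 1 * R x hK 1 = 1 := by
    rcases R_one x hK with h1 | h1 <;> rw [h1] <;> simp
  have hall : ∀ i, R x hK (sg i) * R x hK (sg i) = 1 := by
    intro i
    rcases R_sq x hK (sg i) with h | h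
    · exact h
    · exfalso
      have hk : ∀ k, R x hK (sg k) * R x hK (sg k) = -1 := by
        intro k
        obtain ⟨P, hP, hPc⟩ := layer (d := d) hK.h2 hm (e := sg i) (e' := sg k)
          (by rw [wt_sg, wt_sg])
        have h3 := R_conj x hK hP hPc
        set Q := (tau x ⟨P, hP⟩).1
        have e1 : Q * R x hK (sg i) * Q⁻¹ * (Q * R x hK (sg i) * Q⁻¹) =
            Q * (R x hK (sg i) * R x hK (sg i)) * Q⁻¹ := by group
        have e2 : Q * (R x hK (sg i) * R x hK (sg i)) * Q⁻¹ = -1 := by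
          rw [h, mul_neg, mul_one, neg_mul, mul_inv_cancel]
        rcases h3 with h3 | h3 <;> rw [h3]
        · rw [e1, e2]
        · rw [neg_mul_neg, e1, e2]
      have hq : ∀ e : Fin m → ℤˣ, R x hK e * R x hK e = if ∏ i, e i = 1 then 1 else -1 := by
        refine sg_ind ?_ ?_ ?_
        · rw [if_pos (by simp)]
          exact hone
        · intro k
          rw [hk k, if_neg]
          have : ∏ j, (sg k : Fin m → ℤˣ) j = -1 := by
            unfold sg
            rw [Finset.prod_ite_eq' Finset.univ k (fun _ => (-1 : ℤˣ)), if_pos (Finset.mem_univ _)]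
          rw [this]
          decide
        · intro e e' h1 h3
          rw [hmul, h1, h3]
          have h4 : ∏ i, (e * e') i = (∏ i, e i) * ∏ i, e' i := by
            rw [← Finset.prod_mul_distrib]; rfl
          rw [h4]
          rcases units_cases (∏ i, e i) with h5 | h5 <;> rcases units_cases (∏ i, e' i) with h6 | h6 <;>
            rw [h5, h6] <;> simp
      have h3 := hq (fun _ => -1)
      have h4 : ∏ _i : Fin m, (-1 : ℤˣ) ≠ 1 := by
        rw [Finset.prod_const, Finset.card_univ, Fintype.card_fin, hK.modd.neg_one_pow]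
        decide
      rw [if_neg h4] at h3
      have h5 : R x hK (fun _ => -1) * R x hK (fun _ => -1) = 1 := by
        rcases R_neg x hK with h1 | h1 <;> rw [h1] <;> simp
      rw [h5] at h3
      exact neg_ne hK h3.symm
  refine sg_ind hone hall ?_
  intro e e' h1 h3
  rw [hmul, h1, h3, mul_one]

/-- the representation -/
theorem exists_rho (hK : FNum K m d) (hG : Good x hK) :
    ∃ ρ : (Fin m → ℤˣ) →* Matrix (Fin (m + 1)) (Fin (m + 1)) K,
      (∀ e, ρ e = (R x hK e).1 ∨ ρ e = -(R x hK e).1) ∧ ρ (fun _ => -1) = -1 := by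
  have hm := hK.hm
  have hsq := good_sq x hK hG
  have hsq' : ∀ e, (R x hK e).1 * (R x hK e).1 = 1 := fun e => congrArg Units.val (hsq e)
  have hG' : ∀ e e', (R x hK e).1 * (R x hK e').1 = (R x hK e').1 * (R x hK e).1 :=
    fun e e' => congrArg Units.val (hG e e')
  let φ : ∀ i : Fin m, ℤˣ →* Matrix (Fin (m + 1)) (Fin (m + 1)) K := fun i =>
    { toFun := fun u => if u = 1 then 1 else (R x hK (sg i)).1
      map_one' := by rw [if_pos rfl]
      map_mul' := by
        intro u v
        rcases units_cases u with h | h <;> rcases units_cases v with h' | h' <;> rw [h, h']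
        · simp
        · simp
        · simp
        · have e1 : (-1 : ℤˣ) * -1 = 1 := by decide
          have e2 : (-1 : ℤˣ) ≠ 1 := by decide
          rw [e1, if_pos rfl, if_neg e2, hsq'] }
  have hcomm : Pairwise fun i j => ∀ (a : ℤˣ) (b : ℤˣ), Commute (φ i a) (φ j b) := by
    intro i j _ a b
    show (if a = 1 then 1 else (R x hK (sg i)).1) * (if b = 1 then 1 else (R x hK (sg j)).1) =
      (if b = 1 then 1 else (R x hK (sg j)).1) * (if a = 1 then 1 else (R x hK (sg i)).1)
    split_ifs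
    · rfl
    · rw [one_mul, mul_one]
    · rw [one_mul, mul_one]
    · exact hG' _ _
  let ρ0 : (Fin m → ℤˣ) →* Matrix (Fin (m + 1)) (Fin (m + 1)) K :=
    MonoidHom.noncommPiCoprod φ hcomm
  have hρ0 : ∀ e, ρ0 e = (R x hK e).1 ∨ ρ0 e = -(R x hK e).1 := by
    refine sg_ind ?_ ?_ ?_
    · rw [map_one]
      rcases R_one x hK with h | h <;> rw [h]
      · left; rfl
      · right
        show (1 : Matrix (Fin (m + 1)) (Fin (m + 1)) K) = -(-1 : Matrix (Fin (m + 1)) (Fin (m + 1)) K)
        rw [neg_neg]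
    · intro i
      left
      have h1 : (sg i : Fin m → ℤˣ) = Pi.mulSingle i (-1) := by
        funext j
        by_cases hj : j = i
        · subst hj
          simp [sg]
        · simp [sg, hj]
      conv_lhs => rw [h1]
      show MonoidHom.noncommPiCoprod φ hcomm (Pi.mulSingle i (-1)) = _
      rw [MonoidHom.noncommPiCoprod_mulSingle]
      show (if (-1 : ℤˣ) = 1 then 1 else (R x hK (sg i)).1) = _
      rw [if_neg (by decide)]
    · intro e e' h1 h3
      rw [map_mul]
      have h4 : (R x hK (e * e')).1 = (R x hK e).1 * (R x hK e').1 ∨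
          (R x hK (e * e')).1 = -((R x hK e).1 * (R x hK e').1) := by
        rcases R_mul x hK e e' with h | h <;> rw [h]
        · left; rfl
        · right; rfl
      rcases h1 with h1 | h1 <;> rcases h3 with h3 | h3 <;> rcases h4 with h4 | h4 <;>
        rw [h1, h3, h4] <;> simp
  have hneg : ρ0 (fun _ => -1) = 1 ∨ ρ0 (fun _ => -1) = -1 := by
    have h1 : (R x hK (fun _ => -1)).1 = 1 ∨ (R x hK (fun _ => -1)).1 = -1 := by
      rcases R_neg x hK with h | h <;> rw [h]
      · left; rfl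
      · right; rfl
    rcases hρ0 (fun _ => -1) with h | h <;> rcases h1 with h1 | h1 <;> rw [h, h1]
    · left; rfl
    · right; rfl
    · right; rfl
    · left; rw [neg_neg]
  rcases hneg with hneg | hneg
  · let i0 : Fin m := ⟨0, by omega⟩
    refine ⟨{ toFun := fun e => ((e i0 : ℤ) : K) • ρ0 e
              map_one' := by rw [map_one]; simp
              map_mul' := by
                intro e e'
                rw [map_mul, smul_mul_smul_comm, Pi.mul_apply]
                push_cast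
                rfl }, fun e => ?_, ?_⟩
    · show ((e i0 : ℤ) : K) • ρ0 e = _ ∨ ((e i0 : ℤ) : K) • ρ0 e = _
      rcases hρ0 e with h | h <;> rcases units_cases (e i0) with h' | h' <;> rw [h, h'] <;> simp
    · show (((-1 : ℤˣ) : ℤ) : K) • ρ0 (fun _ => -1) = -1
      rw [hneg]
      simp
  · exact ⟨ρ0, hρ0, hneg⟩

/-- **the frame** -/
theorem frame_x (hK : FNum K m d) (hG : Good x hK) :
    ∃ v : Fin (m + 1) → (Fin (m + 1) → K), LinearIndependent K v ∧
      ∀ i : Fin m, ∃ C : SOD (fd m d), x (cl _ (Dg hK (sg i))) = cl _ C ∧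
        ∀ j, ac C.1 (v j) = if j = i.castSucc ∨ j = Fin.last m then -v j else v j := by
  obtain ⟨ρ, hρ, hneg⟩ := exists_rho x hK hG
  have hinj : Function.Injective ρ := by
    intro e e' h
    have h1 : ρ (e * e') = 1 := by
      rw [map_mul, h, ← map_mul]
      have : e' * e' = 1 := by
        funext i
        exact Int.units_mul_self _
      rw [this, map_one]
    have h3 : R x hK (e * e') = 1 ∨ R x hK (e * e') = -1 := by
      rcases hρ (e * e') with h4 | h4
      · left
        apply Units.ext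
        rw [← h4, h1]; rfl
      · right
        apply Units.ext
        rw [h1] at h4
        show (R x hK (e * e')).1 = -1
        rw [h4, neg_neg]
    rcases R_inj x hK h3 with h4 | h4
    · have h5 : e' * e' = 1 := by
        funext i
        exact Int.units_mul_self _
      calc e = e * (e' * e') := by rw [h5, mul_one]
        _ = (e * e') * e' := (mul_assoc _ _ _).symm
        _ = e' := by rw [h4, one_mul]
    · exfalso
      rw [h4, hneg] at h1
      apply neg_ne hK
      apply Units.ext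
      exact h1
  have hdet1 : ∀ e, (R x hK e).1.det = 1 := fun e =>
    det_SD hK.h2 hK.h5 hK.n3 hK.even hK.ha fd_one (R_mem x hK e)
  have hdet : ∀ e, (ρ e).det = 1 := by
    intro e
    rcases hρ e with h | h <;> rw [h]
    · exact hdet1 e
    · rw [det_neg, Fintype.card_fin, hK.even.neg_one_pow, one_mul, hdet1]
  have hlay : ∀ e e' : Fin m → ℤˣ, wt e = wt e' → IsR2 (ρ e) → IsR2 (ρ e') ∨ IsR2 (-(ρ e')) := by
    intro e e' hw hR
    obtain ⟨P, hP, hPc⟩ := layer (d := d) hK.h2 hK.hm hw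
    have h3 := R_conj x hK hP hPc
    set Q := (tau x ⟨P, hP⟩).1
    have h4 : (R x hK e').1 = Q.1 * (R x hK e).1 * (Q⁻¹).1 ∨
        (R x hK e').1 = -(Q.1 * (R x hK e).1 * (Q⁻¹).1) := by
      rcases h3 with h3 | h3 <;> rw [h3]
      · left; rfl
      · right; rfl
    have h5 : IsR2 (Q.1 * ρ e * (Q⁻¹).1) := hR.conj (Units.mul_inv Q) (Units.inv_mul Q)
    have h6 : ρ e' = Q.1 * ρ e * (Q⁻¹).1 ∨ -(ρ e') = Q.1 * ρ e * (Q⁻¹).1 := by
      rcases hρ e with h | h <;> rcases hρ e' with h' | h' <;> rcases h4 with h4 | h4 <;>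
        rw [h, h', h4] <;> simp
    rcases h6 with h6 | h6
    · left; rw [h6]; exact h5
    · right; rw [h6]; exact h5
  obtain ⟨v, hli, hv⟩ := frame_even hK.h2 hK.hm hK.modd ρ hinj hdet hneg hlay
  refine ⟨v, hli, fun i => ?_⟩
  obtain ⟨s, hs, hsv⟩ := hv i
  have hs' : s = 1 ∨ s = -1 := by
    have h3 : (s - 1) * (s + 1) = 0 := by linear_combination hs
    rcases mul_eq_zero.1 h3 with h4 | h4
    · left; exact sub_eq_zero.1 h4
    · right; exact eq_neg_of_add_eq_zero_left h4
  -- `C = s ρ(sg i)`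
  have hC : ∃ C : SOD (fd m d), cl _ C = cl _ (tau x (Dg hK (sg i))) ∧ C.1.1 = s • ρ (sg i) := by
    have h1 : s • ρ (sg i) = (R x hK (sg i)).1 ∨ s • ρ (sg i) = -(R x hK (sg i)).1 := by
      rcases hρ (sg i) with h | h <;> rcases hs' with h' | h' <;> rw [h, h'] <;> simp
    rcases h1 with h1 | h1
    · exact ⟨tau x (Dg hK (sg i)), rfl, h1.symm⟩
    · have hn : (-1 : GL (Fin (m + 1)) K) ∈ SOD (fd m d) := by
        have h3 : (-1 : GL (Fin (m + 1)) K) = DG K (fun _ : Fin m => -1) := by
          apply Units.ext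
          exact (DG_neg hK.modd).symm
        rw [h3]
        exact DG_mem hK.h2 hK.modd _
      refine ⟨⟨-1, hn⟩ * tau x (Dg hK (sg i)), ?_, ?_⟩
      · rw [cl_eq_iff hK]
        right
        show (tau x (Dg hK (sg i))).1 = -((-1) * (tau x (Dg hK (sg i))).1)
        rw [neg_one_mul, neg_neg]
      · rw [h1]
        show (-1 : Matrix (Fin (m + 1)) (Fin (m + 1)) K) * (R x hK (sg i)).1 = _
        rw [neg_one_mul]
  obtain ⟨C, hC1, hC2⟩ := hC
  refine ⟨C, ?_, fun j => ?_⟩
  · rw [hC1, tau_spec]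
  · show C.1.1 *ᵥ v j = _
    rw [hC2, smul_mulVec, hsv, smul_smul, ← pow_two, hs, one_smul]

end lifts

end Vale.Agent.P240.R2.H275.F3
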