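import Vale.Agent.P240.R2.H275.F3f

/-!
The frame of an automorphism of `PΩ(V)`: norms, the similitude.
-/

set_option autoImplicit false
set_option linter.all false

namespace Vale.Agent.P240.R2.H275.F3

open Matrix Vale.Agent.P240.R2.H145.EO Vale.Agent.P240.R2.H275
open Vale.Agent.P240.R2.H401.D (fd)
open Vale.Agent.P240.R2.H329 (sg wt sv sv_filter wt_sg units_cases spans)
open scoped Classical

universe u v

section

variable {K : Type u} [Field K] {m : ℕ}

/-- the sign of the `j`-th vector under the `i`-th element -/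
def ep (i : Fin m) (j : Fin (m + 1)) : ℤˣ := if j = i.castSucc ∨ j = Fin.last m then -1 else 1

lemma ep_es (i : Fin m) (j : Fin (m + 1)) : es (sg i) j = ep i j := by
  unfold ep
  refine Fin.lastCases ?_ (fun k => ?_) j
  · rw [es_l, if_pos (Or.inr rfl)]
    unfold sg
    rw [Finset.prod_ite_eq' Finset.univ i (fun _ => (-1 : ℤˣ)), if_pos (Finset.mem_univ _)]
  · rw [es_c]
    unfold sg
    by_cases h : k = i
    · rw [if_pos h, if_pos (Or.inl (by rw [h]))]
    · rw [if_neg h, if_neg]
      rintro (h' | h')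
      · exact h (Fin.castSucc_injective _ h')
      · exact (Fin.castSucc_lt_last k).ne h'

lemma ep_l (i : Fin m) : ep i (Fin.last m) = -1 := if_pos (Or.inr rfl)

lemma ep_i (i : Fin m) : ep i i.castSucc = -1 := if_pos (Or.inl rfl)

lemma ep_n {i k : Fin m} (h : k ≠ i) : ep i k.castSucc = 1 := by
  unfold ep
  rw [if_neg]
  rintro (h' | h')
  · exact h (Fin.castSucc_injective _ h')
  · exact (Fin.castSucc_lt_last k).ne h'

lemma exists_ne (hm : 7 ≤ m) (i : Fin m) : ∃ k : Fin m, k ≠ i := by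
  let i0 : Fin m := ⟨0, by omega⟩
  let i1 : Fin m := ⟨1, by omega⟩
  by_cases h : i = i0
  · exact ⟨i1, by rw [h]; simp [i0, i1]⟩
  · exact ⟨i0, Ne.symm h⟩

/-- the signs separate the vectors -/
lemma ep_sep (hm : 7 ≤ m) {j k : Fin (m + 1)} (h : j ≠ k) : ∃ i : Fin m, ep i j * ep i k = -1 := by
  revert h
  refine Fin.lastCases ?_ (fun j => ?_) j <;> refine Fin.lastCases ?_ (fun k => ?_) k
  · intro h; exact absurd rfl h
  · intro _
    obtain ⟨i, hi⟩ := exists_ne hm k
    exact ⟨i, by rw [ep_l, ep_n (Ne.symm hi)]; decide⟩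
  · intro _
    obtain ⟨i, hi⟩ := exists_ne hm j
    exact ⟨i, by rw [ep_l, ep_n (Ne.symm hi)]; decide⟩
  · intro h
    have h' : k ≠ j := by rintro rfl; exact h rfl
    exact ⟨j, by rw [ep_i, ep_n h']; decide⟩

lemma Ng_ep (i : Fin m) : Ng (ep i) = {i.castSucc, Fin.last m} := by
  ext j
  rw [mem_Ng, Finset.mem_insert, Finset.mem_singleton]
  unfold ep
  split_ifs with h
  · exact ⟨fun _ => h, fun _ => rfl⟩
  · exact ⟨fun h' => absurd h' (by decide), fun h' => absurd h' h⟩

lemma card_ep (i : Fin m) : (Ng (ep i)).card = 2 := by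
  rw [Ng_ep, Finset.card_pair (Fin.castSucc_lt_last i).ne]

lemma neg_ep (i : Fin m) : (Ng (fun j => -ep i j)).card = m - 1 := by
  have h1 : Ng (fun j => -ep i j) = (Ng (ep i))ᶜ := by
    ext j
    rw [Finset.mem_compl, mem_Ng, mem_Ng]
    rcases units_cases (ep i j) with h | h <;> rw [h] <;> decide
  rw [h1, Finset.card_compl, card_ep, Fintype.card_fin]
  omega

end

section norm

variable {K : Type u} [Field K] {m : ℕ} {a : Fin (m + 1) → K}
  {v : Fin (m + 1) → (Fin (m + 1) → K)} {C : Fin m → GL (Fin (m + 1)) K}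

lemma orth (h2 : (2 : K) ≠ 0) (hm : 7 ≤ m) (hC : ∀ i, C i ∈ OD a)
    (hv : ∀ i j, ac (C i) (v j) = ((ep i j : ℤ) : K) • v j) {j k : Fin (m + 1)} (h : j ≠ k) :
    B a (v j) (v k) = 0 := by
  obtain ⟨i, hi⟩ := ep_sep hm h
  have h1 := OD_B (hC i) (v j) (v k)
  rw [hv, hv, B_smul_left, B_smul_right, ← mul_assoc] at h1
  have h3 : ((ep i j : ℤ) : K) * ((ep i k : ℤ) : K) = -1 := by
    have := congrArg (fun u : ℤˣ => ((u : ℤ) : K)) hi
    push_cast at this
    exact this
  rw [h3] at h1
  have h4 : (2 : K) * B a (v j) (v k) = 0 := by linear_combination -h1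
  exact (mul_eq_zero.1 h4).resolve_left h2

lemma B_sum_right {n ι : Type*} {N : ℕ} {a : Fin N → K} [Fintype ι] (c : ι → K)
    (z : ι → Fin N → K) (w : Fin N → K) : B a w (∑ i, c i • z i) = ∑ i, c i * B a w (z i) := by
  have : ∀ s : Finset ι, B a w (∑ i ∈ s, c i • z i) = ∑ i ∈ s, c i * B a w (z i) := by
    intro s
    induction s using Finset.induction_on with
    | empty =>
      rw [Finset.sum_empty, Finset.sum_empty, ← zero_smul K (0 : Fin N → K), B_smul_right, zero_mul]
    | insert i s hi ih =>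
      rw [Finset.sum_insert hi, Finset.sum_insert hi, B_add_right, B_smul_right, ih]
  exact this Finset.univ

lemma coef (hli : LinearIndependent K v) (ho : ∀ j k, j ≠ k → B a (v j) (v k) = 0)
    (w : Fin (m + 1) → K) : ∃ c : Fin (m + 1) → K, w = ∑ j, c j • v j ∧
      ∀ k, B a (v k) w = c k * B a (v k) (v k) := by
  obtain ⟨c, hc⟩ := spans hli w
  refine ⟨c, hc, fun k => ?_⟩
  rw [hc, B_sum_right (n := Unit), Finset.sum_eq_single k]
  · intro j _ hj
    rw [ho k j (Ne.symm hj), mul_zero]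
  · intro h
    exact absurd (Finset.mem_univ _) h

lemma norm_ne (ha : ∀ i, a i ≠ 0) (hli : LinearIndependent K v)
    (ho : ∀ j k, j ≠ k → B a (v j) (v k) = 0) (j : Fin (m + 1)) : B a (v j) (v j) ≠ 0 := by
  intro h0
  apply hli.ne_zero j
  funext i
  obtain ⟨c, -, hc⟩ := coef hli ho (Pi.single i 1)
  have h1 := hc j
  rw [h0, mul_zero, B_comm, B_single, mul_one] at h1
  exact (mul_eq_zero.1 h1).resolve_left (ha i)

/-- a vector orthogonal to all `v j`, `j ≠ t`, is a multiple of `v t` -/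
lemma mult_of (ha : ∀ i, a i ≠ 0) (hli : LinearIndependent K v)
    (ho : ∀ j k, j ≠ k → B a (v j) (v k) = 0) {t : Fin (m + 1)} {w : Fin (m + 1) → K}
    (h : ∀ j, j ≠ t → B a (v j) w = 0) : ∃ b : K, w = b • v t := by
  obtain ⟨c, hc, hc'⟩ := coef hli ho w
  refine ⟨c t, ?_⟩
  conv_lhs => rw [hc]
  rw [Finset.sum_eq_single t]
  · intro j _ hj
    have h1 := hc' j
    rw [h j hj] at h1
    rw [(mul_eq_zero.1 h1.symm).resolve_right (norm_ne ha hli ho j), zero_smul]
  · intro h
    exact absurd (Finset.mem_univ _) h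

/-- a monomial isometry: norms -/
lemma norm_perm (h2 : (2 : K) ≠ 0) (hm : 7 ≤ m) (ha : ∀ i, a i ≠ 0) (hli : LinearIndependent K v)
    (hC : ∀ i, C i ∈ OD a) (hv : ∀ i j, ac (C i) (v j) = ((ep i j : ℤ) : K) • v j)
    {Q : GL (Fin (m + 1)) K} (hQ : Q ∈ OD a) {π : Equiv.Perm (Fin m)}
    (hπ : ∀ k, Q * C k = C (π k) * Q) (i : Fin m) :
    ∃ b : K, B a (v i.castSucc) (v i.castSucc) =
      b ^ 2 * B a (v (π i).castSucc) (v (π i).castSucc) := by
  have ho : ∀ j k, j ≠ k → B a (v j) (v k) = 0 := fun j k h => orth h2 hm hC hv h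
  -- eigenvectors
  have heig : ∀ (k : Fin m) (w : Fin (m + 1) → K) (δ : ℤˣ), ac (C k) w = ((δ : ℤ) : K) • w →
      ∀ j, ep k j * δ = -1 → B a (v j) w = 0 := by
    intro k w δ hw j hj
    have h1 := OD_B (hC k) (v j) w
    rw [hv, hw, B_smul_left, B_smul_right, ← mul_assoc] at h1
    have h3 : ((ep k j : ℤ) : K) * ((δ : ℤ) : K) = -1 := by
      have := congrArg (fun u : ℤˣ => ((u : ℤ) : K)) hj
      push_cast at this
      exact this
    rw [h3] at h1
    have h4 : (2 : K) * B a (v j) w = 0 := by linear_combination -h1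
    exact (mul_eq_zero.1 h4).resolve_left h2
  have hw : ∀ k j, ac (C (π k)) (ac Q (v j)) = ((ep k j : ℤ) : K) • ac Q (v j) := by
    intro k j
    rw [← ac_mul, ← hπ, ac_mul, hv, ac_smul]
  have hi : ∃ b : K, ac Q (v i.castSucc) = b • v (π i).castSucc := by
    apply mult_of ha hli ho
    intro j
    refine Fin.lastCases ?_ (fun k => ?_) j
    · intro _
      obtain ⟨k, hk⟩ := exists_ne hm i
      refine heig (π k) _ (ep k i.castSucc) (hw k _) _ ?_
      rw [ep_l, ep_n (Ne.symm hk)]
      decide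
    · intro hk
      refine heig (π i) _ (ep i i.castSucc) (hw i _) _ ?_
      rw [ep_i, ep_n (fun h => hk (by rw [h]))]
      decide
  obtain ⟨b, hb⟩ := hi
  refine ⟨b, ?_⟩
  rw [← OD_B hQ, hb, B_smul_left, B_smul_right]
  ring

lemma B_eq_dot {n : ℕ} {a : Fin n → K} (x y : Fin n → K) : B a x y = x ⬝ᵥ (diagonal a *ᵥ y) := by
  unfold B
  refine Finset.sum_congr rfl fun i _ => ?_
  rw [mulVec_diagonal]
  ring

lemma gram {n : ℕ} {a : Fin n → K} (z : Fin n → Fin n → K) {M : Matrix (Fin n) (Fin n) K}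
    (hM : ∀ s j, M s j = z j s) (j k : Fin n) : (Mᵀ * diagonal a * M) j k = B a (z j) (z k) := by
  rw [Matrix.mul_apply]
  unfold B
  refine Finset.sum_congr rfl fun s _ => ?_
  rw [mul_diagonal, transpose_apply, hM, hM]
  ring

lemma gram_B {n : ℕ} {a : Fin n → K} {M : Matrix (Fin n) (Fin n) K} {l : K}
    (h : Mᵀ * diagonal a * M = l • diagonal a) (x y : Fin n → K) :
    B a (M *ᵥ x) (M *ᵥ y) = l * B a x y := by
  have h1 : (M *ᵥ x) ⬝ᵥ (diagonal a *ᵥ (M *ᵥ y)) = x ⬝ᵥ ((Mᵀ * diagonal a * M) *ᵥ y) := by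
    rw [← mulVec_mulVec, ← mulVec_mulVec, dotProduct_mulVec x, vecMul_transpose]
  rw [B_eq_dot, h1, h, smul_mulVec, dotProduct_smul, B_eq_dot, smul_eq_mul]

lemma prod_fd {m : ℕ} {d : K} : ∏ i, fd m d i = d := by
  rw [Fin.prod_univ_castSucc]
  have h1 : ∀ i : Fin m, fd m d i.castSucc = 1 := fun i => fd_one _ (by simp)
  rw [Finset.prod_congr rfl fun i _ => h1 i, Finset.prod_const_one, one_mul]
  unfold fd
  rw [if_pos rfl]

/-- **the similitude** from an orthogonal basis with norms of the right classes -/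
theorem exists_sim {m : ℕ} {d : K} (hd : d ≠ 0) (hodd : Odd m) {v : Fin (m + 1) → (Fin (m + 1) → K)}
    (ho : ∀ j k, j ≠ k → B (fd m d) (v j) (v k) = 0)
    (hn : ∀ j, B (fd m d) (v j) (v j) ≠ 0) {l : K} (hl : l ≠ 0)
    (hsq : ∀ i : Fin m, IsSquare (B (fd m d) (v i.castSucc) (v i.castSucc) * l)) :
    ∃ (M : GL (Fin (m + 1)) K) (t : Fin (m + 1) → K),
      (∀ x y, B (fd m d) (ac M x) (ac M y) = l * B (fd m d) x y) ∧
      ∀ j, ac M (Pi.single j 1) = t j • v j := by
  choose r hr using hsq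
  set a := fd m d with ha
  let t1 : Fin m → K := fun i => r i / B a (v i.castSucc) (v i.castSucc)
  have ht1 : ∀ i, t1 i * (t1 i * B a (v i.castSucc) (v i.castSucc)) = l := by
    intro i
    have h1 := hn i.castSucc
    show r i / _ * (r i / _ * _) = l
    field_simp
    linear_combination -hr i
  -- the determinant
  let z : Fin (m + 1) → (Fin (m + 1) → K) :=
    fun j => (Fin.snoc (α := fun _ => K) t1 1 : Fin (m + 1) → K) j • v j
  let U : Matrix (Fin (m + 1)) (Fin (m + 1)) K := Matrix.of fun s j => z j s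
  have hzz : ∀ j k, j ≠ k → B a (z j) (z k) = 0 := by
    intro j k h
    show B a (_ • v j) (_ • v k) = 0
    rw [B_smul_left, B_smul_right, ho j k h, mul_zero, mul_zero]
  have hzc : ∀ i : Fin m, B a (z i.castSucc) (z i.castSucc) = l := by
    intro i
    show B a ((Fin.snoc (α := fun _ => K) t1 1 : Fin (m + 1) → K) i.castSucc • v i.castSucc)
      ((Fin.snoc (α := fun _ => K) t1 1 : Fin (m + 1) → K) i.castSucc • v i.castSucc) = l
    rw [Fin.snoc_castSucc, B_smul_left, B_smul_right, ht1]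
  have hzl : B a (z (Fin.last m)) (z (Fin.last m)) = B a (v (Fin.last m)) (v (Fin.last m)) := by
    show B a ((Fin.snoc (α := fun _ => K) t1 1 : Fin (m + 1) → K) (Fin.last m) • v (Fin.last m))
      ((Fin.snoc (α := fun _ => K) t1 1 : Fin (m + 1) → K) (Fin.last m) • v (Fin.last m)) = _
    rw [Fin.snoc_last, one_smul]
  have hU : Uᵀ * diagonal a * U = diagonal (fun j => B a (z j) (z j)) := by
    ext j k
    rw [gram (M := U) z (fun _ _ => rfl), diagonal_apply]
    split_ifs with h
    · rw [h]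
    · exact hzz j k h
  set ll := B a (v (Fin.last m)) (v (Fin.last m)) with hll
  have hdet : U.det * U.det * d = l ^ m * ll := by
    have h1 := congrArg Matrix.det hU
    rw [det_mul, det_mul, det_transpose, det_diagonal, det_diagonal, prod_fd,
      Fin.prod_univ_castSucc] at h1
    rw [Finset.prod_congr rfl fun i _ => hzc i, hzl, Finset.prod_const, Finset.card_univ,
      Fintype.card_fin] at h1
    linear_combination h1
  have hU0 : U.det ≠ 0 := by
    intro h0
    rw [h0, zero_mul, zero_mul] at hdet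
    exact (mul_ne_zero (pow_ne_zero m hl) (hn (Fin.last m))) hdet.symm
  obtain ⟨s, hs⟩ := hodd.add_one
  let tl : K := l ^ s / U.det
  have htl : tl * (tl * ll) = l * d := by
    have e1 : l ^ s * l ^ s = l ^ m * l := by
      rw [← pow_add, ← hs, pow_succ]
    show l ^ s / U.det * (l ^ s / U.det * ll) = l * d
    field_simp
    have e2 : (l ^ s) ^ 2 = l ^ m * l := by rw [pow_two]; exact e1
    have e3 : U.det ^ 2 * d = l ^ m * ll := by rw [pow_two]; exact hdet
    linear_combination ll * e2 - l * e3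
  let t : Fin (m + 1) → K := Fin.snoc (α := fun _ => K) t1 tl
  have htc : ∀ i : Fin m, t i.castSucc = t1 i := by
    intro i
    show Fin.snoc (α := fun _ => K) t1 tl i.castSucc = t1 i
    rw [Fin.snoc_castSucc]
  have htl' : t (Fin.last m) = tl := by
    show Fin.snoc (α := fun _ => K) t1 tl (Fin.last m) = tl
    rw [Fin.snoc_last]
  let y : Fin (m + 1) → (Fin (m + 1) → K) := fun j => t j • v j
  let N : Matrix (Fin (m + 1)) (Fin (m + 1)) K := Matrix.of fun s j => y j s
  have hN : Nᵀ * diagonal a * N = l • diagonal a := by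
    ext j k
    rw [gram (M := N) y (fun _ _ => rfl), Matrix.smul_apply, diagonal_apply]
    show B a (t j • v j) (t k • v k) = _
    rw [B_smul_left, B_smul_right]
    by_cases h : j = k
    · subst h
      rw [if_pos rfl]
      refine Fin.lastCases ?_ (fun i => ?_) j
      · rw [htl', smul_eq_mul]
        have : a (Fin.last m) = d := by rw [ha]; unfold fd; rw [if_pos rfl]
        rw [this]
        exact htl
      · rw [htc, ht1, smul_eq_mul]
        have : a i.castSucc = 1 := by rw [ha]; exact fd_one _ (by simp)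
        rw [this, mul_one]
    · rw [if_neg h, ho j k h, mul_zero, mul_zero, smul_zero]
  have hN0 : N.det ≠ 0 := by
    intro h0
    have h1 := congrArg Matrix.det hN
    rw [det_mul, h0, mul_zero, det_smul, det_diagonal, ha, prod_fd] at h1
    exact (mul_ne_zero (pow_ne_zero _ hl) hd) h1.symm
  refine ⟨Matrix.GeneralLinearGroup.mkOfDetNeZero N hN0, t, fun x w => ?_, fun j => ?_⟩
  · exact gram_B hN x w
  · show N *ᵥ Pi.single j 1 = t j • v j
    rw [mulVec_single_one]
    rfl

end norm

section sim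

variable {K : Type u} [Field K] [Fintype K] {m : ℕ} {d : K}
  (x : MulAut ↥(commutator (PO (fd m d))))

/-- **the similitude of an automorphism** -/
theorem exists_M (hK : FNum K m d) (hG : Good x hK) : ∃ (M : GL (Fin (m + 1)) K) (l : K), l ≠ 0 ∧
    (∀ v w, B (fd m d) (ac M v) (ac M w) = l * B (fd m d) v w) ∧
    ∀ i : Fin m, ∃ C : SOD (fd m d), x (cl _ (Dg hK (sg i))) = cl _ C ∧
      C.1 * M = M * DG K (sg i) := by
  have hm := hK.hm
  obtain ⟨v, hli, hCx⟩ := frame_x x hK hG
  choose C hC hv using hCx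
  have hCO : ∀ i, (C i).1 ∈ OD (fd m d) := fun i => SOD_le (C i).2
  have hv' : ∀ i j, ac (C i).1 (v j) = ((ep i j : ℤ) : K) • v j := by
    intro i j
    rw [hv]
    unfold ep
    split_ifs <;> simp
  have ho : ∀ j k, j ≠ k → B (fd m d) (v j) (v k) = 0 := fun j k h => orth hK.h2 hm hCO hv' h
  have hn : ∀ j, B (fd m d) (v j) (v j) ≠ 0 := norm_ne hK.ha hli ho
  -- squares
  have hsq : ∀ i k : Fin m, i ≠ k →
      IsSquare (B (fd m d) (v i.castSucc) (v i.castSucc) *
        B (fd m d) (v k.castSucc) (v k.castSucc)) := by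
    intro i k hik
    obtain ⟨j, hji, hjk⟩ : ∃ j : Fin m, j ≠ i ∧ j ≠ k := by
      by_contra hno
      push Not at hno
      have h1 : (Finset.univ : Finset (Fin m)) ⊆ {i, k} := by
        intro l _
        simp only [Finset.mem_insert, Finset.mem_singleton]
        by_cases h2 : l = i
        · exact Or.inl h2
        · exact Or.inr (hno l h2)
      have h2 := Finset.card_le_card h1
      have h3 : ({i, k} : Finset (Fin m)).card ≤ 2 := Finset.card_le_two
      rw [Finset.card_univ, Fintype.card_fin] at h2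
      omega
    obtain ⟨j', hji', hjk', hjj⟩ : ∃ j' : Fin m, j' ≠ i ∧ j' ≠ k ∧ j' ≠ j := by
      by_contra hno
      push Not at hno
      have h1 : (Finset.univ : Finset (Fin m)) ⊆ {i, k, j} := by
        intro l _
        simp only [Finset.mem_insert, Finset.mem_singleton]
        by_cases h2 : l = i
        · exact Or.inl h2
        · by_cases h3 : l = k
          · exact Or.inr (Or.inl h3)
          · exact Or.inr (Or.inr (hno l h2 h3))
      have h2 := Finset.card_le_card h1
      have h3 : ({i, k, j} : Finset (Fin m)).card ≤ 3 := Finset.card_le_three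
      rw [Finset.card_univ, Fintype.card_fin] at h2
      omega
    obtain ⟨P, hP, hPm⟩ := dsw (d := d) hK.h2 hik hjj.symm
    set π := Equiv.swap i k * Equiv.swap j j' with hπ
    have hπi : π i = k := by
      rw [hπ, Equiv.Perm.mul_apply, Equiv.swap_apply_of_ne_of_ne (Ne.symm hji) (Ne.symm hji'),
        Equiv.swap_apply_left]
    set Q := tau x ⟨P, hP⟩ with hQ
    have hconj : ∀ k', (C (π k')).1 = Q.1 * (C k').1 * Q.1⁻¹ ∨
        (C (π k')).1 = -(Q.1 * (C k').1 * Q.1⁻¹) := by
      intro k'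
      have h1 : (⟨P, hP⟩ : SOD (fd m d)) * Dg hK (sg k') * (⟨P, hP⟩ : SOD (fd m d))⁻¹ =
          Dg hK (sg (π k')) := by
        apply Subtype.ext
        show P * DG K (sg k') * P⁻¹ = DG K (sg (π k'))
        rw [hPm.conj, sg_perm]
      have h3 : cl _ (Q * C k' * Q⁻¹) = cl _ (C (π k')) := by
        rw [map_mul, map_mul, map_inv, hQ, tau_spec, ← hC, ← hC, ← h1, map_mul, map_mul, map_inv,
          map_mul, map_mul, map_inv]
      exact (cl_eq_iff hK _ _).1 h3
    have hconj' : ∀ k', Q.1 * (C k').1 = (C (π k')).1 * Q.1 := by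
      intro k'
      rcases hconj k' with h | h
      · rw [h]
        group
      · exfalso
        have hR : IsR2 (C k').1.1 := by
          refine isR2_of hK.h2 hli (h := ep k') (fun j => ?_) (card_ep k')
          exact hv' k' j
        have hR' : IsR2 (Q.1.1 * (C k').1.1 * (Q.1⁻¹).1) :=
          hR.conj (Units.mul_inv Q.1) (Units.inv_mul Q.1)
        have h3 : Q.1.1 * (C k').1.1 * (Q.1⁻¹).1 = -(C (π k')).1.1 := by
          rw [h]
          show _ = -(-(Q.1.1 * (C k').1.1 * (Q.1⁻¹).1))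
          rw [neg_neg]
        rw [h3] at hR'
        have h4 := of_isR2 hK.h2 hli (h := fun j => -ep (π k') j) (fun j => by
          rw [neg_mulVec]
          have h5 : (C (π k')).1.1 *ᵥ v j = ((ep (π k') j : ℤ) : K) • v j := hv' (π k') j
          rw [h5]
          push_cast
          rw [neg_smul]) hR'
        rw [neg_ep] at h4
        omega
    obtain ⟨b, hb⟩ := norm_perm hK.h2 hm hK.ha hli hCO hv' (SOD_le Q.2) hconj' i
    rw [hπi] at hb
    refine ⟨b * B (fd m d) (v k.castSucc) (v k.castSucc), ?_⟩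
    rw [hb]
    ring
  let i0 : Fin m := ⟨0, by omega⟩
  obtain ⟨M, t, hM, hMv⟩ := exists_sim hK.hd hK.modd ho hn (hn i0.castSucc) (fun i => by
    by_cases h : i = i0
    · subst h
      exact ⟨_, rfl⟩
    · exact hsq i i0 h)
  refine ⟨M, _, hn i0.castSucc, hM, fun i => ⟨C i, hC i, ?_⟩⟩
  apply gl_ext'
  intro j
  rw [ac_mul, ac_mul, hMv, ac_smul, hv', ac_DG, ac_smul, hMv, ep_es, smul_comm]

end sim

end Vale.Agent.P240.R2.H275.F3
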