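import Vale.Agent.P240.R2.H275.F3g

/-!
Automorphisms of `PΩ(V)`, `n = m + 1 ≥ 8` even, are semilinear similitudes.
-/

set_option autoImplicit false
set_option linter.all false

namespace Vale.Agent.P240.R2.H275.F3

open Matrix Vale.Agent.P240.R2.H145.EO Vale.Agent.P240.R2.H275
open Vale.Agent.P240.R2.H401.D (fd)
open Vale.Agent.P240.R2.H329 (sg wt sv sv_filter wt_sg units_cases spans)
open scoped Classical

universe u v

noncomputable section

section cj

variable {K : Type u} [Field K] {n : ℕ} {a : Fin n → K}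

/-- `M` is a similitude of multiplier `l` -/
def IsSim (a : Fin n → K) (M : GL (Fin n) K) (l : K) : Prop :=
  l ≠ 0 ∧ ∀ v w, B a (ac M v) (ac M w) = l * B a v w

variable {M : GL (Fin n) K} {l : K}

lemma IsSim.inv (h : IsSim a M l) : IsSim a M⁻¹ l⁻¹ := by
  refine ⟨inv_ne_zero h.1, fun v w => ?_⟩
  have h1 := h.2 (ac M⁻¹ v) (ac M⁻¹ w)
  rw [ac_inv', ac_inv'] at h1
  rw [h1, ← mul_assoc, inv_mul_cancel₀ h.1, one_mul]

lemma IsSim.conj_mem (h : IsSim a M l) {g : GL (Fin n) K} (hg : g ∈ OD a) :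
    M * g * M⁻¹ ∈ OD a := by
  intro v w
  rw [ac_mul, ac_mul, ac_mul, ac_mul, h.2, OD_B hg, ← h.2, ac_inv', ac_inv']

/-- conjugation by a similitude -/
def cjO (h : IsSim a M l) : ↥(OD a) ≃* ↥(OD a) where
  toFun g := ⟨M * g.1 * M⁻¹, h.conj_mem g.2⟩
  invFun g := ⟨M⁻¹ * g.1 * M, by
    have := h.inv.conj_mem g.2
    rwa [inv_inv] at this⟩
  left_inv g := Subtype.ext (by
    show M⁻¹ * (M * g.1 * M⁻¹) * M = g.1
    group)
  right_inv g := Subtype.ext (by
    show M * (M⁻¹ * g.1 * M) * M⁻¹ = g.1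
    group)
  map_mul' g g' := Subtype.ext (by
    show M * (g.1 * g'.1) * M⁻¹ = (M * g.1 * M⁻¹) * (M * g'.1 * M⁻¹)
    group)

def cjP (h : IsSim a M l) : PO a ≃* PO a :=
  QuotientGroup.congr _ _ (cjO h) (Subgroup.characteristic_iff_map_eq.1 inferInstance (cjO h))

/-- the automorphism induced by a similitude -/
def mu (h : IsSim a M l) : MulAut ↥(commutator (PO a)) :=
  ((cjP h).subgroupMap (commutator (PO a))).trans
    (MulEquiv.subgroupCongr (Subgroup.characteristic_iff_map_eq.1 inferInstance (cjP h)))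

lemma mu_coe (h : IsSim a M l) (y : commutator (PO a)) : (mu h y).1 = cjP h y.1 := rfl

lemma SOD_conj (h : IsSim a M l) {g : GL (Fin n) K} (hg : g ∈ SOD a) : M * g * M⁻¹ ∈ SOD a := by
  obtain ⟨hO, hc⟩ := mem_SOD.1 hg
  rw [mem_SOD]
  exact ⟨h.conj_mem hO, (mu h ⟨_, hc⟩).2⟩

lemma mu_cl (h : IsSim a M l) (g : SOD a) :
    mu h (cl a g) = cl a ⟨M * g.1 * M⁻¹, SOD_conj h g.2⟩ := Subtype.ext rfl

/-- the conjugations -/
def epc (a : Fin n → K) : SOD a →* MulAut ↥(commutator (PO a)) := MulAut.conj.comp (cl a)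

lemma conj_epc (x : MulAut ↥(commutator (PO a))) (g : SOD a) :
    x * epc a g * x⁻¹ = MulAut.conj (x (cl a g)) := by
  ext1 y
  show x (cl a g * x⁻¹ y * (cl a g)⁻¹) = x (cl a g) * y * (x (cl a g))⁻¹
  rw [map_mul, map_mul, map_inv]
  have : x (x⁻¹ y) = y := MulEquiv.apply_symm_apply x y
  rw [this]

end cj

section sem

variable {K : Type u} [Field K] [Fintype K] {m : ℕ} {d : K}

lemma ker_epc (hK : FNum K m d) : Ker (epc (fd m d)) := by
  intro g
  constructor
  · intro h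
    have h1 : ∀ k : SOD (fd m d), cl _ g * cl _ k = cl _ k * cl _ g := by
      intro k
      have h3 := congrArg (fun f : MulAut ↥(commutator (PO (fd m d))) => f (cl _ k)) h
      have h4 : cl _ g * cl _ k * (cl _ g)⁻¹ = cl _ k := h3
      rw [mul_inv_eq_iff_eq_mul] at h4
      exact h4
    obtain ⟨l, hl⟩ := uniqD hK.h2 hK.h5 (by have := hK.hm; omega) hK.ha fd_one (SOD_le g.2)
      (fun k hk => by
        have h3 := h1 ⟨k, hk⟩
        rw [← map_mul, ← map_mul, cl_eq_iff hK] at h3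
        have h4 : (k * g.1 = g.1 * k) ∨ (k * g.1 = -(g.1 * k)) := h3
        rcases h4 with h4 | h4
        · refine ⟨1, ?_⟩
          rw [one_smul]
          exact (congrArg Units.val h4).symm
        · refine ⟨-1, ?_⟩
          have h5 : k.1 * g.1.1 = -(g.1.1 * k.1) := congrArg Units.val h4
          rw [h5, neg_smul, one_smul, neg_neg])
    exact ⟨l, hl⟩
  · rintro ⟨l, hl⟩
    have h1 : cl _ g = 1 := by
      have h3 : (⟨g.1, (mem_SOD.1 g.2).1⟩ : OD (fd m d)) ∈ Subgroup.center ↥(OD (fd m d)) := by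
        rw [mem_center hK.h2 hK.h5 hK.n3 hK.ha fd_one]
        exact ⟨l, hl⟩
      rw [← QuotientGroup.eq_one_iff] at h3
      exact Subtype.ext h3
    show MulAut.conj (cl _ g) = 1
    rw [h1, map_one]

lemma epc_inj (hK : FNum K m d) {g g' : SOD (fd m d)} (h : epc _ g = epc _ g') :
    cl _ g = cl _ g' := by
  have h1 : epc _ (g⁻¹ * g') = 1 := by rw [map_mul, map_inv, h, inv_mul_cancel]
  obtain ⟨l, hl⟩ := (ker_epc hK _).1 h1
  have h3 : cl _ (g⁻¹ * g') = 1 := by
    have h3 : (⟨(g⁻¹ * g').1, (mem_SOD.1 (g⁻¹ * g').2).1⟩ : OD (fd m d)) ∈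
        Subgroup.center ↥(OD (fd m d)) := by
      rw [mem_center hK.h2 hK.h5 hK.n3 hK.ha fd_one]
      exact ⟨l, hl⟩
    rw [← QuotientGroup.eq_one_iff] at h3
    exact Subtype.ext h3
  rw [map_mul, map_inv, inv_mul_eq_one] at h3
  exact h3

lemma ep_pair {i1 j1 : Fin m} (hij : i1 ≠ j1) (k : Fin (m + 1)) :
    ep i1 k * ep j1 k = if k = i1.castSucc ∨ k = j1.castSucc then -1 else 1 := by
  refine Fin.lastCases ?_ (fun t => ?_) k
  · rw [ep_l, ep_l, if_neg]
    · decide
    · rintro (h | h)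
      · exact (Fin.castSucc_lt_last i1).ne h.symm
      · exact (Fin.castSucc_lt_last j1).ne h.symm
  · by_cases h1 : t = i1
    · rw [h1, ep_i, ep_n hij, if_pos (Or.inl rfl)]
      decide
    · by_cases h2 : t = j1
      · rw [h2, ep_i, ep_n hij.symm, if_pos (Or.inr rfl)]
        decide
      · rw [ep_n h1, ep_n h2, if_neg]
        · decide
        · rintro (h | h)
          · exact h1 (Fin.castSucc_injective _ h)
          · exact h2 (Fin.castSucc_injective _ h)

/-- **automorphisms with commuting lifts are semilinear similitudes** -/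
theorem sem_of_good (hK : FNum K m d) (x : MulAut ↥(commutator (PO (fd m d)))) (hG : Good x hK) :
    ∃ (M : GL (Fin (m + 1)) K) (σ : K ≃+* K) (l : K), l ≠ 0 ∧ SimM (fd m d) M σ l ∧ ActL x M σ := by
  have hm := hK.hm
  obtain ⟨M, l, hl, hM, hMC⟩ := exists_M x hK hG
  have hS : IsSim (fd m d) M l := ⟨hl, hM⟩
  set x' : MulAut ↥(commutator (PO (fd m d))) := (mu hS)⁻¹ * x with hx'
  have hfix1 : ∀ i, x' (cl _ (Dg hK (sg i))) = cl _ (Dg hK (sg i)) := by
    intro i
    obtain ⟨C, hC, hCM⟩ := hMC i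
    have h1 : mu hS (cl _ (Dg hK (sg i))) = cl _ C := by
      rw [mu_cl]
      congr 1
      apply Subtype.ext
      show M * DG K (sg i) * M⁻¹ = C.1
      rw [← hCM, mul_inv_cancel_right]
    show (mu hS)⁻¹ (x (cl _ (Dg hK (sg i)))) = _
    rw [hC, ← h1]
    exact MulEquiv.symm_apply_apply (mu hS) _
  have hfix : ∀ i j, x' (cl _ (Dg hK (sg i * sg j))) = cl _ (Dg hK (sg i * sg j)) := by
    intro i j
    rw [Dg_mul, map_mul, map_mul, hfix1, hfix1]
  obtain ⟨σ, c, N, hc, hN, hact⟩ := sem_D hK.h2 hK.h5 (by omega : 6 ≤ m + 1) hK.ha fd_one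
    (L := (epc (fd m d)).range) rfl (ker_epc hK) (x := x') (by
      rw [Subgroup.mem_normalizer_iff]
      intro h
      constructor
      · rintro ⟨g, rfl⟩
        rw [conj_epc]
        obtain ⟨g', hg'⟩ := cl_surj (x' (cl _ g))
        exact ⟨g', by rw [← hg']; rfl⟩
      · rintro ⟨g, hg⟩
        obtain ⟨g', hg'⟩ := cl_surj (x'⁻¹ (cl _ g))
        refine ⟨g', ?_⟩
        have h1 : h = x'⁻¹ * epc _ g * (x'⁻¹)⁻¹ := by
          rw [hg, inv_inv]
          group
        rw [h1, conj_epc, ← hg']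
        rfl)
    (by
      intro i j s hi hj hij hs
      obtain ⟨i1, rfl⟩ : ∃ i1 : Fin m, i = i1.castSucc := ⟨⟨i.val, by omega⟩, rfl⟩
      obtain ⟨j1, rfl⟩ : ∃ j1 : Fin m, j = j1.castSucc := ⟨⟨j.val, by omega⟩, rfl⟩
      have hij' : i1 ≠ j1 := fun h => hij (by rw [h])
      have h1 : s = Dg hK (sg i1 * sg j1) := by
        apply Subtype.ext
        apply gl_ext'
        intro k
        show ac s.1 _ = ac (DG K _) _
        rw [hs, ac_DG, es_mul, ep_es, ep_es]
        have hk := ep_pair hij' k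
        rw [hk]
        funext t
        rw [Pi.smul_apply, smul_eq_mul, Pi.single_apply]
        by_cases h3 : t = k
        · subst h3
          rw [if_pos rfl, mul_one]
          split_ifs <;> simp
        · rw [if_neg h3, mul_zero, neg_zero, ite_self]
      have h3 := conj_epc x' s
      rw [h1, hfix] at h3
      have h4 : x' * epc _ s * x'⁻¹ = epc _ s := by
        rw [h1]
        exact h3
      rw [mul_inv_eq_iff_eq_mul] at h4
      exact h4)
  refine ⟨M * N, σ, l, hl, ?_, ?_⟩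
  · intro v w
    rw [ac_mul, ac_mul, hM]
    congr 1
    rw [ac_diag hN, ac_diag hN]
    unfold B
    rw [map_sum]
    refine Finset.sum_congr rfl fun i _ => ?_
    rw [map_mul, map_mul, ← hc i]
    ring
  · intro g g' hgg
    have hg'' : M⁻¹ * g'.1 * M ∈ SOD (fd m d) := by
      have := SOD_conj hS.inv g'.2
      rwa [inv_inv] at this
    have h1 := hact g ⟨M⁻¹ * g'.1 * M, hg''⟩ (by
      show (M⁻¹ * g'.1 * M).1 * N.1 = N.1 * g.1.1.map σ
      have h3 : (M⁻¹ * g'.1 * M).1 * N.1 = (M⁻¹).1 * (g'.1.1 * (M * N).1) := by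
        show ((M⁻¹).1 * g'.1.1 * M.1) * N.1 = (M⁻¹).1 * (g'.1.1 * (M.1 * N.1))
        simp only [Matrix.mul_assoc]
      rw [h3, hgg]
      show (M⁻¹).1 * (M.1 * N.1 * g.1.1.map σ) = _
      rw [← Matrix.mul_assoc, ← Matrix.mul_assoc, Units.inv_mul, Matrix.one_mul])
    rw [conj_epc] at h1
    obtain ⟨g1, hg1⟩ := cl_surj (x' (cl _ g))
    have h3 : epc _ g1 = epc _ ⟨M⁻¹ * g'.1 * M, hg''⟩ := by
      rw [← h1, ← hg1]
      rfl
    have h4 := epc_inj hK h3
    rw [hg1] at h4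
    have h5 : x (cl _ g) = mu hS (x' (cl _ g)) := by
      show x (cl _ g) = mu hS ((mu hS)⁻¹ (x (cl _ g)))
      exact (MulEquiv.apply_symm_apply (mu hS) _).symm
    rw [h5, h4, mu_cl]
    congr 1
    apply Subtype.ext
    show M * (M⁻¹ * g'.1 * M) * M⁻¹ = g'.1
    group

end sem

end

end Vale.Agent.P240.R2.H275.F3
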