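import Vale.Agent.P240.R2.H275.F3h

/-!
Semilinear similitudes as automorphisms of `PΩ(V)`; `StmtSEM`.
-/

set_option autoImplicit false
set_option linter.all false

namespace Vale.Agent.P240.R2.H275.F3

open Matrix Vale.Agent.P240.R2.H145.EO Vale.Agent.P240.R2.H275
open Vale.Agent.P240.R2.H401.D (fd)
open Vale.Agent.P240.R2.H329 (sg wt sv sv_filter wt_sg units_cases spans)
open scoped Classical

universe u v

noncomputable section

section semi

variable {K : Type u} [Field K] {n : ℕ} {a : Fin n → K}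

/-- a field automorphism on matrices -/
def gs {n : ℕ} (σ : K ≃+* K) : GL (Fin n) K →* GL (Fin n) K :=
  Units.map (RingHom.mapMatrix (m := Fin n) (σ : K →+* K)).toMonoidHom

lemma gs_coe (σ : K ≃+* K) (g : GL (Fin n) K) : (gs σ g).1 = g.1.map σ := rfl

lemma gs_inj (σ : K ≃+* K) : Function.Injective (gs (n := n) σ) := by
  intro g g' h
  apply Units.ext
  ext i j
  have h1 := congrArg (fun k : GL (Fin n) K => k.1 i j) h
  exact σ.injective h1

lemma ac_gs (σ : K ≃+* K) (g : GL (Fin n) K) (v : Fin n → K) :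
    ac (gs σ g) (fun i => σ (v i)) = fun i => σ (ac g v i) := by
  funext i
  show ∑ j, σ (g.1 i j) * σ (v j) = σ (∑ j, g.1 i j * v j)
  rw [map_sum]
  exact Finset.sum_congr rfl fun j _ => (map_mul σ _ _).symm

/-- `M σ` is a semilinear similitude -/
def SimS (a : Fin n → K) (M : GL (Fin n) K) (σ : K ≃+* K) (l : K) : Prop := l ≠ 0 ∧ SimM a M σ l

variable {M : GL (Fin n) K} {σ : K ≃+* K} {l : K}

lemma SimS.conj_mem (h : SimS a M σ l) {g : GL (Fin n) K} (hg : g ∈ OD a) :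
    M * gs σ g * M⁻¹ ∈ OD a := by
  intro v w
  have hsurj : ∀ v : Fin n → K, ∃ v' : Fin n → K, v = ac M (fun i => σ (v' i)) := by
    intro v
    refine ⟨fun i => σ.symm (ac M⁻¹ v i), ?_⟩
    have h1 : (fun i => σ (σ.symm (ac M⁻¹ v i))) = ac M⁻¹ v := by
      funext i
      exact σ.apply_symm_apply _
    rw [h1, ac_inv']
  obtain ⟨v', rfl⟩ := hsurj v
  obtain ⟨w', rfl⟩ := hsurj w
  rw [ac_mul, ac_mul, ac_mul, ac_mul, ac_inv, ac_inv, ac_gs, ac_gs, h.2, h.2, OD_B hg]

/-- conjugation by a semilinear similitude -/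
def csO (h : SimS a M σ l) : ↥(OD a) →* ↥(OD a) where
  toFun g := ⟨M * gs σ g.1 * M⁻¹, h.conj_mem g.2⟩
  map_one' := Subtype.ext (by
    show M * gs σ 1 * M⁻¹ = 1
    rw [map_one, mul_one, mul_inv_cancel])
  map_mul' g g' := Subtype.ext (by
    show M * gs σ (g.1 * g'.1) * M⁻¹ = (M * gs σ g.1 * M⁻¹) * (M * gs σ g'.1 * M⁻¹)
    rw [map_mul]
    group)

variable [Fintype K]

def csE (h : SimS a M σ l) : ↥(OD a) ≃* ↥(OD a) :=
  MulEquiv.ofBijective (csO h) (by
    rw [← Finite.injective_iff_bijective]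
    intro g g' hg
    apply Subtype.ext
    apply gs_inj σ
    have h1 : M * gs σ g.1 * M⁻¹ = M * gs σ g'.1 * M⁻¹ := congrArg Subtype.val hg
    exact mul_left_cancel (mul_right_cancel h1))

def csP (h : SimS a M σ l) : PO a ≃* PO a :=
  QuotientGroup.congr _ _ (csE h) (Subgroup.characteristic_iff_map_eq.1 inferInstance (csE h))

/-- the automorphism induced by a semilinear similitude -/
def muS (h : SimS a M σ l) : MulAut ↥(commutator (PO a)) :=
  ((csP h).subgroupMap (commutator (PO a))).trans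
    (MulEquiv.subgroupCongr (Subgroup.characteristic_iff_map_eq.1 inferInstance (csP h)))

lemma SOD_cs (h : SimS a M σ l) {g : GL (Fin n) K} (hg : g ∈ SOD a) :
    M * gs σ g * M⁻¹ ∈ SOD a := by
  obtain ⟨hO, hc⟩ := mem_SOD.1 hg
  rw [mem_SOD]
  exact ⟨h.conj_mem hO, (muS h ⟨_, hc⟩).2⟩

lemma muS_cl (h : SimS a M σ l) (g : SOD a) :
    muS h (cl a g) = cl a ⟨M * gs σ g.1 * M⁻¹, SOD_cs h g.2⟩ := Subtype.ext rfl

lemma mulAut_ext {x y : MulAut ↥(commutator (PO a))} (h : ∀ g : SOD a, x (cl a g) = y (cl a g)) :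
    x = y := by
  ext1 c
  obtain ⟨g, rfl⟩ := cl_surj c
  exact h g

lemma act_iff (h : SimS a M σ l) (x : MulAut ↥(commutator (PO a))) :
    ActL x M σ ↔ x = muS h := by
  constructor
  · intro hx
    apply mulAut_ext
    intro g
    rw [muS_cl]
    refine hx g ⟨M * gs σ g.1 * M⁻¹, SOD_cs h g.2⟩ ?_
    show (M.1 * (gs σ g.1).1 * (M⁻¹).1) * M.1 = M.1 * g.1.1.map σ
    rw [Matrix.mul_assoc, Units.inv_mul, Matrix.mul_one, gs_coe]
  · rintro rfl g g' hg
    rw [muS_cl]
    congr 1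
    apply Subtype.ext
    show M * gs σ g.1 * M⁻¹ = g'.1
    rw [mul_inv_eq_iff_eq_mul]
    apply Units.ext
    exact hg.symm

/-- `x` is induced by a semilinear similitude -/
def Sem (a : Fin n → K) (x : MulAut ↥(commutator (PO a))) : Prop :=
  ∃ (M : GL (Fin n) K) (σ : K ≃+* K) (l : K) (h : SimS a M σ l), x = muS h

omit [Fintype K] in
lemma SimS.mul {N : GL (Fin n) K} {τ : K ≃+* K} {k : K} (h : SimS a M σ l) (h' : SimS a N τ k) :
    SimS a (M * gs σ N) (τ.trans σ) (l * σ k) := by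
  refine ⟨mul_ne_zero h.1 ((map_ne_zero σ).2 h'.1), fun v w => ?_⟩
  have e1 : ∀ v : Fin n → K, ac (M * gs σ N) (fun i => (τ.trans σ) (v i)) =
      ac M (fun i => σ (ac N (fun i => τ (v i)) i)) := by
    intro v
    rw [ac_mul]
    congr 1
    exact ac_gs σ N (fun i => τ (v i))
  rw [e1, e1, h.2, h'.2, map_mul]
  show l * (σ k * σ (τ (B a v w))) = l * σ k * σ (τ (B a v w))
  ring

lemma muS_mul {N : GL (Fin n) K} {τ : K ≃+* K} {k : K} (h : SimS a M σ l) (h' : SimS a N τ k) :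
    muS h * muS h' = muS (h.mul h') := by
  apply mulAut_ext
  intro g
  show muS h (muS h' (cl a g)) = _
  rw [muS_cl, muS_cl, muS_cl]
  congr 1
  apply Subtype.ext
  show M * gs σ (N * gs τ g.1 * N⁻¹) * M⁻¹ = (M * gs σ N) * gs (τ.trans σ) g.1 * (M * gs σ N)⁻¹
  have h1 : gs (τ.trans σ) g.1 = gs σ (gs τ g.1) := by
    apply Units.ext
    rfl
  rw [h1, map_mul, map_mul, map_inv]
  group

omit [Fintype K] in
lemma SimS.one : SimS a (1 : GL (Fin n) K) (RingEquiv.refl K) 1 := by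
  refine ⟨one_ne_zero, fun v w => ?_⟩
  rw [ac_one, ac_one, one_mul]
  rfl

lemma muS_one : muS (SimS.one (a := a)) = 1 := by
  apply mulAut_ext
  intro g
  rw [muS_cl]
  show _ = cl a g
  congr 1
  apply Subtype.ext
  show (1 : GL (Fin n) K) * gs (RingEquiv.refl K) g.1 * (1 : GL (Fin n) K)⁻¹ = g.1
  have h1 : gs (RingEquiv.refl K) g.1 = g.1 := by
    apply Units.ext
    rfl
  rw [h1, one_mul, inv_one, mul_one]

lemma Sem.one : Sem a (1 : MulAut ↥(commutator (PO a))) := ⟨1, _, 1, SimS.one, muS_one.symm⟩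

lemma Sem.mul {x y : MulAut ↥(commutator (PO a))} (hx : Sem a x) (hy : Sem a y) :
    Sem a (x * y) := by
  obtain ⟨M, σ, l, h, rfl⟩ := hx
  obtain ⟨N, τ, k, h', rfl⟩ := hy
  exact ⟨_, _, _, h.mul h', muS_mul h h'⟩

lemma Sem.pow {x : MulAut ↥(commutator (PO a))} (hx : Sem a x) (r : ℕ) : Sem a (x ^ r) := by
  induction r with
  | zero =>
    rw [pow_zero]
    exact Sem.one
  | succ r ih =>
    rw [pow_succ]
    exact ih.mul hx

end semi

section bad

variable {K : Type u} [Field K] [Fintype K] {m : ℕ} {d : K}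
  (x : MulAut ↥(commutator (PO (fd m d))))

theorem sem_good (hK : FNum K m d) (hG : Good x hK) : Sem (fd m d) x := by
  obtain ⟨M, σ, l, hl, hM, hx⟩ := sem_of_good hK x hG
  exact ⟨M, σ, l, ⟨hl, hM⟩, (act_iff ⟨hl, hM⟩ x).1 hx⟩

lemma sq_same (hK : FNum K m d) (i k : Fin m) :
    R x hK (sg i) * R x hK (sg i) = R x hK (sg k) * R x hK (sg k) := by
  obtain ⟨P, hP, hPc⟩ := layer (d := d) hK.h2 hK.hm (e := sg i) (e' := sg k)
    (by rw [wt_sg, wt_sg])
  have h3 := R_conj x hK hP hPc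
  set Q := (tau x ⟨P, hP⟩).1
  have e1 : Q * R x hK (sg i) * Q⁻¹ * (Q * R x hK (sg i) * Q⁻¹) =
      Q * (R x hK (sg i) * R x hK (sg i)) * Q⁻¹ := by group
  have e2 : Q * (R x hK (sg i) * R x hK (sg i)) * Q⁻¹ = R x hK (sg i) * R x hK (sg i) := by
    rcases R_sq x hK (sg i) with h | h <;> rw [h]
    · rw [mul_one, mul_inv_cancel]
    · rw [mul_neg, mul_one, neg_mul, mul_inv_cancel]
  rcases h3 with h3 | h3 <;> rw [h3]
  · rw [e1, e2]
  · rw [neg_mul_neg, e1, e2]

/-- if the lifts anticommute, the products of two of them have square `-1` -/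
lemma anti_sq (hK : FNum K m d)
    (h : ∀ i j, i ≠ j → R x hK (sg i) * R x hK (sg j) = -(R x hK (sg j) * R x hK (sg i)))
    {i j : Fin m} (hij : i ≠ j) :
    (R x hK (sg i) * R x hK (sg j)) * (R x hK (sg i) * R x hK (sg j)) = -1 := by
  have h1 : (R x hK (sg i) * R x hK (sg j)) * (R x hK (sg i) * R x hK (sg j)) =
      -((R x hK (sg i) * R x hK (sg i)) * (R x hK (sg j) * R x hK (sg j))) := by
    conv_lhs => rw [mul_assoc, ← mul_assoc (R x hK (sg j)), h j i hij.symm]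
    rw [neg_mul, mul_neg]
    simp only [mul_assoc]
  rw [h1, ← sq_same x hK i j]
  rcases R_sq x hK (sg i) with h3 | h3 <;> rw [h3] <;> simp

theorem good_of_pair (hK : FNum K m d) {i j : Fin m} (hij : i ≠ j) {g : SOD (fd m d)}
    (hg : cl _ g = x (cl _ (Dg hK (sg i * sg j)))) (h : g.1 * g.1 ≠ -1) : Good x hK := by
  rcases dich x hK with h1 | h1
  · exact h1
  · exfalso
    apply h
    have h3 : cl _ (tau x (Dg hK (sg i * sg j))) = cl _ g := by rw [tau_spec, hg]
    have h4 : g.1 = R x hK (sg i * sg j) ∨ g.1 = -R x hK (sg i * sg j) := (cl_eq_iff hK _ _).1 h3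
    have h5 : g.1 = R x hK (sg i) * R x hK (sg j) ∨ g.1 = -(R x hK (sg i) * R x hK (sg j)) := by
      rcases h4 with h4 | h4 <;> rcases R_mul x hK (sg i) (sg j) with h6 | h6 <;> rw [h4, h6]
      · left; rfl
      · right; rfl
      · right; rfl
      · left; rw [neg_neg]
    have h6 := anti_sq x hK h1 hij
    rcases h5 with h5 | h5 <;> rw [h5]
    · exact h6
    · rw [neg_mul_neg, h6]

lemma J_disc' {n : ℕ} (hn : Even n) (h2 : (2 : K) ≠ 0) {a : Fin n → K} (ha : ∀ i, a i ≠ 0)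
    (ha1 : ∀ i : Fin n, i.val + 1 < n → a i = 1) {J : GL (Fin n) K} (hJO : J ∈ OD a)
    (hJ : J.1 * J.1 = -1) : IsSquare (∏ i, a i) := by
  obtain ⟨r, rfl⟩ := hn
  exact J_disc h2 ha ha1 hJO hJ

lemma J_two' {n : ℕ} (hn : Even n) (hn1 : 1 ≤ n) (h2 : (2 : K) ≠ 0) {a : Fin n → K}
    (ha : ∀ i, a i ≠ 0) (ha1 : ∀ i : Fin n, i.val + 1 < n → a i = 1) (J : Fin 3 → GL (Fin n) K)
    (hJO : ∀ i, J i ∈ OD a) (hJ : ∀ i, (J i).1 * (J i).1 = -1) :
    ∃ i j : Fin 3, i < j ∧ ∃ u ∈ SOD a, u * J i * u⁻¹ = J j := by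
  obtain ⟨r, rfl⟩ := hn
  exact J_two h2 (by omega) ha ha1 J hJO hJ

/-- the exceptional case: `n = 8`, square discriminant -/
theorem bad_cases (hK : FNum K m d) (hG : ¬ Good x hK) : m = 7 ∧ IsSquare d := by
  have h1 := (dich x hK).resolve_left hG
  have hm := hK.hm
  constructor
  · by_contra h7
    have h9 : 9 ≤ m := by
      obtain ⟨r, hr⟩ := hK.modd
      omega
    have hev : Even (m - 1) := by
      obtain ⟨r, hr⟩ := hK.modd
      exact ⟨r, by omega⟩
    have h3 := cliff_bound (K := K) (n := m + 1) (N := m - 1)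
      (c := fun i => (R x hK (sg (Fin.castLE (by omega) i))).1) hK.h2 (by omega) hev
      (fun i => ⟨(R x hK (sg (Fin.castLE (by omega) i)))⁻¹.1, Units.mul_inv _⟩)
      (fun i j hij => by
        have h4 : (Fin.castLE (by omega) i : Fin m) ≠ Fin.castLE (by omega) j := by
          intro h
          exact hij (Fin.castLE_injective _ h)
        exact congrArg Units.val (h1 _ _ h4))
    have h4 := pow_gt h9
    omega
  · let i0 : Fin m := ⟨0, by omega⟩
    let i1 : Fin m := ⟨1, by omega⟩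
    have h01 : i0 ≠ i1 := by simp [i0, i1]
    have h3 := anti_sq x hK h1 h01
    have h4 := J_disc' hK.even hK.h2 hK.ha fd_one
      (J := R x hK (sg i0) * R x hK (sg i1))
      (mul_mem (SOD_le (R_mem x hK _)) (SOD_le (R_mem x hK _))) (congrArg Units.val h3)
    rwa [prod_fd] at h4

lemma good_inner (hK : FNum K m d) (W : SOD (fd m d))
    (h : Good (MulAut.conj (cl _ W) * x) hK) : Good x hK := by
  have h1 : ∀ e, R (MulAut.conj (cl _ W) * x) hK e = W.1 * R x hK e * W.1⁻¹ ∨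
      R (MulAut.conj (cl _ W) * x) hK e = -(W.1 * R x hK e * W.1⁻¹) := by
    intro e
    have h3 : cl _ (W * tau x (Dg hK e) * W⁻¹) =
        cl _ (tau (MulAut.conj (cl _ W) * x) (Dg hK e)) := by
      rw [tau_spec, map_mul, map_mul, map_inv, tau_spec]
      rfl
    exact (cl_eq_iff hK _ _).1 h3
  intro e e'
  have h3 := h e e'
  have e1 : ∀ A B : GL (Fin (m + 1)) K, (W.1 * A * W.1⁻¹) * (W.1 * B * W.1⁻¹) =
      W.1 * (A * B) * W.1⁻¹ := by
    intro A B
    group
  have h4 : W.1 * (R x hK e * R x hK e') * W.1⁻¹ = W.1 * (R x hK e' * R x hK e) * W.1⁻¹ := by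
    rw [← e1, ← e1]
    rcases h1 e with h5 | h5 <;> rcases h1 e' with h6 | h6 <;> rw [h5, h6] at h3
    · exact h3
    · rw [mul_neg, neg_mul] at h3
      exact neg_injective h3
    · rw [mul_neg, neg_mul] at h3
      exact neg_injective h3
    · rw [neg_mul_neg, neg_mul_neg] at h3
      exact h3
  exact mul_left_cancel (mul_right_cancel h4)

theorem sem_prime (hK : FNum K m d) {p : ℕ} (hp : p.Prime) (hp5 : 5 ≤ p) (hx : x ^ p = 1) :
    Sem (fd m d) x := by
  have hm := hK.hm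
  -- a good power
  have hex : ∃ k, 1 ≤ k ∧ k ≤ 3 ∧ Good (x ^ k) hK := by
    by_contra hno
    push Not at hno
    let i0 : Fin m := ⟨0, by omega⟩
    let i1 : Fin m := ⟨1, by omega⟩
    have h01 : i0 ≠ i1 := by simp [i0, i1]
    set t := Dg hK (sg i0 * sg i1) with ht
    let J : Fin 3 → GL (Fin (m + 1)) K := fun i => (tau (x ^ (i.val + 1)) t).1
    have hJ : ∀ i, (J i).1 * (J i).1 = -1 := by
      intro i
      by_contra h
      apply hno (i.val + 1) (by omega) (by omega)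
      refine good_of_pair (x ^ (i.val + 1)) hK h01 (g := tau (x ^ (i.val + 1)) t) (tau_spec _ _) ?_
      intro h3
      exact h (congrArg Units.val h3)
    obtain ⟨i, j, hij, u, hu, huJ⟩ := J_two' hK.even (by omega) hK.h2 hK.ha fd_one J
      (fun i => SOD_le (tau (x ^ (i.val + 1)) t).2) hJ
    have hij' : i.val < j.val := hij
    have hlt : j.val < 3 := j.2
    -- the relation in the simple group
    have h1 : (x ^ (j.val + 1)) (cl _ t) =
        cl _ ⟨u, hu⟩ * (x ^ (i.val + 1)) (cl _ t) * (cl _ ⟨u, hu⟩)⁻¹ := by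
      rw [← tau_spec, ← tau_spec, ← map_inv, ← map_mul, ← map_mul]
      congr 1
      exact Subtype.ext huJ.symm
    -- `w = x^{-(i+1)} (cl u)`
    obtain ⟨W, hW⟩ := cl_surj ((x ^ (i.val + 1))⁻¹ (cl _ ⟨u, hu⟩))
    have h3 : (x ^ (j.val - i.val)) (cl _ t) = cl _ W * cl _ t * (cl _ W)⁻¹ := by
      have h4 : x ^ (j.val - i.val) = (x ^ (i.val + 1))⁻¹ * x ^ (j.val + 1) := by
        rw [eq_inv_mul_iff_mul_eq, ← pow_add]
        congr 1
        omega
      rw [h4]
      show (x ^ (i.val + 1))⁻¹ ((x ^ (j.val + 1)) (cl _ t)) = _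
      rw [h1, map_mul, map_mul, map_inv, ← hW]
      have h5 : (x ^ (i.val + 1))⁻¹ ((x ^ (i.val + 1)) (cl _ t)) = cl _ t :=
        MulEquiv.symm_apply_apply (x ^ (i.val + 1)) _
      rw [h5]
    have h6 : Good (MulAut.conj (cl _ W⁻¹) * x ^ (j.val - i.val)) hK := by
      refine good_of_pair _ hK h01 (g := t) ?_ ?_
      · show cl _ t = cl _ W⁻¹ * (x ^ (j.val - i.val)) (cl _ t) * (cl _ W⁻¹)⁻¹
        rw [h3, map_inv]
        group
      · intro h7
        have h8 : t.1 * t.1 = 1 := DG_sq _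
        rw [h8] at h7
        exact neg_ne hK h7.symm
    have h7 := good_inner _ hK W⁻¹ h6
    exact hno (j.val - i.val) (by omega) (by omega) h7
  obtain ⟨k, hk1, hk3, hk⟩ := hex
  have hs := sem_good _ hK hk
  have hcop : Nat.Coprime k p := by
    rw [Nat.coprime_comm, hp.coprime_iff_not_dvd]
    intro h
    have := Nat.le_of_dvd (by omega) h
    omega
  obtain ⟨r, hr⟩ : ∃ r : ℕ, (x ^ k) ^ r = x := by
    obtain ⟨r, -, hr⟩ := Nat.exists_mul_mod_eq_one_of_coprime hcop (by omega)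
    refine ⟨r, ?_⟩
    rw [← pow_mul, ← Nat.mod_add_div (k * r) p, hr, pow_add, pow_mul, hx, one_pow, mul_one, pow_one]
  rw [← hr]
  exact hs.pow r

end bad

theorem stmtSEM : StmtSEM.{u} := by
  intro K _ _ m d hK x h
  have hS : Sem (fd m d) x := by
    by_cases hG : Good x hK
    · exact sem_good x hK hG
    · obtain ⟨h7, hd⟩ := bad_cases x hK hG
      obtain ⟨p, hp, hp5, hx⟩ := h h7 hd
      exact sem_prime x hK hp hp5 hx
  obtain ⟨M, σ, l, h1, h3⟩ := hS
  exact ⟨M, σ, l, h1.1, h1.2, (act_iff h1 x).2 h3⟩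

end

end Vale.Agent.P240.R2.H275.F3
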