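import Vale.Agent.P240.R2.H275.Step
import Vale.Agent.P240.R2.H275.ElimDefs
import Vale.Agent.P240.H195.Elim

/-!
Elimination of normal direct products of simple groups in characteristic `p`.
-/

namespace Vale.Agent.P240.R2.H275

open Subgroup Vale.Agent.P240.K Vale.Agent.P240.H195 Finsupp

universe u v

section
variable {G : Type u} [Group G] {p : ℕ}

lemma QDFactor.simple {𝕜 : Type*} [Field 𝕜] {L : Type*} [Group L]
    (h : QDFactor 𝕜 p L) : IsSimpleGroup L ∧ ∀ x : L, (∀ y, x * y = y * x) → x = 1 := by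
  rcases h with h | ⟨-, h1, h2, -⟩
  · exact h.simple
  · exact ⟨h1, centreless_of h1 h2⟩

lemma QDFactor.dvd [hp : Fact p.Prime] {𝕜 : Type*} [Field 𝕜] {L : Type*} [Group L] [Finite L]
    (h : QDFactor 𝕜 p L) : p ∣ Nat.card L := by
  rcases h with h | ⟨h, -⟩
  · exact h.dvd
  · exact h

lemma QDFactor.tr {𝕜 : Type*} [Field 𝕜] {L L' : Type*} [Group L] [Group L']
    [Finite L] (e : L ≃* L') (h : QDFactor 𝕜 p L) : QDFactor 𝕜 p L' := by
  rcases h with h | ⟨hd, h1, ⟨x, y, hxy⟩, h3⟩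
  · exact Or.inl (h.tr e)
  · refine Or.inr ⟨by rwa [← Nat.card_congr e.toEquiv], e.symm.isSimpleGroup,
      ⟨e x, e y, fun h => hxy ?_⟩, h3.congr e⟩
    rw [← map_mul, ← map_mul] at h
    exact e.injective h

/-- **Elimination of normal direct products of simple groups**, in characteristic `p` -/
theorem elim_qd {𝕜 : Type v} [Field 𝕜] [hp : Fact p.Prime] [Finite G] (hchar : (p : 𝕜) = 0)
    (K : Subgroup G) [K.Normal] {α : Type u} [Finite α] (L : α → Type u) [∀ i, Group (L i)]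
    (hL : ∀ i, QDFactor 𝕜 p (L i))
    (e : K ≃* ∀ i, L i) (hC : HQ 𝕜 p (centralizer (K : Set G))) : HQ 𝕜 p G := by
  classical
  have hfin : Finite (∀ i, L i) := Finite.of_equiv K e.toEquiv
  have hfinL : ∀ i, Finite (L i) := fun i =>
    Finite.of_injective (fun x : L i => (Pi.mulSingle i x : ∀ i, L i)) (Pi.mulSingle_injective i)
  have hcen : ∀ i, ∀ x : L i, (∀ y, x * y = y * x) → x = 1 := fun i => (hL i).simple.2
  set ι : (∀ i, L i) →* G := K.subtype.comp e.symm.toMonoidHom with hι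
  have hιinj : Function.Injective ι := K.subtype_injective.comp e.symm.injective
  have hιK : ∀ x, ι x ∈ K := fun x => (e.symm x).2
  have hKι : ∀ k ∈ K, ∃ x, ι x = k := fun k hk => ⟨e ⟨k, hk⟩, by
    change ((e.symm (e ⟨k, hk⟩) : K) : G) = k
    rw [e.symm_apply_apply]⟩
  set Q : α → Subgroup G := fun i => (ι.comp (MonoidHom.mulSingle L i)).range with hQ
  have hsinj : ∀ i, Function.Injective (ι.comp (MonoidHom.mulSingle L i)) := fun i =>
    hιinj.comp (Pi.mulSingle_injective i)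
  have eQ : ∀ i, L i ≃* Q i := fun i => MonoidHom.ofInjective (hsinj i)
  have hmem : ∀ {i} {x : G}, x ∈ Q i ↔ ∃ y : L i, ι (Pi.mulSingle i y) = x := fun {i x} => Iff.rfl
  have hQK : ∀ i, Q i ≤ K := by
    rintro i _ ⟨y, rfl⟩
    exact hιK _
  have hQn : ∀ i, ∀ k ∈ K, ∀ x ∈ Q i, k * x * k⁻¹ ∈ Q i := by
    rintro i k hk _ ⟨y, rfl⟩
    obtain ⟨z, rfl⟩ := hKι k hk
    refine ⟨z i * y * (z i)⁻¹, ?_⟩
    change ι (Pi.mulSingle i (z i * y * (z i)⁻¹)) = ι z * ι (Pi.mulSingle i y) * (ι z)⁻¹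
    rw [← conj_single, map_mul, map_mul, map_inv]
  have hQs : ∀ i, IsSimpleGroup (Q i) := fun i => by
    have := (hL i).simple.1
    exact (eQ i).symm.isSimpleGroup
  -- conjugation permutes the factors
  have key : ∀ (g : G) (i : α), ∃ j, cj g (Q i) = Q j := by
    intro g i
    by_contra hcon
    push Not at hcon
    have hAs : IsSimpleGroup (cj g (Q i)) := by
      have := hQs i
      exact ((Q i).equivMapOfInjective (MulAut.conj g).toMonoidHom
        (MulAut.conj g).injective).symm.isSimpleGroup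
    have hAK : cj g (Q i) ≤ K := by
      intro x hx
      rw [mem_cj] at hx
      have h1 := (inferInstance : K.Normal).conj_mem _ (hQK i hx) g
      have e1 : g * (g⁻¹ * x * g) * g⁻¹ = x := by group
      rwa [e1] at h1
    have hAn : ∀ k ∈ K, ∀ x ∈ cj g (Q i), k * x * k⁻¹ ∈ cj g (Q i) := by
      intro k hk x hx
      rw [mem_cj] at hx ⊢
      have h1 : g⁻¹ * k * g ∈ K := by
        have h2 := (inferInstance : K.Normal).conj_mem k hk g⁻¹
        rwa [inv_inv] at h2
      have h2 := hQn i _ h1 _ hx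
      have e1 : g⁻¹ * k * g * (g⁻¹ * x * g) * (g⁻¹ * k * g)⁻¹ = g⁻¹ * (k * x * k⁻¹) * g := by group
      rwa [e1] at h2
    have hbot : ∀ j, cj g (Q i) ⊓ Q j = ⊥ := by
      intro j
      rcases simple_sub hAs (B := cj g (Q i) ⊓ Q j) inf_le_left
        (fun a ha b hb => ⟨hAn a (hAK ha) b hb.1, hQn j a (hAK ha) b hb.2⟩) with h1 | h1
      · exact h1
      rcases simple_sub (hQs j) (B := cj g (Q i) ⊓ Q j) inf_le_right
        (fun a ha b hb => ⟨hAn a (hQK j ha) b hb.1, hQn j a (hQK j ha) b hb.2⟩) with h2 | h2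
      · exact h2
      exact absurd (h1.symm.trans h2) (hcon j)
    obtain ⟨⟨a, haA⟩, ha1'⟩ : ∃ a : cj g (Q i), a ≠ 1 := exists_ne 1
    have ha1 : a ≠ 1 := fun h => ha1' (Subtype.ext h)
    obtain ⟨x, rfl⟩ := hKι a (hAK haA)
    apply ha1
    have hx1 : x = 1 := by
      funext j
      refine hcen j (x j) fun z => ?_
      have h1 : ι x * ι (Pi.mulSingle j z) * (ι x)⁻¹ * (ι (Pi.mulSingle j z))⁻¹ ∈
          cj g (Q i) ⊓ Q j := by
        have hzQ : ι (Pi.mulSingle j z) ∈ Q j := ⟨z, rfl⟩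
        refine ⟨?_, ?_⟩
        · have h2 := hAn _ (hQK j hzQ) _ (inv_mem haA)
          have h3 := mul_mem haA h2
          have e1 : ι x * (ι (Pi.mulSingle j z) * (ι x)⁻¹ * (ι (Pi.mulSingle j z))⁻¹) =
            ι x * ι (Pi.mulSingle j z) * (ι x)⁻¹ * (ι (Pi.mulSingle j z))⁻¹ := by group
          rwa [e1] at h3
        · exact (Q j).mul_mem (hQn j _ (hAK haA) _ hzQ) ((Q j).inv_mem hzQ)
      rw [hbot j, mem_bot, mul_inv_eq_one, ← map_inv, ← map_mul, ← map_mul, conj_single] at h1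
      have h2 := Pi.mulSingle_injective j (hιinj h1)
      rwa [mul_inv_eq_iff_eq_mul] at h2
    rw [hx1, map_one]
  have hF : Family p (Set.range Q) := by
    refine ⟨?_, ?_, ?_, ?_⟩
    · rintro _ ⟨i, rfl⟩ g
      obtain ⟨j, hj⟩ := key g i
      exact ⟨j, hj.symm⟩
    · rintro _ ⟨i, rfl⟩ _ ⟨j, rfl⟩ hne x hx y hy
      obtain ⟨a, rfl⟩ := hx
      obtain ⟨b, rfl⟩ := hy
      have hij : i ≠ j := fun h => hne (by rw [h])
      change ι (Pi.mulSingle i a) * ι (Pi.mulSingle j b) =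
        ι (Pi.mulSingle j b) * ι (Pi.mulSingle i a)
      rw [← map_mul, ← map_mul]
      exact congrArg ι (Pi.mulSingle_commute hij a b)
    · rintro _ ⟨i, rfl⟩
      rw [eq_bot_iff]
      rintro _ ⟨⟨a, rfl⟩, h2⟩
      have h3 : a = 1 := by
        refine hcen i a fun b => ?_
        have h4 := mem_centralizer_iff.1 h2 (ι (Pi.mulSingle i b)) ⟨b, rfl⟩
        change ι (Pi.mulSingle i b) * ι (Pi.mulSingle i a) =
          ι (Pi.mulSingle i a) * ι (Pi.mulSingle i b) at h4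
        rw [← map_mul, ← map_mul, ← Pi.mulSingle_mul, ← Pi.mulSingle_mul] at h4
        exact (Pi.mulSingle_injective i (hιinj h4)).symm
      rw [h3, mem_bot, map_one]
    · rintro _ ⟨i, rfl⟩
      rw [← Nat.card_congr (eQ i).toEquiv]
      exact (hL i).dvd
  have hEF : ∀ M ∈ Set.range Q, QDFactor 𝕜 p M := by
    rintro _ ⟨i, rfl⟩
    exact (hL i).tr (eQ i)
  rw [HQ_sub_iff] at hC
  rw [HQ_iff]
  set RR : Set (Subgroup G) := {M | M ∈ Set.range Q ∧ RigidLie p M} with hRR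
  set QQ : Set (Subgroup G) := {M | M ∈ Set.range Q ∧ ¬ RigidLie p M ∧ QDL 𝕜 p M} with hQQ
  set TT : Set (Subgroup G) := {M | M ∈ Set.range Q ∧ ¬ RigidLie p M ∧ ¬ QDL 𝕜 p M} with hTT
  refine remove hF (T := TT) (fun L hL => hL.1)
    (fun M hM => ?_) ?_
  · refine (hEF M hM.1).resolve_right ?_ |>.removable hM.2.1
    exact fun hcon => hM.2.2 hcon.2.2.2.qdl
  have hUR : TT ∪ RR ⊆ Set.range Q := Set.union_subset (fun L hL => hL.1) fun L hL => hL.1
  refine rigid_step (R := RR)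
    (fun L hL => hF.le_Cen (fun L hL => hL.1) hL.1 fun hcon => hcon.2.1 hL.2)
    (fun g _ M hM => ⟨hF.conj M hM.1 g, rigidLie_cj hM.2⟩)
    (fun L hL M hM => hF.comm L hL.1 M hM.1) (fun L hL => hL.2) ?_
  rw [← Cen_union]
  refine qd_step hchar (R := QQ) (fun L hL => hF.le_Cen hUR hL.1 ?_) (fun g _ M hM => ?_)
    (fun L hL M hM => hF.comm L hL.1 M hM.1) (fun L hL => hF.centre L hL.1)
    (fun L hL => hF.dvd L hL.1) (fun L hL => hL.2.2) ?_
  · rintro (hcon | hcon)
    · exact hcon.2.2 hL.2.2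
    · exact hL.2.1 hcon.2
  · refine ⟨hF.conj M hM.1 g, fun hcon => hM.2.1 (rigidLie_cj_iff.1 hcon), QDL_cj hM.2.2 g⟩
  rw [← Cen_union]
  have hCen : Cen (TT ∪ RR ∪ QQ) = centralizer (K : Set G) := by
    ext g
    rw [mem_Cen]
    constructor
    · intro h
      have h1 : ∀ i, g ∈ centralizer (Q i : Set G) := by
        intro i
        refine h (Q i) ?_
        by_cases h2 : RigidLie p (Q i)
        · exact Or.inl (Or.inr ⟨⟨i, rfl⟩, h2⟩)
        · by_cases h3 : QDL 𝕜 p (Q i)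
          · exact Or.inr ⟨⟨i, rfl⟩, h2, h3⟩
          · exact Or.inl (Or.inl ⟨⟨i, rfl⟩, h2, h3⟩)
      rw [mem_centralizer_iff]
      intro k hk
      obtain ⟨x, rfl⟩ := hKι k hk
      -- `g` commutes with all `ι x`
      have h2 : ∀ x, g * ι x * g⁻¹ = ι x := by
        have : Fintype α := Fintype.ofFinite α
        set ψ : (∀ i, L i) →* G := (MulAut.conj g).toMonoidHom.comp ι with hψ
        have h3 : ψ = ι := by
          refine MonoidHom.pi_ext fun i z => ?_
          change g * ι (Pi.mulSingle i z) * g⁻¹ = ι (Pi.mulSingle i z)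
          have h4 := mem_centralizer_iff.1 (h1 i) (ι (Pi.mulSingle i z)) ⟨z, rfl⟩
          rw [← h4, mul_inv_cancel_right]
        intro x
        exact DFunLike.congr_fun h3 x
      have h3 := h2 x
      rw [mul_inv_eq_iff_eq_mul] at h3
      exact h3.symm
    · rintro h M ((⟨⟨i, rfl⟩, -⟩ | ⟨⟨i, rfl⟩, -⟩) | ⟨⟨i, rfl⟩, -⟩)
      · exact centralizer_le (hQK i) h
      · exact centralizer_le (hQK i) h
      · exact centralizer_le (hQK i) h
  rw [hCen]
  exact hC

end

end Vale.Agent.P240.R2.H275
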