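import Vale.Agent.P240.R2.H275.Ext

/-!
Subgroups `H` with commuting normal subgroups `N₁`, `N₂`: elementary abelian subgroups of maximal
order.
-/

namespace Vale.Agent.P240.R2.H275

open Finsupp Subgroup Vale.Agent.P240.K Vale.Agent.P240.H195

universe u v

variable {𝕜 : Type v} [Field 𝕜] {G : Type u} [Group G] {p : ℕ}

structure Fib (p : ℕ) (H N₁ N₂ M₁ M₂ : Subgroup G) : Prop where
  n1 : N₁ ≤ H
  n2 : N₂ ≤ H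
  norm1 : H ≤ normalizer (N₁ : Set G)
  norm2 : H ≤ normalizer (N₂ : Set G)
  bot : N₁ ⊓ N₂ = ⊥
  m1 : M₁ ≤ N₁
  m2 : M₂ ≤ N₂
  mnorm1 : H ≤ normalizer (M₁ : Set G)
  mnorm2 : H ≤ normalizer (M₂ : Set G)
  jp : Jp p (M₁ ⊔ M₂) H

lemma Fib.swap {H N₁ N₂ M₁ M₂ : Subgroup G} (h : Fib p H N₁ N₂ M₁ M₂) :
    Fib p H N₂ N₁ M₂ M₁ where
  n1 := h.n2
  n2 := h.n1
  norm1 := h.norm2
  norm2 := h.norm1
  bot := by rw [inf_comm]; exact h.bot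
  m1 := h.m2
  m2 := h.m1
  mnorm1 := h.mnorm2
  mnorm2 := h.mnorm1
  jp := by rw [sup_comm]; exact h.jp

lemma Fib.comm {H N₁ N₂ M₁ M₂ : Subgroup G} (h : Fib p H N₁ N₂ M₁ M₂) :
    ∀ x ∈ N₁, ∀ y ∈ N₂, x * y = y * x := by
  intro x hx y hy
  have h1 : x * y * x⁻¹ * y⁻¹ ∈ N₁ ⊓ N₂ := by
    refine mem_inf.2 ⟨?_, ?_⟩
    · have h2 := (mem_normalizer_iff.1 (h.norm1 (h.n2 hy)) x⁻¹).1 (inv_mem hx)
      have e : x * y * x⁻¹ * y⁻¹ = x * (y * x⁻¹ * y⁻¹) := by group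
      rw [e]
      exact mul_mem hx h2
    · have h2 := (mem_normalizer_iff.1 (h.norm2 (h.n1 hx)) y).1 hy
      exact mul_mem h2 (inv_mem hy)
  rw [h.bot, Subgroup.mem_bot] at h1
  have : x * y = (x * y * x⁻¹ * y⁻¹) * (y * x) := by group
  rw [this, h1, one_mul]

lemma Fib.sup_le_H {H N₁ N₂ M₁ M₂ : Subgroup G} (h : Fib p H N₁ N₂ M₁ M₂) {A : Subgroup G}
    (hA : A ≤ H) (hM : A ⊔ (M₁ ⊔ M₂) = H) : A ⊔ N₁ ⊔ N₂ = H := by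
  refine le_antisymm (sup_le (sup_le hA h.n1) h.n2) ?_
  rw [← hM]
  exact sup_le (le_sup_left.trans le_sup_left) (sup_le ((h.m1.trans le_sup_right).trans le_sup_left)
    (h.m2.trans le_sup_right))

/-- the order of the intersection -/
lemma Fib.card_D [Finite G] {H N₁ N₂ M₁ M₂ : Subgroup G} (h : Fib p H N₁ N₂ M₁ M₂)
    {A B : Subgroup G} (hA : A ≤ H) (hB : B ≤ H) (hAN : A ⊓ N₂ = ⊥) (hBN : B ⊓ N₁ = ⊥)
    (hs : B ⊔ N₁ ⊔ N₂ = H) :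
    Nat.card ((A ⊔ N₂) ⊓ (B ⊔ N₁) : Subgroup G) * Nat.card H =
      (Nat.card A * Nat.card N₂) * (Nat.card B * Nat.card N₁) := by
  have h1 := card_fib (X := A ⊔ N₂) (Y := B ⊔ N₁) (N := N₂) (H := H) le_sup_right
    (sup_le hA h.n2) ((sup_le hB h.n1).trans h.norm2) hs
  rw [h1, card_sup_of_inf (hA.trans h.norm2) hAN, card_sup_of_inf (hB.trans h.norm1) hBN]

lemma Fib.card_D' [Finite G] {H N₁ N₂ M₁ M₂ : Subgroup G} (h : Fib p H N₁ N₂ M₁ M₂)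
    {A B : Subgroup G} (hA : A ≤ H) (hB : B ≤ H) (hAN : A ⊓ N₂ = ⊥) (hBN : B ⊓ N₁ = ⊥)
    (hs : A ⊔ N₂ ⊔ N₁ = H) :
    Nat.card ((A ⊔ N₂) ⊓ (B ⊔ N₁) : Subgroup G) * Nat.card H =
      (Nat.card A * Nat.card N₂) * (Nat.card B * Nat.card N₁) := by
  have h1 := h.swap.card_D hB hA hBN hAN hs
  rw [inf_comm, h1]
  ring

lemma Fib.mem_D {H N₁ N₂ M₁ M₂ : Subgroup G} (h : Fib p H N₁ N₂ M₁ M₂)
    {A B : Subgroup G} (hA : A ≤ H) (hB : B ≤ H) (hAp : A ∈ ApB p G) (hBp : B ∈ ApB p G) :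
    (A ⊔ N₂) ⊓ (B ⊔ N₁) ∈ ApB p G ∧ (A ⊔ N₂) ⊓ (B ⊔ N₁) ≤ H :=
  ⟨ApB_fib ⟨A, hAp, hA.trans h.norm2, rfl⟩ ⟨B, hBp, hB.trans h.norm1, rfl⟩
    (by rw [inf_comm]; exact h.bot), inf_le_left.trans (sup_le hA h.n2)⟩

/-- `a₀`, `a₁`, `a₂` are the maximal orders of elementary abelian subgroups -/
theorem Fib.data [hp : Fact p.Prime] [Finite G] {H N₁ N₂ M₁ M₂ : Subgroup G}
    (h : Fib p H N₁ N₂ M₁ M₂) :
    ∃ A₀ A₁ A₂ : Subgroup G, (A₀ ∈ ApB p G ∧ A₀ ≤ H ∧ ∀ B ∈ ApB p G, B ≤ H →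
        Nat.card B ≤ Nat.card A₀) ∧
      (A₁ ∈ ApB p G ∧ A₁ ≤ H ∧ A₁ ⊓ N₂ = ⊥ ∧ A₁ ⊔ N₂ ⊔ N₁ = H ∧
        ∀ B ∈ ApB p G, B ≤ H → B ⊓ N₂ = ⊥ → Nat.card B ≤ Nat.card A₁) ∧
      (A₂ ∈ ApB p G ∧ A₂ ≤ H ∧ A₂ ⊓ N₁ = ⊥ ∧ A₂ ⊔ N₁ ⊔ N₂ = H ∧
        ∀ B ∈ ApB p G, B ≤ H → B ⊓ N₁ = ⊥ → Nat.card B ≤ Nat.card A₂) ∧
      Nat.card A₀ * Nat.card H = (Nat.card A₁ * Nat.card N₂) * (Nat.card A₂ * Nat.card N₁) := by
  obtain ⟨A₀, ⟨hA₀, hA₀H⟩, hmax⟩ := Set.exists_max_image {A : Subgroup G | A ∈ ApB p G ∧ A ≤ H}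
    (fun A => Nat.card A) (Set.toFinite _) ⟨⊥, Or.inl rfl, bot_le⟩
  have hmax' : ∀ B ∈ ApB p G, B ≤ H → Nat.card B ≤ Nat.card A₀ := fun B hB hBH => hmax B ⟨hB, hBH⟩
  have hgen := h.jp.2 A₀ hA₀ hA₀H hmax'
  have hgen1 := h.sup_le_H hA₀H hgen
  have hgen2 : A₀ ⊔ N₂ ⊔ N₁ = H := by
    rw [sup_assoc, sup_comm N₂, ← sup_assoc]
    exact hgen1
  obtain ⟨A₁, hA₁, hA₁i, hA₁s⟩ := exists_compl hA₀ (inf_le_left : A₀ ⊓ N₂ ≤ A₀)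
  obtain ⟨A₂, hA₂, hA₂i, hA₂s⟩ := exists_compl hA₀ (inf_le_left : A₀ ⊓ N₁ ≤ A₀)
  have h1i : A₁ ⊓ N₂ = ⊥ := by rw [← hA₁i, ← inf_assoc, inf_eq_left.2 hA₁]
  have h2i : A₂ ⊓ N₁ = ⊥ := by rw [← hA₂i, ← inf_assoc, inf_eq_left.2 hA₂]
  have h1s : A₁ ⊔ N₂ = A₀ ⊔ N₂ := by
    refine le_antisymm (sup_le_sup_right hA₁ _) (sup_le ?_ le_sup_right)
    conv_lhs => rw [← hA₁s]
    exact sup_le_sup_left inf_le_right _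
  have h2s : A₂ ⊔ N₁ = A₀ ⊔ N₁ := by
    refine le_antisymm (sup_le_sup_right hA₂ _) (sup_le ?_ le_sup_right)
    conv_lhs => rw [← hA₂s]
    exact sup_le_sup_left inf_le_right _
  have hA₁p : A₁ ∈ ApB p G := ApB_of_le hA₀ hA₁
  have hA₂p : A₂ ∈ ApB p G := ApB_of_le hA₀ hA₂
  have hs1 : A₁ ⊔ N₂ ⊔ N₁ = H := by rw [h1s]; exact hgen2
  have hs2 : A₂ ⊔ N₁ ⊔ N₂ = H := by rw [h2s]; exact hgen1
  have hD := h.card_D (hA₁.trans hA₀H) (hA₂.trans hA₀H) h1i h2i hs2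
  have hDm := h.mem_D (hA₁.trans hA₀H) (hA₂.trans hA₀H) hA₁p hA₂p
  have hcard : Nat.card A₀ * Nat.card H =
      (Nat.card A₁ * Nat.card N₂) * (Nat.card A₂ * Nat.card N₁) := by
    rw [← hD]
    congr 1
    refine le_antisymm ?_ (hmax' _ hDm.1 hDm.2)
    refine Nat.le_of_dvd Nat.card_pos (card_dvd_of_le (le_inf ?_ ?_))
    · rw [h1s]; exact le_sup_left
    · rw [h2s]; exact le_sup_left
  have hpos : ∀ X : Subgroup G, 0 < Nat.card X := fun X => Nat.card_pos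
  refine ⟨A₀, A₁, A₂, ⟨hA₀, hA₀H, hmax'⟩, ⟨hA₁p, hA₁.trans hA₀H, h1i, hs1, ?_⟩,
    ⟨hA₂p, hA₂.trans hA₀H, h2i, hs2, ?_⟩, hcard⟩
  · intro B hB hBH hBN
    have h3 := h.card_D hBH (hA₂.trans hA₀H) hBN h2i hs2
    have h4 := hmax' _ (h.mem_D hBH (hA₂.trans hA₀H) hB hA₂p).1
      (h.mem_D hBH (hA₂.trans hA₀H) hB hA₂p).2
    have h5 := Nat.mul_le_mul_right (Nat.card H) h4
    rw [h3, hcard] at h5
    have h6 : 0 < Nat.card N₂ * (Nat.card A₂ * Nat.card N₁) :=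
      Nat.mul_pos (hpos _) (Nat.mul_pos (hpos _) (hpos _))
    refine Nat.le_of_mul_le_mul_right (c := Nat.card N₂ * (Nat.card A₂ * Nat.card N₁)) ?_ h6
    calc Nat.card B * (Nat.card N₂ * (Nat.card A₂ * Nat.card N₁))
        = Nat.card B * Nat.card N₂ * (Nat.card A₂ * Nat.card N₁) := by ring
      _ ≤ _ := h5
      _ = Nat.card A₁ * (Nat.card N₂ * (Nat.card A₂ * Nat.card N₁)) := by ring
  · intro B hB hBH hBN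
    have h3 := h.card_D' (hA₁.trans hA₀H) hBH h1i hBN hs1
    have h4 := hmax' _ (h.mem_D (hA₁.trans hA₀H) hBH hA₁p hB).1
      (h.mem_D (hA₁.trans hA₀H) hBH hA₁p hB).2
    have h5 := Nat.mul_le_mul_right (Nat.card H) h4
    rw [h3, hcard] at h5
    have h6 : 0 < Nat.card A₁ * Nat.card N₂ * Nat.card N₁ :=
      Nat.mul_pos (Nat.mul_pos (hpos _) (hpos _)) (hpos _)
    refine Nat.le_of_mul_le_mul_right (c := Nat.card A₁ * Nat.card N₂ * Nat.card N₁) ?_ h6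
    calc Nat.card B * (Nat.card A₁ * Nat.card N₂ * Nat.card N₁)
        = Nat.card A₁ * Nat.card N₂ * (Nat.card B * Nat.card N₁) := by ring
      _ ≤ _ := h5
      _ = Nat.card A₂ * (Nat.card A₁ * Nat.card N₂ * Nat.card N₁) := by ring

/-- complements to `N₂` -/
theorem Fib.side [hp : Fact p.Prime] [Finite G] {H N₁ N₂ M₁ M₂ : Subgroup G}
    (h : Fib p H N₁ N₂ M₁ M₂) {A₀ A₁ A₂ : Subgroup G}
    (h0 : A₀ ∈ ApB p G ∧ A₀ ≤ H ∧ ∀ B ∈ ApB p G, B ≤ H → Nat.card B ≤ Nat.card A₀)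
    (h1 : A₁ ∈ ApB p G ∧ A₁ ≤ H ∧ A₁ ⊓ N₂ = ⊥ ∧ A₁ ⊔ N₂ ⊔ N₁ = H ∧
        ∀ B ∈ ApB p G, B ≤ H → B ⊓ N₂ = ⊥ → Nat.card B ≤ Nat.card A₁)
    (h2 : A₂ ∈ ApB p G ∧ A₂ ≤ H ∧ A₂ ⊓ N₁ = ⊥ ∧ A₂ ⊔ N₁ ⊔ N₂ = H ∧
        ∀ B ∈ ApB p G, B ≤ H → B ⊓ N₁ = ⊥ → Nat.card B ≤ Nat.card A₂)
    (hcard : Nat.card A₀ * Nat.card H =
      (Nat.card A₁ * Nat.card N₂) * (Nat.card A₂ * Nat.card N₁))
    {K : Subgroup G} (hK1 : N₁ ≤ K) (hKH : K ≤ H) (hKN : K ⊓ N₂ = ⊥) (hKs : K ⊔ N₂ = H) :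
    Jp p M₁ K ∧ ∀ B ∈ ApB p G, B ≤ K →
      (∀ B' ∈ ApB p G, B' ≤ K → Nat.card B' ≤ Nat.card B) → Nat.card B = Nat.card A₁ := by
  have hpos : ∀ X : Subgroup G, 0 < Nat.card X := fun X => Nat.card_pos
  -- a copy of `A₁`
  have hcopy : (A₁ ⊔ N₂) ⊓ K ∈ ApB p G := by
    have hab := ab_mod h1.1 (h1.2.1.trans h.norm2)
    refine mem_ApB (fun x hx y hy => ?_) fun x hx => ?_
    · have h3 : x * y * x⁻¹ * y⁻¹ ∈ K ⊓ N₂ :=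
        mem_inf.2 ⟨mul_mem (mul_mem (mul_mem hx.2 hy.2) (inv_mem hx.2)) (inv_mem hy.2),
          hab.2 x hx.1 y hy.1⟩
      rw [hKN, Subgroup.mem_bot] at h3
      have : x * y = (x * y * x⁻¹ * y⁻¹) * (y * x) := by group
      rw [this, h3, one_mul]
    · have h3 : x ^ p ∈ K ⊓ N₂ := mem_inf.2 ⟨pow_mem hx.2 p, hab.1 x hx.1⟩
      rwa [hKN, Subgroup.mem_bot] at h3
  have hcc : Nat.card ((A₁ ⊔ N₂) ⊓ K : Subgroup G) = Nat.card A₁ := by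
    have h3 := card_fib (X := A₁ ⊔ N₂) (Y := K) (N := N₂) (H := H) le_sup_right
      (sup_le h1.2.1 h.n2) (hKH.trans h.norm2) hKs
    have h4 := card_sup_of_inf (hKH.trans h.norm2) hKN
    rw [hKs] at h4
    rw [card_sup_of_inf (h1.2.1.trans h.norm2) h1.2.2.1, h4] at h3
    refine Nat.eq_of_mul_eq_mul_right (Nat.mul_pos (hpos K) (hpos N₂)) ?_
    rw [h3]
    ring
  have hmaxK : ∀ B ∈ ApB p G, B ≤ K →
      (∀ B' ∈ ApB p G, B' ≤ K → Nat.card B' ≤ Nat.card B) → Nat.card B = Nat.card A₁ := by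
    intro B hB hBK hm
    refine le_antisymm (h1.2.2.2.2 B hB (hBK.trans hKH) ?_) ?_
    · rw [eq_bot_iff, ← hKN]
      exact inf_le_inf_right _ hBK
    · rw [← hcc]
      exact hm _ hcopy inf_le_right
  refine ⟨⟨h.m1.trans hK1, fun B hB hBK hm => ?_⟩, hmaxK⟩
  have hBc := hmaxK B hB hBK hm
  have hBN : B ⊓ N₂ = ⊥ := by
    rw [eq_bot_iff, ← hKN]
    exact inf_le_inf_right _ hBK
  have hD := h.card_D (hBK.trans hKH) h2.2.1 hBN h2.2.2.1 h2.2.2.2.1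
  rw [hBc, ← hcard] at hD
  have hD' := Nat.eq_of_mul_eq_mul_right (hpos H) hD
  obtain ⟨hDp, hDH⟩ := h.mem_D (hBK.trans hKH) h2.2.1 hB h2.1
  have hgen := h.jp.2 _ hDp hDH (fun B' hB' hB'H => by rw [hD']; exact h0.2.2 B' hB' hB'H)
  refine le_antisymm (sup_le hBK (h.m1.trans hK1)) fun x hx => ?_
  have hMn : (B ⊔ N₂) ⊓ (A₂ ⊔ N₁) ≤ normalizer ((M₁ ⊔ M₂ : Subgroup G) : Set G) := by
    refine hDH.trans fun g hg => ?_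
    have h3 := h.mnorm1 hg
    have h4 := h.mnorm2 hg
    rw [← cj_eq_iff] at h3 h4 ⊢
    have : cj g (M₁ ⊔ M₂) = cj g M₁ ⊔ cj g M₂ := Subgroup.map_sup _ _ _
    rw [this, h3, h4]
  have hx' : x ∈ ((B ⊔ N₂) ⊓ (A₂ ⊔ N₁)) ⊔ (M₁ ⊔ M₂) := by
    rw [hgen]
    exact hKH hx
  obtain ⟨d, hd, m, hm', rfl⟩ := mem_sup_norm hMn hx'
  obtain ⟨m₁, hm₁, m₂, hm₂, rfl⟩ := mem_sup_norm (comm_le_normalizer fun x hx y hy =>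
    h.comm x (h.m1 hx) y (h.m2 hy)) hm'
  obtain ⟨b, hb, n, hn, rfl⟩ := mem_sup_norm ((hBK.trans hKH).trans h.norm2) hd.1
  have e : b * n * (m₁ * m₂) = b * m₁ * (n * m₂) := by
    have h3 := h.comm m₁ (h.m1 hm₁) n hn
    calc b * n * (m₁ * m₂) = b * (n * m₁) * m₂ := by group
      _ = b * (m₁ * n) * m₂ := by rw [h3]
      _ = b * m₁ * (n * m₂) := by group
  have hbm : b * m₁ ∈ K := mul_mem (hBK hb) (hK1 (h.m1 hm₁))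
  have h3 : n * m₂ ∈ K ⊓ N₂ := by
    refine mem_inf.2 ⟨?_, mul_mem hn (h.m2 hm₂)⟩
    have h4 := mul_mem (inv_mem hbm) hx
    rw [e] at h4
    rwa [inv_mul_cancel_left] at h4
  rw [hKN, Subgroup.mem_bot] at h3
  rw [e, h3, mul_one]
  exact mul_mem (mem_sup_left hb) (mem_sup_right hm₁)

end Vale.Agent.P240.R2.H275
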