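import Vale.Agent.P240.R2.H275.Top

/-!
Group theory: complements, products, modular law.
-/

namespace Vale.Agent.P240.R2.H275

open Subgroup Vale.Agent.P240.K Vale.Agent.P240.H195
open scoped Pointwise

universe u v

variable {G : Type u} [Group G] {p : ℕ}

lemma mem_sup_norm {A N : Subgroup G} (h : A ≤ normalizer (N : Set G)) {x : G} (hx : x ∈ A ⊔ N) :
    ∃ a ∈ A, ∃ n ∈ N, x = a * n := by
  have h1 : x ∈ ((A ⊔ N : Subgroup G) : Set G) := hx
  rw [Subgroup.coe_mul_of_left_le_normalizer_right A N h] at h1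
  obtain ⟨a, ha, n, hn, rfl⟩ := Set.mem_mul.1 h1
  exact ⟨a, ha, n, hn, rfl⟩

lemma mem_sup_norm' {A N : Subgroup G} (h : A ≤ normalizer (N : Set G)) {x : G} (hx : x ∈ A ⊔ N) :
    ∃ a ∈ A, ∃ n ∈ N, x = n * a := by
  obtain ⟨a, ha, n, hn, h1⟩ := mem_sup_norm h (inv_mem hx)
  refine ⟨a⁻¹, inv_mem ha, n⁻¹, inv_mem hn, ?_⟩
  rw [← mul_inv_rev, ← h1, inv_inv]

lemma relIndex_sup_norm {A N : Subgroup G} (h : A ≤ normalizer (N : Set G)) :
    N.relIndex (A ⊔ N) = N.relIndex A := by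
  have hK : A ⊔ N ≤ normalizer (N : Set G) := sup_le h le_normalizer
  have hn : (N.subgroupOf (A ⊔ N)).Normal := (normal_subgroupOf_iff_le_normalizer le_sup_right).2 hK
  have h1 := Subgroup.relIndex_sup_right (A.subgroupOf (A ⊔ N)) (N.subgroupOf (A ⊔ N))
  rw [← Subgroup.subgroupOf_sup le_sup_left le_sup_right,
    Subgroup.relIndex_subgroupOf (le_refl (A ⊔ N)), Subgroup.relIndex_subgroupOf le_sup_left] at h1
  exact h1

lemma card_sup_mul [Finite G] {A N : Subgroup G} (h : A ≤ normalizer (N : Set G)) :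
    Nat.card (A ⊔ N : Subgroup G) * Nat.card (A ⊓ N : Subgroup G) = Nat.card A * Nat.card N := by
  have h1 := card_relIndex (le_sup_right : N ≤ A ⊔ N)
  have h2 := card_relIndex (inf_le_left : A ⊓ N ≤ A)
  rw [Subgroup.inf_relIndex_left] at h2
  rw [relIndex_sup_norm h] at h1
  rw [← h1, ← h2]
  ring

/-- modular law -/
lemma inf_sup_mod {X Y N : Subgroup G} (hNX : N ≤ X) (hY : Y ≤ normalizer (N : Set G)) :
    (X ⊓ Y) ⊔ N = X ⊓ (Y ⊔ N) := by
  refine le_antisymm (le_inf (sup_le inf_le_left hNX) (sup_le_sup_right inf_le_right N)) ?_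
  rintro x ⟨hxX, hx⟩
  obtain ⟨y, hy, n, hn, rfl⟩ := mem_sup_norm hY hx
  refine mul_mem (mem_sup_left ⟨?_, hy⟩) (mem_sup_right hn)
  have := X.mul_mem hxX (X.inv_mem (hNX hn))
  rwa [mul_inv_cancel_right] at this

lemma card_fib [Finite G] {X Y N H : Subgroup G} (hNX : N ≤ X) (hXH : X ≤ H)
    (hY : Y ≤ normalizer (N : Set G)) (hYN : Y ⊔ N = H) :
    Nat.card (X ⊓ Y : Subgroup G) * Nat.card H = Nat.card X * Nat.card Y := by
  have h1 : (X ⊓ Y) ⊔ N = X := by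
    rw [inf_sup_mod hNX hY, hYN]
    exact inf_eq_left.2 hXH
  have h2 := card_sup_mul (A := X ⊓ Y) (N := N) (inf_le_right.trans hY)
  have h3 := card_sup_mul hY
  have h4 : (X ⊓ Y) ⊓ N = Y ⊓ N := by
    rw [inf_comm X Y, inf_assoc, inf_eq_right.2 hNX]
  rw [h1, h4] at h2
  rw [hYN] at h3
  have h5 : 0 < Nat.card (Y ⊓ N : Subgroup G) := Nat.card_pos
  have h6 : 0 < Nat.card N := Nat.card_pos
  refine Nat.eq_of_mul_eq_mul_right (Nat.mul_pos h6 h5) ?_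
  calc Nat.card (X ⊓ Y : Subgroup G) * Nat.card H * (Nat.card N * Nat.card (Y ⊓ N : Subgroup G))
      = (Nat.card (X ⊓ Y : Subgroup G) * Nat.card N) *
        (Nat.card H * Nat.card (Y ⊓ N : Subgroup G)) := by ring
    _ = (Nat.card X * Nat.card (Y ⊓ N : Subgroup G)) * (Nat.card Y * Nat.card N) := by
        rw [← h2, h3]
    _ = Nat.card X * Nat.card Y * (Nat.card N * Nat.card (Y ⊓ N : Subgroup G)) := by ring

/-- powers and commutators modulo `N` -/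
lemma ab_mod {A N : Subgroup G} (hA : A ∈ ApB p G) (h : A ≤ normalizer (N : Set G)) :
    (∀ x ∈ A ⊔ N, x ^ p ∈ N) ∧ ∀ x ∈ A ⊔ N, ∀ y ∈ A ⊔ N, x * y * x⁻¹ * y⁻¹ ∈ N := by
  have hK : A ⊔ N ≤ normalizer (N : Set G) := sup_le h le_normalizer
  have hn : (N.subgroupOf (A ⊔ N)).Normal := (normal_subgroupOf_iff_le_normalizer le_sup_right).2 hK
  set π := QuotientGroup.mk' (N.subgroupOf (A ⊔ N)) with hπ
  have hker : ∀ x : (A ⊔ N : Subgroup G), π x = 1 ↔ (x : G) ∈ N := by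
    intro x
    rw [hπ, QuotientGroup.mk'_apply, QuotientGroup.eq_one_iff, mem_subgroupOf]
  have key : ∀ x : (A ⊔ N : Subgroup G), ∃ a : (A ⊔ N : Subgroup G), (a : G) ∈ A ∧ π x = π a := by
    rintro ⟨x, hx⟩
    obtain ⟨a, ha, n, hn', rfl⟩ := mem_sup_norm h hx
    refine ⟨⟨a, mem_sup_left ha⟩, ha, ?_⟩
    have e : (⟨a * n, hx⟩ : (A ⊔ N : Subgroup G)) =
      ⟨a, mem_sup_left ha⟩ * ⟨n, mem_sup_right hn'⟩ := rfl
    rw [e, map_mul, (hker ⟨n, mem_sup_right hn'⟩).2 hn', mul_one]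
  refine ⟨fun x hx => ?_, fun x hx y hy => ?_⟩
  · obtain ⟨a, ha, hxa⟩ := key ⟨x, hx⟩
    have h1 : π (⟨x, hx⟩ ^ p) = 1 := by
      rw [map_pow, hxa, ← map_pow, hker]
      change ((a : G)) ^ p ∈ N
      rw [ApB.pow hA _ ha]
      exact one_mem _
    exact (hker _).1 h1
  · obtain ⟨a, ha, hxa⟩ := key ⟨x, hx⟩
    obtain ⟨b, hb, hyb⟩ := key ⟨y, hy⟩
    have h1 : π (⟨x, hx⟩ * ⟨y, hy⟩ * ⟨x, hx⟩⁻¹ * ⟨y, hy⟩⁻¹) = 1 := by
      rw [map_mul, map_mul, map_mul, map_inv, map_inv, hxa, hyb, ← map_inv, ← map_inv, ← map_mul,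
        ← map_mul, ← map_mul, hker]
      change (a : G) * b * (a : G)⁻¹ * (b : G)⁻¹ ∈ N
      rw [ApB.comm hA _ ha _ hb]
      have : (b : G) * a * (a : G)⁻¹ * (b : G)⁻¹ = 1 := by group
      rw [this]
      exact one_mem _
    exact (hker _).1 h1

lemma ApB_fib {X Y N N' : Subgroup G} (hX : ∃ A ∈ ApB p G, A ≤ normalizer (N : Set G) ∧ X = A ⊔ N)
    (hY : ∃ A ∈ ApB p G, A ≤ normalizer (N' : Set G) ∧ Y = A ⊔ N') (hN : N ⊓ N' = ⊥) :
    X ⊓ Y ∈ ApB p G := by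
  obtain ⟨A, hA, hAN, rfl⟩ := hX
  obtain ⟨B, hB, hBN, rfl⟩ := hY
  refine mem_ApB (fun x hx y hy => ?_) fun x hx => ?_
  · have h1 : x * y * x⁻¹ * y⁻¹ ∈ N ⊓ N' :=
      ⟨(ab_mod hA hAN).2 x hx.1 y hy.1, (ab_mod hB hBN).2 x hx.2 y hy.2⟩
    rw [hN, Subgroup.mem_bot] at h1
    have : x * y = (x * y * x⁻¹ * y⁻¹) * (y * x) := by group
    rw [this, h1, one_mul]
  · have h1 : x ^ p ∈ N ⊓ N' := ⟨(ab_mod hA hAN).1 x hx.1, (ab_mod hB hBN).1 x hx.2⟩
    rwa [hN, Subgroup.mem_bot] at h1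

lemma mem_of_zpow [hp : Fact p.Prime] {x : G} (hx : x ^ p = 1) {K : Subgroup G} {i : ℤ}
    (hi : x ^ i ∈ K) (hne : x ^ i ≠ 1) : x ∈ K := by
  have hx1 : x ≠ 1 := by
    rintro rfl
    exact hne (one_zpow _)
  have hord : orderOf x = p := orderOf_eq_prime hx hx1
  have hc : Nat.card (zpowers x) = p := by rw [Nat.card_zpowers, hord]
  have h1 : (⟨x, mem_zpowers x⟩ : zpowers x) ∈ zpowers (⟨x ^ i, zpow_mem (mem_zpowers x) i⟩ : zpowers x) := by
    rw [zpowers_eq_top_of_prime_card (p := p) hc (fun h => hne (congrArg Subtype.val h))]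
    trivial
  obtain ⟨l, hl⟩ := mem_zpowers_iff.1 h1
  have h2 : (x ^ i) ^ l = x := congrArg Subtype.val hl
  rw [← h2]
  exact zpow_mem hi l

lemma mem_sup_zpowers {H : Subgroup G} {a x : G} (hc : ∀ h ∈ H, h * a = a * h)
    (hx : x ∈ H ⊔ zpowers a) : ∃ h ∈ H, ∃ i : ℤ, x = h * a ^ i := by
  have hn : H ≤ normalizer ((zpowers a : Subgroup G) : Set G) := by
    intro h hh
    have h1 : h ∈ centralizer ((zpowers a : Subgroup G) : Set G) := by
      rw [mem_centralizer_iff]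
      rintro _ ⟨i, rfl⟩
      exact (Commute.zpow_right (hc h hh) i).symm
    exact centralizer_le_normalizer _ h1
  obtain ⟨h, hh, b, ⟨i, rfl⟩, rfl⟩ := mem_sup_norm hn hx
  exact ⟨h, hh, i, rfl⟩

/-- hyperplanes -/
lemma exists_hyper [hp : Fact p.Prime] [Finite G] {E P : Subgroup G} (hE : E ∈ ApB p G)
    (hP : P ≤ E) {a : G} (ha : a ∈ E) (haP : a ∉ P) :
    ∃ H ≤ E, P ≤ H ∧ a ∉ H ∧ H ⊔ zpowers a = E ∧ Nat.card E = p * Nat.card H := by
  obtain ⟨H, hH⟩ := (Set.toFinite {H : Subgroup G | H ≤ E ∧ P ≤ H ∧ a ∉ H}).exists_maximal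
    ⟨P, hP, le_rfl, haP⟩
  obtain ⟨hHE, hPH, haH⟩ := hH.prop
  have hap := ApB.pow hE a ha
  have hEsup : H ⊔ zpowers a = E := by
    refine le_antisymm (sup_le hHE (zpowers_le.2 ha)) fun x hx => ?_
    by_contra hcon
    have hxH : x ∉ H := fun h => hcon (mem_sup_left h)
    have h1 : a ∈ H ⊔ zpowers x := by
      by_contra h2
      have h3 := hH.2 (y := H ⊔ zpowers x) ⟨sup_le hHE (zpowers_le.2 hx), hPH.trans le_sup_left, h2⟩
        le_sup_left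
      exact hxH (h3 (mem_sup_right (mem_zpowers x)))
    obtain ⟨h, hh, i, hi⟩ := mem_sup_zpowers (fun h hh => ApB.comm hE h (hHE hh) x hx) h1
    apply hcon
    refine mem_of_zpow (ApB.pow hE x hx) (i := i) ?_ fun h3 => ?_
    · have : x ^ i = h⁻¹ * a := by rw [hi]; group
      rw [this]
      exact mul_mem (mem_sup_left (inv_mem hh)) (mem_sup_right (mem_zpowers a))
    · rw [h3, mul_one] at hi
      exact haH (hi ▸ hh)
  refine ⟨H, hHE, hPH, haH, hEsup, ?_⟩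
  have hint : H ⊓ zpowers a = ⊥ := by
    rw [eq_bot_iff]
    rintro _ ⟨h1, ⟨i, rfl⟩⟩
    by_contra hne
    exact haH (mem_of_zpow hap h1 hne)
  have h2 := card_sup_mul (A := zpowers a) (N := H) (fun x hx => by
    have hxE : x ∈ E := zpowers_le.2 ha hx
    refine centralizer_le_normalizer _ ?_
    rw [mem_centralizer_iff]
    exact fun y hy => ApB.comm hE y (hHE hy) x hxE)
  rw [sup_comm, hEsup, inf_comm, hint, Subgroup.card_bot, mul_one, Nat.card_zpowers,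
    orderOf_eq_prime hap (fun h => haH (by rw [h]; exact one_mem _))] at h2
  exact h2

/-- complements -/
lemma exists_compl [hp : Fact p.Prime] [Finite G] {E P : Subgroup G} (hE : E ∈ ApB p G)
    (hP : P ≤ E) : ∃ Q ≤ E, Q ⊓ P = ⊥ ∧ Q ⊔ P = E := by
  obtain ⟨Q, hQ⟩ := (Set.toFinite {Q : Subgroup G | Q ≤ E ∧ Q ⊓ P = ⊥}).exists_maximal
    ⟨⊥, bot_le, bot_inf_eq _⟩
  obtain ⟨hQE, hQP⟩ := hQ.prop
  refine ⟨Q, hQE, hQP, le_antisymm (sup_le hQE hP) fun x hx => ?_⟩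
  by_contra hcon
  have hxQ : x ∉ Q := fun h => hcon (mem_sup_left h)
  have h1 : (Q ⊔ zpowers x) ⊓ P ≠ ⊥ := by
    intro h2
    have h3 := hQ.2 (y := Q ⊔ zpowers x) ⟨sup_le hQE (zpowers_le.2 hx), h2⟩ le_sup_left
    exact hxQ (h3 (mem_sup_right (mem_zpowers x)))
  obtain ⟨y, ⟨hy1, hy2⟩, hy3⟩ : ∃ y ∈ (Q ⊔ zpowers x) ⊓ P, y ≠ 1 := by
    by_contra h2
    push Not at h2
    exact h1 (by rw [eq_bot_iff]; exact fun y hy => Subgroup.mem_bot.2 (h2 y hy))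
  obtain ⟨q, hq, i, rfl⟩ := mem_sup_zpowers (fun h hh => ApB.comm hE h (hQE hh) x hx) hy1
  apply hcon
  refine mem_of_zpow (ApB.pow hE x hx) (i := i) ?_ fun h3 => ?_
  · have : x ^ i = q⁻¹ * (q * x ^ i) := by group
    rw [this]
    exact mul_mem (mem_sup_left (inv_mem hq)) (mem_sup_right hy2)
  · rw [h3, mul_one] at hy2 hy3
    have h4 : q ∈ Q ⊓ P := ⟨hq, hy2⟩
    rw [hQP, Subgroup.mem_bot] at h4
    exact hy3 h4

lemma card_sup_of_inf [Finite G] {A N : Subgroup G} (h : A ≤ normalizer (N : Set G))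
    (hb : A ⊓ N = ⊥) : Nat.card (A ⊔ N : Subgroup G) = Nat.card A * Nat.card N := by
  have := card_sup_mul h
  rwa [hb, Subgroup.card_bot, mul_one] at this

lemma comm_le_normalizer {A N : Subgroup G} (h : ∀ x ∈ A, ∀ y ∈ N, x * y = y * x) :
    A ≤ normalizer (N : Set G) := by
  intro x hx
  refine centralizer_le_normalizer _ ?_
  rw [mem_centralizer_iff]
  exact fun y hy => (h x hx y hy).symm

lemma ApB_sup {E F : Subgroup G} (hE : E ∈ ApB p G) (hF : F ∈ ApB p G)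
    (h : ∀ x ∈ E, ∀ y ∈ F, x * y = y * x) : E ⊔ F ∈ ApB p G := by
  rcases hE with h1 | h1
  · rw [h1, bot_sup_eq]
    exact hF
  · rcases hF with h2 | h2
    · rw [h2, sup_bot_eq]
      exact Or.inr h1
    · exact Or.inr (sup_mem_ApS h1 h2 h)

end Vale.Agent.P240.R2.H275
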