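import Vale.Agent.P240.R2.H296.Cen

/-!
# M4c: the elements `e W` of `PGU_n(q)` (any star, any `ζ` of order `p` and norm `1`)
-/

set_option autoImplicit false
set_option linter.all false

namespace Vale.Agent.P240.R2.H275

open Finset Matrix
open Vale.Agent.P240.R2.AS
open scoped Classical

universe u

noncomputable section

section letters

variable {K : Type u} [Field K] [Fintype K] [StarRing K] {n : ℕ}

lemma vv_mul (x y : Fin n → K) :
    vecMulVec x (star x) * vecMulVec y (star y) = (star x ⬝ᵥ y) • vecMulVec x (star y) := by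
  rw [vecMulVec_mul_vecMulVec]
  ext i j
  simp [vecMulVec_apply]
  ring

lemma Ln_idem (P : Ln K n) : P.1 * P.1 = P.1 := by
  obtain ⟨P, x, h1, rfl⟩ := P
  simp only
  rw [vv_mul, h1, one_smul]

lemma vv_star (x : Fin n → K) : star (vecMulVec x (star x)) = vecMulVec x (star x) := by
  ext i j
  simp [star_apply, vecMulVec_apply, mul_comm]

lemma Ln_star (P : Ln K n) : star P.1 = P.1 := by
  obtain ⟨P, x, h1, rfl⟩ := P
  exact vv_star x

lemma Ln_ne (P : Ln K n) : P.1 ≠ 0 := by
  obtain ⟨P, x, h1, rfl⟩ := P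
  simp only
  intro h
  have h2 : star x ᵥ* vecMulVec x (star x) = 0 := by rw [h, vecMul_zero]
  have h3 : star x ᵥ* vecMulVec x (star x) = (star x ⬝ᵥ x) • star x := by
    ext i
    simp [vecMul, dotProduct, vecMulVec_apply, Finset.sum_mul, mul_assoc]
  rw [h3, h1, one_smul] at h2
  have h4 : x = 0 := by simpa using h2
  rw [h4] at h1
  simp at h1

lemma Ln_symm {P Q : Ln K n} (h : P.1 * Q.1 = 0) : Q.1 * P.1 = 0 := by
  have h1 : star (P.1 * Q.1) = 0 := by rw [h, star_zero]
  rwa [star_mul, Ln_star, Ln_star] at h1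

/-- rank one -/
lemma Ln_sandwich (P : Ln K n) (M : Matrix (Fin n) (Fin n) K) : ∃ c : K, P.1 * M * P.1 = c • P.1 := by
  obtain ⟨P, x, h1, rfl⟩ := P
  refine ⟨star x ⬝ᵥ (M *ᵥ x), ?_⟩
  simp only
  rw [Matrix.mul_assoc, mul_vecMulVec, vecMulVec_mul_vecMulVec]
  ext i j
  simp [vecMulVec_apply]
  ring

/-- two letters `P`, `Q` with `P * Q = P` are equal -/
lemma Ln_eq_of_mul {P Q : Ln K n} (h : P.1 * Q.1 = P.1) : P = Q := by
  have h' : Q.1 * P.1 = P.1 := by
    have := congrArg star h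
    rwa [star_mul, Ln_star, Ln_star] at this
  obtain ⟨c, hc⟩ := Ln_sandwich Q P.1
  rw [h', h] at hc
  have h1 : c • Q.1 = (c * c) • Q.1 := by
    rw [← hc, ← Ln_idem P]
    nth_rewrite 1 [hc]
    nth_rewrite 1 [hc]
    rw [smul_mul_smul_comm, Ln_idem]
  have h2 : c = c * c := smul_left_injective K (Ln_ne Q) h1
  have h3 : c = 1 := by
    have h4 : c ≠ 0 := by
      rintro rfl
      rw [zero_smul] at hc
      exact Ln_ne P hc
    have h5 : c * 1 = c * c := by rw [mul_one]; exact h2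
    exact (mul_left_cancel₀ h4 h5).symm
  rw [h3, one_smul] at hc
  exact Subtype.ext hc

@[simp] lemma sm_nil : sm ([] : List (Ln K n)) = 0 := by simp [sm]

@[simp] lemma sm_cons (P : Ln K n) (w : List (Ln K n)) : sm (P :: w) = P.1 + sm w := by simp [sm]

@[simp] lemma sm_append (u v : List (Ln K n)) : sm (u ++ v) = sm u + sm v := by simp [sm]

lemma sm_star (u : List (Ln K n)) : star (sm u) = sm u := by
  induction u with
  | nil => simp
  | cons P u ih => rw [sm_cons, star_add, ih, Ln_star]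

lemma mul_sm_zero {M : Matrix (Fin n) (Fin n) K} {u : List (Ln K n)} (h : ∀ x ∈ u, M * x.1 = 0) :
    M * sm u = 0 := by
  induction u with
  | nil => simp
  | cons P u ih =>
    rw [sm_cons, mul_add, h P (by simp), ih (fun x hx => h x (by simp [hx])), add_zero]

lemma sm_mul_zero {M : Matrix (Fin n) (Fin n) K} {u : List (Ln K n)} (h : ∀ x ∈ u, x.1 * M = 0) :
    sm u * M = 0 := by
  induction u with
  | nil => simp
  | cons P u ih =>
    rw [sm_cons, add_mul, h P (by simp), ih (fun x hx => h x (by simp [hx])), add_zero]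

lemma o_append {u v : List (Ln K n)} :
    Orth (u ++ v) ↔ Orth u ∧ Orth v ∧ ∀ x ∈ u, ∀ y ∈ v, x.1 * y.1 = 0 := by
  simp only [Orth, List.pairwise_append]

lemma o_ss {u v : List (Ln K n)} (h : Orth (u ++ v)) : sm u * sm v = 0 :=
  sm_mul_zero fun x hx => mul_sm_zero fun y hy => (o_append.1 h).2.2 x hx y hy

lemma o_ss' {u v : List (Ln K n)} (h : Orth (u ++ v)) : sm v * sm u = 0 :=
  sm_mul_zero fun x hx => mul_sm_zero fun y hy => Ln_symm ((o_append.1 h).2.2 y hy x hx)

lemma o_idem {u : List (Ln K n)} (h : Orth u) : sm u * sm u = sm u := by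
  induction u with
  | nil => simp
  | cons P u ih =>
    have h' : Orth ([P] ++ u) := h
    have h1 : P.1 * sm u = 0 := by simpa using o_ss h'
    have h2 : sm u * P.1 = 0 := by simpa using o_ss' h'
    rw [sm_cons, mul_add, add_mul, add_mul, Ln_idem, h1, h2, ih (o_append.1 h').2.1]
    simp

lemma o_mm {u : List (Ln K n)} (h : Orth u) {x : Ln K n} (hx : x ∈ u) :
    x.1 * sm u = x.1 := by
  obtain ⟨a, b, rfl⟩ := List.append_of_mem hx
  have h1 := o_append.1 h
  have h2 : x.1 * sm a = 0 := mul_sm_zero fun y hy => Ln_symm (h1.2.2 y hy x (by simp))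
  have h3 : x.1 * sm b = 0 := mul_sm_zero fun y hy => (List.pairwise_cons.1 h1.2.1).1 y hy
  rw [sm_append, sm_cons, mul_add, mul_add, h2, h3, Ln_idem]
  simp

lemma o_mm' {u : List (Ln K n)} (h : Orth u) {x : Ln K n} (hx : x ∈ u) :
    sm u * x.1 = x.1 := by
  have := congrArg star (o_mm h hx)
  rwa [star_mul, Ln_star, sm_star] at this

lemma o_perm {u v : List (Ln K n)} (h : Orth u) (huv : u.Perm v) : Orth v :=
  (huv.pairwise_iff (fun h => Ln_symm h)).1 h

lemma o_nodup {u : List (Ln K n)} (h : Orth u) : u.Nodup := by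
  refine List.Pairwise.imp ?_ h
  intro P Q h0 h1
  rw [h1, Ln_idem] at h0
  exact Ln_ne Q h0

/-- the projections of a frame sum up to `1` -/
lemma o_one {w : List (Ln K n)} (h : Orth w) (hl : w.length = n) : sm w = 1 := by
  have hx : ∀ i : Fin w.length, ∃ x : Fin n → K, star x ⬝ᵥ x = 1 ∧
      (w.get i).1 = vecMulVec x (star x) := fun i => (w.get i).2
  choose x hx1 hx2 using hx
  set S : Matrix (Fin n) (Fin w.length) K := Matrix.of fun i j => x j i with hS
  have hSS : Sᴴ * S = 1 := by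
    ext i j
    have e : (Sᴴ * S) i j = star (x i) ⬝ᵥ x j := by
      simp [Matrix.mul_apply, dotProduct, hS, conjTranspose_apply]
    rw [e]
    by_cases hij : i = j
    · subst hij
      rw [hx1, one_apply_eq]
    · rw [one_apply_ne hij]
      have h0 : (w.get i).1 * (w.get j).1 = 0 := by
        rcases lt_or_gt_of_ne hij with h1 | h1
        · exact List.pairwise_iff_get.1 h i j h1
        · exact Ln_symm (List.pairwise_iff_get.1 h j i h1)
      rw [hx2 i, hx2 j, vv_mul] at h0
      rcases smul_eq_zero.1 h0 with h1 | h1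
      · exact h1
      · exfalso
        have hi : ∃ a, x i a ≠ 0 := by
          by_contra hc
          push Not at hc
          have : x i = 0 := funext hc
          have h2 := hx1 i
          rw [this] at h2
          simp at h2
        have hj : ∃ a, x j a ≠ 0 := by
          by_contra hc
          push Not at hc
          have : x j = 0 := funext hc
          have h2 := hx1 j
          rw [this] at h2
          simp at h2
        obtain ⟨a, ha⟩ := hi
        obtain ⟨b, hb⟩ := hj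
        have h2 := congrFun (congrFun h1 a) b
        simp only [vecMulVec_apply, Pi.star_apply, Matrix.zero_apply, mul_eq_zero, ha, false_or,
          star_eq_zero] at h2
        exact hb h2
  have hSS' : S * Sᴴ = 1 :=
    (mul_eq_one_comm_of_card_eq _ _ _ (by simp [hl])).1 hSS
  rw [← hSS']
  have e2 : sm w = ∑ i : Fin w.length, (w.get i).1 := by
    rw [sm, ← Fin.sum_univ_fun_getElem]
    rfl
  rw [e2]
  ext a b
  rw [Matrix.sum_apply, Matrix.mul_apply]
  refine Finset.sum_congr rfl fun i _ => ?_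
  rw [hx2 i]
  simp [vecMulVec_apply, hS, conjTranspose_apply]

end letters

section group

variable {K : Type u} [Field K] [Fintype K] [StarRing K] {n : ℕ}

/-- projections -/
def IsP (P : Matrix (Fin n) (Fin n) K) : Prop := star P = P ∧ P * P = P

lemma o_isP {u : List (Ln K n)} (h : Orth u) : IsP (sm u) := ⟨sm_star u, o_idem h⟩

lemma eU_coe {ζ : K} (hζ : ζ * star ζ = 1) {P : Matrix (Fin n) (Fin n) K} (hP : IsP P) :
    ((eU ζ P : GU K n) : Matrix (Fin n) (Fin n) K) = 1 + (ζ - 1) • P := by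
  unfold eU
  rw [dif_pos ⟨hP.1, hP.2, hζ⟩]

lemma eU_add {ζ : K} (hζ : ζ * star ζ = 1) {P Q : Matrix (Fin n) (Fin n) K} (hP : IsP P)
    (hQ : IsP Q) (h1 : P * Q = 0) (h2 : Q * P = 0) : eU ζ (P + Q) = eU ζ P * eU ζ Q := by
  apply Subtype.ext
  have hPQ : IsP (P + Q) := by
    refine ⟨by rw [star_add, hP.1, hQ.1], ?_⟩
    rw [mul_add, add_mul, add_mul, hP.2, hQ.2, h1, h2]
    simp
  rw [eU_coe hζ hPQ, UnitaryGroup.mul_val, eU_coe hζ hP, eU_coe hζ hQ, mul_add,
    mul_one, add_mul, one_mul, smul_mul_smul_comm, h1, smul_zero, add_zero, smul_add, add_assoc]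

lemma eU_zero {ζ : K} (hζ : ζ * star ζ = 1) : (eU ζ 0 : GU K n) = 1 := by
  apply Subtype.ext
  rw [eU_coe hζ ⟨star_zero _, by simp⟩]
  simp

lemma eW_append {ζ : K} (hζ : ζ * star ζ = 1) {u v : List (Ln K n)} (h : Orth (u ++ v)) :
    eW ζ (u ++ v) = eW ζ u * eW ζ v := by
  have h' := o_append.1 h
  unfold eW
  rw [sm_append, eU_add hζ (o_isP h'.1) (o_isP h'.2.1) (o_ss h) (o_ss' h), QuotientGroup.mk_mul]

lemma eW_nil {ζ : K} (hζ : ζ * star ζ = 1) : eW ζ ([] : List (Ln K n)) = 1 := by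
  unfold eW
  rw [sm_nil, eU_zero hζ, QuotientGroup.mk_one]

lemma eW_cons {ζ : K} (hζ : ζ * star ζ = 1) {x : Ln K n} {v : List (Ln K n)} (h : Orth (x :: v)) :
    eW ζ (x :: v) = eW ζ [x] * eW ζ v := eW_append (u := [x]) hζ h

lemma mk_one_iff {ζ : K} (h1 : ζ ≠ 1) (hζ : ζ * star ζ = 1) (g : GU K n) :
    (QuotientGroup.mk g : PGU K n) = 1 ↔ ∃ c : K, (g : Matrix (Fin n) (Fin n) K) = c • 1 := by
  rw [QuotientGroup.eq_one_iff]
  exact H296.mem_center_iff h1 hζ g

lemma eW_full {ζ : K} (h1 : ζ ≠ 1) (hζ : ζ * star ζ = 1) {w : List (Ln K n)} (h : Orth w)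
    (hl : w.length = n) : eW ζ w = 1 := by
  unfold eW
  rw [mk_one_iff h1 hζ, eU_coe hζ (o_isP h), o_one h hl]
  exact ⟨ζ, by rw [sub_smul, one_smul]; abel⟩

lemma eW_comm {ζ : K} (hζ : ζ * star ζ = 1) {u v : List (Ln K n)} (h : Orth (u ++ v)) :
    eW ζ u * eW ζ v = eW ζ v * eW ζ u := by
  have h' : Orth (v ++ u) := o_perm h List.perm_append_comm
  rw [← eW_append hζ h, ← eW_append hζ h']
  unfold eW
  rw [sm_append, sm_append, add_comm]

lemma eW_pow {ζ : K} (hζ : ζ * star ζ = 1) {p : ℕ} (hp : ζ ^ p = 1) {u : List (Ln K n)}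
    (h : Orth u) : eW ζ u ^ p = 1 := by
  have key : ∀ k : ℕ, ((eU ζ (sm u) ^ k : GU K n) : Matrix (Fin n) (Fin n) K) =
      1 + (ζ ^ k - 1) • sm u := by
    intro k
    induction k with
    | zero => simp
    | succ k ih =>
      rw [pow_succ, UnitaryGroup.mul_val, ih, eU_coe hζ (o_isP h), mul_add, mul_one, add_mul,
        one_mul, smul_mul_smul_comm, o_idem h, add_assoc, ← add_smul, ← add_smul]
      congr 2
      ring
  unfold eW
  rw [← QuotientGroup.mk_pow]
  have : (eU ζ (sm u) ^ p : GU K n) = 1 := by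
    apply Subtype.ext
    rw [key, hp]
    simp
  rw [this, QuotientGroup.mk_one]

/-- the elements of the words in the letters of `w` -/
lemma eW_mem_SS {ζ : K} (hζ : ζ * star ζ = 1) {w u : List (Ln K n)} (hu : Orth u)
    (h : ∀ x ∈ u, x ∈ w) : eW ζ u ∈ SS (eW ζ) w := by
  induction u with
  | nil => rw [eW_nil hζ]; exact Subgroup.one_mem _
  | cons x u ih =>
    rw [eW_cons hζ hu]
    refine Subgroup.mul_mem _ (Subgroup.subset_closure ⟨x, h x (by simp), rfl⟩) ?_
    exact ih (List.pairwise_cons.1 hu).2 fun y hy => h y (by simp [hy])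

lemma closure_prefix {ζ : K} (hζ : ζ * star ζ = 1) {w : List (Ln K n)} (hw : Orth w) :
    Subgroup.closure {y | ∃ u v, w = u ++ v ∧ y = eW ζ u} = SS (eW ζ) w := by
  apply le_antisymm
  · rw [Subgroup.closure_le]
    rintro y ⟨u, v, rfl, rfl⟩
    exact eW_mem_SS hζ (o_append.1 hw).1 fun x hx => by simp [hx]
  · unfold SS
    rw [Subgroup.closure_le]
    rintro y ⟨x, hx, rfl⟩
    obtain ⟨u, v, rfl⟩ := List.append_of_mem hx
    have e1 : u ++ x :: v = (u ++ [x]) ++ v := by simp
    have h1 : Orth (u ++ [x]) := (o_append.1 (e1 ▸ hw)).1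
    have h2 : eW ζ [x] = (eW ζ u)⁻¹ * eW ζ (u ++ [x]) := by
      rw [eW_append hζ h1, inv_mul_cancel_left]
    rw [SetLike.mem_coe, h2]
    exact Subgroup.mul_mem _ (Subgroup.inv_mem _ (Subgroup.subset_closure ⟨u, _, rfl, rfl⟩))
      (Subgroup.subset_closure ⟨u ++ [x], v, e1, rfl⟩)

end group

end

end Vale.Agent.P240.R2.H275
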