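import Vale.Agent.P240.R2.H275.M4c2
import Vale.Agent.P240.R2.H296.StmtsB

/-!
# B2: the elements `e W` for the trivial star, `ζ = -1`
-/

set_option autoImplicit false
set_option linter.all false

namespace Vale.Agent.P240.R2.H275

open Vale.Agent.P240.R2.AS

universe u

/-- **B2** -/
theorem stmtB2 : StmtB2.{u} := by
  intro K _ _ _ hs hodd n hn
  haveI : Fact (Nat.Prime 2) := ⟨Nat.prime_two⟩
  have hne : (-1 : K) ≠ 1 := by
    intro h
    have h2 : (2 : ℕ) • (1 : K) = 0 := by
      rw [two_nsmul]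
      nth_rewrite 1 [← h]
      exact neg_add_cancel 1
    have h3 : addOrderOf (1 : K) = 2 := addOrderOf_eq_prime h2 one_ne_zero
    have h4 : 2 ∣ Nat.card K := h3 ▸ addOrderOf_dvd_natCard (1 : K)
    exact (Nat.not_even_iff_odd.2 hodd) (even_iff_two_dvd.2 h4)
  exact comb_eW (by ring) hne (by rw [hs]; ring) hn

end Vale.Agent.P240.R2.H275
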