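import Vale.Agent.P240.R2.H275.Step
import Vale.Agent.P240.R2.H275.Core
import Vale.Agent.P240.H195.CFTop

/-!
Groups with components satisfying `JumpSub`, in characteristic `p`.
-/

namespace Vale.Agent.P240.R2.H275

open Subgroup Vale.Agent.P240.K Vale.Agent.P240.H195 Finsupp

universe u v

section
variable {G : Type u} [Group G] {p : ℕ}

/-- **Elimination** of a conjugation-stable set of components satisfying `JumpSub` -/
theorem qd_comps {𝕜 : Type v} [Field 𝕜] [hp : Fact p.Prime] [Finite G] (hchar : (p : 𝕜) = 0)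
    (hO : OpTrivial p G) (hO' : OpPrimeTrivial p G) {D : Set (Subgroup G)} (hD : D ⊆ Q.Comp G)
    (hconj : ∀ L ∈ D, ∀ g : G, L.map (MulAut.conj g).toMonoidHom ∈ D)
    (hQ : ∀ L ∈ D, JumpSub 𝕜 p L)
    (h : HQ 𝕜 p (⨅ L ∈ D, centralizer (L : Set G) : Subgroup G)) : HQ 𝕜 p G := by
  have hF := comp_family hO hO'
  have hC : (⨅ L ∈ D, centralizer (L : Set G) : Subgroup G) =
      centralizer ((sSup D : Subgroup G) : Set G) := by
    ext x
    rw [mem_cent_sSup]
    simp only [Subgroup.mem_iInf]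
  rw [hC, HQ_sub_iff] at h
  rw [HQ_iff]
  exact qd_family hchar hconj (fun L hL M hM => hF.comm L (hD hL) M (hD hM))
    (fun L hL => hF.centre L (hD hL)) (fun L hL => hF.dvd L (hD hL)) (fun L hL => (hQ L hL).qdl) h

lemma treated_cases {𝕜 : Type v} [Field 𝕜] [hp : Fact p.Prime] [Finite G] {l : ℕ} (hl : l.Prime)
    {L : Subgroup G} (hd : p ∣ Nat.card L) (hc : L ⊓ centralizer (L : Set G) = ⊥)
    (h : Treated 𝕜 p l L) : Removable 𝕜 p L ∨ (l ≠ p ∧ (AO p l L ∨ FreeSub p l L)) := by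
  by_cases hlp : l = p
  · subst hlp
    left
    rcases h with h3 | ⟨h3, h4⟩ | ⟨r, hr, hrp, h3, h4⟩ | ⟨h3, h4⟩ | h3 | h3
    · exact removable_alt h3
    · rcases h4 with h4 | ⟨h4, -⟩
      · exact Or.inl ⟨fewOuter_of_same h4, almostSimpleHQ_char h3 hp.out h4⟩
      · exact absurd rfl h4
    · have hfree : AutFree l r L := h3.autFree hr hp.out hrp.symm
      rcases h4 with h4 | h4 | h4
      · exact absurd h4 hrp
      · exact Or.inr ⟨r, hr, hrp, h4, hfree.freeSub⟩
      · exact Or.inl ⟨h4, hfree.almostSimpleHQ hr⟩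
    · rcases h4 with ⟨r, hr, h4⟩ | h4
      · exact Or.inl ⟨h3, h4.almostSimpleHQ hr⟩
      · exact Or.inl ⟨h3, h4⟩
    · exact (freeSub_self hd hc h3).elim
    · exact Or.inr h3
  · rcases h with h3 | ⟨h3, h4⟩ | ⟨r, hr, hrp, h3, h4⟩ | ⟨h3, h4⟩ | h3 | h3
    · exact Or.inl (removable_alt h3)
    · rcases h4 with h4 | ⟨h4, h5⟩
      · exact Or.inl (Or.inl ⟨fewOuter_of_same h4, almostSimpleHQ_char h3 hp.out h4⟩)
      · exact Or.inr ⟨h4, Or.inl (ao_char hl h4 h3 h5)⟩
    · have hfree : AutFree p r L := h3.autFree hr hp.out hrp.symm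
      rcases h4 with h4 | h4 | h4
      · subst h4
        exact Or.inr ⟨hlp, Or.inr hfree.freeSub⟩
      · exact Or.inl (Or.inr ⟨r, hr, hrp, h4, hfree.freeSub⟩)
      · exact Or.inl (Or.inl ⟨h4, hfree.almostSimpleHQ hr⟩)
    · rcases h4 with ⟨r, hr, h4⟩ | h4
      · exact Or.inl (Or.inl ⟨h3, h4.almostSimpleHQ hr⟩)
      · exact Or.inl (Or.inl ⟨h3, h4⟩)
    · exact Or.inr ⟨hlp, Or.inr h3⟩
    · exact Or.inl (Or.inr h3)

/-- the combination of all steps, for a conjugation invariant property `P` of components which is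
sufficient for the remaining ones -/
theorem combine {𝕜 : Type v} [Field 𝕜] [hp : Fact p.Prime] [Finite G] (hchar : (p : 𝕜) = 0)
    (hO : OpTrivial p G) (hO' : OpPrimeTrivial p G) {P : Subgroup G → Prop}
    (hP : ∀ (L : Subgroup G) (g : G), P L → P (cj g L))
    (hcore : ∀ T : Set (Subgroup G), T ⊆ Q.Comp G →
      (∀ (L : Subgroup G) (g : G), cj g L ∈ T → L ∈ T) →
      (∀ L ∈ Q.Comp G, L ∉ T → P L) → NA 𝕜 (Ain p (Cen T)))
    (h : ∀ L ∈ Q.Comp G, RigidLie p L ∨ QDL 𝕜 p L ∨ Removable 𝕜 p L ∨ P L) : HQ 𝕜 p G := by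
  classical
  have hF := comp_family hO hO'
  have hPi : ∀ (L : Subgroup G) (g : G), P (cj g L) → P L := by
    intro L g h1
    have h2 := hP _ g⁻¹ h1
    rwa [cj_inv_cj] at h2
  have hQi : ∀ (L : Subgroup G) (g : G), QDL 𝕜 p (cj g L) → QDL 𝕜 p L := by
    intro L g h1
    have h2 := QDL_cj h1 g⁻¹
    rwa [cj_inv_cj] at h2
  have hCi : ∀ (L : Subgroup G) (g : G), cj g L ∈ Q.Comp G → L ∈ Q.Comp G := by
    intro L g h1
    have h2 := hF.conj _ h1 g⁻¹
    have h3 : cj g⁻¹ (cj g L) ∈ Q.Comp G := h2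
    rwa [cj_inv_cj] at h3
  rw [HQ_iff]
  set RR : Set (Subgroup G) := {L | L ∈ Q.Comp G ∧ RigidLie p L} with hRR
  set QQ : Set (Subgroup G) := {L | L ∈ Q.Comp G ∧ ¬ RigidLie p L ∧ QDL 𝕜 p L} with hQQ
  set TT : Set (Subgroup G) := {L | L ∈ Q.Comp G ∧ ¬ RigidLie p L ∧ ¬ QDL 𝕜 p L ∧ ¬ P L} with hTT
  have hTsub : TT ⊆ Q.Comp G := fun L hL => hL.1
  refine remove hF (T := TT) hTsub (fun L hL => ?_) ?_
  · rcases h L hL.1 with h1 | h1 | h1 | h1
    · exact absurd h1 hL.2.1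
    · exact absurd h1 hL.2.2.1
    · exact h1
    · exact absurd h1 hL.2.2.2
  refine rigid_step (R := RR) (fun L hL => hF.le_Cen hTsub hL.1 fun hcon => hcon.2.1 hL.2)
    (fun g _ L hL => ⟨hF.conj L hL.1 g, rigidLie_cj hL.2⟩)
    (fun L hL M hM => hF.comm L hL.1 M hM.1) (fun L hL => hL.2) ?_
  rw [← Cen_union]
  have hUR : TT ∪ RR ⊆ Q.Comp G := Set.union_subset hTsub fun L hL => hL.1
  refine qd_step hchar (R := QQ) (fun L hL => hF.le_Cen hUR hL.1 ?_) (fun g _ M hM => ?_)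
    (fun L hL M hM => hF.comm L hL.1 M hM.1) (fun L hL => hF.centre L hL.1)
    (fun L hL => hF.dvd L hL.1) (fun L hL => hL.2.2) ?_
  · rintro (hcon | hcon)
    · exact hcon.2.2.1 hL.2.2
    · exact hL.2.1 hcon.2
  · exact ⟨hF.conj M hM.1 g, fun hcon => hM.2.1 (rigidLie_cj_iff.1 hcon), QDL_cj hM.2.2 g⟩
  rw [← Cen_union]
  refine hcore _ (Set.union_subset hUR fun L hL => hL.1) ?_ ?_
  · rintro L g ((⟨h1, h2, h3, h4⟩ | ⟨h1, h2⟩) | ⟨h1, h2, h3⟩)
    · exact Or.inl (Or.inl ⟨hCi L g h1, fun hcon => h2 (rigidLie_cj hcon),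
        fun hcon => h3 (QDL_cj hcon g), fun hcon => h4 (hP L g hcon)⟩)
    · exact Or.inl (Or.inr ⟨hCi L g h1, rigidLie_cj_iff.1 h2⟩)
    · exact Or.inr ⟨hCi L g h1, fun hcon => h2 (rigidLie_cj hcon), hQi L g h3⟩
  · intro L hL hLT
    by_contra hcon
    apply hLT
    by_cases h1 : RigidLie p L
    · exact Or.inl (Or.inr ⟨hL, h1⟩)
    · by_cases h2 : QDL 𝕜 p L
      · exact Or.inr ⟨hL, h1, h2⟩
      · exact Or.inl (Or.inl ⟨hL, h1, h2, hcon⟩)

/-- **The main theorem** for groups with `O_p(G) = O_{p'}(G) = 1`, in characteristic `p`. -/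
theorem qd_main {𝕜 : Type v} [Field 𝕜] [hp : Fact p.Prime] [Finite G] (hchar : (p : 𝕜) = 0) {l : ℕ}
    (hO : OpTrivial p G) (hO' : OpPrimeTrivial p G) (hl : l.Prime)
    (h : ∀ L ∈ Q.Comp G, GoodComp 𝕜 p l L ∨ JumpSub 𝕜 p L) : HQ 𝕜 p G := by
  have hF := comp_family hO hO'
  by_cases hlp : l = p
  · refine combine hchar hO hO' (P := fun L => EuSub p L ∨ RegFree p L) ?_
      (fun T hT hTc hTP => reg_core hO hO' hT hTc hTP) fun L hL => ?_
    · rintro L g (h1 | h1)
      · exact Or.inl (h1.cj g)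
      · exact Or.inr (h1.congr
          (L.equivMapOfInjective (MulAut.conj g).toMonoidHom (MulAut.conj g).injective))
    · rcases h L hL with (h1 | h1 | h1 | ⟨-, h1⟩) | h1
      · exact Or.inl h1
      · rcases treated_cases hl (hF.dvd L hL) (hF.centre L hL) h1 with h2 | ⟨h2, -⟩
        · exact Or.inr (Or.inr (Or.inl h2))
        · exact absurd hlp h2
      · exact Or.inr (Or.inr (Or.inr (Or.inl h1)))
      · exact Or.inr (Or.inr (Or.inr (Or.inr h1)))
      · exact Or.inr (Or.inl h1.qdl)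
  · refine combine hchar hO hO' (P := fun L => (AO p l L ∨ FreeSub p l L) ∨ EuSub p L) ?_
      (fun T hT hTc hTP => eu_core hO hO' hl hT hTc hTP) fun L hL => ?_
    · rintro L g ((h1 | h1) | h1)
      · exact Or.inl (Or.inl (h1.cj g))
      · exact Or.inl (Or.inr (H148.freeSub_cj h1 g))
      · exact Or.inr (h1.cj g)
    · rcases h L hL with (h1 | h1 | h1 | ⟨h1, -⟩) | h1
      · exact Or.inl h1
      · rcases treated_cases hl (hF.dvd L hL) (hF.centre L hL) h1 with h2 | ⟨-, h2⟩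
        · exact Or.inr (Or.inr (Or.inl h2))
        · exact Or.inr (Or.inr (Or.inr (Or.inl h2)))
      · exact Or.inr (Or.inr (Or.inr (Or.inr h1)))
      · exact absurd h1 hlp
      · exact Or.inr (Or.inl h1.qdl)

/-- **The main theorem** in terms of composition factors, in characteristic `p`. -/
theorem qd_factors {𝕜 : Type v} [Field 𝕜] [hp : Fact p.Prime] [Finite G] (hchar : (p : 𝕜) = 0)
    {l : ℕ} (hl : l.Prime) (hO : OpTrivial p G)
    (h : ∀ (L : Type u) [Group L], CompFactor G L →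
      GoodFactor 𝕜 p l L ∨ (p ∣ Nat.card L ∧ JumpQD 𝕜 p L)) : HQ 𝕜 p G := by
  obtain ⟨N, hNn, hN, hmax⟩ := l2_exists_pprime (p := p) (H := G)
  have hsol : SolvableFaithful p N := by
    refine solvableFaithful_of hN fun L _ hL => ?_
    have hfin : Finite L := by
      obtain ⟨-, -, A, f, -, hf⟩ := hL
      exact Finite.of_surjective f hf
    have hd : ¬ p ∣ Nat.card L := by
      obtain ⟨-, -, A, f, -, hf⟩ := hL
      intro hd
      exact hN (hd.trans ((Subgroup.card_dvd_of_surjective f hf).trans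
        (Subgroup.card_subgroup_dvd_card A)))
    exact ((h L (hL.of_sub hNn.isSubnormal)).resolve_right fun hcon => hd hcon.1).autFree hd
  have hO1 := reduced_op hO N hN
  have hO2 := reduced_op' N hN hmax
  refine reduce_all N hN hsol ?_
  refine qd_main hchar hO1 hO2 hl fun L hL => ?_
  have h1 : CompFactor (Reduced N) L := comp_factor hO1 hO2 hL
  have h2 : CompFactor (centralizer (N : Set G)) L :=
    h1.of_map (QuotientGroup.mk' _) (QuotientGroup.mk'_surjective _)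
  have h3 : CompFactor G L :=
    h2.of_sub (inferInstance : (centralizer (N : Set G)).Normal).isSubnormal
  rcases h L h3 with h4 | ⟨-, h4⟩
  · exact Or.inl (h4.treated (l2_dvd hO2 L hL))
  · exact Or.inr h4.sub

end

end Vale.Agent.P240.R2.H275
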