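import Vale.Agent.P240.R2.H687.OddDefs
import Vale.Agent.P240.R2.H698.Graph

/-!
OG: a cycle of rank two in `N⟨t⟩`, the graph lemma for odd primes.
-/

set_option autoImplicit false
set_option linter.all false

namespace Vale.Agent.P240.R2.H275.OG

open Finsupp hiding cons
open Subgroup Vale.Agent.P240.K
open Vale.Agent.P240.R2.H698 (Cy card_le_Cy)
open scoped Classical

universe u v

noncomputable section

variable {G : Type u} [Group G] {p : ℕ} {N : Subgroup G} {t : G}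

/-- the pairs `(c, y)` -/
structure Ok (p : ℕ) (N : Subgroup G) (t : G) (x : G × G) : Prop where
  c_mem : x.1 ∈ N
  c_pow : x.1 ^ p = 1
  c_ne : x.1 ≠ 1
  y_mem : x.2 * t⁻¹ ∈ N
  y_pow : x.2 ^ p = 1
  com : x.1 * x.2 = x.2 * x.1

/-- the group of a pair -/
def Vx (x : G × G) : Subgroup G := zpowers x.1 ⊔ zpowers x.2

lemma Ok.y_not {x : G × G} (h : Ok p N t x) (ht : t ∉ N) : x.2 ∉ N := by
  intro hy
  apply ht
  have h1 := N.mul_mem (N.inv_mem h.y_mem) hy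
  have h2 : (x.2 * t⁻¹)⁻¹ * x.2 = t := by group
  rwa [h2] at h1

lemma Ok.z_com {x : G × G} (h : Ok p N t x) : ∀ a ∈ zpowers x.1, ∀ b ∈ zpowers x.2, a * b = b * a := by
  intro a ha b hb
  obtain ⟨i, rfl⟩ := mem_zpowers_iff.1 ha
  obtain ⟨j, rfl⟩ := mem_zpowers_iff.1 hb
  have : Commute x.1 x.2 := h.com
  exact (this.zpow_zpow i j)

lemma Ok.mem_Vx {x : G × G} (h : Ok p N t x) {u : G} (hu : u ∈ Vx x) :
    ∃ i j : ℤ, u = x.1 ^ i * x.2 ^ j := by
  obtain ⟨a, ha, b, hb, rfl⟩ := H487.mem_sup_comm h.z_com hu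
  obtain ⟨i, rfl⟩ := mem_zpowers_iff.1 ha
  obtain ⟨j, rfl⟩ := mem_zpowers_iff.1 hb
  exact ⟨i, j, rfl⟩

lemma c_mem_Vx (x : G × G) : x.1 ∈ Vx x := mem_sup_left (mem_zpowers _)

lemma y_mem_Vx (x : G × G) : x.2 ∈ Vx x := mem_sup_right (mem_zpowers _)

variable [hp : Fact p.Prime]

lemma zp_mem {y : G} (hy : y ^ p = 1) (hN : y ∉ N) {j : ℤ} (h : y ^ j ∈ N) : y ^ j = 1 := by
  have h1 : y ^ j ∈ zpowers y ⊓ N := ⟨zpow_mem (mem_zpowers y) j, h⟩
  rwa [H945.inf_zpowers hy hN, mem_bot] at h1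

lemma Ok.eq_of_zp {x : G × G} (h : Ok p N t x) (ht : t ∉ N) {y : G} (hy : y * t⁻¹ ∈ N)
    (hyz : y ∈ zpowers x.2) : y = x.2 := by
  obtain ⟨j, rfl⟩ := mem_zpowers_iff.1 hyz
  have h1 : x.2 ^ (j - 1) ∈ N := by
    have h2 := N.mul_mem hy (N.inv_mem h.y_mem)
    have h3 : x.2 ^ j * t⁻¹ * (x.2 * t⁻¹)⁻¹ = x.2 ^ (j - 1) := by
      rw [mul_inv_rev, inv_inv, zpow_sub_one]; group
    rwa [h3] at h2
  have h4 := zp_mem h.y_pow (h.y_not ht) h1
  rw [zpow_sub_one, mul_inv_eq_one] at h4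
  exact h4

lemma Ok.inf {x : G × G} (h : Ok p N t x) (ht : t ∉ N) {u : G} (hu : u ∈ Vx x) (huN : u ∈ N) :
    u ∈ zpowers x.1 := by
  obtain ⟨i, j, rfl⟩ := h.mem_Vx hu
  have h1 : x.2 ^ j ∈ N := by
    have h2 := N.mul_mem (N.inv_mem (N.zpow_mem h.c_mem i)) huN
    rwa [inv_mul_cancel_left] at h2
  rw [zp_mem h.y_pow (h.y_not ht) h1, mul_one]
  exact zpow_mem (mem_zpowers _) i

lemma Ok.ApS {x : G × G} (h : Ok p N t x) : Vx x ∈ ApS p G := by
  have hc : Commute x.1 x.2 := h.com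
  refine ⟨fun hb => h.c_ne ?_, ?_, ?_⟩
  · have := c_mem_Vx x
    rwa [hb, mem_bot] at this
  · intro a ha b hb
    obtain ⟨i, j, rfl⟩ := h.mem_Vx ha
    obtain ⟨i', j', rfl⟩ := h.mem_Vx hb
    have h1 : Commute (x.1 ^ i) (x.1 ^ i' * x.2 ^ j') :=
      (((Commute.refl x.1).zpow_zpow i i')).mul_right (hc.zpow_zpow i j')
    have h2 : Commute (x.2 ^ j) (x.1 ^ i' * x.2 ^ j') :=
      ((hc.symm.zpow_zpow j i')).mul_right ((Commute.refl x.2).zpow_zpow j j')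
    exact h1.mul_left h2
  · intro a ha
    obtain ⟨i, j, rfl⟩ := h.mem_Vx ha
    rw [(hc.zpow_zpow i j).mul_pow, ← zpow_natCast, ← zpow_natCast, ← zpow_mul, ← zpow_mul,
      mul_comm i, mul_comm j, zpow_mul, zpow_mul, zpow_natCast, zpow_natCast, h.c_pow, h.y_pow,
      one_zpow, one_zpow, mul_one]

lemma Ok.le {x : G × G} (h : Ok p N t x) : Vx x ≤ N ⊔ zpowers t := by
  refine sup_le ?_ ?_
  · rw [zpowers_le]
    exact mem_sup_left h.c_mem
  · rw [zpowers_le]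
    have : x.2 = (x.2 * t⁻¹) * t := by group
    rw [this]
    exact mul_mem (mem_sup_left h.y_mem) (mem_sup_right (mem_zpowers t))

lemma Ok.card_Vx [Finite G] {x : G × G} (h : Ok p N t x) (ht : t ∉ N) : Nat.card (Vx x) = p ^ 2 := by
  have h1 := H945.card_sup (F := zpowers x.2) (B := zpowers x.1) (N := N)
    (H945.inf_zpowers h.y_pow (h.y_not ht)) (by
      refine le_inf ?_ ?_
      · rw [zpowers_le]; exact h.c_mem
      · intro a ha
        rw [mem_centralizer_iff]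
        intro b hb
        exact (h.z_com a ha b hb).symm)
  have h2 : Vx x = zpowers x.2 ⊔ zpowers x.1 := sup_comm _ _
  rw [h2, h1, H945.card_zpowers' h.y_pow (h.y_not ht), Nat.card_zpowers, orderOf_eq_prime h.c_pow h.c_ne,
    pow_two]

/-- moving `y` inside the group -/
lemma Ok.mv {x : G × G} (h : Ok p N t x) (i : ℕ) : Ok p N t (x.1, x.1 ^ i * x.2) := by
  refine ⟨h.c_mem, h.c_pow, h.c_ne, ?_, ?_, ?_⟩
  · show x.1 ^ i * x.2 * t⁻¹ ∈ N
    rw [mul_assoc]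
    exact mul_mem (N.pow_mem h.c_mem i) h.y_mem
  · have hc : Commute x.1 x.2 := h.com
    show (x.1 ^ i * x.2) ^ p = 1
    rw [(hc.pow_left i).mul_pow, ← pow_mul, mul_comm i, pow_mul, h.c_pow, one_pow, h.y_pow, mul_one]
  · have hc : Commute x.1 x.2 := h.com
    have : Commute x.1 (x.1 ^ i * x.2) := ((Commute.refl x.1).pow_right i).mul_right hc
    exact this

lemma Vx_mv (x : G × G) (i : ℕ) : Vx (x.1, x.1 ^ i * x.2) = Vx x := by
  apply le_antisymm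
  · refine sup_le le_sup_left ?_
    rw [zpowers_le]
    exact mul_mem (pow_mem (c_mem_Vx x) i) (y_mem_Vx x)
  · refine sup_le le_sup_left ?_
    rw [zpowers_le]
    have h2 := mul_mem (inv_mem (pow_mem (c_mem_Vx (x.1, x.1 ^ i * x.2)) i))
      (y_mem_Vx (x.1, x.1 ^ i * x.2))
    have h1 : (x.1 ^ i)⁻¹ * (x.1 ^ i * x.2) = x.2 := inv_mul_cancel_left _ _
    have h3 : (x.1 ^ i)⁻¹ * (x.1 ^ i * x.2) ∈ Vx (x.1, x.1 ^ i * x.2) := h2
    rw [h1] at h3
    exact h3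

variable [Finite G]

/-- the pairs as a finite set -/
def Pr (p : ℕ) (N : Subgroup G) (t : G) : Finset (G × G) :=
  (Set.toFinite {x : G × G | Ok p N t x}).toFinset

omit hp in
lemma mem_Pr {x : G × G} : x ∈ Pr p N t ↔ Ok p N t x := Set.Finite.mem_toFinset _

/-- the flags -/
def Fl (p : ℕ) (N : Subgroup G) (t : G) : Finset (Subgroup G × Subgroup G) :=
  (Pr p N t).image fun x => (Vx x, zpowers x.2)

lemma three (hp2 : p ≠ 2) (ht : t ∉ N) :
    3 * ((Fl p N t).image Prod.fst).card ≤ (Fl p N t).card := by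
  rw [Finset.card_eq_sum_card_image Prod.fst (Fl p N t), mul_comm, ← smul_eq_mul]
  refine Finset.card_nsmul_le_sum _ _ _ fun A hA => ?_
  obtain ⟨_, hf, rfl⟩ := Finset.mem_image.1 hA
  obtain ⟨x, hx, rfl⟩ := Finset.mem_image.1 hf
  rw [mem_Pr] at hx
  have h3 : 3 ≤ p := by
    have := hp.out.two_le
    omega
  have ho : orderOf x.1 = p := orderOf_eq_prime hx.c_pow hx.c_ne
  let g : ℕ → Subgroup G × Subgroup G := fun i => (Vx x, zpowers (x.1 ^ i * x.2))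
  have hg : Set.InjOn g (Finset.range 3 : Set ℕ) := by
    intro i hi j hj hij
    have hi' : i < 3 := by simpa using hi
    have hj' : j < 3 := by simpa using hj
    have h1 : zpowers (x.1 ^ i * x.2) = zpowers (x.1 ^ j * x.2) := (Prod.mk.inj hij).2
    have h2 : x.1 ^ i * x.2 ∈ zpowers (x.1 ^ j * x.2) := by rw [← h1]; exact mem_zpowers _
    have h4 := (hx.mv j).eq_of_zp ht (hx.mv i).y_mem h2
    have h5 : x.1 ^ i = x.1 ^ j := mul_right_cancel h4
    exact pow_injOn_Iio_orderOf (by rw [ho]; exact Set.mem_Iio.2 (by omega))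
      (by rw [ho]; exact Set.mem_Iio.2 (by omega)) h5
  have h6 : (Finset.image g (Finset.range 3)) ⊆
      (Fl p N t).filter (fun a => a.1 = Vx x) := by
    intro a ha
    obtain ⟨i, -, rfl⟩ := Finset.mem_image.1 ha
    refine Finset.mem_filter.2 ⟨?_, rfl⟩
    refine Finset.mem_image.2 ⟨(x.1, x.1 ^ i * x.2), mem_Pr.2 (hx.mv i), ?_⟩
    show (Vx (x.1, x.1 ^ i * x.2), zpowers (x.1 ^ i * x.2)) = (Vx x, zpowers (x.1 ^ i * x.2))
    rw [Vx_mv]
  have h7 := Finset.card_le_card h6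
  rw [Finset.card_image_of_injOn hg, Finset.card_range] at h7
  exact h7

lemma two (ht : t ∉ N)
    (h2 : ∀ y, y * t⁻¹ ∈ N → y ^ p = 1 → ∀ c ∈ N, c ^ p = 1 → c ≠ 1 → c * y = y * c →
      ∃ c' ∈ N, c' ^ p = 1 ∧ c' * y = y * c' ∧ c' ∉ zpowers c) :
    2 * ((Fl p N t).image Prod.snd).card ≤ (Fl p N t).card := by
  rw [Finset.card_eq_sum_card_image Prod.snd (Fl p N t), mul_comm, ← smul_eq_mul]
  refine Finset.card_nsmul_le_sum _ _ _ fun A hA => ?_
  obtain ⟨_, hf, rfl⟩ := Finset.mem_image.1 hA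
  obtain ⟨x, hx, rfl⟩ := Finset.mem_image.1 hf
  rw [mem_Pr] at hx
  obtain ⟨c', k1, k2, k3, k4⟩ := h2 x.2 hx.y_mem hx.y_pow x.1 hx.c_mem hx.c_pow hx.c_ne hx.com
  have k5 : c' ≠ 1 := by
    rintro rfl
    exact k4 (one_mem _)
  have hx' : Ok p N t (c', x.2) := ⟨k1, k2, k5, hx.y_mem, hx.y_pow, k3⟩
  have hne : Vx x ≠ Vx (c', x.2) := by
    intro h
    apply k4
    apply hx.inf ht _ k1
    rw [h]
    exact c_mem_Vx (c', x.2)
  have h6 : ({(Vx x, zpowers x.2), (Vx (c', x.2), zpowers x.2)} : Finset _) ⊆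
      (Fl p N t).filter (fun a => a.2 = zpowers x.2) := by
    intro a ha
    rcases Finset.mem_insert.1 ha with rfl | ha
    · exact Finset.mem_filter.2 ⟨Finset.mem_image.2 ⟨x, mem_Pr.2 hx, rfl⟩, rfl⟩
    · rw [Finset.mem_singleton.1 ha]
      exact Finset.mem_filter.2 ⟨Finset.mem_image.2 ⟨(c', x.2), mem_Pr.2 hx', rfl⟩, rfl⟩
  have h7 := Finset.card_le_card h6
  rw [Finset.card_pair (fun h => hne (Prod.mk.inj h).1)] at h7
  exact h7

end

end Vale.Agent.P240.R2.H275.OG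

namespace Vale.Agent.P240.R2.H275

open Subgroup Vale.Agent.P240.K OG
open Vale.Agent.P240.R2.H698 (Cy card_le_Cy)
open scoped Classical

universe u v

theorem stmtOG : H687.Odd.StmtOG.{u, v} := by
  intro p _ hp2 𝕜 _ G _ _ N t htp ht _ hc h2
  obtain ⟨c, hcN, hcp, hc1, hct⟩ := hc
  have h0 : Ok p N t (c, t) := ⟨hcN, hcp, hc1, by
    show t * t⁻¹ ∈ N
    rw [mul_inv_cancel]; exact one_mem _, htp, hct⟩
  have e1 := three (N := N) hp2 ht
  have e2 := two (p := p) ht h2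
  have e3 : 0 < (Fl p N t).card :=
    Finset.card_pos.2 ⟨_, Finset.mem_image.2 ⟨_, mem_Pr.2 h0, rfl⟩⟩
  have e4 := card_le_Cy (Fl p N t)
  have e5 : 0 < Module.finrank ℚ (Cy (Fl p N t)) := by omega
  obtain ⟨z, hz⟩ := (Module.finrank_pos_iff_exists_ne_zero (R := ℚ)).1 e5
  obtain ⟨B, ⟨x, hx, rfl⟩, α, φ, h3, -⟩ := H945.topCycle_of_rat (p := p) 𝕜
    (H := N ⊔ zpowers t) (m := 2) (T := {B | ∃ x, Ok p N t x ∧ B = Vx x}) (by
      rintro _ ⟨x, hx, rfl⟩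
      exact hx.card_Vx ht) (c := z.1) (by
      refine Sp_mono ?_ z.2.1
      rintro l ⟨a, ha, rfl⟩
      obtain ⟨x, hx, rfl⟩ := Finset.mem_image.1 ha
      rw [mem_Pr] at hx
      refine ⟨⟨⟨?_, ?_⟩, rfl⟩, Vx x, ⟨x, hx, rfl⟩, rfl⟩
      · have hlt : zpowers x.2 < Vx x := by
          refine lt_of_le_of_ne (zpowers_le.2 (y_mem_Vx x)) fun h => hx.c_ne ?_
          have h5 : x.1 ∈ zpowers x.2 := by rw [h]; exact c_mem_Vx x
          have h6 : x.1 ∈ zpowers x.2 ⊓ N := ⟨h5, hx.c_mem⟩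
          rwa [H945.inf_zpowers hx.y_pow (hx.y_not ht), mem_bot] at h6
        simpa using hlt
      · intro a ha
        rcases List.mem_pair.1 ha with rfl | rfl
        · exact ⟨hx.ApS, hx.le⟩
        · refine ⟨⟨fun h => hx.y_not ht ?_, ?_, ?_⟩, (zpowers_le.2 (y_mem_Vx x)).trans hx.le⟩
          · have h5 : x.2 = 1 := zpowers_eq_bot.1 h
            rw [h5]; exact one_mem _
          · intro a ha b hb
            exact hx.ApS.2.1 a (zpowers_le.2 (y_mem_Vx x) ha) b (zpowers_le.2 (y_mem_Vx x) hb)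
          · intro a ha
            exact hx.ApS.2.2 a (zpowers_le.2 (y_mem_Vx x) ha)) z.2.2
    (fun h0 => hz (Subtype.ext h0))
  exact ⟨x.2, hx.y_mem, hx.y_pow, x.1, hx.c_mem, hx.c_pow, hx.c_ne, hx.com, α, φ, h3⟩

end Vale.Agent.P240.R2.H275
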