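import Vale.Agent.P240.R2.H275.ProdTop

/-!
Groups with `Jp` normalize all factors.
-/

namespace Vale.Agent.P240.R2.H275

open Finsupp Subgroup Vale.Agent.P240.K Vale.Agent.P240.H195

universe u v

variable {𝕜 : Type v} [Field 𝕜] {G : Type u} [Group G] {p : ℕ}

lemma cj_sSup (g : G) (R : Set (Subgroup G)) : cj g (sSup R) = sSup (cj g '' R) := by
  rw [sSup_image, sSup_eq_iSup]
  change Subgroup.map _ _ = _
  rw [Subgroup.map_iSup]
  simp_rw [Subgroup.map_iSup]
  rfl

lemma centre_sSup [Finite G] : ∀ (n : ℕ) (O : Set (Subgroup G)), O.ncard = n →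
    (∀ L ∈ O, ∀ M ∈ O, L ≠ M → ∀ x ∈ L, ∀ y ∈ M, x * y = y * x) →
    (∀ L ∈ O, L ⊓ centralizer (L : Set G) = ⊥) → ∀ z ∈ sSup O,
    (∀ L ∈ O, z ∈ centralizer (L : Set G)) → z = 1 := by
  intro n
  induction n with
  | zero =>
    intro O hn _ _ z hz _
    rw [Set.ncard_eq_zero (Set.toFinite _)] at hn
    subst hn
    rw [sSup_empty, Subgroup.mem_bot] at hz
    exact hz
  | succ n ih =>
    intro O hn hcomm hcen z hz hzc
    obtain ⟨L, hL⟩ : O.Nonempty := by
      rw [Set.nonempty_iff_ne_empty]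
      rintro rfl
      rw [Set.ncard_empty] at hn
      omega
    obtain ⟨O', hO'⟩ : ∃ O', O' = O \ {L} := ⟨_, rfl⟩
    have hO'n : O'.ncard = n := by
      rw [hO', Set.ncard_sdiff_singleton_of_mem hL, hn]
      rfl
    have hO'O : O' ⊆ O := by
      rw [hO']
      exact Set.sdiff_subset
    have hne : ∀ K ∈ O', K ≠ L := by
      intro K hK
      rw [hO'] at hK
      exact fun h => hK.2 h
    have hsup : sSup O = L ⊔ sSup O' := by
      have h1 : O = insert L O' := by
        rw [hO', Set.insert_sdiff_singleton, Set.insert_eq_of_mem hL]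
      conv_lhs => rw [h1]
      rw [sSup_insert]
    have hLO : ∀ x ∈ L, ∀ y ∈ sSup O', x * y = y * x := by
      intro x hx y hy
      have h1 : sSup O' ≤ centralizer {x} := by
        refine sSup_le fun K hK k hk => ?_
        rw [mem_centralizer_singleton_iff]
        exact (hcomm L hL K (hO'O hK) (hne K hK).symm x hx k hk).symm
      exact (mem_centralizer_singleton_iff.1 (h1 hy)).symm
    rw [hsup] at hz
    obtain ⟨l, hl, y, hy, rfl⟩ := mem_sup_norm (comm_le_normalizer hLO) hz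
    have h1 : l ∈ L ⊓ centralizer (L : Set G) := by
      refine mem_inf.2 ⟨hl, mem_centralizer_iff.2 fun x hx => ?_⟩
      have h2 := mem_centralizer_iff.1 (hzc L hL) x hx
      have h3 := hLO x hx y hy
      have h4 : x * l * y = l * x * y := by
        calc x * l * y = x * (l * y) := by group
          _ = l * y * x := h2
          _ = l * (y * x) := by group
          _ = l * (x * y) := by rw [h3]
          _ = l * x * y := by group
      exact mul_right_cancel h4
    rw [hcen L hL, Subgroup.mem_bot] at h1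
    rw [h1, one_mul] at hzc ⊢
    exact ih O' hO'n (fun L hL M hM => hcomm L (hO'O hL) M (hO'O hM))
      (fun L hL => hcen L (hO'O hL)) y hy fun K hK => hzc K (hO'O hK)

theorem normalizes_factors [hp : Fact p.Prime] [Finite G] {R : Set (Subgroup G)} {H : Subgroup G}
    (hconj : ∀ L ∈ R, ∀ g ∈ H, cj g L ∈ R)
    (hcomm : ∀ L ∈ R, ∀ M ∈ R, L ≠ M → ∀ x ∈ L, ∀ y ∈ M, x * y = y * x)
    (hcen : ∀ L ∈ R, L ⊓ centralizer (L : Set G) = ⊥) (hdvd : ∀ L ∈ R, p ∣ Nat.card L)
    (hJ : Jp p (sSup R) H) : ∀ L ∈ R, H ≤ normalizer (L : Set G) := by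
  intro L hL
  by_contra hcon
  obtain ⟨A, ⟨hA, hAH⟩, hmax⟩ := Set.exists_max_image {A : Subgroup G | A ∈ ApB p G ∧ A ≤ H}
    (fun A => Nat.card A) (Set.toFinite _) ⟨⊥, Or.inl rfl, bot_le⟩
  have hgen := hJ.2 A hA hAH fun B hB hBH => hmax B ⟨hB, hBH⟩
  have hMn : ∀ K ∈ R, sSup R ≤ normalizer (K : Set G) := by
    intro K hK
    refine sSup_le fun K' hK' => ?_
    by_cases h : K' = K
    · subst h
      exact le_normalizer
    · exact comm_le_normalizer fun x hx y hy => hcomm K' hK' K hK h x hx y hy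
  have hnA : ¬ A ≤ normalizer (L : Set G) := by
    intro h
    apply hcon
    rw [← hgen]
    exact sup_le h (hMn L hL)
  obtain ⟨a, haA, haL⟩ : ∃ a ∈ A, a ∉ normalizer (L : Set G) := by
    by_contra h
    push Not at h
    exact hnA h
  obtain ⟨B, hBA, hPB, haB, hBs, hBc⟩ := exists_hyper hA
    (inf_le_left : A ⊓ normalizer (L : Set G) ≤ A) haA (fun h => haL h.2)
  set O : Set (Subgroup G) := {K | ∃ h ∈ B, K = cj h L} with hO
  have hOR : O ⊆ R := by
    rintro _ ⟨h, hh, rfl⟩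
    exact hconj L hL h (hAH (hBA hh))
  have hLO : L ∈ O := ⟨1, one_mem _, (cj_one L).symm⟩
  have hBO : ∀ h ∈ B, cj h '' O = O := by
    intro h hh
    ext K
    constructor
    · rintro ⟨_, ⟨b, hb, rfl⟩, rfl⟩
      exact ⟨h * b, mul_mem hh hb, (cj_mul h b L).symm⟩
    · rintro ⟨b, hb, rfl⟩
      refine ⟨cj (h⁻¹ * b) L, ⟨_, mul_mem (inv_mem hh) hb, rfl⟩, ?_⟩
      rw [← cj_mul, mul_inv_cancel_left]
  have hBn : B ≤ normalizer ((sSup O : Subgroup G) : Set G) := by
    intro h hh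
    rw [← cj_eq_iff, cj_sSup, hBO h hh]
  have hd : p ∣ Nat.card (sSup O : Subgroup G) :=
    (hdvd L hL).trans (card_dvd_of_le (le_sSup hLO))
  have hd2 := dvd_card_inf_centralizer (ApB.isPGroup (ApB_of_le hA hBA)) hBn hd
  obtain ⟨⟨z, hzO, hzB⟩, hzo⟩ := exists_prime_orderOf_dvd_card' p hd2
  have hzp : z ^ p = 1 := by
    have h1 := pow_orderOf_eq_one (⟨z, hzO, hzB⟩ : (sSup O ⊓ centralizer (B : Set G) : Subgroup G))
    rw [hzo] at h1
    exact congrArg Subtype.val h1
  have hz1 : z ≠ 1 := by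
    rintro rfl
    have h2 : (⟨1, hzO, hzB⟩ : (sSup O ⊓ centralizer (B : Set G) : Subgroup G)) = 1 := rfl
    rw [h2, orderOf_one] at hzo
    exact hp.out.one_lt.ne hzo
  have hzM : z ∈ sSup R := (sSup_le_sSup hOR) hzO
  -- `z ∉ A`
  have haO : ∀ K ∈ O, cj a K ∉ O := by
    rintro _ ⟨h, hh, rfl⟩ ⟨h', hh', he⟩
    apply haB
    have h1 : cj (h'⁻¹ * a * h) L = L := by
      rw [cj_mul, cj_mul, he, ← cj_mul, inv_mul_cancel, cj_one]
    have h2 : h'⁻¹ * a * h ∈ B := by
      refine hPB (mem_inf.2 ⟨mul_mem (mul_mem (inv_mem (hBA hh')) haA) (hBA hh), cj_eq_iff.1 h1⟩)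
    have h3 : a = h' * (h'⁻¹ * a * h) * h⁻¹ := by group
    rw [h3]
    exact mul_mem (mul_mem hh' h2) (inv_mem hh)
  have hzA : z ∉ A := by
    intro hzA
    apply hz1
    have h1 : z ∈ cj a (sSup O) := by
      rw [mem_cj]
      have h2 := ApB.comm hA a haA z hzA
      have h3 : a⁻¹ * z * a = z := by rw [mul_assoc, ← h2, inv_mul_cancel_left]
      rwa [h3]
    rw [cj_sSup] at h1
    refine centre_sSup _ O rfl (fun L hL M hM => hcomm L (hOR hL) M (hOR hM))
      (fun L hL => hcen L (hOR hL)) z hzO fun K hK => ?_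
    have h2 : sSup (cj a '' O) ≤ centralizer (K : Set G) := by
      refine sSup_le ?_
      rintro _ ⟨K', hK', rfl⟩ x hx
      rw [mem_centralizer_iff]
      intro y hy
      refine hcomm K (hOR hK) (cj a K') (hconj K' (hOR hK') a (hAH haA)) ?_ y hy x hx
      rintro rfl
      exact haO K' hK' hK
    exact h2 h1
  have hcBz : ∀ h ∈ B, h * z = z * h := fun h hh => mem_centralizer_iff.1 hzB h hh
  have hcBz' : ∀ x ∈ B, ∀ y ∈ zpowers z, x * y = y * x := by
    rintro x hx _ ⟨i, rfl⟩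
    exact (Commute.zpow_right (hcBz x hx) i)
  have hzB' : zpowers z ∈ ApB p G := by
    refine mem_ApB ?_ ?_
    · rintro _ ⟨i, rfl⟩ _ ⟨j, rfl⟩
      exact (Commute.refl z).zpow_zpow i j
    · rintro _ ⟨i, rfl⟩
      change (z ^ i) ^ p = 1
      rw [← zpow_natCast, ← zpow_mul, mul_comm, zpow_mul, zpow_natCast, hzp, one_zpow]
  have hV : B ⊔ zpowers z ∈ ApB p G := ApB_sup (ApB_of_le hA hBA) hzB' hcBz'
  have hMH : sSup R ≤ H := hJ.1
  have hVH : B ⊔ zpowers z ≤ H := sup_le (hBA.trans hAH) (zpowers_le.2 (hMH hzM))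
  have hint : B ⊓ zpowers z = ⊥ := by
    rw [eq_bot_iff]
    rintro _ ⟨h1, ⟨i, rfl⟩⟩
    by_contra hne
    exact hzA (mem_of_zpow hzp (hBA h1) hne)
  have hVc : Nat.card (B ⊔ zpowers z : Subgroup G) = Nat.card A := by
    rw [card_sup_of_inf (comm_le_normalizer hcBz') hint, Nat.card_zpowers,
      orderOf_eq_prime hzp hz1, hBc, mul_comm]
  have hgen2 := hJ.2 _ hV hVH fun C hC hCH => by
    rw [hVc]
    exact hmax C ⟨hC, hCH⟩
  have hHn : H ≤ normalizer ((sSup R : Subgroup G) : Set G) := by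
    intro g hg
    rw [← cj_eq_iff]
    have hle : ∀ g ∈ H, cj g (sSup R) ≤ sSup R := by
      intro g hg
      rw [cj_sSup]
      refine sSup_le ?_
      rintro _ ⟨K, hK, rfl⟩
      exact le_sSup (hconj K hK g hg)
    refine le_antisymm (hle g hg) ?_
    have h1 := hle g⁻¹ (inv_mem hg)
    have h2 := cj_le (g := g) |>.2 h1
    rwa [← cj_mul, mul_inv_cancel, cj_one] at h2
  have haV : a ∈ (B ⊔ zpowers z) ⊔ sSup R := by
    rw [hgen2]
    exact hAH haA
  obtain ⟨v, hv, m, hm, ha⟩ := mem_sup_norm (hVH.trans hHn) haV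
  obtain ⟨b, hb, i, rfl⟩ := mem_sup_zpowers hcBz hv
  apply haB
  have h1 : b⁻¹ * a ∈ sSup R := by
    have : b⁻¹ * a = z ^ i * m := by rw [ha]; group
    rw [this]
    exact mul_mem (zpow_mem hzM i) hm
  have h2 : b⁻¹ * a ∈ B := hPB (mem_inf.2 ⟨mul_mem (inv_mem (hBA hb)) haA, hMn L hL h1⟩)
  have h3 : a = b * (b⁻¹ * a) := by group
  rw [h3]
  exact mul_mem hb h2

/-- **Elimination** of a family of factors in characteristic `p` -/
theorem qd_family [hp : Fact p.Prime] [Finite G] (hchar : (p : 𝕜) = 0) {R : Set (Subgroup G)}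
    (hconj : ∀ L ∈ R, ∀ g : G, cj g L ∈ R)
    (hcomm : ∀ L ∈ R, ∀ M ∈ R, L ≠ M → ∀ x ∈ L, ∀ y ∈ M, x * y = y * x)
    (hcen : ∀ L ∈ R, L ⊓ centralizer (L : Set G) = ⊥) (hdvd : ∀ L ∈ R, p ∣ Nat.card L)
    (hQ : ∀ L ∈ R, QDL 𝕜 p L)
    (h : NA 𝕜 (Ain p (centralizer ((sSup R : Subgroup G) : Set G)))) : NA 𝕜 (ApS p G) := by
  have hMn : (sSup R : Subgroup G).Normal := by
    have hn : ∀ g : G, cj g (sSup R) = sSup R := by
      have hle : ∀ g : G, cj g (sSup R) ≤ sSup R := by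
        intro g
        rw [cj_sSup]
        refine sSup_le ?_
        rintro _ ⟨K, hK, rfl⟩
        exact le_sSup (hconj K hK g)
      intro g
      refine le_antisymm (hle g) ?_
      have h1 := hle g⁻¹
      have h2 := cj_le (g := g) |>.2 h1
      rwa [← cj_mul, mul_inv_cancel, cj_one] at h2
    rw [← normalizer_eq_top_iff, eq_top_iff]
    exact fun g _ => cj_eq_iff.1 (hn g)
  have hCn : (centralizer ((sSup R : Subgroup G) : Set G)).Normal := by
    rw [← normalizer_eq_top_iff, eq_top_iff]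
    intro g _
    refine norm_cent ?_
    rw [Subgroup.normalizer_eq_top]
    exact mem_top g
  refine qd_elim hchar (sSup R) (centralizer ((sSup R : Subgroup G) : Set G)) ?_ ?_ ?_ h
  · exact fun x hx y hy => mem_centralizer_iff.1 hy x hx
  · rw [eq_bot_iff]
    rintro x ⟨hx, hxC⟩
    rw [Subgroup.mem_bot]
    exact centre_sSup _ R rfl hcomm hcen x hx (mem_cent_sSup.1 hxC)
  · intro H hJ hHC
    exact prod_top _ R rfl hcomm hQ H
      (normalizes_factors (fun L hL g _ => hconj L hL g) hcomm hcen hdvd hJ) hJ hHC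

end Vale.Agent.P240.R2.H275
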