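import Vale.Agent.P240.R2.H275.Fib

/-!
Homology in top dimension for groups between `M` and `M E`, where `M` is a product of commuting
subgroups.
-/

namespace Vale.Agent.P240.R2.H275

open Finsupp Subgroup Vale.Agent.P240.K Vale.Agent.P240.H195

universe u v

variable {𝕜 : Type v} [Field 𝕜] {G : Type u} [Group G] {p : ℕ}

/-- the groups `X` with `L ≤ X ≤ N_G(L)`, `C_X(L) = 1` that satisfy `Jp p L X` have nonzero homology in
top dimension -/
def QDL (𝕜 : Type v) [Field 𝕜] (p : ℕ) (L : Subgroup G) : Prop :=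
  ∀ X : Subgroup G, Jp p L X → X ≤ normalizer (L : Set G) →
    X ⊓ centralizer (L : Set G) = ⊥ → ∃ m, Tp 𝕜 p X m

lemma mem_cent_sSup {R : Set (Subgroup G)} {x : G} :
    x ∈ centralizer ((sSup R : Subgroup G) : Set G) ↔ ∀ K ∈ R, x ∈ centralizer (K : Set G) := by
  constructor
  · intro h K hK
    exact centralizer_le (show (K : Set G) ⊆ (sSup R : Subgroup G) from le_sSup hK) h
  · intro h
    have h1 : sSup R ≤ centralizer {x} := by
      refine sSup_le fun K hK k hk => ?_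
      rw [mem_centralizer_singleton_iff]
      exact mem_centralizer_iff.1 (h K hK) k hk
    rw [mem_centralizer_iff]
    exact fun y hy => mem_centralizer_singleton_iff.1 (h1 hy)

lemma mem_cent_sup {A B : Subgroup G} {x : G} :
    x ∈ centralizer ((A ⊔ B : Subgroup G) : Set G) ↔
      x ∈ centralizer (A : Set G) ∧ x ∈ centralizer (B : Set G) := by
  rw [← sSup_pair, mem_cent_sSup]
  constructor
  · exact fun h => ⟨h A (by simp), h B (by simp)⟩
  · rintro ⟨h1, h2⟩ K hK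
    rcases hK with rfl | hK
    · exact h1
    · rw [Set.mem_singleton_iff] at hK
      rw [hK]
      exact h2

lemma norm_cent {K : Subgroup G} {g : G} (hg : g ∈ normalizer (K : Set G)) :
    g ∈ normalizer ((centralizer (K : Set G) : Subgroup G) : Set G) := by
  have key : ∀ g ∈ normalizer (K : Set G), ∀ x ∈ centralizer (K : Set G),
      g * x * g⁻¹ ∈ centralizer (K : Set G) := by
    intro g hg x hx
    rw [mem_centralizer_iff] at hx ⊢
    intro k hk
    have h1 : g⁻¹ * k * g ∈ K := by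
      have := (mem_normalizer_iff.1 (inv_mem hg) k).1 hk
      rwa [inv_inv] at this
    have h2 := hx _ h1
    calc k * (g * x * g⁻¹) = g * (g⁻¹ * k * g * x) * g⁻¹ := by group
      _ = g * (x * (g⁻¹ * k * g)) * g⁻¹ := by rw [h2]
      _ = g * x * g⁻¹ * k := by group
  rw [mem_normalizer_iff]
  intro x
  refine ⟨key g hg x, fun h => ?_⟩
  have h1 := key g⁻¹ (inv_mem hg) _ h
  have e : g⁻¹ * (g * x * g⁻¹) * g⁻¹⁻¹ = x := by group
  rwa [e] at h1

lemma norm_sSup {R : Set (Subgroup G)} {g : G} (h : ∀ K ∈ R, g ∈ normalizer (K : Set G)) :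
    g ∈ normalizer ((sSup R : Subgroup G) : Set G) := by
  rw [← cj_eq_iff]
  have h1 : cj g (sSup R) = ⨆ K ∈ R, cj g K := by
    rw [sSup_eq_iSup]
    change Subgroup.map _ _ = _
    rw [Subgroup.map_iSup]
    simp_rw [Subgroup.map_iSup]
    rfl
  rw [h1, sSup_eq_iSup]
  refine iSup_congr fun K => iSup_congr fun hK => ?_
  exact cj_eq_iff.2 (h K hK)

lemma Tp.card_eq [hp : Fact p.Prime] [Finite G] {K A : Subgroup G} {m : ℕ} (h : Tp 𝕜 p K m)
    (hA : ∀ B ∈ ApB p G, B ≤ K →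
      (∀ B' ∈ ApB p G, B' ≤ K → Nat.card B' ≤ Nat.card B) → Nat.card B = Nat.card A) :
    Nat.card A = p ^ m := by
  obtain ⟨F, φ, z, -, -, hF, hFK, hFc⟩ := h.topCycle
  rw [← hFc]
  refine (hA F hF hFK fun B hB hBK => ?_).symm
  rw [hFc]
  rcases hB with h1 | h1
  · rw [h1, Subgroup.card_bot]
    exact Nat.one_le_pow _ _ hp.out.pos
  · exact h.1 B ⟨h1, hBK⟩

theorem prod_top [hp : Fact p.Prime] [Finite G] : ∀ (n : ℕ) (R : Set (Subgroup G)), R.ncard = n →
    (∀ L ∈ R, ∀ M ∈ R, L ≠ M → ∀ x ∈ L, ∀ y ∈ M, x * y = y * x) →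
    (∀ L ∈ R, QDL 𝕜 p L) → ∀ H : Subgroup G, (∀ L ∈ R, H ≤ normalizer (L : Set G)) →
    Jp p (sSup R) H → H ⊓ centralizer ((sSup R : Subgroup G) : Set G) = ⊥ →
    ∃ m, Tp 𝕜 p H m := by
  intro n
  induction n with
  | zero =>
    intro R hn _ _ H _ _ hc
    rw [Set.ncard_eq_zero (Set.toFinite _)] at hn
    subst hn
    have h1 : H = ⊥ := by
      rw [← hc, eq_comm, inf_eq_left]
      intro x _
      rw [mem_cent_sSup]
      exact fun K hK => absurd hK (Set.notMem_empty K)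
    subst h1
    refine ⟨0, fun E hE => absurd (le_bot_iff.1 hE.2) hE.1.1, single [] 1, ?_, by simp, ?_⟩
    · exact single_mem_Sp (show st (Ain p (⊥ : Subgroup G)) ([] : List (Subgroup G)) ∧
        ([] : List (Subgroup G)).length = 0 from ⟨⟨List.Pairwise.nil, by simp⟩, rfl⟩) _
    · intro hcon
      have h3 := DFunLike.congr_fun hcon ([] : List (Subgroup G))
      rw [Finsupp.single_eq_same, Finsupp.zero_apply] at h3
      exact one_ne_zero h3
  | succ n ih =>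
    intro R hn hcomm hQ H hnorm hJ hc
    obtain ⟨L, hL⟩ : R.Nonempty := by
      rw [Set.nonempty_iff_ne_empty]
      rintro rfl
      rw [Set.ncard_empty] at hn
      omega
    obtain ⟨R', hR'⟩ : ∃ R', R' = R \ {L} := ⟨_, rfl⟩
    have hR'n : R'.ncard = n := by
      rw [hR', Set.ncard_sdiff_singleton_of_mem hL, hn]
      rfl
    have hR'R : R' ⊆ R := by
      rw [hR']
      exact Set.sdiff_subset
    have hne : ∀ K ∈ R', K ≠ L := by
      intro K hK
      rw [hR'] at hK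
      exact fun h => hK.2 h
    have hsup : sSup R = L ⊔ sSup R' := by
      have h1 : R = insert L R' := by
        rw [hR', Set.insert_sdiff_singleton, Set.insert_eq_of_mem hL]
      conv_lhs => rw [h1]
      rw [sSup_insert]
    obtain ⟨M', hM'⟩ : ∃ M', M' = sSup R' := ⟨_, rfl⟩
    rw [← hM'] at hsup
    rw [hsup] at hJ hc
    have hLH : L ≤ H := le_sup_left.trans hJ.1
    have hM'H : M' ≤ H := le_sup_right.trans hJ.1
    obtain ⟨N₁, hN₁⟩ : ∃ N₁, N₁ = H ⊓ centralizer (M' : Set G) := ⟨_, rfl⟩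
    obtain ⟨N₂, hN₂⟩ : ∃ N₂, N₂ = H ⊓ centralizer (L : Set G) := ⟨_, rfl⟩
    have hHM' : H ≤ normalizer (M' : Set G) := fun g hg => by
      rw [hM']
      exact norm_sSup fun K hK => hnorm K (hR'R hK) hg
    have hfib : Fib p H N₁ N₂ L M' := by
      refine ⟨hN₁ ▸ inf_le_left, hN₂ ▸ inf_le_left, fun g hg => ?_, fun g hg => ?_, ?_, ?_, ?_,
        hnorm L hL, hHM', hJ⟩
      · rw [hN₁]
        exact norm_inf (le_normalizer hg) (norm_cent (hHM' hg))
      · rw [hN₂]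
        exact norm_inf (le_normalizer hg) (norm_cent (hnorm L hL hg))
      · rw [eq_bot_iff, ← hc, hN₁, hN₂]
        rintro x ⟨h1, h2⟩
        exact ⟨h1.1, mem_cent_sup.2 ⟨h2.2, h1.2⟩⟩
      · rw [hN₁]
        refine le_inf hLH fun x hx => ?_
        rw [hM', mem_cent_sSup]
        intro K hK
        rw [mem_centralizer_iff]
        exact fun y hy => hcomm K (hR'R hK) L hL (hne K hK) y hy x hx
      · rw [hN₂]
        refine le_inf hM'H ?_
        rw [hM']
        refine sSup_le fun K hK x hx => ?_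
        rw [mem_centralizer_iff]
        exact fun y hy => hcomm L hL K (hR'R hK) (hne K hK).symm y hy x hx
    obtain ⟨A₀, A₁, A₂, h0, h1, h2, hcard⟩ := hfib.data
    -- a complement to `N₁ ⊔ N₂`
    obtain ⟨E', hE', hE'i, hE's⟩ := exists_compl h0.1 (inf_le_left : A₀ ⊓ (N₁ ⊔ N₂) ≤ A₀)
    have hE'i2 : E' ⊓ (N₁ ⊔ N₂) = ⊥ := by rw [← hE'i, ← inf_assoc, inf_eq_left.2 hE']
    have hE'H : E' ≤ H := hE'.trans h0.2.1
    have hgen0 := hfib.jp.2 A₀ h0.1 h0.2.1 h0.2.2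
    have hE's2 : E' ⊔ (N₁ ⊔ N₂) = H := by
      refine le_antisymm (sup_le hE'H (sup_le hfib.n1 hfib.n2)) ?_
      have h3 := hfib.sup_le_H h0.2.1 hgen0
      rw [sup_assoc] at h3
      rw [← h3]
      refine sup_le ?_ le_sup_right
      conv_lhs => rw [← hE's]
      exact sup_le_sup_left inf_le_right _
    obtain ⟨K₂, hK₂⟩ : ∃ K₂, K₂ = E' ⊔ N₂ := ⟨_, rfl⟩
    have hK₂H : K₂ ≤ H := by
      rw [hK₂]
      exact sup_le hE'H hfib.n2
    have hN₂K₂ : N₂ ≤ K₂ := by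
      rw [hK₂]
      exact le_sup_right
    have hK₂N : K₂ ⊓ N₁ = ⊥ := by
      rw [eq_bot_iff]
      rintro x ⟨hx, hxN⟩
      rw [hK₂] at hx
      obtain ⟨e, he, n₂, hn₂, rfl⟩ := mem_sup_norm (hE'H.trans hfib.norm2) hx
      have h3 : e ∈ E' ⊓ (N₁ ⊔ N₂) := by
        refine mem_inf.2 ⟨he, ?_⟩
        have : e = e * n₂ * n₂⁻¹ := by group
        rw [this]
        exact mul_mem (mem_sup_left hxN) (mem_sup_right (inv_mem hn₂))
      rw [hE'i2, Subgroup.mem_bot] at h3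
      rw [h3, one_mul] at hxN ⊢
      have h4 : n₂ ∈ N₁ ⊓ N₂ := mem_inf.2 ⟨hxN, hn₂⟩
      rwa [hfib.bot] at h4
    have hK₂s : K₂ ⊔ N₁ = H := by
      rw [hK₂, sup_assoc, sup_comm N₂]
      exact hE's2
    obtain ⟨hJ₂, hmax₂⟩ := hfib.swap.side h0 h2 h1 (by rw [hcard]; ring) hN₂K₂ hK₂H hK₂N hK₂s
    obtain ⟨m₂, hT₂⟩ := ih R' hR'n (fun L hL M hM => hcomm L (hR'R hL) M (hR'R hM))
      (fun K hK => hQ K (hR'R hK)) K₂ (fun K hK => hK₂H.trans (hnorm K (hR'R hK)))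
      (by rw [← hM']; exact hJ₂) (by
        rw [eq_bot_iff, ← hK₂N, ← hM', hN₁]
        rintro x ⟨h3, h4⟩
        exact ⟨h3, hK₂H h3, h4⟩)
    have hA₂ := hT₂.card_eq hmax₂
    obtain ⟨E, hE, hEK, hEN, hEs, n', hTn, hEc⟩ := extract (N := N₂) hN₂K₂
      (hK₂H.trans hfib.norm2) (fun A hA hAK hAc => by
        refine le_antisymm (sup_le hAK hN₂K₂) ?_
        conv_lhs => rw [← hJ₂.2 A hA hAK fun B hB hBK => by
          rw [hAc]
          rcases hB with h3 | h3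
          · rw [h3, Subgroup.card_bot]
            exact Nat.one_le_pow _ _ hp.out.pos
          · exact hT₂.1 B ⟨h3, hBK⟩]
        exact sup_le_sup_left hfib.m2 _) hT₂
    obtain ⟨K₁, hK₁⟩ : ∃ K₁, K₁ = E ⊔ N₁ := ⟨_, rfl⟩
    have hEH : E ≤ H := hEK.trans hK₂H
    have hK₁H : K₁ ≤ H := by
      rw [hK₁]
      exact sup_le hEH hfib.n1
    have hN₁K₁ : N₁ ≤ K₁ := by
      rw [hK₁]
      exact le_sup_right
    have hK₁N : K₁ ⊓ N₂ = ⊥ := by
      rw [eq_bot_iff]
      rintro x ⟨hx, hxN⟩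
      rw [hK₁] at hx
      obtain ⟨e, he, n₁, hn₁, rfl⟩ := mem_sup_norm (hEH.trans hfib.norm1) hx
      have h3 : n₁ ∈ K₂ ⊓ N₁ := by
        refine mem_inf.2 ⟨?_, hn₁⟩
        have : n₁ = e⁻¹ * (e * n₁) := by group
        rw [this]
        exact mul_mem (inv_mem (hEK he)) (hN₂K₂ hxN)
      rw [hK₂N, Subgroup.mem_bot] at h3
      rw [h3, mul_one] at hxN ⊢
      have h4 : e ∈ E ⊓ N₂ := mem_inf.2 ⟨he, hxN⟩
      rwa [hEN] at h4
    have hK₁s : K₁ ⊔ N₂ = H := by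
      rw [hK₁, sup_assoc, sup_comm N₁, ← sup_assoc, hEs]
      exact hK₂s
    obtain ⟨hJ₁, hmax₁⟩ := hfib.side h0 h1 h2 hcard hN₁K₁ hK₁H hK₁N hK₁s
    obtain ⟨m₁, hT₁⟩ := hQ L hL K₁ hJ₁ (hK₁H.trans (hnorm L hL)) (by
      rw [eq_bot_iff, ← hK₁N, hN₂]
      rintro x ⟨h3, h4⟩
      exact ⟨h3, hK₁H h3, h4⟩)
    have hA₁ := hT₁.card_eq hmax₁
    obtain ⟨z, hz, hzb, hz0⟩ := prod_cycle (H := H) hK₁H (inf_le_left.trans hfib.n2) (by
        rintro x hx y ⟨hy, hyE⟩
        rw [hK₁] at hx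
        obtain ⟨e, he, n₁, hn₁, rfl⟩ := mem_sup_norm (hEH.trans hfib.norm1) hx
        have h3 := mem_centralizer_iff.1 hyE e he
        have h4 := hfib.comm n₁ hn₁ y hy
        rw [mul_assoc, h4, ← mul_assoc, h3, mul_assoc]) (by
        rw [eq_bot_iff, ← hK₁N]
        exact inf_le_inf_left _ inf_le_left) hT₁ hTn
    refine ⟨m₁ + n', fun B hB => ?_, z, hz, hzb, hz0⟩
    refine (h0.2.2 B (Or.inr hB.1) hB.2).trans (le_of_eq ?_)
    have hpos : ∀ X : Subgroup G, 0 < Nat.card X := fun X => Nat.card_pos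
    have h3 : Nat.card H = Nat.card K₂ * Nat.card N₁ := by
      conv_lhs => rw [← hK₂s]
      exact card_sup_of_inf (hK₂H.trans hfib.norm1) hK₂N
    have h4 : Nat.card K₂ = Nat.card E * Nat.card N₂ := by
      conv_lhs => rw [← hEs]
      exact card_sup_of_inf (hEH.trans hfib.norm2) hEN
    rw [h3, h4, hA₁, hA₂, ← hEc] at hcard
    refine Nat.eq_of_mul_eq_mul_right (Nat.mul_pos (Nat.mul_pos (hpos E) (hpos N₂)) (hpos N₁)) ?_
    rw [hcard, pow_add]
    ring

end Vale.Agent.P240.R2.H275
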