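import Vale.Agent.P240.R2.H145.EO1

/-!
Transitivity on singular vectors.
-/

set_option autoImplicit false
set_option linter.all false

namespace Vale.Agent.P240.R2.H275

open Matrix Vale.Agent.P240.R2.H145.EO

universe u

section

variable {K : Type u} [Field K] {n : ℕ} {a : Fin n → K}

lemma exists_B_ne (ha : ∀ i, a i ≠ 0) {v : Fin n → K} (hv : v ≠ 0) : ∃ z, B a v z ≠ 0 := by
  by_contra hcon
  push Not at hcon
  apply hv
  funext i
  have h1 := hcon (Pi.single i 1)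
  have h2 : B a v (Pi.single i 1) = v i * a i := by
    rw [B_comm, B_single]
    ring
  rw [h2] at h1
  exact (mul_eq_zero.1 h1).resolve_right (ha i)

lemma sing_step (h2 : (2 : K) ≠ 0) {u v : Fin n → K} (hu0 : B a u u = 0) (hv0 : B a v v = 0)
    (huv : B a u v ≠ 0) : ∃ g ∈ OD a, ac g u = v := by
  have h1 : B a (u - v) (u - v) ≠ 0 := by
    have e : B a (u - v) (u - v) = -(2 * B a u v) := by
      rw [B_sub_left, B_sub_right, B_sub_right, hu0, hv0, B_comm v u]
      ring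
    rw [e]
    exact neg_ne_zero.2 (mul_ne_zero h2 huv)
  exact ⟨_, rf_mem h1, rf_sub (hu0.trans hv0.symm) h1⟩

/-- the isometries act transitively on the nonzero singular vectors -/
theorem sing_trans' (h2 : (2 : K) ≠ 0) (ha : ∀ i, a i ≠ 0) {u v : Fin n → K} (hu : u ≠ 0)
    (hv : v ≠ 0) (hu0 : B a u u = 0) (hv0 : B a v v = 0) : ∃ g ∈ OD a, ac g u = v := by
  by_cases huv : B a u v = 0
  · obtain ⟨z, hz1, hz2⟩ : ∃ z, B a u z ≠ 0 ∧ B a v z ≠ 0 := by
      obtain ⟨z₁, h3⟩ := exists_B_ne ha hu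
      obtain ⟨z₂, h4⟩ := exists_B_ne ha hv
      by_cases h5 : B a v z₁ = 0
      · by_cases h6 : B a u z₂ = 0
        · refine ⟨z₁ + z₂, ?_, ?_⟩
          · rw [B_add_right, h6, add_zero]; exact h3
          · rw [B_add_right, h5, zero_add]; exact h4
        · exact ⟨z₂, h6, h4⟩
      · exact ⟨z₁, h3, h5⟩
    obtain ⟨w, hw0, hw1, hw2⟩ : ∃ w, B a w w = 0 ∧ B a u w ≠ 0 ∧ B a w v ≠ 0 := by
      refine ⟨z + (-(B a z z) / (2 * B a u z)) • u, ?_, ?_, ?_⟩
      · rw [B_add_right, B_add_left, B_add_left, B_smul_left, B_smul_right, B_smul_left,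
          B_smul_right, hu0, B_comm z u]
        field_simp
        ring
      · rw [B_add_right, B_smul_right, hu0, mul_zero, add_zero]
        exact hz1
      · rw [B_add_left, B_smul_left, huv, mul_zero, add_zero, B_comm]
        exact hz2
    obtain ⟨g, hg, hgu⟩ := sing_step h2 hu0 hw0 hw1
    obtain ⟨k, hk, hkw⟩ := sing_step h2 hw0 hv0 hw2
    exact ⟨k * g, mul_mem hk hg, by rw [ac_mul, hgu, hkw]⟩
  · exact sing_step h2 hu0 hv0 huv

theorem sing_trans {K : Type u} [Field K] {n : ℕ} {a : Fin n → K} (h2 : (2 : K) ≠ 0)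
    (ha : ∀ i, a i ≠ 0) {u v : Fin n → K} (hu : u ≠ 0) (hv : v ≠ 0) (hu0 : B a u u = 0)
    (hv0 : B a v v = 0) (hn : 3 ≤ n) [Finite K] : ∃ g ∈ OD a, ac g u = v :=
  sing_trans' h2 ha hu hv hu0 hv0

end

end Vale.Agent.P240.R2.H275
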