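import Vale.Agent.P240.R2.H275.Grp

/-!
Elimination of a normal subgroup `M` from the homology of top dimension of the groups between `M`
and `M E`, in characteristic `p`.
-/

namespace Vale.Agent.P240.R2.H275

open Finsupp Subgroup Vale.Agent.P240.K Vale.Agent.P240.H195

universe u v

variable {𝕜 : Type v} [Field 𝕜] {G : Type u} [Group G] {p : ℕ}

lemma na_retract {α : Type*} [PartialOrder α] {S R : Set α} {ρ : α → α} (hRS : R ⊆ S)
    (hρ : ∀ x ∈ S, ρ x ∈ R) (hmono : ∀ x ∈ S, ∀ y ∈ S, x ≤ y → ρ x ≤ ρ y)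
    (hid : ∀ x ∈ R, ρ x = x) (hac : ¬ NA 𝕜 S) : ¬ NA 𝕜 R := by
  rw [not_NA_iff] at hac ⊢
  intro z hz hb
  obtain ⟨c, hc, hcz⟩ := hac z (Sp_mono (st_mono hRS) hz) hb
  exact push_retr hρ hmono hid hz hc hcz

lemma dvd_card_of_mem [hp : Fact p.Prime] [Finite G] {F : Subgroup G} (hF : F ∈ ApS p G) :
    p ∣ Nat.card F := by
  obtain ⟨n, hn⟩ := ApB.card (Or.inr hF : F ∈ ApB p G)
  rcases n with _ | n
  · exact absurd (Subgroup.card_eq_one.1 (by rw [hn, pow_zero])) hF.1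
  · rw [hn]
    exact dvd_pow_self p (Nat.succ_ne_zero n)

/-- Smith theory for `F` acting on `𝒜ₚ(N)` -/
theorem smith_cent [hp : Fact p.Prime] [Finite G] (hchar : (p : 𝕜) = 0) {N F : Subgroup G}
    (hFN : F ≤ normalizer (N : Set G)) (hF : F ∈ ApS p G) (hac : ¬ NA 𝕜 (Ain p N)) :
    ¬ NA 𝕜 (Ain p (N ⊓ centralizer (F : Set G))) := by
  obtain ⟨n, hn⟩ := ApB.card (Or.inr hF : F ∈ ApB p G)
  have h1 : ¬ NA 𝕜 {E | E ∈ Ain p N ∧ F ≤ normalizer (E : Set G)} := by
    refine smith_group (r := p) hchar n F hn ?_ hac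
    rintro u hu E ⟨hE, hEN⟩
    refine ⟨⟨?_, ?_, ?_⟩, ?_⟩
    · intro h
      apply hE.1
      rw [eq_bot_iff]
      intro x hx
      have h2 : u * x * u⁻¹ ∈ cj u E := by
        rw [mem_cj]
        have : u⁻¹ * (u * x * u⁻¹) * u = x := by group
        rw [this]
        exact hx
      rw [h, Subgroup.mem_bot] at h2
      rw [Subgroup.mem_bot]
      have : x = u⁻¹ * (u * x * u⁻¹) * u := by group
      rw [this, h2]
      group
    · intro x hx y hy
      rw [mem_cj] at hx hy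
      have h2 := hE.2.1 _ hx _ hy
      have h3 : u⁻¹ * (x * y) * u = u⁻¹ * (y * x) * u := by
        calc u⁻¹ * (x * y) * u = (u⁻¹ * x * u) * (u⁻¹ * y * u) := by group
          _ = (u⁻¹ * y * u) * (u⁻¹ * x * u) := h2
          _ = u⁻¹ * (y * x) * u := by group
      exact mul_left_cancel (mul_right_cancel h3)
    · intro x hx
      rw [mem_cj] at hx
      have h2 := hE.2.2 _ hx
      have h3 : (u⁻¹ * x * u) ^ p = u⁻¹ * x ^ p * u := by
        have := conj_pow (i := p) (a := u⁻¹) (b := x)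
        rwa [inv_inv] at this
      rw [h3] at h2
      have : x ^ p = u * (u⁻¹ * x ^ p * u) * u⁻¹ := by group
      rw [this, h2]
      group
    · intro x hx
      rw [mem_cj] at hx
      have h2 := hEN hx
      have h3 := (Subgroup.mem_normalizer_iff.1 (hFN hu) (u⁻¹ * x * u)).1 h2
      have : u * (u⁻¹ * x * u) * u⁻¹ = x := by group
      rwa [this] at h3
  refine na_retract (S := {E | E ∈ Ain p N ∧ F ≤ normalizer (E : Set G)})
    (ρ := fun E => E ⊓ centralizer (F : Set G)) ?_ ?_ ?_ ?_ h1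
  · rintro E ⟨hE, hEN⟩
    refine ⟨⟨hE, hEN.trans inf_le_left⟩, ?_⟩
    intro f hf
    rw [Subgroup.mem_normalizer_iff]
    intro x
    constructor
    · intro hx
      have h2 := Subgroup.mem_centralizer_iff.1 (hEN hx).2 f hf
      have : f * x * f⁻¹ = x := by rw [h2]; group
      rwa [this]
    · intro hx
      have h2 := Subgroup.mem_centralizer_iff.1 (hEN hx).2 f hf
      have : f * x * f⁻¹ = x := by
        have h4 : f * (f * x * f⁻¹) = f * x * f⁻¹ * f := h2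
        have h5 : f * (f * x * f⁻¹) = f * x := by rw [h4]; group
        exact mul_left_cancel h5
      rwa [this] at hx
  · rintro E ⟨⟨hE, hEN⟩, hFE⟩
    have h2 : p ∣ Nat.card (E ⊓ centralizer (F : Set G) : Subgroup G) :=
      dvd_card_inf_centralizer (ApB.isPGroup (Or.inr hF)) hFE (dvd_card_of_mem hE)
    have h3 : E ⊓ centralizer (F : Set G) ≠ ⊥ := by
      intro h
      rw [h, Subgroup.card_bot] at h2
      exact hp.out.one_lt.ne' (Nat.dvd_one.1 h2)
    exact ⟨mem_ApS_of_le hE inf_le_left h3, inf_le_inf_right _ hEN⟩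
  · intro X _ Y _ hXY
    exact inf_le_inf_right _ hXY
  · rintro E ⟨hE, hEN⟩
    exact inf_eq_left.2 (hEN.trans inf_le_right)

lemma norm_inf {A B : Subgroup G} {x : G} (hA : x ∈ normalizer (A : Set G))
    (hB : x ∈ normalizer (B : Set G)) : x ∈ normalizer ((A ⊓ B : Subgroup G) : Set G) := by
  rw [mem_normalizer_iff] at hA hB ⊢
  intro y
  exact ⟨fun h => ⟨(hA y).1 h.1, (hB y).1 h.2⟩, fun h => ⟨(hA y).2 h.1, (hB y).2 h.2⟩⟩

lemma inf_cent_anti {C E F : Subgroup G} (h : F ≤ E) :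
    C ⊓ centralizer (E : Set G) ≤ C ⊓ centralizer (F : Set G) :=
  inf_le_inf_left _ (centralizer_le h)

lemma good_mono [hp : Fact p.Prime] [Finite G] (hchar : (p : 𝕜) = 0) {C E F : Subgroup G}
    (hEC : E ≤ normalizer (C : Set G)) (hE : E ∈ ApB p G) (hFE : F ≤ E)
    (h : NA 𝕜 (Ain p (C ⊓ centralizer (E : Set G)))) :
    NA 𝕜 (Ain p (C ⊓ centralizer (F : Set G))) := by
  rcases hE with h1 | h1
  · subst h1
    rwa [le_bot_iff.1 hFE]
  · by_contra hcon
    have h2 : E ≤ normalizer ((C ⊓ centralizer (F : Set G) : Subgroup G) : Set G) := by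
      intro x hx
      refine norm_inf (hEC hx) (le_normalizer ?_)
      rw [mem_centralizer_iff]
      exact fun y hy => h1.2.1 y (hFE hy) x hx
    have h3 := smith_cent hchar h2 h1 hcon
    rw [inf_assoc, inf_eq_right.2 (centralizer_le (show (F : Set G) ⊆ E from hFE))] at h3
    exact h3 h

/-- every elementary abelian subgroup of `H` of maximal order generates `H` together with `M` -/
def Jp (p : ℕ) (M H : Subgroup G) : Prop :=
  M ≤ H ∧ ∀ A ∈ ApB p G, A ≤ H → (∀ B ∈ ApB p G, B ≤ H → Nat.card B ≤ Nat.card A) → A ⊔ M = H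

lemma inf_cent_bot (C : Subgroup G) : C ⊓ centralizer ((⊥ : Subgroup G) : Set G) = C := by
  refine inf_eq_left.2 fun x _ => ?_
  rw [Subgroup.mem_centralizer_iff]
  intro y hy
  have hy1 : y = 1 := by simpa using hy
  rw [hy1, one_mul, mul_one]

theorem qd_elim [hp : Fact p.Prime] [Finite G] (hchar : (p : 𝕜) = 0) (M C : Subgroup G)
    [hMn : M.Normal] [hCn : C.Normal] (hMC : ∀ x ∈ M, ∀ y ∈ C, x * y = y * x) (hint : M ⊓ C = ⊥)
    (hT : ∀ H : Subgroup G, Jp p M H → H ⊓ C = ⊥ → ∃ m, Tp 𝕜 p H m)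
    (h : NA 𝕜 (Ain p C)) : NA 𝕜 (ApS p G) := by
  have hnM : ∀ A : Subgroup G, A ≤ normalizer (M : Set G) := fun A => by
    rw [Subgroup.normalizer_eq_top]; exact le_top
  have hnC : ∀ A : Subgroup G, A ≤ normalizer (C : Set G) := fun A => by
    rw [Subgroup.normalizer_eq_top]; exact le_top
  set 𝒮 : Set (Subgroup G × Subgroup G) := {x | x.1 ∈ ApB p G ∧ x.1 ⊓ (M ⊔ C) = ⊥ ∧
    NA 𝕜 (Ain p (C ⊓ centralizer (x.1 : Set G))) ∧ x.2 ∈ ApB p G ∧ x.2 ≤ M ⊔ x.1} with h𝒮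
  have hne : ((⊥, ⊥) : Subgroup G × Subgroup G) ∈ 𝒮 := by
    refine ⟨Or.inl rfl, bot_inf_eq _, ?_, Or.inl rfl, bot_le⟩
    change NA 𝕜 (Ain p (C ⊓ centralizer ((⊥ : Subgroup G) : Set G)))
    rw [inf_cent_bot]
    exact h
  obtain ⟨⟨E₁, A₁⟩, h₁, hmax₁⟩ := Set.exists_max_image 𝒮 (fun x => Nat.card x.2) (Set.toFinite _)
    ⟨_, hne⟩
  obtain ⟨⟨E, A⟩, ⟨h₂, hcA⟩, hmin₂⟩ := Set.exists_min_image {x | x ∈ 𝒮 ∧ Nat.card x.2 = Nat.card A₁}
    (fun x => Nat.card x.1) (Set.toFinite _) ⟨(E₁, A₁), h₁, rfl⟩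
  have hcA' : Nat.card A = Nat.card A₁ := hcA
  obtain ⟨hE, hEN, hENA, hA, hAE⟩ := h₂
  change E ∈ ApB p G at hE
  change E ⊓ (M ⊔ C) = ⊥ at hEN
  change NA 𝕜 (Ain p (C ⊓ centralizer (E : Set G))) at hENA
  change A ∈ ApB p G at hA
  change A ≤ M ⊔ E at hAE
  have hmax : ∀ E' A' : Subgroup G, (E', A') ∈ 𝒮 → Nat.card A' ≤ Nat.card A := fun E' A' h' => by
    rw [hcA']
    exact hmax₁ _ h'
  have hmin : ∀ E' A' : Subgroup G, (E', A') ∈ 𝒮 → Nat.card A' = Nat.card A →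
      Nat.card E ≤ Nat.card E' := fun E' A' h' h'' => hmin₂ (E', A') ⟨h', by
        change Nat.card A' = _
        rw [h'', hcA']⟩
  set H : Subgroup G := M ⊔ E with hH
  have hsplit : ∀ x ∈ H, ∃ m ∈ M, ∃ e ∈ E, x = m * e := by
    intro x hx
    rw [hH, sup_comm] at hx
    obtain ⟨a, ha, n, hn, h1⟩ := mem_sup_norm' (hnM E) hx
    exact ⟨n, hn, a, ha, h1⟩
  have hHC : H ⊓ C = ⊥ := by
    rw [eq_bot_iff]
    rintro x ⟨hx, hxC⟩
    obtain ⟨m, hm, e, he, rfl⟩ := hsplit x hx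
    have h1 : e ∈ E ⊓ (M ⊔ C) := by
      refine ⟨he, ?_⟩
      have : e = m⁻¹ * (m * e) := by group
      rw [this]
      exact mul_mem (mem_sup_left (inv_mem hm)) (mem_sup_right hxC)
    rw [hEN, Subgroup.mem_bot] at h1
    rw [h1, mul_one] at hxC ⊢
    have h2 : m ∈ M ⊓ C := ⟨hm, hxC⟩
    rwa [hint] at h2
  -- subgroups of maximal order
  have key : ∀ A' ∈ ApB p G, A' ≤ H → Nat.card A' = Nat.card A → E ≤ A' ⊔ M := by
    intro A' hA' hA'H hcard
    have h1 : ((A' ⊔ M) ⊓ E, A') ∈ 𝒮 := by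
      refine ⟨ApB_of_le hE inf_le_right, ?_, good_mono hchar (hnC _) hE inf_le_right hENA, hA', ?_⟩
      · change (A' ⊔ M) ⊓ E ⊓ (M ⊔ C) = ⊥
        rw [inf_assoc, hEN, inf_bot_eq]
      · change A' ≤ M ⊔ (A' ⊔ M) ⊓ E
        intro x hx
        obtain ⟨m, hm, e, he, rfl⟩ := hsplit x (hA'H hx)
        refine mul_mem (mem_sup_left hm) (mem_sup_right ⟨?_, he⟩)
        have : e = m⁻¹ * (m * e) := by group
        rw [this]
        exact mul_mem (mem_sup_right (inv_mem hm)) (mem_sup_left hx)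
    have h2 := hmin _ _ h1 hcard
    have h3 : (A' ⊔ M) ⊓ E = E := Subgroup.eq_of_le_of_card_ge inf_le_right h2
    rw [← h3]
    exact inf_le_left
  have hJ : Jp p M H := by
    refine ⟨le_sup_left, fun A' hA' hA'H hm => ?_⟩
    have h1 : Nat.card A' = Nat.card A := by
      refine le_antisymm (hmax E A' ⟨hE, hEN, hENA, hA', hA'H⟩) (hm A hA hAE)
    exact le_antisymm (sup_le hA'H le_sup_left) (sup_le le_sup_right (key A' hA' hA'H h1))
  obtain ⟨m, hTp⟩ := hT H hJ hHC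
  obtain ⟨F, φ, z, htop, hφm, hF, hFH, hFc⟩ := hTp.topCycle
  have hcF : Nat.card F = Nat.card A := by
    refine le_antisymm (hmax E F ⟨hE, hEN, hENA, hF, hFH⟩) ?_
    rw [hFc]
    rcases hA with h1 | h1
    · rw [h1, Subgroup.card_bot]
      exact Nat.one_le_pow _ _ hp.out.pos
    · exact hTp.1 A ⟨h1, hAE⟩
  have hEF : E ≤ F ⊔ M := key F hF hFH hcF
  have hcomm : ∀ x ∈ H, ∀ y ∈ C ⊓ centralizer (F : Set G), x * y = y * x := by
    rintro x hx y ⟨hy, hyF⟩
    have h1 : F ⊔ M ≤ centralizer {y} := by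
      refine sup_le (fun f hf => ?_) fun m hm => ?_
      · rw [mem_centralizer_singleton_iff]
        exact (mem_centralizer_iff.1 hyF f hf)
      · rw [mem_centralizer_singleton_iff]
        exact (hMC m hm y hy)
    have h2 : x ∈ F ⊔ M := by
      obtain ⟨m, hm, e, he, rfl⟩ := hsplit x hx
      exact mul_mem (mem_sup_right hm) (hEF he)
    exact mem_centralizer_singleton_iff.1 (h1 h2)
  have hcent : C ⊓ centralizer (F : Set G) = C ⊓ centralizer (E : Set G) := by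
    refine le_antisymm (fun y hy => mem_inf.2 ⟨hy.1, mem_centralizer_iff.2 ?_⟩)
      fun y hy => mem_inf.2 ⟨hy.1, mem_centralizer_iff.2 ?_⟩
    · exact fun e he => hcomm e (mem_sup_right he) y hy
    · intro f hf
      obtain ⟨m, hm, e, he, rfl⟩ := hsplit f (hFH hf)
      have h1 := hMC m hm y hy.1
      have h2 := mem_centralizer_iff.1 hy.2 e he
      rw [mul_assoc, h2, ← mul_assoc, h1, mul_assoc]
  refine top_elim C hF (le_bot_iff.1 ((inf_le_inf_right _ hFH).trans hHC.le)) ?_ ?_ htop hcomm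
  · rw [hcent]
    exact hENA
  · intro T hT hFT hTC hna
    have hTB : T ∈ ApB p G := Or.inr hT
    obtain ⟨Q, hQT, hQP, hQsup⟩ := exists_compl hTB (inf_le_left : T ⊓ (M ⊔ C) ≤ T)
    set P : Subgroup G := T ⊓ (M ⊔ C) with hP
    set PM : Subgroup G := (P ⊔ C) ⊓ M with hPM
    have hPB : P ∈ ApB p G := ApB_of_le hTB inf_le_left
    have hPMB : PM ∈ ApB p G := ApB_fib (N := C) (N' := M) ⟨P, hPB, hnC _, rfl⟩
      ⟨⊥, Or.inl rfl, hnM _, by rw [bot_sup_eq]⟩ (by rw [inf_comm]; exact hint)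
    have hQN : Q ⊓ (M ⊔ C) = ⊥ := by
      rw [← hQP, hP, ← inf_assoc, inf_eq_left.2 hQT]
    have hcom : ∀ q ∈ Q, ∀ x ∈ PM, q * x = x * q := by
      rintro q hq x ⟨hx, hxM⟩
      obtain ⟨y, hy, c, hc, rfl⟩ := mem_sup_norm (hnC P) hx
      have h1 : q * y = y * q := hT.2.1 q (hQT hq) y hy.1
      have h2 : (y * c)⁻¹ * (q * (y * c) * q⁻¹) ∈ M ⊓ C := by
        refine mem_inf.2 ⟨mul_mem (inv_mem hxM) (hMn.conj_mem _ hxM q), ?_⟩
        have : (y * c)⁻¹ * (q * (y * c) * q⁻¹) = c⁻¹ * (q * c * q⁻¹) := by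
          calc (y * c)⁻¹ * (q * (y * c) * q⁻¹) = c⁻¹ * (y⁻¹ * (q * y) * c * q⁻¹) := by group
            _ = c⁻¹ * (y⁻¹ * (y * q) * c * q⁻¹) := by rw [h1]
            _ = c⁻¹ * (q * c * q⁻¹) := by group
        rw [this]
        exact mul_mem (inv_mem hc) (hCn.conj_mem _ hc q)
      rw [hint, Subgroup.mem_bot, inv_mul_eq_one] at h2
      rw [eq_mul_inv_iff_mul_eq] at h2
      exact h2.symm
    have hA'B : Q ⊔ PM ∈ ApB p G := ApB_sup (ApB_of_le hTB hQT) hPMB hcom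
    have hmem : (Q, Q ⊔ PM) ∈ 𝒮 := by
      refine ⟨ApB_of_le hTB hQT, hQN, good_mono hchar (hnC _) hTB hQT hna, hA'B, ?_⟩
      exact sup_le le_sup_right (inf_le_right.trans le_sup_left)
    have h1 := hmax _ _ hmem
    have h2 : Nat.card (Q ⊔ PM : Subgroup G) = Nat.card Q * Nat.card PM := by
      refine card_sup_of_inf (comm_le_normalizer hcom) ?_
      rw [eq_bot_iff, ← hQN]
      exact inf_le_inf_left _ (inf_le_right.trans le_sup_left)
    have h3 : Nat.card T = Nat.card Q * Nat.card P := by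
      conv_lhs => rw [← hQsup]
      exact card_sup_of_inf (comm_le_normalizer fun x hx y hy => hT.2.1 x (hQT hx) y hy.1) hQP
    have h4 : Nat.card PM = Nat.card P := by
      have h5 := card_fib (X := P ⊔ C) (Y := M) (N := C) (H := M ⊔ C) le_sup_right
        (sup_le inf_le_right le_sup_right) (hnC M) rfl
      have h6 : Nat.card (M ⊔ C : Subgroup G) = Nat.card M * Nat.card C :=
        card_sup_of_inf (hnC M) hint
      have h7 : Nat.card (P ⊔ C : Subgroup G) = Nat.card P * Nat.card C := by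
        refine card_sup_of_inf (hnC P) ?_
        rw [eq_bot_iff, ← hTC]
        exact inf_le_inf_right _ inf_le_left
      rw [h6, h7] at h5
      have h8 : 0 < Nat.card M * Nat.card C := Nat.mul_pos Nat.card_pos Nat.card_pos
      refine Nat.eq_of_mul_eq_mul_right h8 ?_
      rw [h5]
      ring
    have h5 : Nat.card F < Nat.card T := Set.Finite.card_lt_card (Set.toFinite _) hFT
    rw [h2, h4, ← h3, ← hcF] at h1
    omega

end Vale.Agent.P240.R2.H275
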