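import Vale.Agent.P240.R2.H275.Bridge
import Vale.Agent.P240.H195.RGA

/-!
Transfer of the conditions on a factor along injective homomorphisms; elimination of a family of
factors of a subgroup.
-/

namespace Vale.Agent.P240.R2.H275

open Finsupp Subgroup Vale.Agent.P240.K Vale.Agent.P240.H195

universe u v

section
variable {𝕜 : Type v} [Field 𝕜] {A B : Type*} [Group A] [Group B] {p : ℕ}

lemma map_mem_ApB {f : A →* B} (hf : Function.Injective f) {E : Subgroup A} :
    E.map f ∈ ApB p B ↔ E ∈ ApB p A := by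
  constructor
  · rintro (h | h)
    · exact Or.inl ((Subgroup.map_eq_bot_iff_of_injective _ hf).1 h)
    · exact Or.inr ((map_mem_ApS hf).1 h)
  · rintro (h | h)
    · rw [h, Subgroup.map_bot]
      exact Or.inl rfl
    · exact Or.inr ((map_mem_ApS hf).2 h)

lemma exists_map {f : A →* B} {K : Subgroup A} {E : Subgroup B} (h : E ≤ K.map f) :
    (E.comap f).map f = E := by
  rw [Subgroup.map_comap_eq, inf_eq_right]
  exact h.trans (Subgroup.map_le_range f K)

lemma Jp_map {f : A →* B} (hf : Function.Injective f) {M H : Subgroup A} :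
    Jp p (M.map f) (H.map f) ↔ Jp p M H := by
  constructor
  · rintro ⟨h1, h2⟩
    refine ⟨(Subgroup.map_le_map_iff_of_injective hf).1 h1, fun C hC hCH hmax => ?_⟩
    have h3 := h2 (C.map f) ((map_mem_ApB hf).2 hC) (Subgroup.map_mono hCH) fun D hD hDH => by
      have h4 := exists_map hDH
      rw [← h4] at hD hDH ⊢
      rw [Subgroup.card_map_of_injective hf, Subgroup.card_map_of_injective hf]
      exact hmax _ ((map_mem_ApB hf).1 hD) ((Subgroup.map_le_map_iff_of_injective hf).1 hDH)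
    rw [← Subgroup.map_sup] at h3
    exact Subgroup.map_injective hf h3
  · rintro ⟨h1, h2⟩
    refine ⟨Subgroup.map_mono h1, fun C hC hCH hmax => ?_⟩
    have h4 := exists_map hCH
    rw [← h4] at hC hCH hmax ⊢
    rw [← Subgroup.map_sup, h2 _ ((map_mem_ApB hf).1 hC)
      ((Subgroup.map_le_map_iff_of_injective hf).1 hCH) fun D hD hDH => ?_]
    have h5 := hmax (D.map f) ((map_mem_ApB hf).2 hD) (Subgroup.map_mono hDH)
    rwa [Subgroup.card_map_of_injective hf, Subgroup.card_map_of_injective hf] at h5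

lemma map_cent {f : A →* B} (hf : Function.Injective f) {K : Subgroup A} {x : A} :
    f x ∈ centralizer ((K.map f : Subgroup B) : Set B) ↔ x ∈ centralizer (K : Set A) := by
  rw [mem_centralizer_iff, mem_centralizer_iff]
  constructor
  · intro h y hy
    have := h (f y) ⟨y, hy, rfl⟩
    rw [← map_mul, ← map_mul] at this
    exact hf this
  · rintro h _ ⟨y, hy, rfl⟩
    rw [← map_mul, ← map_mul, h y hy]

lemma map_norm {f : A →* B} {K : Subgroup A} {x : A} (h : x ∈ normalizer (K : Set A)) :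
    f x ∈ normalizer ((K.map f : Subgroup B) : Set B) := by
  have key : ∀ x ∈ normalizer (K : Set A), ∀ y ∈ K.map f, f x * y * (f x)⁻¹ ∈ K.map f := by
    rintro x hx _ ⟨y, hy, rfl⟩
    refine ⟨x * y * x⁻¹, (mem_normalizer_iff.1 hx y).1 hy, ?_⟩
    rw [map_mul, map_mul, map_inv]
  rw [mem_normalizer_iff]
  intro y
  refine ⟨key x h y, fun hy => ?_⟩
  have h1 := key x⁻¹ (inv_mem h) _ hy
  rw [map_inv] at h1
  have e : (f x)⁻¹ * (f x * y * (f x)⁻¹) * (f x)⁻¹⁻¹ = y := by group
  rwa [e] at h1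

lemma inf_cent_map {f : A →* B} (hf : Function.Injective f) {X K : Subgroup A}
    (h : X ⊓ centralizer (K : Set A) = ⊥) :
    X.map f ⊓ centralizer ((K.map f : Subgroup B) : Set B) = ⊥ := by
  rw [eq_bot_iff]
  rintro _ ⟨⟨x, hx, rfl⟩, h2⟩
  have h3 : x ∈ X ⊓ centralizer (K : Set A) := ⟨hx, (map_cent hf).1 h2⟩
  rw [h, Subgroup.mem_bot] at h3
  rw [h3, map_one, Subgroup.mem_bot]

lemma QDL_map {f : A →* B} (hf : Function.Injective f) {L : Subgroup A}
    (h : QDL 𝕜 p (L.map f)) : QDL 𝕜 p L := by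
  intro X hJ hXN hXC
  obtain ⟨m, hm⟩ := h (X.map f) ((Jp_map hf).2 hJ) (by
    rintro _ ⟨x, hx, rfl⟩
    exact map_norm (hXN hx)) (inf_cent_map hf hXC)
  exact ⟨m, (Tp_map hf X).1 hm⟩

lemma QDL_cj {L : Subgroup A} (h : QDL 𝕜 p L) (g : A) : QDL 𝕜 p (cj g L) := by
  refine QDL_map (f := (MulAut.conj g⁻¹).toMonoidHom) (MulAut.conj g⁻¹).injective ?_
  have : (cj g L).map (MulAut.conj g⁻¹).toMonoidHom = L := by
    change cj g⁻¹ (cj g L) = L
    rw [← cj_mul, inv_mul_cancel, cj_one]
  rwa [this]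

lemma jp_of_rank [Finite A] {N X : Subgroup A} (h : Jp p N X) : RankJump p N X := by
  refine ⟨h.1, fun E hE hEX hmax => h.2 E (Or.inr hE) hEX fun B hB hBX => ?_⟩
  rcases hB with rfl | hB
  · rw [Subgroup.card_bot]
    exact Nat.card_pos
  · exact hmax B hB hBX

lemma rankJump_map {f : A →* B} (hf : Function.Injective f) {N X : Subgroup A} :
    RankJump p (N.map f) (X.map f) ↔ RankJump p N X := by
  constructor
  · rintro ⟨h1, h2⟩
    refine ⟨(Subgroup.map_le_map_iff_of_injective hf).1 h1, fun C hC hCH hmax => ?_⟩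
    have h3 := h2 (C.map f) ((map_mem_ApS hf).2 hC) (Subgroup.map_mono hCH) fun D hD hDH => by
      have h4 := exists_map hDH
      rw [← h4] at hD hDH ⊢
      rw [Subgroup.card_map_of_injective hf, Subgroup.card_map_of_injective hf]
      exact hmax _ ((map_mem_ApS hf).1 hD) ((Subgroup.map_le_map_iff_of_injective hf).1 hDH)
    rw [← Subgroup.map_sup] at h3
    exact Subgroup.map_injective hf h3
  · rintro ⟨h1, h2⟩
    refine ⟨Subgroup.map_mono h1, fun C hC hCH hmax => ?_⟩
    have h4 := exists_map hCH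
    rw [← h4] at hC hCH hmax ⊢
    rw [← Subgroup.map_sup, h2 _ ((map_mem_ApS hf).1 hC)
      ((Subgroup.map_le_map_iff_of_injective hf).1 hCH) fun D hD hDH => ?_]
    have h5 := hmax (D.map f) ((map_mem_ApS hf).2 hD) (Subgroup.map_mono hDH)
    rwa [Subgroup.card_map_of_injective hf, Subgroup.card_map_of_injective hf] at h5

/-- isomorphic groups -/
lemma JumpQD.congr (e : A ≃* B) (h : JumpQD 𝕜 p A) : JumpQD 𝕜 p B := by
  intro X hX
  set f : MulAut A →* MulAut B := (MulAut.congr e).toMonoidHom with hf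
  have hinj : Function.Injective f := (MulAut.congr e).injective
  have hsurj : Function.Surjective f := (MulAut.congr e).surjective
  have h1 : (X.comap f).map f = X := by
    rw [Subgroup.map_comap_eq, MonoidHom.range_eq_top.2 hsurj, top_inf_eq]
  have h2 : (MulAut.conj (G := A)).range.map f = (MulAut.conj (G := B)).range := by
    have hconj : ∀ x : A, f (MulAut.conj x) = MulAut.conj (e x) := by
      intro x
      ext z
      obtain ⟨z, rfl⟩ := e.surjective z
      simp [hf, MulAut.congr]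
    ext g
    constructor
    · rintro ⟨_, ⟨x, rfl⟩, rfl⟩
      exact ⟨e x, (hconj x).symm⟩
    · rintro ⟨y, rfl⟩
      obtain ⟨x, rfl⟩ := e.surjective y
      exact ⟨MulAut.conj x, ⟨x, rfl⟩, hconj x⟩
  rw [← h1, ← h2, rankJump_map hinj] at hX
  have h3 := h _ hX
  rw [quillenDim_sub] at h3 ⊢
  obtain ⟨m, hm⟩ := h3
  exact ⟨m, by rw [← h1]; exact (Tp_map hinj _).2 hm⟩

lemma JumpSub.qdl [Finite A] {L : Subgroup A} (h : JumpSub 𝕜 p L) : QDL 𝕜 p L := by
  intro X hJ hXN hXC
  rw [← quillenDim_sub]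
  exact h X (jp_of_rank hJ) hXN hXC

/-- all automorphism groups, and those induced by subgroups of the normalizer -/
theorem JumpQD.sub {L : Subgroup A} (h : JumpQD 𝕜 p L) : JumpSub 𝕜 p L := by
  intro X hJ hXN hXC
  set φ : X →* MulAut L := L.normalizerMonoidHom.comp (Subgroup.inclusion hXN) with hφ
  have hinj : Function.Injective φ := by
    rw [injective_iff_map_eq_one]
    rintro ⟨x, hx⟩ h1
    have h2 : x ∈ centralizer (L : Set A) := (nmh_eq_one (hXN hx)).1 h1
    have h3 : x ∈ X ⊓ centralizer (L : Set A) := ⟨hx, h2⟩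
    rw [hXC, Subgroup.mem_bot] at h3
    exact Subtype.ext h3
  have hLX : L ≤ X := hJ.1
  have h1 : RankJump p (L.subgroupOf X) (⊤ : Subgroup X) := by
    rw [← rankJump_map X.subtype_injective, Subgroup.subgroupOf_map_subtype, inf_eq_left.2 hLX,
      ← MonoidHom.range_eq_map, Subgroup.range_subtype]
    exact hJ
  have h2 : (L.subgroupOf X).map φ = (MulAut.conj (G := L)).range := by
    ext f
    constructor
    · rintro ⟨⟨x, hx⟩, hxL, rfl⟩
      exact ⟨⟨x, hxL⟩, (nmh_conj ⟨x, hxL⟩).symm⟩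
    · rintro ⟨x, rfl⟩
      exact ⟨⟨x, hLX x.2⟩, x.2, nmh_conj x⟩
  have h3 := (rankJump_map hinj).2 h1
  rw [h2] at h3
  have h4 := h _ h3
  rw [quillenDim_sub] at h4 ⊢
  obtain ⟨m, hm⟩ := h4
  refine ⟨m, ?_⟩
  rw [Tp_map hinj, ← Tp_map X.subtype_injective, ← MonoidHom.range_eq_map,
    Subgroup.range_subtype] at hm
  exact hm

lemma JumpQD.qdl [Finite A] {L : Subgroup A} (h : JumpQD 𝕜 p L) : QDL 𝕜 p L := h.sub.qdl

end

section
variable {𝕜 : Type v} [Field 𝕜] {G : Type u} [Group G] {p : ℕ}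

/-- **Elimination** of a family of factors of a subgroup `H`, in characteristic `p` -/
theorem qd_step [hp : Fact p.Prime] [Finite G] (hchar : (p : 𝕜) = 0) {H : Subgroup G}
    {R : Set (Subgroup G)} (hRH : ∀ L ∈ R, L ≤ H) (hconj : ∀ g ∈ H, ∀ L ∈ R, cj g L ∈ R)
    (hcomm : ∀ L ∈ R, ∀ M ∈ R, L ≠ M → ∀ x ∈ L, ∀ y ∈ M, x * y = y * x)
    (hcen : ∀ L ∈ R, L ⊓ centralizer (L : Set G) = ⊥) (hdvd : ∀ L ∈ R, p ∣ Nat.card L)
    (hQ : ∀ L ∈ R, QDL 𝕜 p L) (hC : NA 𝕜 (Ain p (H ⊓ Cen R))) : NA 𝕜 (Ain p H) := by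
  have hinj := H.subtype_injective
  set R' : Set (Subgroup H) := {K | K.map H.subtype ∈ R} with hR'
  have hsup : (centralizer ((sSup R' : Subgroup H) : Set H)).map H.subtype = H ⊓ Cen R := by
    ext x
    constructor
    · rintro ⟨y, hy, rfl⟩
      refine mem_inf.2 ⟨y.2, mem_Cen.2 fun L hL => ?_⟩
      have h1 : (L.subgroupOf H).map H.subtype = L := by
        rw [Subgroup.subgroupOf_map_subtype, inf_eq_left.2 (hRH L hL)]
      have h2 : L.subgroupOf H ∈ R' := by
        change (L.subgroupOf H).map H.subtype ∈ R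
        rwa [h1]
      have h3 := mem_cent_sSup.1 hy _ h2
      rw [← map_cent hinj, h1] at h3
      exact h3
    · rintro ⟨h1, h2⟩
      refine ⟨⟨x, h1⟩, mem_cent_sSup.2 fun K hK => ?_, rfl⟩
      rw [← map_cent hinj]
      exact mem_Cen.1 h2 _ hK
  have h1 : NA 𝕜 (ApS p H) := by
    refine qd_family hchar (R := R') ?_ ?_ ?_ ?_ ?_ ?_
    · intro K hK g
      change (cj g K).map H.subtype ∈ R
      have h1 : (cj g K).map H.subtype = cj (g : G) (K.map H.subtype) := by
        rw [cj, cj, Subgroup.map_map, Subgroup.map_map]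
        congr 1
      rw [h1]
      exact hconj g g.2 _ hK
    · intro K hK M hM hne x hx y hy
      apply hinj
      rw [map_mul, map_mul]
      exact hcomm _ hK _ hM (fun h => hne (Subgroup.map_injective hinj h)) _ ⟨x, hx, rfl⟩ _
        ⟨y, hy, rfl⟩
    · intro K hK
      rw [eq_bot_iff]
      rintro x ⟨hx, hxC⟩
      have h2 : (x : G) ∈ K.map H.subtype ⊓ centralizer ((K.map H.subtype : Subgroup G) : Set G) :=
        ⟨⟨x, hx, rfl⟩, (map_cent hinj).2 hxC⟩
      rw [hcen _ hK, Subgroup.mem_bot] at h2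
      rw [Subgroup.mem_bot]
      exact Subtype.ext h2
    · intro K hK
      rw [← Subgroup.card_map_of_injective hinj]
      exact hdvd _ hK
    · intro K hK
      exact QDL_map hinj (hQ _ hK)
    · rw [← NA_Ain_map hinj, hsup]
      exact hC
  have h2 : Ain p (⊤ : Subgroup H) = ApS p H := by
    ext E
    exact ⟨fun h => h.1, fun h => ⟨h, le_top⟩⟩
  rw [← h2, ← NA_Ain_map hinj, ← MonoidHom.range_eq_map, Subgroup.range_subtype] at h1
  exact h1

/-- **Elimination** of a normal subgroup with trivial centre, in characteristic `p` -/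
theorem qd_normal [hp : Fact p.Prime] [Finite G] (hchar : (p : 𝕜) = 0) (M : Subgroup G)
    [hMn : M.Normal] (hcen : M ⊓ centralizer (M : Set G) = ⊥)
    (hQ : ∀ X : Subgroup G, RankJump p M X → X ⊓ centralizer (M : Set G) = ⊥ → QuillenDim 𝕜 p X)
    (hC : HQ 𝕜 p (centralizer (M : Set G))) : HQ 𝕜 p G := by
  rw [HQ_sub_iff] at hC
  rw [HQ_iff]
  have hCn : (centralizer (M : Set G)).Normal := by
    rw [← normalizer_eq_top_iff, eq_top_iff]
    intro g _
    refine norm_cent ?_
    rw [Subgroup.normalizer_eq_top]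
    exact mem_top g
  refine qd_elim hchar M (centralizer (M : Set G)) (fun x hx y hy => mem_centralizer_iff.1 hy x hx)
    hcen (fun H hJ hHC => ?_) hC
  rw [← quillenDim_sub]
  exact hQ H (jp_of_rank hJ) hHC

end

end Vale.Agent.P240.R2.H275
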