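import Vale.Agent.P240.H195.THom

/-!
Elimination with a cycle of top dimension.
-/

namespace Vale.Agent.P240.R2.H275

open Finsupp Subgroup Vale.Agent.P240.K Vale.Agent.P240.H195

universe u v

variable {𝕜 : Type v} [Field 𝕜] {G : Type u} [Group G] {p : ℕ}

lemma ApB_of_le {E F : Subgroup G} (hE : E ∈ ApB p G) (h : F ≤ E) : F ∈ ApB p G := by
  by_cases hF : F = ⊥
  · exact Or.inl hF
  · rcases hE with h1 | h1
    · exact absurd (le_bot_iff.1 (h1 ▸ h)) hF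
    · exact Or.inr (mem_ApS_of_le h1 h hF)

lemma ApB.comm {E : Subgroup G} (hE : E ∈ ApB p G) : ∀ x ∈ E, ∀ y ∈ E, x * y = y * x := by
  rcases hE with h | h
  · intro x hx y hy
    rw [h, Subgroup.mem_bot] at hx hy
    rw [hx, hy]
  · exact h.2.1

lemma ApB.pow {E : Subgroup G} (hE : E ∈ ApB p G) : ∀ x ∈ E, x ^ p = 1 := by
  rcases hE with h | h
  · intro x hx
    rw [h, Subgroup.mem_bot] at hx
    rw [hx, one_pow]
  · exact h.2.2

lemma mem_ApB {E : Subgroup G} (h1 : ∀ x ∈ E, ∀ y ∈ E, x * y = y * x) (h2 : ∀ x ∈ E, x ^ p = 1) :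
    E ∈ ApB p G := by
  by_cases hE : E = ⊥
  · exact Or.inl hE
  · exact Or.inr ⟨hE, h1, h2⟩

lemma ApB.isPGroup {E : Subgroup G} (hE : E ∈ ApB p G) : IsPGroup p E := fun x =>
  ⟨1, by rw [pow_one]; exact Subtype.ext (ApB.pow hE x x.2)⟩

lemma ApB.card [hp : Fact p.Prime] [Finite G] {E : Subgroup G} (hE : E ∈ ApB p G) :
    ∃ n, Nat.card E = p ^ n := IsPGroup.iff_card.1 (ApB.isPGroup hE)

lemma card_mul_le [hp : Fact p.Prime] [Finite G] {E F : Subgroup G} (hE : IsPGroup p E)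
    (hlt : F < E) : p * Nat.card F ≤ Nat.card E := by
  obtain ⟨a, ha⟩ := (hE.to_le hlt.le).exists_card_eq
  obtain ⟨b, hb⟩ := hE.exists_card_eq
  have h1 : Nat.card F < Nat.card E := Set.Finite.card_lt_card (Set.toFinite _) hlt
  rw [ha, hb] at h1 ⊢
  have h2 := (Nat.pow_lt_pow_iff_right hp.out.one_lt).1 h1
  rw [← pow_succ']
  exact Nat.pow_le_pow_right hp.out.pos h2

/-- strictly decreasing lists of nontrivial elementary abelian subgroups -/
lemma st_card [hp : Fact p.Prime] [Finite G] (l : List (Subgroup G)) :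
    ∀ x : Subgroup G, st (ApS p G) (x :: l) → p ^ (x :: l).length ≤ Nat.card x := by
  induction l with
  | nil =>
    intro x hx
    have h := hx.2 x (by simp)
    have h1 := card_mul_le (F := ⊥) (ApB.isPGroup (Or.inr h)) (bot_lt_iff_ne_bot.2 h.1)
    simpa using h1
  | cons y l ih =>
    intro x hx
    have hp1 := List.pairwise_cons.1 hx.1
    have h := hx.2 x (by simp)
    have h1 := ih y ⟨hp1.2, fun a ha => hx.2 a (List.mem_cons_of_mem _ ha)⟩
    have h2 := card_mul_le (F := y) (ApB.isPGroup (Or.inr h)) (hp1.1 y (by simp))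
    calc p ^ (x :: y :: l).length = p * p ^ (y :: l).length := by
          rw [List.length_cons, pow_succ, mul_comm]
      _ ≤ p * Nat.card y := Nat.mul_le_mul_left _ h1
      _ ≤ Nat.card x := h2

lemma st_len [hp : Fact p.Prime] [Finite G] {m : List (Subgroup G)} (hm : st (ApS p G) m)
    {E : Subgroup G} {k : ℕ} (hE : Nat.card E ≤ p ^ k) (hle : ∀ y ∈ m, y ≤ E) : m.length ≤ k := by
  rcases m with _ | ⟨x, m⟩
  · exact Nat.zero_le _
  · have h1 := st_card m x hm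
    have h2 : Nat.card x ≤ Nat.card E :=
      Nat.le_of_dvd Nat.card_pos (Subgroup.card_dvd_of_le (hle x (by simp)))
    exact (Nat.pow_le_pow_iff_right hp.out.one_lt).1 (h1.trans (h2.trans hE))

/-- the elementary abelian `p`-subgroups of `H` have order at most `p ^ m`, and there is a nonzero
cycle on the chains of length `m` of such subgroups -/
def Tp (𝕜 : Type v) [Field 𝕜] (p : ℕ) (H : Subgroup G) (m : ℕ) : Prop :=
  (∀ E ∈ Ain p H, Nat.card E ≤ p ^ m) ∧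
    ∃ z ∈ Sp 𝕜 (fun l : List (Subgroup G) => st (Ain p H) l ∧ l.length = m), bd z = 0 ∧ z ≠ 0

lemma Tp.topCycle [hp : Fact p.Prime] [Finite G] {H : Subgroup G} {m : ℕ} (h : Tp 𝕜 p H m) :
    ∃ (F : Subgroup G) (φ : List (Subgroup G)) (z : Ch 𝕜 (Subgroup G)), TopCycle 𝕜 p H F z φ ∧
      φ.length = m ∧ F ∈ ApB p G ∧ F ≤ H ∧ Nat.card F = p ^ m := by
  obtain ⟨h1, z, hz, hzb, hz0⟩ := h
  obtain ⟨φ, hφ⟩ : ∃ φ, z φ ≠ 0 := by
    by_contra hcon
    push Not at hcon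
    exact hz0 (Finsupp.ext hcon)
  obtain ⟨hφ1, hφ2⟩ := mem_Sp.1 hz φ (Finsupp.mem_support_iff.2 hφ)
  rcases φ with _ | ⟨F, φ⟩
  · have hm : m = 0 := by simpa using hφ2.symm
    subst hm
    refine ⟨⊥, [], z, ⟨hz, hzb, hφ, Or.inl ⟨rfl, rfl⟩, ?_⟩, rfl, Or.inl rfl, bot_le, ?_⟩
    · rw [Subgroup.card_bot, List.length_nil, pow_zero]
    · rw [Subgroup.card_bot, pow_zero]
  · have hF := hφ1.2 F (by simp)
    have h2 : Nat.card F = p ^ m := by
      refine le_antisymm (h1 F hF) ?_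
      have h3 := st_card φ F ⟨hφ1.1, fun a ha => (hφ1.2 a ha).1⟩
      rwa [hφ2] at h3
    refine ⟨F, F :: φ, z, ⟨?_, hzb, hφ, Or.inr ⟨φ, rfl⟩, ?_⟩, hφ2, Or.inr hF.1, hF.2, h2⟩
    · rw [hφ2]
      exact hz
    · rw [hφ2]
      exact h2

/-- **Elimination** with a cycle of top dimension -/
theorem top_elim [hp : Fact p.Prime] [Finite G] (M : Subgroup G) {F : Subgroup G}
    (hFB : F ∈ ApB p G) (hFM : F ⊓ M = ⊥)
    (hNA : NA 𝕜 (Ain p (M ⊓ centralizer (F : Set G))))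
    (hbad : ∀ T : Subgroup G, T ∈ ApS p G → F < T → T ⊓ M = ⊥ →
      ¬ NA 𝕜 (Ain p (M ⊓ centralizer (T : Set G))))
    {H : Subgroup G} {α : Ch 𝕜 (Subgroup G)} {φ : List (Subgroup G)}
    (hT : TopCycle 𝕜 p H F α φ)
    (hcomm : ∀ x ∈ H, ∀ y ∈ M ⊓ centralizer (F : Set G), x * y = y * x) : NA 𝕜 (ApS p G) := by
  by_contra hG
  obtain ⟨b, hb, hbd, hbne⟩ := hNA
  -- (1) upper links
  have hlk : ∀ T : Subgroup G, T ∈ ApS p G → F < T → T ⊓ M = ⊥ →
      ¬ NA 𝕜 {X | X ∈ ApS p G ∧ T < X} := by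
    intro T
    induction T using WellFoundedGT.induction with
    | ind T ih =>
      intro hT hFT hTM
      exact link_acyclic M (Or.inr hT) hTM (fun T' hT' hTT' hT'M =>
        ih T' hTT' hT' (hFT.trans hTT') hT'M) (hbad T hT hFT hTM)
  -- (2) the shuffle product
  have hb' : ∀ k : ℕ, (⇑(sg (𝕜 := 𝕜) (α := Subgroup G)))^[k] b ∈
      Sp 𝕜 (st (Ain p (M ⊓ centralizer (F : Set G)))) ∧
      bd ((⇑(sg (𝕜 := 𝕜) (α := Subgroup G)))^[k] b) = 0 := by
    intro k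
    induction k with
    | zero => exact ⟨hb, hbd⟩
    | succ k ih =>
      rw [Function.iterate_succ_apply']
      exact ⟨sg_mem ih.1, by rw [bd_sg, ih.2, map_zero, neg_zero]⟩
  obtain ⟨hb1, hb2⟩ := hb' φ.length
  have hcm : sh α ((⇑(sg (𝕜 := 𝕜) (α := Subgroup G)))^[φ.length] b) ∈
      Sp 𝕜 (wk (ApS p G)) := by
    refine sh_mem (A := Ain p H) (B := Ain p (M ⊓ centralizer (F : Set G)))
      (fun E hE => hE.1) (fun E hE => hE.1) (fun a ha b hb => sup_mem_ApS ha.1 hb.1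
        fun x hx y hy => hcomm x (ha.2 hx) y (hb.2 hy)) ?_ ?_
    · exact Sp_mono (fun l hl => st_wk l hl.1) hT.mem
    · exact Sp_mono (fun l hl => st_wk l hl) hb1
  have hcb : bd (sh α ((⇑(sg (𝕜 := 𝕜) (α := Subgroup G)))^[φ.length] b)) = 0 := by
    rw [bd_sh, hT.cyc, hb2, map_zero, map_zero, LinearMap.zero_apply, add_zero]
  obtain ⟨γ, hγ, hbγ⟩ := (not_NA_iff.1 hG) _ (pi_mem hcm) (by rw [bd_pi hcm, hcb, map_zero])
  -- the elements of `φ`
  have hφF : ∀ f ∈ φ, f ≤ F := by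
    have hst : st (Ain p H) φ :=
      ((mem_Sp.1 hT.mem) φ (Finsupp.mem_support_iff.2 hT.ne)).1
    rcases hT.top with ⟨h1, -⟩ | ⟨φ', h1⟩
    · intro f hf
      rw [h1] at hf
      exact absurd hf (by simp)
    · intro f hf
      rw [h1] at hf hst
      rcases List.mem_cons.1 hf with h2 | h2
      · rw [h2]
      · exact le_of_lt ((List.pairwise_cons.1 hst.1).1 f h2)
  have hlen : ∀ m, st (ApS p G) m → (∀ y ∈ m, ∃ f ∈ φ, y ≤ f) → m.length ≤ φ.length := by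
    intro m hm hmφ
    refine st_len hm hT.card.le fun y hy => ?_
    obtain ⟨f, hf, hyf⟩ := hmφ y hy
    exact hyf.trans (hφF f hf)
  have h3 : bd (cf φ γ) = mp (fun B => F ⊔ B) (α φ • b) := by
    rw [bd_cf φ hlen hγ, hbγ, cf_sh hFM hT hb, map_smul]
  have h4 : cf φ γ ∈ Sp 𝕜 (st {X | X ∈ ApS p G ∧ F < X}) := by
    refine Sp_mono (fun l hl => st_mono ?_ l hl) (cf_mem φ hγ)
    rintro x ⟨hx1, hx2⟩
    refine ⟨hx1, ?_⟩
    rcases hT.top with ⟨-, h1⟩ | ⟨φ', h1⟩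
    · rw [h1]
      exact bot_lt_iff_ne_bot.2 hx1.1
    · exact hx2 F (by rw [h1]; simp)
  obtain ⟨d, hd, hdb⟩ := link_lift M hFB hFM hlk (Submodule.smul_mem _ (α φ) hb) h4 h3
  refine hbne ((α φ)⁻¹ • d) (Submodule.smul_mem _ _ hd) ?_
  rw [map_smul, hdb, smul_smul, inv_mul_cancel₀ hT.ne, one_smul]

end Vale.Agent.P240.R2.H275
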